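import Crest.Agent.H9.FdI

/-! Row 178: strict filtered free resolutions from symbols and the Koszul complex. -/

set_option autoImplicit false

noncomputable section
namespace Crest.Agent.H2.FdRes
open Crest.Agent.H9.Fd

structure Sy (σ : ℕ → U →ₗ[ℂ] P) : Prop where
  hom : ∀ m u, (σ m u).IsHomogeneous m
  surj : ∀ m (p : P), p.IsHomogeneous m → ∃ u ∈ F m, σ m u = p
  ker : ∀ m, ∀ u ∈ F (m + 1), σ (m + 1) u = 0 ↔ u ∈ F m
  ker0 : ∀ u ∈ F 0, σ 0 u = 0 → u = 0
  mul : ∀ m, ∀ u ∈ F m, ∀ v ∈ F 1, σ (m + 1) (u * v) = σ m u * σ 1 v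

/-- the hypotheses on a submodule `Z` whose symbols are the image of `D` -/
structure Hyp (σ : ℕ → U →ₗ[ℂ] P) {κ ι : Type} [Fintype κ] (Z : Submodule U (ι → U))
    (D : Matrix κ ι P) : Prop where
  h0 : ∀ v ∈ Z, (∀ i, v i ∈ F 0) → v = 0
  h1 : ∀ m, ∀ v ∈ Z, (∀ i, v i ∈ F (m + 1)) →
    ∃ p : κ → P, (∀ k, (p k).IsHomogeneous m) ∧ Matrix.vecMul p D = fun i => σ (m + 1) (v i)
  h2 : ∀ k, ∃ g ∈ Z, (∀ i, g i ∈ F 1) ∧ ∀ i, σ 1 (g i) = D k i

structure Con (σ : ℕ → U →ₗ[ℂ] P) {κ ι : Type} [Fintype κ] (Z : Submodule U (ι → U))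
    (D : Matrix κ ι P) (d : (κ → U) →ₗ[U] (ι → U)) : Prop where
  c0 : ∀ w, d w ∈ Z
  c1 : ∀ m w, (∀ k, w k ∈ F m) → ∀ i, d w i ∈ F (m + 1)
  c2 : ∀ m, ∀ v ∈ Z, (∀ i, v i ∈ F (m + 1)) → ∃ w, (∀ k, w k ∈ F m) ∧ d w = v
  c3 : ∀ m w, (∀ k, w k ∈ F m) →
    (fun i => σ (m + 1) (d w i)) = Matrix.vecMul (fun k => σ m (w k)) D

variable {σ : ℕ → U →ₗ[ℂ] P}

lemma step (hσ : Sy σ) {κ ι : Type} [Fintype κ] {Z : Submodule U (ι → U)} {D : Matrix κ ι P}
    (h : Hyp σ Z D) : ∃ d, Con σ Z D d := by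
  classical
  choose g hgZ hgF hgs using h.h2
  let d : (κ → U) →ₗ[U] (ι → U) := Fintype.linearCombination U g
  have hd : ∀ w i, d w i = ∑ k, w k * g k i := by
    intro w i
    simp [d, Fintype.linearCombination_apply, Finset.sum_apply]
  have c0 : ∀ w, d w ∈ Z := by
    intro w
    simp only [d, Fintype.linearCombination_apply]
    exact Submodule.sum_mem _ fun k _ => Z.smul_mem _ (hgZ k)
  have c1 : ∀ m w, (∀ k, w k ∈ F m) → ∀ i, d w i ∈ F (m + 1) := by
    intro m w hw i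
    rw [hd]
    exact Submodule.sum_mem _ fun k _ => F_mul (hw k) (hgF k i)
  have c3 : ∀ m w, (∀ k, w k ∈ F m) →
      (fun i => σ (m + 1) (d w i)) = Matrix.vecMul (fun k => σ m (w k)) D := by
    intro m w hw
    funext i
    rw [hd, map_sum]
    simp only [Matrix.vecMul, dotProduct]
    exact Finset.sum_congr rfl fun k _ => by rw [hσ.mul m _ (hw k) _ (hgF k i), hgs]
  have key : ∀ m, ∀ v ∈ Z, (∀ i, v i ∈ F (m + 1)) →
      ∃ w, (∀ k, w k ∈ F m) ∧ ∀ i, (v - d w) i ∈ F m := by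
    intro m v hv hvF
    obtain ⟨p, hp, hpD⟩ := h.h1 m v hv hvF
    choose w hwF hws using fun k => hσ.surj m (p k) (hp k)
    refine ⟨w, hwF, fun i => ?_⟩
    have hm : (v - d w) i ∈ F (m + 1) := Submodule.sub_mem _ (hvF i) (c1 m w hwF i)
    rw [← hσ.ker m _ hm, Pi.sub_apply, map_sub]
    have e1 := congrFun (c3 m w hwF) i
    have e2 := congrFun hpD i
    have e3 : (fun k => σ m (w k)) = p := funext hws
    rw [e3] at e1
    rw [e1, e2, sub_self]
  refine ⟨d, c0, c1, ?_, c3⟩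
  intro m
  induction m with
  | zero =>
    intro v hv hvF
    obtain ⟨w, hw, hr⟩ := key 0 v hv hvF
    exact ⟨w, hw, (sub_eq_zero.1 (h.h0 _ (Z.sub_mem hv (c0 w)) hr)).symm⟩
  | succ m ih =>
    intro v hv hvF
    obtain ⟨w, hw, hr⟩ := key (m + 1) v hv hvF
    obtain ⟨w', hw', hd'⟩ := ih _ (Z.sub_mem hv (c0 w)) hr
    refine ⟨w + w', fun k => Submodule.add_mem _ (hw k) (F_mono (Nat.le_succ m) (hw' k)), ?_⟩
    rw [map_add, hd']; abel

lemma next (hσ : Sy σ) {κ' κ ι : Type} [Fintype κ'] [Fintype κ] {Z : Submodule U (ι → U)}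
    {D : Matrix κ ι P} {D' : Matrix κ' κ P} {d : (κ → U) →ₗ[U] (ι → U)} (hc : Con σ Z D d)
    (hD' : ∀ i j, (D' i j).IsHomogeneous 1) (hE : Ex D' D) : Hyp σ (LinearMap.ker d) D' := by
  obtain ⟨e0, e1, e2⟩ := hE
  have z : ∀ m w, (∀ k, w k ∈ F m) → d w = 0 → Matrix.vecMul (fun k => σ m (w k)) D = 0 := by
    intro m w hw h0
    rw [← hc.c3 m w hw, h0]
    funext i; simp
  refine ⟨?_, ?_, ?_⟩
  · intro v hv hF
    have := e1 _ (fun k => hσ.hom 0 (v k)) (z 0 v hF hv)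
    funext k
    exact hσ.ker0 _ (hF k) (congrFun this k)
  · intro m v hv hF
    exact e2 m _ (fun k => hσ.hom (m + 1) (v k)) (z _ v hF hv)
  · intro k
    choose w hwF hws using fun j => hσ.surj 1 (D' k j) (hD' k j)
    have h1 : ∀ i, d w i ∈ F 1 := by
      intro i
      rw [← hσ.ker 1 _ (hc.c1 1 w hwF i)]
      have := congrFun (hc.c3 1 w hwF) i
      rw [this, show (fun j => σ 1 (w j)) = D' k from funext hws]
      have := congrFun (congrFun e0 k) i
      simpa [Matrix.mul_apply, Matrix.vecMul, dotProduct] using this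
    obtain ⟨w', hw', hd'⟩ := hc.c2 0 _ (hc.c0 w) h1
    refine ⟨w - w', ?_, fun j => Submodule.sub_mem _ (hwF j) (F_mono (Nat.zero_le 1) (hw' j)), ?_⟩
    · rw [LinearMap.mem_ker, map_sub, hd', sub_self]
    · intro j
      rw [Pi.sub_apply, map_sub, hws,
        (hσ.ker 0 _ (F_mono (Nat.zero_le 1) (hw' j))).2 (hw' j), sub_zero]

lemma mem_C {ι : Type} {m : ℤ} {v : ι → U} : v ∈ C ι m ↔ ∀ i, v i ∈ Fz m := by
  simp [C, AddSubgroup.mem_pi]

lemma eq_zero_of_C {ι : Type} {m : ℤ} (hm : m < 0) {v : ι → U} (hv : v ∈ C ι m) : v = 0 := by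
  funext i
  have := mem_C.1 hv i
  rw [Fz_neg hm, Submodule.mem_bot] at this
  exact this

lemma sex {κ ι : Type} [Fintype κ] {M : Type} [AddCommGroup M] [Module U M]
    {g : (ι → U) →ₗ[U] M} {D : Matrix κ ι P} {d : (κ → U) →ₗ[U] (ι → U)}
    (hh : Hyp σ (LinearMap.ker g) D) (hc : Con σ (LinearMap.ker g) D d) (m m' : ℤ)
    (hm : m' + 1 = m) : SEx d g (C κ m') (C ι m) := by
  subst hm
  constructor
  · intro x hx
    refine ⟨?_, hc.c0 x⟩
    by_cases h : m' < 0
    · rw [eq_zero_of_C h hx, map_zero]; exact (C ι (m' + 1)).zero_mem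
    · lift m' to ℕ using by omega
      have hx' := mem_C.1 hx
      simp only [Fz_nat] at hx'
      apply mem_C.2
      intro i
      have := hc.c1 m' x hx' i
      rw [← Fz_nat] at this
      exact_mod_cast this
  · intro y hy hg
    by_cases h : m' < 0
    · refine ⟨0, (C κ m').zero_mem, ?_⟩
      rw [map_zero]
      by_cases h' : m' + 1 < 0
      · exact (eq_zero_of_C h' hy).symm
      · have e : m' + 1 = ((0 : ℕ) : ℤ) := by omega
        have hy' := mem_C.1 hy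
        rw [e] at hy'
        simp only [Fz_nat] at hy'
        exact (hh.h0 y hg hy').symm
    · lift m' to ℕ using by omega
      have hy' := mem_C.1 hy
      have e : (m' : ℤ) + 1 = ((m' + 1 : ℕ) : ℤ) := by push_cast; rfl
      rw [e] at hy'
      simp only [Fz_nat] at hy'
      obtain ⟨w, hw, hd⟩ := hc.c2 m' y hg hy'
      exact ⟨w, mem_C.2 fun k => by rw [Fz_nat]; exact hw k, hd⟩

lemma inj_last {ι : Type} {Z : Submodule U (ι → U)} (hσ : Sy σ) {D : Matrix Empty ι P}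
    (hh : Hyp σ Z D) (m : ℤ) : ∀ v ∈ C ι m, v ∈ Z → v = 0 := by
  obtain ⟨d, hc⟩ := step hσ hh
  intro v hv hZ
  by_cases h : m < 0
  · exact eq_zero_of_C h hv
  · lift m to ℕ using by omega
    have hv' := mem_C.1 hv
    simp only [Fz_nat] at hv'
    obtain ⟨w, -, hd⟩ := hc.c2 m v hZ fun i => F_mono (Nat.le_succ m) (hv' i)
    rw [← hd, Subsingleton.elim w 0, map_zero]

/-- block diagonal copies -/
def bd (β : Type) [DecidableEq β] {κ ι : Type} (D : Matrix κ ι P) : Matrix (κ × β) (ι × β) P :=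
  Matrix.blockDiagonal fun _ : β => D

lemma vecMul_bd {β κ ι : Type} [DecidableEq β] [Fintype β] [Fintype κ] (D : Matrix κ ι P)
    (p : κ × β → P) (i : ι) (a : β) :
    Matrix.vecMul p (bd β D) (i, a) = Matrix.vecMul (fun k => p (k, a)) D i := by
  simp [bd, Matrix.vecMul, dotProduct, Matrix.blockDiagonal_apply, Fintype.sum_prod_type]

lemma bd_hom {β κ ι : Type} [DecidableEq β] {D : Matrix κ ι P}
    (h : ∀ i j, (D i j).IsHomogeneous 1) (i : κ × β) (j : ι × β) : (bd β D i j).IsHomogeneous 1 := by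
  simp only [bd, Matrix.blockDiagonal_apply]
  split_ifs
  · exact h _ _
  · exact MvPolynomial.isHomogeneous_zero _ _ _

lemma ex_bd {β κ' κ ι : Type} [DecidableEq β] [Fintype β] [Fintype κ'] [Fintype κ]
    {D' : Matrix κ' κ P} {D : Matrix κ ι P} (h : Ex D' D) : Ex (bd β D') (bd β D) := by
  obtain ⟨e0, e1, e2⟩ := h
  have z : ∀ p : κ × β → P, Matrix.vecMul p (bd β D) = 0 → ∀ a,
      Matrix.vecMul (fun k => p (k, a)) D = 0 := by
    intro p hp a
    funext i
    rw [← vecMul_bd, hp]; rfl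
  refine ⟨?_, ?_, ?_⟩
  · rw [bd, bd, ← Matrix.blockDiagonal_mul]
    simp only [e0]
    exact Matrix.blockDiagonal_zero
  · intro p hp h0
    funext ⟨k, a⟩
    exact congrFun (e1 _ (fun k => hp (k, a)) (z p h0 a)) k
  · intro m p hp h0
    choose q hq hqD using fun a => e2 m _ (fun k => hp (k, a)) (z p h0 a)
    refine ⟨fun x => q x.2 x.1, fun x => hq _ _, ?_⟩
    funext ⟨k, a⟩
    rw [vecMul_bd]
    exact congrFun (hqD a) k

lemma mem_F0 {u : U} : u ∈ F 0 ↔ ∃ c : ℂ, algebraMap ℂ U c = u := by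
  unfold F; rw [pow_zero, Submodule.mem_one]

theorem resStmt (hS : SymStmt) (hK : KosStmt) : ResStmt := by
  classical
  obtain ⟨σ, s1, s2, s3, s4, s5⟩ := hS
  have hσ : Sy σ := ⟨s1, s2, s3, s4, s5⟩
  obtain ⟨D1, D2, D3, D4, k1, k2, k3, k4, k0, x2, x3, x4, x5⟩ := hK
  intro N _ _ hN
  let _ : Module ℂ N := Module.compHom N (algebraMap ℂ U)
  have hsm : ∀ (c : ℂ) (n : N), c • n = algebraMap ℂ U c • n := fun _ _ => rfl
  have : Module.Finite ℂ N := by
    obtain ⟨ι, _, v, hv⟩ := hN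
    refine ⟨⟨Finset.univ.image v, ?_⟩⟩
    rw [eq_top_iff]
    intro n _
    obtain ⟨c, rfl⟩ := hv n
    exact Submodule.sum_mem _ fun k _ => by
      rw [← hsm]
      exact Submodule.smul_mem _ _ (Submodule.subset_span (by simp))
  let β := Fin (Module.finrank ℂ N)
  let b : Module.Basis β ℂ N := Module.finBasis ℂ N
  let ε : (Fin 1 × β → U) →ₗ[U] N := Fintype.linearCombination U fun x => b x.2
  have hε : ∀ v, ε v = ∑ a, v (0, a) • b a := by
    intro v
    simp [ε, Fintype.linearCombination_apply, Fintype.sum_prod_type]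
  have hc : ∀ n : N, ε (fun x => algebraMap ℂ U (b.repr n x.2)) = n := by
    intro n
    rw [hε]
    simp only [← hsm]
    exact b.sum_repr n
  have H1 : Hyp σ (LinearMap.ker ε) (bd β D1) := by
    refine ⟨?_, ?_, ?_⟩
    · intro v hv hF
      choose c hc using fun x => mem_F0.1 (hF x)
      rw [LinearMap.mem_ker, hε] at hv
      simp only [← hc, ← hsm] at hv
      have := Fintype.linearIndependent_iff.1 b.linearIndependent _ hv
      funext ⟨i, a⟩
      rw [Subsingleton.elim i 0, ← hc, this a, map_zero]; rfl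
    · intro m v _ hF
      choose q hq hqD using fun a => k0 m (fun i => σ (m + 1) (v (i, a))) fun i => s1 _ _
      refine ⟨fun x => q x.2 x.1, fun x => hq _ _, ?_⟩
      funext ⟨k, a⟩
      rw [vecMul_bd]
      exact congrFun (hqD a) k
    · rintro ⟨k, a⟩
      obtain ⟨u, hu, hus⟩ := s2 1 (D1 k 0) (k1 k 0)
      have hz : ∀ c : ℂ, algebraMap ℂ U c ∈ F 0 := fun c => mem_F0.2 ⟨c, rfl⟩
      refine ⟨Pi.single (0, a) u - fun x => algebraMap ℂ U (b.repr (u • b a) x.2), ?_, ?_, ?_⟩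
      · rw [LinearMap.mem_ker, map_sub, hc, hε, sub_eq_zero, Finset.sum_eq_single a]
        · simp
        · intro a' _ h
          rw [Pi.single_eq_of_ne (by simpa using h), zero_smul]
        · simp
      · intro x
        refine Submodule.sub_mem _ ?_ (F_mono (Nat.zero_le 1) (hz _))
        by_cases h : x = (0, a)
        · subst h; simpa using hu
        · rw [Pi.single_eq_of_ne h]; exact zero_mem _
      · rintro ⟨i, a'⟩
        rw [Pi.sub_apply, map_sub, (s3 0 _ (F_mono (Nat.zero_le 1) (hz _))).2 (hz _), sub_zero,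
          Subsingleton.elim i 0]
        simp only [bd, Matrix.blockDiagonal_apply]
        by_cases h : a = a'
        · subst h; simpa using hus
        · rw [Pi.single_eq_of_ne (by simpa using Ne.symm h), if_neg h, map_zero]
  obtain ⟨d1, C1⟩ := step hσ H1
  have H2 := next hσ C1 (bd_hom k2) (ex_bd x2)
  obtain ⟨d2, C2⟩ := step hσ H2
  have H3 := next hσ C2 (bd_hom k3) (ex_bd x3)
  obtain ⟨d3, C3⟩ := step hσ H3
  have H4 := next hσ C3 (bd_hom k4) (ex_bd x4)
  obtain ⟨d4, C4⟩ := step hσ H4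
  have x6 : Ex (0 : Matrix Empty (Fin 1 × β) P) (bd β D4) := by
    have z : ∀ p : Fin 1 × β → P, Matrix.vecMul p (bd β D4) = 0 → p = 0 := by
      intro p hp
      funext ⟨k, a⟩
      refine congrFun (x5 (fun k => p (k, a)) ?_) k
      funext i
      rw [← vecMul_bd, hp]; rfl
    refine ⟨Matrix.zero_mul _, fun p _ h => z p h, fun m p _ h => ⟨0, fun k => k.elim, ?_⟩⟩
    rw [z p h, Matrix.zero_vecMul]
  have H5 := next hσ C4 (fun i => i.elim) x6
  refine ⟨Fin 1 × β, Fin 4 × β, Fin 6 × β, Fin 4 × β, Fin 1 × β, inferInstance, inferInstance,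
    inferInstance, inferInstance, inferInstance, ε, d1, d2, d3, d4, ?_, ?_⟩
  · intro _
    exact ⟨(0, ⟨0, Module.finrank_pos⟩)⟩
  · intro m hm
    refine ⟨fun n => ⟨_, mem_C.2 fun x => ?_, hc n⟩, sex H1 C1 _ _ (by ring), sex H2 C2 _ _ (by ring),
      sex H3 C3 _ _ (by ring), sex H4 C4 _ _ (by ring), fun v hv h => inj_last hσ H5 _ v hv h⟩
    lift m to ℕ using hm
    rw [Fz_nat]
    exact F_mono (Nat.zero_le m) (mem_F0.2 ⟨_, rfl⟩)

end Crest.Agent.H2.FdRes
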