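import Crest.Agent.H2.PlDefs

/-! Row 40: measurable colourings, interface statements. -/

set_option autoImplicit false

namespace Crest.Agent.H2.Gm
open MeasureTheory Metric Set Filter Topology

/-- A measurable proper colouring of almost all of the plane by sets of density points. -/
structure Col where
  A : Fin 5 → Set ℂ
  meas : ∀ i, MeasurableSet (A i)
  cover : ∀ᵐ x : ℂ, ∃ i, x ∈ A i
  proper : ∀ i, ∀ x ∈ A i, ∀ y ∈ A i, dist x y ≠ 1
  dens : ∀ i, ∀ x ∈ A i, Tendsto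
    (fun r : ℝ => volume (A i ∩ closedBall x r) / volume (closedBall x r)) (𝓝[>] 0) (𝓝 1)

lemma exists_col (h : Pl.MeasCol) : Nonempty Col := by
  obtain ⟨A, h1, h2, h3, h4⟩ := h
  exact ⟨⟨A, h1, h2, h3, h4⟩⟩

/-- length of the part of the unit circle about `y` lying in `S` -/
noncomputable def circ (S : Set ℂ) (y : ℂ) : ENNReal :=
  volume {t : ℝ | t ∈ Ioc 0 (2 * Real.pi) ∧ y + Complex.exp (t * Complex.I) ∈ S}

/-- there are generic points near `x` whose unit circles are almost free of colours `i`, `j` -/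
def Col.Touch (C : Col) (x : ℂ) (i j : Fin 5) : Prop :=
  ∀ ε > 0, volume {y | y ∈ ball x ε ∧ circ (C.A i ∪ C.A j) y < ENNReal.ofReal ε} ≠ 0

/-- two disjoint touching pairs are impossible -/
def AlphaStmt : Prop :=
  ∀ (C : Col) (x : ℂ) (a b c d : Fin 5), [a, b, c, d].Nodup →
    (∀ i ∈ [a, b, c, d], x ∈ closure (C.A i)) → C.Touch x a b → C.Touch x c d → False

/-- a touching triangle is impossible -/
def BetaStmt : Prop :=
  ∀ (C : Col) (x : ℂ) (a b c : Fin 5), [a, b, c].Nodup →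
    (∀ i ∈ [a, b, c], x ∈ closure (C.A i)) → C.Touch x a b → C.Touch x b c → C.Touch x a c → False

/-- The topological data extracted from a measurable colouring; `Hb h x` reads `h` is a hub
colour at `x`. -/
structure Top where
  A : Fin 5 → Set ℂ
  Hb : Fin 5 → ℂ → Prop
  fal : ∀ v, ∃ i, v ∈ closure (A i) ∧ ∀ z ∈ A i, dist v z ≠ 1
  ex : ∀ x, ∃ h, Hb h x
  opn : ∀ h x, Hb h x → ∀ᶠ x' in 𝓝 x, Hb h x'
  vac : ∀ h x, (∀ i j, i ≠ j → i ≠ h → j ≠ h → x ∈ closure (A i) → x ∉ closure (A j)) → Hb h x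
  cons : ∀ h x i j, Hb h x → i ≠ j → i ≠ h → j ≠ h → x ∈ closure (A i) → x ∈ closure (A j) →
    x ∈ closure (A h) ∧ ∀ z ∈ A h, dist x z ≠ 1
  uniq : ∀ h h' x i j k, Hb h x → Hb h' x → i ≠ j → i ≠ k → j ≠ k → x ∈ closure (A i) →
    x ∈ closure (A j) → x ∈ closure (A k) → h = h'

/-- measure theory: hubs exist -/
def HubStmt : Prop := AlphaStmt → BetaStmt → Col → Nonempty Top

/-- Sperner: some colour support contains a long continuum -/
def LongStmt : Prop :=
  ∀ T : Top, ∃ (g : Fin 5) (Z : Set ℂ), IsCompact Z ∧ IsPreconnected Z ∧ Z ⊆ closure (T.A g) ∧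
    ∃ a ∈ Z, ∃ b ∈ Z, 10 ≤ dist a b

/-- no colour support contains a long continuum -/
def ShortStmt : Prop :=
  ∀ (T : Top) (g : Fin 5) (Z : Set ℂ), IsCompact Z → IsPreconnected Z → Z ⊆ closure (T.A g) →
    ∀ a ∈ Z, ∀ b ∈ Z, dist a b < 10

theorem geom_of (ha : AlphaStmt) (hb : BetaStmt) (hH : HubStmt) (hL : LongStmt) (hS : ShortStmt) :
    ¬ Pl.MeasCol := by
  intro h
  obtain ⟨C⟩ := exists_col h
  obtain ⟨T⟩ := hH ha hb C
  obtain ⟨g, Z, h1, h2, h3, a, ha, b, hb, hd⟩ := hL T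
  exact absurd (hS T g Z h1 h2 h3 a ha b hb) (not_lt.2 hd)

end Crest.Agent.H2.Gm
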