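import Crest.Agent.H2.GmDefs

/-! Row 40: arc length measure, the fan lemma. -/

set_option autoImplicit false

namespace Crest.Agent.H2.Gm
open MeasureTheory Metric Set Filter Topology
open scoped ComplexConjugate ENNReal

/-- arc length on the unit circle -/
noncomputable def σ : Measure ℂ :=
  (volume.restrict (Ioc 0 (2 * Real.pi))).map fun t : ℝ => Complex.exp (t * Complex.I)

lemma meas_e : Measurable fun t : ℝ => Complex.exp (t * Complex.I) := by fun_prop

instance : IsFiniteMeasure σ := by unfold σ; infer_instance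

lemma σ_apply {S : Set ℂ} (hS : MeasurableSet S) :
    σ S = volume {t : ℝ | t ∈ Ioc 0 (2 * Real.pi) ∧ Complex.exp (t * Complex.I) ∈ S} := by
  rw [σ, Measure.map_apply meas_e hS, Measure.restrict_apply' measurableSet_Ioc, inter_comm]; rfl

lemma circ_eq {S : Set ℂ} (hS : MeasurableSet S) (y : ℂ) : circ S y = σ {u | y + u ∈ S} := by
  exact (σ_apply (measurable_const_add y hS)).symm

lemma σ_univ : σ univ = ENNReal.ofReal (2 * Real.pi) := by
  rw [σ, Measure.map_apply meas_e MeasurableSet.univ]; simp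

lemma σ_ae : ∀ᵐ u ∂σ, ‖u‖ = 1 :=
  (ae_map_iff meas_e.aemeasurable (measurableSet_eq_fun measurable_norm measurable_const)).2
    (Eventually.of_forall fun t => by simp)

lemma σ_mp {v : ℂ} (hv : ‖v‖ = 1) : MeasurePreserving (fun u => v * u) σ σ := by
  have : Fact (0 < 2 * Real.pi) := ⟨Real.two_pi_pos⟩
  set φ : AddCircle (2 * Real.pi) → ℂ := fun θ => (AddCircle.toCircle θ : ℂ)
  have hφ : Measurable φ :=
    (continuous_subtype_val.comp AddCircle.continuous_toCircle).measurable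
  have hφ' : ∀ t : ℝ, φ t = Complex.exp (t * Complex.I) := fun t => by
    simp [φ, AddCircle.toCircle_apply_mk, Circle.coe_exp]
  have h1 : σ = volume.map φ := by
    have := (AddCircle.measurePreserving_mk (2 * Real.pi) 0)
    rw [← this.map_eq, Measure.map_map hφ this.measurable, zero_add, σ]
    congr 1; ext t; exact (hφ' t).symm
  refine ⟨by fun_prop, ?_⟩
  rw [h1, Measure.map_map (by fun_prop) hφ]
  conv_rhs => rw [← (measurePreserving_add_left volume
    ((Complex.arg v : ℝ) : AddCircle (2 * Real.pi))).map_eq]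
  rw [Measure.map_map hφ (by fun_prop)]
  congr 1; ext θ
  have := Complex.norm_mul_exp_arg_mul_I v
  rw [hv, Complex.ofReal_one, one_mul, ← hφ'] at this
  simp only [Function.comp, φ, AddCircle.toCircle_add, Circle.coe_mul] at this ⊢
  rw [this]

lemma σ_rot {v : ℂ} (hv : ‖v‖ = 1) {S : Set ℂ} (hS : MeasurableSet S) :
    σ {u | v * u ∈ S} = σ S := (σ_mp hv).measure_preimage hS.nullMeasurableSet

lemma σ_small {t : ℝ≥0∞} (ht : 0 < t) : ∃ κ : ℝ, 0 < κ ∧ κ ≤ 1 ∧ σ {u | |u.re| ≤ 6 * κ} < t := by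
  have hm : ∀ c : ℝ, MeasurableSet {u : ℂ | |u.re| ≤ c} := fun c =>
    measurableSet_le (by fun_prop) measurable_const
  have h1 := tendsto_measure_iInter_atTop (μ := σ)
    (s := fun n : ℕ => {u : ℂ | |u.re| ≤ 6 * (1 / ((n : ℝ) + 1))})
    (fun n => (hm _).nullMeasurableSet)
    (fun a b hab y hy => le_trans (α := ℝ) (show |y.re| ≤ _ from hy)
      (by have := Nat.one_div_le_one_div (α := ℝ) hab; linarith)) ⟨0, measure_ne_top _ _⟩
  have h2 : σ (⋂ n : ℕ, {u : ℂ | |u.re| ≤ 6 * (1 / ((n : ℝ) + 1))}) = 0 := by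
    rw [σ_apply (MeasurableSet.iInter fun n => hm _)]
    refine measure_mono_null (t := range fun k : ℤ => (2 * k + 1) * Real.pi / 2) ?_
      ((countable_range _).measure_zero _)
    rintro s ⟨-, hs⟩
    simp only [mem_iInter, mem_ofPred_eq, Complex.exp_ofReal_mul_I_re] at hs
    have := ge_of_tendsto' (tendsto_one_div_add_atTop_nhds_zero_nat.const_mul 6) hs
    rw [mul_zero, abs_nonpos_iff, Real.cos_eq_zero_iff] at this
    exact this.imp fun k hk => hk.symm
  rw [h2] at h1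
  obtain ⟨n, hn⟩ := (h1.eventually (gt_mem_nhds ht)).exists
  exact ⟨_, by positivity, by rw [div_le_one (by positivity)]; simp, hn⟩

lemma vol_rot {u : ℂ} (hu : ‖u‖ = 1) (w : ℂ) {N : Set ℂ} (hN : MeasurableSet N) :
    volume {p | w + u * p ∈ N} = volume N := by
  have h1 := (rotation ⟨u, by simpa [Submonoid.unitSphere] using hu⟩).measurePreserving
  exact ((measurePreserving_add_left volume w).comp h1).measure_preimage hN.nullMeasurableSet

lemma avg_le (w : ℂ) {N : Set ℂ} (hN : MeasurableSet N) (B : Set ℂ) :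
    ∫⁻ p in B, σ {u | w + u * p ∈ N} ≤ ENNReal.ofReal (2 * Real.pi) * volume N := by
  have hm : MeasurableSet {q : ℂ × ℂ | w + q.2 * q.1 ∈ N} :=
    (show Measurable fun q : ℂ × ℂ => w + q.2 * q.1 by fun_prop) hN
  refine (setLIntegral_le_lintegral _ _).trans ?_
  have h1 := Measure.prod_apply (μ := volume) (ν := σ) hm
  rw [Measure.prod_apply_symm hm] at h1
  refine le_of_eq (Eq.trans h1.symm ?_)
  rw [lintegral_congr_ae (g := fun _ => volume N), lintegral_const, σ_univ, mul_comm]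
  filter_upwards [σ_ae] with u hu
  exact vol_rot hu w hN

lemma vol_ball (x : ℂ) {r : ℝ} (hr : 0 ≤ r) :
    volume (ball x r) = ENNReal.ofReal (Real.pi * r ^ 2) := by
  rw [Complex.volume_ball, mul_comm Real.pi, ENNReal.ofReal_mul (by positivity),
    ENNReal.ofReal_pow hr, ← NNReal.coe_real_pi, ENNReal.ofReal_coe_nnreal]

lemma fan {t : ℝ} (ht : 0 < t) : ∃ κ > 0, ∃ c > 0, ∀ (S : Set ℂ), MeasurableSet S →
    (∀ x ∈ S, ∀ y ∈ S, dist x y ≠ 1) → ∀ (w y : ℂ) (s : ℝ), 0 < s → s ≤ 1 → s ≤ dist w y →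
    dist w y ≤ s * (1 + κ) → ENNReal.ofReal t ≤ σ {u | w + u ∈ S} →
    ENNReal.ofReal (c * s ^ 2) ≤ volume (ball y s \ S) := by
  obtain ⟨κ, k0, k1, hκ⟩ := σ_small (t := ENNReal.ofReal (t / 2)) (by simpa using ht)
  refine ⟨κ ^ 2, by positivity, t * κ ^ 2 / 128, by positivity,
    fun S hS hP w y s s0 s1 h1 h2 h3 => ?_⟩
  set N := ball y s \ S
  have hN : MeasurableSet N := measurableSet_ball.diff hS
  have key : ∀ p ∈ ball ((3 * κ * s / 4 : ℝ) : ℂ) (κ * s / 4),
      ENNReal.ofReal (t / 4) ≤ σ {u | w + u * p ∈ N} := by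
    intro p hp
    set ρ := ‖p‖
    have hρ : κ * s / 2 < ρ ∧ ρ < κ * s := by
      have := abs_norm_sub_norm_le p ((3 * κ * s / 4 : ℝ) : ℂ)
      rw [Complex.norm_real, Real.norm_of_nonneg (by positivity), abs_le] at this
      rw [mem_ball, dist_eq_norm] at hp
      constructor <;> linarith [this.1, this.2]
    have ks : κ * s ≤ κ := mul_le_of_le_one_right k0.le s1
    have ρ0 : 0 < ρ := lt_trans (by positivity) hρ.1
    set β := √(1 - ρ ^ 2 / 4)
    have hβ : β ^ 2 = 1 - ρ ^ 2 / 4 := Real.sq_sqrt (by nlinarith [hρ.2])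
    have hM : MeasurableSet {u | w + u * p ∈ N} :=
      (show Measurable fun u : ℂ => w + u * p by fun_prop) hN
    have p0 : p ≠ 0 := norm_pos_iff.1 ρ0
    have hγ : ∀ b : ℝ, b ^ 2 = β ^ 2 → ‖(⟨ρ / 2, b⟩ : ℂ)‖ = 1 := fun b hb => by
      rw [← sq_eq_sq₀ (norm_nonneg _) zero_le_one, ← Complex.normSq_eq_norm_sq, Complex.normSq_mk]
      nlinarith
    have hΘ : ∀ b : ℝ, b ^ 2 = β ^ 2 →
        σ {θ | w + ρ * (θ * ⟨ρ / 2, b⟩) ∈ N} = σ {u | w + u * p ∈ N} := fun b hb => by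
      rw [← σ_rot (v := ρ * ⟨ρ / 2, b⟩ / p) (by
        rw [norm_div, norm_mul, hγ b hb]; simp [ρ, p0]) hM]
      congr 1; ext θ
      simp only [mem_ofPred_eq]
      rw [show ρ * (⟨ρ / 2, b⟩ : ℂ) / p * θ * p = ρ * (θ * ⟨ρ / 2, b⟩) by field_simp]
    set d := w - y
    rw [dist_eq_norm] at h1 h2
    have d0 : 0 < ‖d‖ := s0.trans_le h1
    set v := conj d / ‖d‖
    have hv : ‖v‖ = 1 := by simp [v, d0.ne']
    have hbad : σ {θ | |(v * ⟨ρ / 2, β⟩ * θ).re| ≤ 6 * κ} < ENNReal.ofReal (t / 2) := by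
      rw [← σ_rot (v := v * ⟨ρ / 2, β⟩) (by rw [norm_mul, hv, hγ β rfl, one_mul])
        (measurableSet_le (by fun_prop) measurable_const)] at hκ
      exact hκ
    have hin : ∀ (θ : ℂ) (b : ℝ), b ^ 2 = β ^ 2 → ‖θ‖ = 1 → w + θ ∈ S →
        (v * ⟨ρ / 2, b⟩ * θ).re ≤ -(5 * κ) → w + ρ * (θ * ⟨ρ / 2, b⟩) ∈ N := by
      intro θ b hb hθ hθS hre
      refine ⟨?_, fun h => hP _ h _ hθS ?_⟩
      · have e : w + ρ * (θ * ⟨ρ / 2, b⟩) - y = conj v * (‖d‖ + ρ * (v * ⟨ρ / 2, b⟩ * θ)) := by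
          have e1 : conj v * v = 1 := by rw [mul_comm, Complex.mul_conj, Complex.normSq_eq_norm_sq, hv]; simp
          have e2 : conj v * ‖d‖ = d := by
            simp only [v, map_div₀, Complex.conj_conj, Complex.conj_ofReal]
            exact div_mul_cancel₀ _ (by exact_mod_cast d0.ne')
          linear_combination (-1 : ℂ) * e2 - ρ * (θ * ⟨ρ / 2, b⟩) * e1
        have hu : ‖v * ⟨ρ / 2, b⟩ * θ‖ = 1 := by rw [norm_mul, norm_mul, hv, hγ b hb, hθ]; simp
        rw [mem_ball, dist_eq_norm, e, norm_mul, RCLike.norm_conj, hv, one_mul]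
        generalize v * ⟨ρ / 2, b⟩ * θ = a at hu hre
        have e3 := Complex.normSq_eq_norm_sq a
        rw [hu, Complex.normSq_apply] at e3
        refine lt_of_pow_lt_pow_left₀ 2 s0.le ?_
        rw [← Complex.normSq_eq_norm_sq, Complex.normSq_apply]
        simp only [Complex.add_re, Complex.ofReal_re, Complex.re_ofReal_mul, Complex.add_im,
          Complex.ofReal_im, Complex.im_ofReal_mul]
        have f1 : ‖d‖ ^ 2 ≤ s ^ 2 * (1 + 3 * κ ^ 2) := by
          have := pow_le_pow_left₀ d0.le h2 2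
          have k4 : κ ^ 2 * κ ^ 2 ≤ κ ^ 2 := mul_le_of_le_one_right (by positivity) (by nlinarith)
          nlinarith [mul_le_mul_of_nonneg_left k4 (sq_nonneg s)]
        have f2 : ρ ^ 2 < (κ * s) ^ 2 := pow_lt_pow_left₀ hρ.2 ρ0.le two_ne_zero
        have f3 : (κ * s / 2) * s ≤ ρ * ‖d‖ := mul_le_mul hρ.1.le h1 s0.le ρ0.le
        have f4 : ρ * ‖d‖ * a.re ≤ ρ * ‖d‖ * (-(5 * κ)) :=
          mul_le_mul_of_nonneg_left hre (by positivity)
        have f5 := mul_le_mul_of_nonneg_left f3 k0.le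
        have f6 : (‖d‖ + ρ * a.re) * (‖d‖ + ρ * a.re) + (0 + ρ * a.im) * (0 + ρ * a.im)
            = ‖d‖ ^ 2 + ρ ^ 2 + 2 * (ρ * ‖d‖ * a.re) := by linear_combination ρ ^ 2 * e3
        rw [f6]
        nlinarith [mul_pos (pow_pos k0 2) (pow_pos s0 2)]
      · have : w + ρ * (θ * ⟨ρ / 2, b⟩) - (w + θ) = θ * ⟨ρ * (ρ / 2) - 1, ρ * b⟩ := by
          apply Complex.ext <;> simp <;> ring
        rw [dist_eq_norm, this, norm_mul, hθ, one_mul, ← sq_eq_sq₀ (norm_nonneg _) zero_le_one,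
          ← Complex.normSq_eq_norm_sq, Complex.normSq_mk]
        rw [hβ] at hb
        linear_combination ρ ^ 2 * hb
    have hsub : σ {u | w + u ∈ S} ≤ σ ({θ | |(v * ⟨ρ / 2, β⟩ * θ).re| ≤ 6 * κ} ∪
        ({θ | w + ρ * (θ * ⟨ρ / 2, β⟩) ∈ N} ∪ {θ | w + ρ * (θ * ⟨ρ / 2, -β⟩) ∈ N})) := by
      refine measure_mono_ae ?_
      filter_upwards [σ_ae] with θ hθ hθS
      by_cases a1 : (v * ⟨ρ / 2, β⟩ * θ).re ≤ -(5 * κ)
      · exact Or.inr (Or.inl (hin θ β rfl hθ hθS a1))
      by_cases a2 : (v * ⟨ρ / 2, -β⟩ * θ).re ≤ -(5 * κ)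
      · exact Or.inr (Or.inr (hin θ (-β) (by ring) hθ hθS a2))
      left
      have e : (v * ⟨ρ / 2, β⟩ * θ).re + (v * ⟨ρ / 2, -β⟩ * θ).re = ρ * (v * θ).re := by
        simp; ring
      have e2 : (v * θ).re ≤ 1 := by
        simpa [hv, hθ] using Complex.re_le_norm (v * θ)
      have := mul_le_mul_of_nonneg_left e2 ρ0.le
      rw [mem_ofPred_eq, abs_le]; constructor <;> linarith [hρ.2]
    have := h3.trans (hsub.trans ((measure_union_le _ _).trans
      (add_le_add hbad.le (measure_union_le _ _))))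
    rw [hΘ β rfl, hΘ (-β) (by ring)] at this
    by_contra hc
    have h4 := ENNReal.add_lt_add (not_le.1 hc) (not_le.1 hc)
    have h5 := this.trans_lt (ENNReal.add_lt_add_left ENNReal.ofReal_ne_top h4)
    rw [← ENNReal.ofReal_add (by positivity) (by positivity),
      ← ENNReal.ofReal_add (by positivity) (by positivity)] at h5
    exact absurd (ENNReal.ofReal_lt_ofReal_iff'.1 h5).1 (by linarith)
  have h4 := (setLIntegral_mono' measurableSet_ball key).trans (avg_le w hN _)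
  rw [setLIntegral_const, vol_ball _ (by positivity), ← ENNReal.ofReal_mul (by positivity)] at h4
  have h5 : t / 4 * (Real.pi * (κ * s / 4) ^ 2) = (2 * Real.pi) * (t * κ ^ 2 / 128 * s ^ 2) := by ring
  rw [h5, ENNReal.ofReal_mul (by positivity)] at h4
  exact (ENNReal.mul_le_mul_iff_right (by simpa using Real.pi_pos) ENNReal.ofReal_ne_top).1 h4

end Crest.Agent.H2.Gm
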