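import Crest.Agent.H2.GmFan

/-! Row 40: existence of hub colours. -/

set_option autoImplicit false

namespace Crest.Agent.H2.Gm
open MeasureTheory Metric Set Filter Topology
open scoped ComplexConjugate ENNReal

/-- density zero -/
def D0 (S : Set ℂ) (x : ℂ) : Prop :=
  ∀ ε > 0, ∀ᶠ ρ : ℝ in 𝓝[>] 0, volume (S ∩ ball x ρ) ≤ ENNReal.ofReal (ε * ρ ^ 2)

lemma D0.of_notMem {S : Set ℂ} {x : ℂ} (h : x ∉ closure S) : D0 S x := by
  intro ε _
  obtain ⟨r, hr, H⟩ := Metric.isOpen_iff.1 isClosed_closure.isOpen_compl x h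
  filter_upwards [Ioo_mem_nhdsGT hr] with ρ hρ
  rw [eq_empty_of_forall_notMem (s := S ∩ ball x ρ) fun y hy =>
    H (ball_subset_ball hρ.2.le hy.2) (subset_closure hy.1)]
  simp

namespace Col
variable (C : Col)

lemma d0_compl {i : Fin 5} {y : ℂ} (hy : y ∈ C.A i) : D0 (C.A i)ᶜ y := by
  intro ε hε
  have h1 := (ENNReal.tendsto_toReal ENNReal.one_ne_top).comp (C.dens i y hy)
  have h2 := h1.eventually (lt_mem_nhds (show (1 - ε / Real.pi : ℝ) < ENNReal.toReal 1 by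
    simpa using div_pos hε Real.pi_pos))
  filter_upwards [h2, self_mem_nhdsWithin] with r hr hr0
  have hr0' : 0 < r := hr0
  have hv : volume.real (closedBall y r) = Real.pi * r ^ 2 := by
    rw [measureReal_def, Complex.volume_closedBall]
    simp [ENNReal.toReal_ofReal hr0'.le, mul_comm]
  simp only [Function.comp, ENNReal.toReal_div] at hr
  rw [← measureReal_def, ← measureReal_def, hv, lt_div_iff₀ (by positivity), inter_comm] at hr
  have h3 := measureReal_inter_add_sdiff (μ := volume) (s := closedBall y r) (C.meas i)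
    measure_closedBall_lt_top.ne
  rw [hv] at h3
  have h4 : (1 - ε / Real.pi) * (Real.pi * r ^ 2) = Real.pi * r ^ 2 - ε * r ^ 2 := by
    field_simp
  refine (measure_mono (t := closedBall y r \ C.A i) fun z hz =>
    ⟨ball_subset_closedBall hz.2, hz.1⟩).trans ?_
  rw [← ofReal_measureReal ((measure_mono sdiff_subset).trans_lt measure_closedBall_lt_top).ne]
  exact ENNReal.ofReal_le_ofReal (by linarith)

lemma falconer {i : Fin 5} {z v : ℂ} (hz : z ∈ C.A i) (h : dist v z = 1) : D0 (C.A i) v := by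
  intro ε hε
  filter_upwards [C.d0_compl hz ε hε] with ρ hρ
  refine le_trans ?_ hρ
  rw [← measure_preimage_add_right volume (z - v) ((C.A i)ᶜ ∩ ball z ρ)]
  refine measure_mono fun u hu => ⟨fun h' => C.proper i _ h' _ hu.1 ?_, ?_⟩
  · rw [← h, dist_comm v]; simp [dist_eq_norm]
  · have := hu.2
    rw [mem_ball, dist_eq_norm] at this ⊢
    rwa [show u + (z - v) - z = u - v by ring]

lemma vol_le (B : Set ℂ) : volume B ≤ ∑ i, volume (C.A i ∩ B) := by
  refine le_trans (measure_mono_ae ?_) (measure_iUnion_fintype_le _ _)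
  filter_upwards [C.cover] with x ⟨i, hi⟩ hx
  exact mem_iUnion.2 ⟨i, hi, hx⟩

lemma fal (v : ℂ) : ∃ i, v ∈ closure (C.A i) ∧ ∀ z ∈ C.A i, dist v z ≠ 1 := by
  by_contra hc
  have : ∀ i, D0 (C.A i) v := fun i => by
    by_cases h : v ∈ closure (C.A i)
    · by_contra h'
      exact hc ⟨i, h, fun z hz hd => h' (C.falconer hz hd)⟩
    · exact D0.of_notMem h
  obtain ⟨ρ, h1, h2⟩ := ((eventually_all.2 fun i => this i (1 / 2) (by norm_num)).and
    self_mem_nhdsWithin).exists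
  have h2' : 0 < ρ := h2
  have := (C.vol_le (ball v ρ)).trans (Finset.sum_le_sum fun i _ => h1 i)
  rw [vol_ball _ h2'.le, ← ENNReal.ofReal_sum_of_nonneg (fun _ _ => by positivity),
    ENNReal.ofReal_le_ofReal_iff (by positivity)] at this
  simp only [Finset.sum_const, Finset.card_univ, Fintype.card_fin, nsmul_eq_mul, Nat.cast_ofNat] at this
  nlinarith [Real.pi_gt_three, pow_pos h2' 2]

lemma gen {j : Fin 5} {x : ℂ} (hx : x ∈ closure (C.A j)) {P : ℂ → Prop} (hP : ∀ᵐ y, P y) {η : ℝ}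
    (hη : 0 < η) : ∃ w ∈ C.A j, P w ∧ dist w x < η := by
  obtain ⟨a, ha1, ha⟩ := mem_closure_iff.1 hx (ball x η) isOpen_ball (mem_ball_self hη)
  obtain ⟨r, hr, hsub⟩ := Metric.isOpen_iff.1 isOpen_ball a ha1
  obtain ⟨ρ, h1, h2⟩ := ((C.d0_compl ha 1 one_pos).and (Ioo_mem_nhdsGT hr)).exists
  by_contra hc
  have : volume (ball a ρ) ≤ volume ((C.A j)ᶜ ∩ ball a ρ) := by
    refine measure_mono_ae ?_
    filter_upwards [hP] with y hy hy2
    exact ⟨fun h => hc ⟨y, h, hy, hsub (ball_subset_ball h2.2.le hy2)⟩, hy2⟩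
  have := this.trans h1
  rw [vol_ball _ h2.1.le, ENNReal.ofReal_le_ofReal_iff (by positivity)] at this
  nlinarith [Real.pi_gt_three, pow_pos h2.1 2]

lemma Touch.symm {x : ℂ} {i j : Fin 5} (h : C.Touch x i j) : C.Touch x j i := by
  unfold Touch at *; rwa [union_comm]

lemma not_touch {x : ℂ} {i j : Fin 5} (h : ¬ C.Touch x i j) : ∃ ε > 0, ∀ᵐ w, w ∈ ball x ε →
    ENNReal.ofReal ε ≤ circ (C.A i ∪ C.A j) w := by
  simp only [Touch, not_forall, not_not] at h
  obtain ⟨ε, hε, h⟩ := h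
  refine ⟨ε, hε, ?_⟩
  filter_upwards [measure_eq_zero_iff_ae_notMem.1 h] with w hw hb
  exact not_lt.1 fun h => hw ⟨hb, h⟩

lemma not_touch_ev {x : ℂ} {i j : Fin 5} (h : ¬ C.Touch x i j) :
    ∀ᶠ x' in 𝓝 x, ¬ C.Touch x' i j := by
  simp only [Touch, not_forall, not_not] at h
  obtain ⟨ε, hε, h⟩ := h
  filter_upwards [ball_mem_nhds x (half_pos hε)] with x' hx' ht
  refine ht (ε / 2) (half_pos hε) (measure_mono_null (fun y hy => And.intro ?_ ?_) h)
  · exact mem_ball.2 (by linarith [dist_triangle y x' x, mem_ball.1 hy.1, mem_ball.1 hx'])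
  · exact hy.2.trans_le (ENNReal.ofReal_le_ofReal (by linarith))

lemma ball_lemma {x : ℂ} {i : Fin 5} {J : Set (Fin 5)} (hJ : ∀ j ∈ J, ¬ C.Touch x i j)
    (hx : ∃ j ∈ J, x ∈ closure (C.A j)) : ∃ r > 0, ∃ c > 0, ∀ y ∈ C.A i, dist y x < r →
      ∃ s > 0, s ≤ dist y x ∧ (∀ j ∈ J, Disjoint (ball y s) (C.A j)) ∧
        ENNReal.ofReal (c * s ^ 2) ≤ volume (ball y s \ C.A i) := by
  obtain ⟨ε, hε, e1, H⟩ : ∃ ε > 0, ε ≤ 1 ∧ ∀ᵐ w, w ∈ ball x ε → ∀ j ∈ J, w ∈ C.A j →
      ENNReal.ofReal ε ≤ σ {u | w + u ∈ C.A i} := by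
    choose! ε hε H using fun j hj => C.not_touch (hJ j hj)
    obtain ⟨δ, hδ, h1, h2⟩ : ∃ δ > 0, δ ≤ 1 ∧ ∀ j ∈ J, δ ≤ ε j := by
      have : ∀ᶠ δ : ℝ in 𝓝[>] 0, δ ≤ 1 ∧ ∀ j ∈ J, δ ≤ ε j :=
        mem_nhdsWithin_of_mem_nhds ((eventually_le_nhds one_pos).and
          ((eventually_all_finite J.toFinite).2 fun j hj => eventually_le_nhds (hε j hj)))
      obtain ⟨δ, h1, h2⟩ := (this.and self_mem_nhdsWithin).exists
      exact ⟨δ, h2, h1⟩
    refine ⟨δ, hδ, h1, ?_⟩
    filter_upwards [(ae_ball_iff J.to_countable).2 H] with w hw hb j hj hwj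
    refine (ENNReal.ofReal_le_ofReal (h2 j hj)).trans
      ((hw j hj (ball_subset_ball (h2 j hj) hb)).trans ?_)
    rw [circ_eq ((C.meas i).union (C.meas j))]
    refine measure_mono_ae ?_
    filter_upwards [σ_ae] with u hu h
    exact h.resolve_right fun h' => C.proper j _ h' _ hwj (by simpa using hu)
  obtain ⟨κ, k0, c, c0, hfan⟩ := fan hε
  refine ⟨ε / 4, by positivity, c, c0, fun y hy hyx => ?_⟩
  set S := ⋃ j ∈ J, C.A j
  have hxS : x ∈ closure S := by
    obtain ⟨j, hj, h⟩ := hx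
    exact closure_mono (subset_biUnion_of_mem hj) h
  have hne : S.Nonempty := closure_nonempty_iff.1 ⟨x, hxS⟩
  set s := infDist y S
  have s1 : s ≤ dist y x := by
    simpa [s, infDist_closure] using infDist_le_dist_of_mem (x := y) hxS
  have H' : ∀ᵐ w, w ≠ y ∧ _ := (measure_eq_zero_iff_ae_notMem.1 (measure_singleton y)).and H
  have key : ∀ η > 0, η ≤ ε / 4 → ∃ w ∈ S, w ≠ y ∧ dist w y < s + η ∧
      ENNReal.ofReal ε ≤ σ {u | w + u ∈ C.A i} := by
    intro η hη hη'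
    obtain ⟨a, ha, h1⟩ := (infDist_lt_iff hne).1 (show infDist y S < s + η by linarith)
    obtain ⟨j, hj, ha'⟩ := mem_iUnion₂.1 ha
    obtain ⟨w, w1, ⟨w2, w3⟩, w4⟩ := C.gen (subset_closure ha') H' (sub_pos.2 h1)
    have w5 : dist w y < s + η := by linarith [dist_triangle w a y, dist_comm a y]
    exact ⟨w, mem_biUnion hj w1, w2, w5,
      w3 (mem_ball.2 (by linarith [dist_triangle w y x])) j hj w1⟩
  have s0 : 0 < s := by
    refine lt_of_le_of_ne infDist_nonneg fun h0 => ?_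
    obtain ⟨r, hr, H2⟩ := (nhdsGT_basis (0 : ℝ)).eventually_iff.1 (C.d0_compl hy (c / 2) (by positivity))
    obtain ⟨w, -, w2, w3, w4⟩ := key (min r (ε / 4)) (by positivity) (min_le_right _ _)
    rw [← h0, zero_add, lt_min_iff] at w3
    have d0 : 0 < dist w y := dist_pos.2 w2
    have h1 := hfan _ (C.meas i) (C.proper i) w y _ d0 (by linarith) le_rfl (by nlinarith) w4
    have h2 := H2 ⟨d0, w3.1⟩
    rw [inter_comm] at h2
    have := (ENNReal.ofReal_le_ofReal_iff (by positivity)).1 (h1.trans h2)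
    nlinarith [mul_pos c0 (pow_pos d0 2)]
  refine ⟨s, s0, s1, fun j hj => disjoint_left.2 fun z h1 h2 =>
    (infDist_le_dist_of_mem (mem_biUnion hj h2)).not_gt (mem_ball'.1 h1), ?_⟩
  obtain ⟨w, w1, -, w3, w4⟩ := key (min (s * κ) (ε / 4)) (by positivity) (min_le_right _ _)
  exact hfan _ (C.meas i) (C.proper i) w y s s0 (by linarith)
    (dist_comm w y ▸ infDist_le_dist_of_mem w1) (by linarith [min_le_left (s * κ) (ε / 4)]) w4

lemma exists_K (x : ℂ) : ∃ r > 0, ∀ i, x ∉ closure (C.A i) → Disjoint (ball x r) (closure (C.A i)) := by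
  have : ∀ᶠ x' in 𝓝 x, ∀ i, x ∉ closure (C.A i) → x' ∉ closure (C.A i) :=
    eventually_all.2 fun i => by
      by_cases h : x ∈ closure (C.A i)
      · simp [h]
      · filter_upwards [isClosed_closure.isOpen_compl.mem_nhds h] with x' h' _ using h'
  obtain ⟨r, hr, H⟩ := Metric.eventually_nhds_iff_ball.1 this
  exact ⟨r, hr, fun i hi => disjoint_left.2 fun y hy => H y hy i hi⟩

/-- hub colour -/
def Hb (h : Fin 5) (x : ℂ) : Prop :=
  ∀ i j, i ≠ j → i ≠ h → j ≠ h → x ∈ closure (C.A i) → x ∈ closure (C.A j) → ¬ C.Touch x i j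

/-- ball lemma, all colours outside `T` excluded -/
lemma ball_lemma' {x : ℂ} {k : Fin 5} (T : Set (Fin 5))
    (hJ : ∀ j, j ≠ k → j ∉ T → x ∈ closure (C.A j) → ¬ C.Touch x k j)
    (hx : ∃ j, j ≠ k ∧ j ∉ T ∧ x ∈ closure (C.A j)) : ∃ r > 0, ∃ c > 0, ∀ y ∈ C.A k, dist y x < r →
      ∃ s > 0, s ≤ dist y x ∧ ENNReal.ofReal (c * s ^ 2) ≤ volume ((⋃ h ∈ T, C.A h) ∩ ball y s) := by
  obtain ⟨r, hr, c, hc, H⟩ := C.ball_lemma (i := k) (x := x)
    (J := {j | j ≠ k ∧ j ∉ T ∧ x ∈ closure (C.A j)}) (fun j hj => hJ j hj.1 hj.2.1 hj.2.2)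
    (hx.imp fun j hj => ⟨hj, hj.2.2⟩)
  obtain ⟨r', hr', H'⟩ := C.exists_K x
  refine ⟨min r (r' / 2), by positivity, c, hc, fun y hy hd => ?_⟩
  rw [lt_min_iff] at hd
  obtain ⟨s, s0, s1, s2, s3⟩ := H y hy hd.1
  refine ⟨s, s0, s1, s3.trans (measure_mono_ae ?_)⟩
  filter_upwards [C.cover] with z ⟨l, hl⟩ hz
  refine ⟨?_, hz.1⟩
  by_contra hn
  have l1 : l ≠ k := by rintro rfl; exact hz.2 hl
  have l2 : l ∉ T := fun h => hn (mem_biUnion h hl)
  by_cases l3 : x ∈ closure (C.A l)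
  · exact disjoint_left.1 (s2 l ⟨l1, l2, l3⟩) hz.1 hl
  · exact disjoint_left.1 (H' l l3)
      (mem_ball.2 (by linarith [dist_triangle z y x, mem_ball.1 hz.1])) (subset_closure hl)

lemma cons {h i j : Fin 5} {x : ℂ} (hb : C.Hb h x) (hij : i ≠ j) (hi : i ≠ h) (hj : j ≠ h)
    (xi : x ∈ closure (C.A i)) (xj : x ∈ closure (C.A j)) : ¬ D0 (C.A h) x := by
  intro hD
  have : ∀ k, k ≠ h → ∃ r > 0, ∃ c > 0, ∀ y ∈ C.A k, dist y x < r →
      ∃ s > 0, s ≤ dist y x ∧ ENNReal.ofReal (c * s ^ 2) ≤ volume (C.A h ∩ ball y s) := by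
    intro k hk
    by_cases xk : x ∈ closure (C.A k)
    · have := C.ball_lemma' (x := x) (k := k) {h} (fun l l1 l2 l3 => hb k l l1.symm hk l2 xk l3) (by
        by_cases e : i = k
        · exact ⟨j, e ▸ hij.symm, hj, xj⟩
        · exact ⟨i, e, hi, xi⟩)
      simpa using this
    · obtain ⟨r, hr, H⟩ := C.exists_K x
      exact ⟨r, hr, 1, one_pos, fun y hy hd =>
        (disjoint_left.1 (H k xk) (mem_ball.2 hd) (subset_closure hy)).elim⟩
  choose! r hr c hc H using this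
  obtain ⟨δ, hδ, h1⟩ : ∃ δ > 0, ∀ k, k ≠ h → δ ≤ c k := by
    have : ∀ᶠ δ : ℝ in 𝓝[>] 0, ∀ k, k ≠ h → δ ≤ c k :=
      mem_nhdsWithin_of_mem_nhds (eventually_all.2 fun k => eventually_imp_distrib_left.2 fun hk =>
        eventually_le_nhds (hc k hk))
    obtain ⟨δ, h1, h2⟩ := (this.and self_mem_nhdsWithin).exists
    exact ⟨δ, h2, h1⟩
  have ev : ∀ᶠ ρ : ℝ in 𝓝[>] 0, ∀ k, k ≠ h → ρ / 2 ≤ r k :=
    mem_nhdsWithin_of_mem_nhds (eventually_all.2 fun k => eventually_imp_distrib_left.2 fun hk => by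
      filter_upwards [eventually_le_nhds (show 0 < 2 * r k by linarith [hr k hk])] with ρ hρ
      linarith)
  set M := 16 * Real.pi / δ with hM
  have M0 : 0 < M := by positivity
  obtain ⟨ρ, ⟨a1, a2⟩, a3⟩ := ((ev.and (hD (1 / (8 * (M + 1))) (by positivity))).and
    self_mem_nhdsWithin).exists
  have ρ0 : 0 < ρ := a3
  set E := {y | y ∈ ball x (ρ / 2) ∧ ∃ k, k ≠ h ∧ y ∈ C.A k}
  have : ∀ y ∈ E, ∃ s > 0, s ≤ dist y x ∧
      ENNReal.ofReal (δ * s ^ 2) ≤ volume (C.A h ∩ ball y s) := by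
    rintro y ⟨y1, k, hk, y2⟩
    obtain ⟨s, s0, s1, s2⟩ := H k hk y y2 (lt_of_lt_of_le y1 (a1 k hk))
    exact ⟨s, s0, s1, (ENNReal.ofReal_le_ofReal
      (mul_le_mul_of_nonneg_right (h1 k hk) (by positivity))).trans s2⟩
  choose! s s0 s1 s2 using this
  obtain ⟨u, hu, hdis, hcov⟩ := Vitali.exists_disjoint_subfamily_covering_enlargement_ball E id s
    (ρ / 2) (fun y hy => (s1 y hy).trans (le_of_lt hy.1)) 4 (by norm_num)
  have hcount : u.Countable := hdis.countable_of_isOpen (fun _ _ => isOpen_ball)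
    fun y hy => nonempty_ball.2 (s0 y (hu hy))
  have b1 : volume E ≤ ENNReal.ofReal M * volume (C.A h ∩ ball x ρ) := by
    calc volume E ≤ volume (⋃ y ∈ u, ball y (4 * s y)) := measure_mono fun y hy => by
          obtain ⟨b, hb1, hb2⟩ := hcov y hy
          exact mem_biUnion hb1 (hb2 (mem_ball_self (s0 y hy)))
      _ ≤ ∑' y : u, volume (ball (y : ℂ) (4 * s y)) := measure_biUnion_le _ hcount _
      _ ≤ ∑' y : u, ENNReal.ofReal M * volume (C.A h ∩ ball (y : ℂ) (s y)) :=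
          ENNReal.tsum_le_tsum fun y => by
            have := s0 y (hu y.2)
            refine le_trans (le_of_eq ?_) (mul_le_mul_right (s2 y (hu y.2)) _)
            rw [vol_ball _ (by positivity), ← ENNReal.ofReal_mul M0.le, hM]
            congr 1; field_simp; ring
      _ = ENNReal.ofReal M * volume (⋃ y ∈ u, C.A h ∩ ball y (s y)) := by
          rw [ENNReal.tsum_mul_left, measure_biUnion (f := fun y => C.A h ∩ ball y (s y)) hcount
            (hdis.mono fun y => inter_subset_right) fun y _ => (C.meas h).inter measurableSet_ball]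
      _ ≤ _ := mul_le_mul_right (measure_mono (iUnion₂_subset fun y hy z hz => And.intro hz.1 (mem_ball.2 (by
            linarith [dist_triangle z y x, mem_ball.1 hz.2, s1 y (hu hy), mem_ball.1 (hu hy).1])))) _
  have b2 : volume (ball x (ρ / 2)) ≤ volume E + volume (C.A h ∩ ball x ρ) := by
    refine le_trans (measure_mono_ae ?_) (measure_union_le _ _)
    filter_upwards [C.cover] with z ⟨l, hl⟩ hz
    by_cases e : l = h
    · exact Or.inr ⟨e ▸ hl, ball_subset_ball (by linarith) hz⟩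
    · exact Or.inl ⟨hz, l, e, hl⟩
  have b3 := b2.trans (add_le_add (b1.trans (mul_le_mul_right a2 _)) a2)
  rw [vol_ball _ (by positivity), ← ENNReal.ofReal_mul M0.le,
    ← ENNReal.ofReal_add (by positivity) (by positivity),
    ENNReal.ofReal_le_ofReal_iff (by positivity)] at b3
  have : M * (1 / (8 * (M + 1)) * ρ ^ 2) + 1 / (8 * (M + 1)) * ρ ^ 2 = ρ ^ 2 / 8 := by
    field_simp
  nlinarith [Real.pi_gt_three, pow_pos ρ0 2]

lemma uniq {h h' i j k : Fin 5} {x : ℂ} (hb : C.Hb h x) (hb' : C.Hb h' x) (hij : i ≠ j)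
    (hik : i ≠ k) (hjk : j ≠ k) (xi : x ∈ closure (C.A i)) (xj : x ∈ closure (C.A j))
    (xk : x ∈ closure (C.A k)) : h = h' := by
  by_contra hne
  have key : ∀ a b, a ≠ b → a ≠ h → a ≠ h' → x ∈ closure (C.A a) → x ∈ closure (C.A b) → False := by
    intro a b hab a1 a2 xa xb
    obtain ⟨r, hr, c, hc, H⟩ := C.ball_lemma' (x := x) (k := a) ∅ (fun l l1 _ l3 => by
      by_cases e : l = h
      · exact hb' a l l1.symm a2 (e ▸ hne) xa l3
      · exact hb a l l1.symm a1 e xa l3) ⟨b, hab.symm, notMem_empty _, xb⟩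
    obtain ⟨y, y1, y2⟩ := Metric.mem_closure_iff.1 xa r hr
    obtain ⟨s, s0, -, s2⟩ := H y y1 (dist_comm x y ▸ y2)
    simp only [mem_empty_iff_false, iUnion_of_empty, iUnion_empty, empty_inter, measure_empty,
      nonpos_iff_eq_zero, ENNReal.ofReal_eq_zero] at s2
    exact absurd s2 (not_le.2 (by positivity))
  by_cases a : i ≠ h ∧ i ≠ h'
  · exact key i j hij a.1 a.2 xi xj
  by_cases b : j ≠ h ∧ j ≠ h'
  · exact key j i hij.symm b.1 b.2 xj xi
  refine key k i hik.symm ?_ ?_ xk xi <;> omega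

end Col

theorem hubStmt : HubStmt := by
  intro ha hb C
  refine ⟨⟨C.A, C.Hb, C.fal, fun x => ?_, fun h x hx => ?_, fun h x H i j a b c d e => ?_,
    fun h x i j H a b c d e => ?_, fun h h' x i j k => C.uniq⟩⟩
  · by_contra hc
    set T : Fin 5 → Fin 5 → Prop := fun i j => i ≠ j ∧ x ∈ closure (C.A i) ∧ x ∈ closure (C.A j) ∧
      C.Touch x i j
    have sy : ∀ {i j}, T i j → T j i := fun h => ⟨h.1.symm, h.2.2.1, h.2.1, h.2.2.2.symm⟩
    have H : ∀ h, ∃ i j, T i j ∧ i ≠ h ∧ j ≠ h := fun h => by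
      by_contra h'
      exact hc ⟨h, fun i j a b c d e f => h' ⟨i, j, ⟨a, d, e, f⟩, b, c⟩⟩
    have A : ∀ {a b c d}, T a b → T c d → c ≠ a → d ≠ a → c = b ∨ d = b := by
      intro a b c d h1 h2 h3 h4
      by_contra h5
      rw [not_or] at h5
      refine ha C x a b c d (by simp [h1.1, h2.1, h3.symm, h4.symm, Ne.symm h5.1, Ne.symm h5.2])
        (by simp [h1.2.1, h1.2.2.1, h2.2.1, h2.2.2.1]) h1.2.2.2 h2.2.2.2
    have A' : ∀ {a b}, T a b → ∃ c, T b c ∧ c ≠ a := by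
      intro a b h1
      obtain ⟨c, d, h2, h3, h4⟩ := H a
      rcases A h1 h2 h3 h4 with rfl | rfl
      · exact ⟨d, h2, h4⟩
      · exact ⟨c, sy h2, h3⟩
    obtain ⟨a, b, h1, -⟩ := H 0
    obtain ⟨c, h2, h3⟩ := A' h1
    obtain ⟨d, e, h4, h5, h6⟩ := H b
    have h7 : T a c := by
      rcases A (sy h1) h4 h5 h6 with rfl | rfl <;> rcases A h2 h4 h5 h6 with rfl | rfl
      · exact absurd rfl h3
      · exact h4
      · exact sy h4
      · exact absurd rfl h3
    exact hb C x a b c (by simp [h1.1, h2.1, h3.symm]) (by simp [h1.2.1, h2.2.1, h2.2.2.1])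
      h1.2.2.2 h2.2.2.2 h7.2.2.2
  · obtain ⟨r, hr, H⟩ := C.exists_K x
    have : ∀ᶠ x' in 𝓝 x, ∀ i j, ¬ C.Touch x i j → ¬ C.Touch x' i j :=
      eventually_all.2 fun i => eventually_all.2 fun j =>
        eventually_imp_distrib_left.2 C.not_touch_ev
    filter_upwards [this, ball_mem_nhds x hr] with x' h1 h2 i j a b c d e
    have k : ∀ i, x' ∈ closure (C.A i) → x ∈ closure (C.A i) := fun i hi => by
      by_contra hn; exact disjoint_left.1 (H i hn) h2 hi
    exact h1 i j (hx i j a b c (k i d) (k j e))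
  · exact absurd e (H i j a b c d)
  · have := C.cons H a b c d e
    exact ⟨by_contra fun h' => this (D0.of_notMem h'), fun z hz hd => this (C.falconer hz hd)⟩

end Crest.Agent.H2.Gm
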