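import Crest.Agent.H2.KEPFinal

/-! Følner-type finite-dimensional approximation for a pair of Cuntz isometries. -/

set_option autoImplicit false
set_option linter.unusedSectionVars false

open scoped InnerProductSpace ComplexConjugate Matrix
open Filter Topology

namespace Crest.Agent.H2.KEP

section words

variable {O : Type} [CStarAlgebra O]

/-- Cuntz relations -/
structure Cz (s : Fin 2 → O) : Prop where
  isom : ∀ b, star (s b) * s b = 1
  sum : s 0 * star (s 0) + s 1 * star (s 1) = 1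

lemma Cz.orth01 {s : Fin 2 → O} (h : Cz s) : star (s 0) * s 1 = 0 := by
  have e := congrArg (fun x => star (s 0) * x * s 1) h.sum
  simp only [mul_add, add_mul, mul_one] at e
  rw [← mul_assoc, h.isom, one_mul, mul_assoc, mul_assoc, h.isom, mul_one] at e
  exact left_eq_add.mp e.symm

lemma Cz.orth {s : Fin 2 → O} (h : Cz s) {b b' : Fin 2} (hb : b ≠ b') : star (s b) * s b' = 0 := by
  fin_cases b <;> fin_cases b'
  · exact absurd rfl hb
  · exact h.orth01
  · have := congrArg star h.orth01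
    simpa using this
  · exact absurd rfl hb

/-- the word isometries, indexed in binary -/
noncomputable def tt (s : Fin 2 → O) (m : ℕ) : O :=
  if m = 0 then 0 else if m = 1 then 1 else
    s ⟨m % 2, Nat.mod_lt _ two_pos⟩ * tt s (m / 2)
decreasing_by omega

lemma tt_zero (s : Fin 2 → O) : tt s 0 = 0 := by rw [tt]; simp

lemma tt_one (s : Fin 2 → O) : tt s 1 = 1 := by rw [tt]; simp

lemma tt_step (s : Fin 2 → O) {m : ℕ} (hm : m ≠ 0) (b : Fin 2) :
    tt s (2 * m + b) = s b * tt s m := by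
  rw [tt, if_neg (by omega), if_neg (by omega)]
  have := b.2
  congr 2
  · ext; simp only; omega
  · omega

lemma sum_range_two_mul {M : Type} [AddCommMonoid M] (f : ℕ → M) (n : ℕ) :
    ∑ m ∈ Finset.range (2 * n), f m = ∑ m ∈ Finset.range n, (f (2 * m) + f (2 * m + 1)) := by
  induction n with
  | zero => simp
  | succ n ih =>
    rw [mul_add, mul_one, Finset.sum_range_succ, Finset.sum_range_succ, ih, Finset.sum_range_succ,
      add_assoc]

lemma Cz.sum_tt {s : Fin 2 → O} (h : Cz s) (N : ℕ) :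
    ∑ m ∈ Finset.range (2 ^ N), tt s m * star (tt s m) = (N : O) := by
  induction N with
  | zero => simp [tt_zero]
  | succ N ih =>
    rw [pow_succ', sum_range_two_mul]
    have e : ∀ m, tt s (2 * m) * star (tt s (2 * m)) + tt s (2 * m + 1) * star (tt s (2 * m + 1)) =
        (if m = 0 then 1 else 0) + (s 0 * (tt s m * star (tt s m)) * star (s 0) +
          s 1 * (tt s m * star (tt s m)) * star (s 1)) := by
      intro m
      by_cases hm : m = 0
      · subst hm; simp [tt_zero, tt_one]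
      · have e0 := tt_step s hm 0
        have e1 := tt_step s hm 1
        simp only [Fin.val_zero, add_zero, Fin.val_one] at e0 e1
        rw [e0, e1, if_neg hm, zero_add, star_mul, star_mul]
        simp only [mul_assoc]
    simp only [e, Finset.sum_add_distrib, ← Finset.sum_mul, ← Finset.mul_sum, ih]
    rw [Finset.sum_ite_eq', if_pos (by simp), ← Nat.cast_comm, ← Nat.cast_comm, mul_assoc,
      mul_assoc, ← mul_add, h.sum]
    push_cast
    rw [mul_one, add_comm]

end words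

variable {W : Type} [NormedAddCommGroup W] [InnerProductSpace ℂ W]

lemma norm_mat_rel {I : Type} [Fintype I] (R : I → I → Prop) [DecidableRel R]
    (h1 : ∀ a b b', R a b → R a b' → b = b') (h2 : ∀ a a' b, R a b → R a' b → a = a')
    (t : PW I W) : ‖mat (Matrix.of fun a b => if R a b then (1 : ℂ) else 0) t‖ ≤ 1 * ‖t‖ := by
  classical
  rw [one_mul]
  refine abs_le_of_sq_le_sq' ?_ (norm_nonneg _) |>.2
  rw [PiLp.norm_sq_eq_of_L2, PiLp.norm_sq_eq_of_L2]
  have e1 : ∀ a, ‖mat (Matrix.of fun a b => if R a b then (1 : ℂ) else 0) t a‖ ^ 2 =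
      ∑ b, if R a b then ‖t b‖ ^ 2 else 0 := by
    intro a
    simp only [mat_apply, Matrix.of_apply, ite_smul, one_smul, zero_smul]
    by_cases h : ∃ b, R a b
    · obtain ⟨b, hb⟩ := h
      rw [Finset.sum_eq_single b (fun b' _ hb' => if_neg fun hr => hb' (h1 a _ _ hr hb)) (by simp),
        Finset.sum_eq_single b (fun b' _ hb' => if_neg fun hr => hb' (h1 a _ _ hr hb)) (by simp),
        if_pos hb, if_pos hb]
    · push Not at h
      simp [h]
  simp only [e1]
  rw [Finset.sum_comm]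
  refine Finset.sum_le_sum fun b _ => ?_
  by_cases h : ∃ a, R a b
  · obtain ⟨a, ha⟩ := h
    rw [Finset.sum_eq_single a (fun a' _ ha' => if_neg fun hr => ha' (h2 _ _ b hr ha)) (by simp),
      if_pos ha]
  · push Not at h
    simp [h]

variable [CompleteSpace W] {O : Type} [CStarAlgebra O] (ρ : O →⋆ₐ[ℂ] (W →L[ℂ] W)) (s : Fin 2 → O)

lemma norm_rho_le (x : O) (T : W) : ‖ρ x T‖ ≤ ‖x‖ * ‖T‖ :=
  ((ρ x).le_opNorm T).trans
    (mul_le_mul_of_nonneg_right (NonUnitalStarAlgHom.norm_apply_le ρ x) (norm_nonneg _))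

lemma norm_sq_rho (x : O) (T : W) : ‖ρ (star x) T‖ ^ 2 = (⟪T, ρ (x * star x) T⟫_ℂ).re := by
  rw [← inner_self_eq_norm_sq (𝕜 := ℂ), map_mul, map_star, ContinuousLinearMap.star_eq_adjoint,
    ContinuousLinearMap.adjoint_inner_left]
  rfl

/-- the Følner embedding -/
noncomputable def emb (N : ℕ) : W →ₗ[ℂ] PW (Fin (2 ^ N)) W where
  toFun T := WithLp.toLp 2 fun m => (((√N)⁻¹ : ℝ) : ℂ) • ρ (star (tt s m)) T
  map_add' s t := by ext a; simp
  map_smul' c t := by ext a; simp [smul_smul, mul_comm]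

lemma emb_apply (N : ℕ) (T : W) (m : Fin (2 ^ N)) :
    emb ρ s N T m = (((√N)⁻¹ : ℝ) : ℂ) • ρ (star (tt s m)) T := rfl

variable {s}

lemma Cz.sum_norm (h : Cz s) (N : ℕ) (T : W) :
    ∑ m ∈ Finset.range (2 ^ N), ‖ρ (star (tt s m)) T‖ ^ 2 = N * ‖T‖ ^ 2 := by
  simp only [norm_sq_rho, ← Complex.re_sum, ← inner_sum, ← sum_apply,
    ← map_sum, h.sum_tt]
  rw [map_natCast, ContinuousLinearMap.natCast_apply, ← Nat.cast_smul_eq_nsmul ℂ,
    inner_smul_right, inner_self_eq_norm_sq_to_K]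
  simp [← Complex.ofReal_pow]

lemma norm_sq_scale (N : ℕ) (x : W) : ‖(((√N)⁻¹ : ℝ) : ℂ) • x‖ ^ 2 = (N : ℝ)⁻¹ * ‖x‖ ^ 2 := by
  rw [norm_smul, mul_pow, Complex.norm_real, Real.norm_eq_abs, sq_abs, inv_pow,
    Real.sq_sqrt (Nat.cast_nonneg _)]

lemma Cz.norm_emb (h : Cz s) {N : ℕ} (hN : N ≠ 0) (T : W) : ‖emb ρ s N T‖ = ‖T‖ := by
  refine (sq_eq_sq₀ (norm_nonneg _) (norm_nonneg _)).mp ?_
  rw [PiLp.norm_sq_eq_of_L2]
  simp only [emb_apply, norm_sq_scale, ← Finset.mul_sum]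
  rw [Fin.sum_univ_eq_sum_range (fun m => ‖ρ (star (tt s m)) T‖ ^ 2), h.sum_norm]
  field_simp

variable (s)

/-- approximate intertwining -/
def Apx (N : ℕ) (q : O) (b : Matrix (Fin (2 ^ N)) (Fin (2 ^ N)) ℂ) (ε : ℝ) : Prop :=
  ∀ T, ‖emb ρ s N (ρ q T) - mat b (emb ρ s N T)‖ ≤ ε * ‖T‖

/-- elements with bounded finite-dimensional approximations -/
def Good (q : O) : Prop :=
  ∃ C : ℝ, 0 ≤ C ∧ ∀ ε > 0, ∀ᶠ N in atTop, ∃ b : Matrix (Fin (2 ^ N)) (Fin (2 ^ N)) ℂ,
    (∀ t : PW _ W, ‖mat b t‖ ≤ C * ‖t‖) ∧ (∀ t : PW _ W, ‖mat bᴴ t‖ ≤ C * ‖t‖) ∧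
      Apx ρ s N q b ε ∧ Apx ρ s N (star q) bᴴ ε

variable {s ρ}

lemma Apx.add {N : ℕ} {q q' : O} {b b' : Matrix (Fin (2 ^ N)) (Fin (2 ^ N)) ℂ} {ε ε' : ℝ}
    (h : Apx ρ s N q b ε) (h' : Apx ρ s N q' b' ε') : Apx ρ s N (q + q') (b + b') (ε + ε') := by
  intro T
  have e : emb ρ s N (ρ (q + q') T) - mat (b + b') (emb ρ s N T) =
      (emb ρ s N (ρ q T) - mat b (emb ρ s N T)) + (emb ρ s N (ρ q' T) - mat b' (emb ρ s N T)) := by
    rw [map_add, add_apply, map_add, mat_add]; abel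
  rw [e, add_mul]
  exact (norm_add_le _ _).trans (add_le_add (h T) (h' T))

lemma Apx.mul {N : ℕ} {q q' : O} {b b' : Matrix (Fin (2 ^ N)) (Fin (2 ^ N)) ℂ} {ε ε' C : ℝ}
    (h : Apx ρ s N q b ε) (h' : Apx ρ s N q' b' ε') (hε : 0 ≤ ε) (hC : 0 ≤ C)
    (hb : ∀ t : PW _ W, ‖mat b t‖ ≤ C * ‖t‖) :
    Apx ρ s N (q * q') (b * b') (ε * ‖q'‖ + C * ε') := by
  intro T
  have e : emb ρ s N (ρ (q * q') T) - mat (b * b') (emb ρ s N T) =
      (emb ρ s N (ρ q (ρ q' T)) - mat b (emb ρ s N (ρ q' T))) +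
        mat b (emb ρ s N (ρ q' T) - mat b' (emb ρ s N T)) := by
    rw [map_mul, mul_apply_eq_comp, map_sub, mat_mul]; abel
  rw [e, add_mul, mul_assoc, mul_assoc]
  exact (norm_add_le _ _).trans (add_le_add
    ((h _).trans (mul_le_mul_of_nonneg_left (norm_rho_le ρ _ _) hε))
    ((hb _).trans (mul_le_mul_of_nonneg_left (h' T) hC)))

lemma Apx.mono {N : ℕ} {q : O} {b : Matrix (Fin (2 ^ N)) (Fin (2 ^ N)) ℂ} {ε ε' : ℝ}
    (h : Apx ρ s N q b ε) (hε : ε ≤ ε') : Apx ρ s N q b ε' := fun T =>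
  (h T).trans (mul_le_mul_of_nonneg_right hε (norm_nonneg _))

lemma apx_scalar (N : ℕ) (c : ℂ) {ε : ℝ} (hε : 0 ≤ ε) :
    Apx ρ s N (c • 1) (c • 1) ε := by
  intro T
  rw [mat_smul, mat_one, map_smul, map_one]
  simp only [smul_apply, one_apply_eq_self, map_smul, sub_self,
    norm_zero]
  positivity

lemma Good.star {q : O} (h : Good ρ s q) : Good ρ s (star q) := by
  obtain ⟨C, hC, h⟩ := h
  refine ⟨C, hC, fun ε hε => (h ε hε).mono ?_⟩
  rintro N ⟨b, h1, h2, h3, h4⟩
  exact ⟨bᴴ, h2, by simpa using h1, h4, by simpa using h3⟩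

lemma Good.add {q q' : O} (h : Good ρ s q) (h' : Good ρ s q') : Good ρ s (q + q') := by
  obtain ⟨C, hC, h⟩ := h
  obtain ⟨C', hC', h'⟩ := h'
  refine ⟨C + C', by positivity, fun ε hε => ?_⟩
  filter_upwards [h (ε / 2) (by positivity), h' (ε / 2) (by positivity)]
    with N ⟨b, h1, h2, h3, h4⟩ ⟨b', h1', h2', h3', h4'⟩
  refine ⟨b + b', fun t => ?_, fun t => ?_, ?_, ?_⟩
  · rw [mat_add, add_mul]; exact (norm_add_le _ _).trans (add_le_add (h1 t) (h1' t))
  · rw [Matrix.conjTranspose_add, mat_add, add_mul]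
    exact (norm_add_le _ _).trans (add_le_add (h2 t) (h2' t))
  · simpa using h3.add h3'
  · simpa using h4.add h4'

lemma Good.mul {q q' : O} (h : Good ρ s q) (h' : Good ρ s q') : Good ρ s (q * q') := by
  obtain ⟨C, hC, h⟩ := h
  obtain ⟨C', hC', h'⟩ := h'
  refine ⟨C * C', by positivity, fun ε hε => ?_⟩
  set δ := ε / (‖q‖ + ‖q'‖ + C + C' + 1) with hδ
  have hδ0 : 0 < δ := by positivity
  have hδ1 : δ * (‖q‖ + ‖q'‖ + C + C' + 1) = ε := by rw [hδ]; field_simp
  filter_upwards [h δ hδ0, h' δ hδ0] with N ⟨b, h1, h2, h3, h4⟩ ⟨b', h1', h2', h3', h4'⟩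
  refine ⟨b * b', fun t => ?_, fun t => ?_, ?_, ?_⟩
  · rw [mat_mul, mul_assoc]; exact (h1 _).trans (mul_le_mul_of_nonneg_left (h1' t) hC)
  · rw [Matrix.conjTranspose_mul, mat_mul, mul_comm C, mul_assoc]
    exact (h2' _).trans (mul_le_mul_of_nonneg_left (h2 t) hC')
  · refine (h3.mul h3' hδ0.le hC h1).mono ?_
    nlinarith [norm_nonneg q, norm_nonneg q']
  · rw [star_mul, Matrix.conjTranspose_mul]
    refine (h4'.mul h4 hδ0.le hC' h2').mono ?_
    rw [norm_star]
    nlinarith [norm_nonneg q, norm_nonneg q']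

lemma good_scalar (c : ℂ) : Good ρ s (algebraMap ℂ O c) := by
  refine ⟨‖c‖, norm_nonneg _, fun ε hε => Eventually.of_forall fun N =>
    ⟨c • 1, fun t => ?_, fun t => ?_, ?_, ?_⟩⟩
  · rw [mat_smul, mat_one, norm_smul]
  · rw [Matrix.conjTranspose_smul, Matrix.conjTranspose_one, mat_smul, mat_one, norm_smul,
      norm_star]
  · rw [Algebra.algebraMap_eq_smul_one]; exact apx_scalar N c hε.le
  · rw [Algebra.algebraMap_eq_smul_one, star_smul, star_one, Matrix.conjTranspose_smul,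
      Matrix.conjTranspose_one]
    exact apx_scalar N _ hε.le

lemma Cz.norm_le (h : Cz s) (b : Fin 2) : ‖s b‖ ≤ 1 := by
  have h1 : ‖star (s b) * s b‖ ≤ 1 := by
    rw [h.isom]
    rcases subsingleton_or_nontrivial O with hB | hB
    · rw [Subsingleton.elim (1 : O) 0]; simp
    · simp
  rw [CStarRing.norm_star_mul_self] at h1
  nlinarith [norm_nonneg (s b)]

lemma Cz.good_gen (h : Cz s) (b : Fin 2) : Good ρ s (s b) := by
  classical
  refine ⟨1, zero_le_one, fun ε hε => ?_⟩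
  have hN : ∀ᶠ N : ℕ in atTop, (N : ℝ)⁻¹ ≤ ε ^ 2 :=
    (tendsto_inv_atTop_nhds_zero_nat (𝕜 := ℝ)).eventually (ge_mem_nhds (by positivity))
  filter_upwards [hN, eventually_gt_atTop 0] with N hN hN0
  obtain ⟨n, rfl⟩ : ∃ n, N = n + 1 := ⟨N - 1, by omega⟩
  have hb := b.2
  have hpow : 2 ^ (n + 1) = 2 ^ n * 2 := pow_succ 2 n
  let R : Fin (2 ^ (n + 1)) → Fin (2 ^ (n + 1)) → Prop :=
    fun m m' => (m : ℕ) = 2 * m' + b ∧ (m' : ℕ) ≠ 0
  have hconj : (Matrix.of fun m m' => if R m m' then (1 : ℂ) else 0)ᴴ =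
      Matrix.of fun m m' => if R m' m then (1 : ℂ) else 0 := by
    ext m m'
    simp only [Matrix.conjTranspose_apply, Matrix.of_apply]
    split_ifs <;> simp
  have hsb : ∀ T, ‖ρ (s b) T‖ ^ 2 ≤ ‖T‖ ^ 2 := fun T => pow_le_pow_left₀ (norm_nonneg _)
    ((norm_rho_le ρ _ _).trans (mul_le_of_le_one_left (norm_nonneg _) (h.norm_le b))) 2
  have hsb' : ∀ T, ‖ρ (star (s b)) T‖ ^ 2 ≤ ‖T‖ ^ 2 := fun T => pow_le_pow_left₀ (norm_nonneg _)
    ((norm_rho_le ρ _ _).trans (mul_le_of_le_one_left (norm_nonneg _)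
      (by rw [norm_star]; exact h.norm_le b))) 2
  have hfin : ∀ (x : PW (Fin (2 ^ (n + 1))) W) (T : W),
      ‖x‖ ^ 2 ≤ ((n + 1 : ℕ) : ℝ)⁻¹ * ‖T‖ ^ 2 → ‖x‖ ≤ ε * ‖T‖ := by
    intro x T hx
    refine abs_le_of_sq_le_sq' (hx.trans ?_) (by positivity) |>.2
    rw [mul_pow]
    exact mul_le_mul_of_nonneg_right hN (sq_nonneg _)
  refine ⟨Matrix.of fun m m' => if R m m' then (1 : ℂ) else 0,
    norm_mat_rel R (fun a b b' h1 h2 => Fin.ext (by simp only [R] at h1 h2; omega))
      (fun a b b' h1 h2 => Fin.ext (by simp only [R] at h1 h2; omega)), ?_, fun T => ?_,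
      fun T => ?_⟩
  · rw [hconj]
    exact norm_mat_rel (fun a b => R b a)
      (fun a b b' h1 h2 => Fin.ext (by simp only [R] at h1 h2; omega))
      (fun a b b' h1 h2 => Fin.ext (by simp only [R] at h1 h2; omega))
  · refine hfin _ _ ?_
    rw [PiLp.norm_sq_eq_of_L2]
    have h1lt : 1 < 2 ^ (n + 1) := Nat.one_lt_two_pow (by omega)
    rw [Finset.sum_eq_single (⟨1, h1lt⟩ : Fin (2 ^ (n + 1))) ?_ (by simp)]
    · simp only [PiLp.sub_apply, mat_apply, Matrix.of_apply, emb_apply]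
      rw [Finset.sum_eq_zero (fun m' _ => by
        rw [if_neg (by simp only [R]; omega), zero_smul]), sub_zero, norm_sq_scale, tt_one,
        star_one, map_one]
      exact mul_le_mul_of_nonneg_left (hsb T) (by positivity)
    · intro m _ hm
      have hm1 : (m : ℕ) ≠ 1 := fun e => hm (Fin.ext e)
      have hm2 := m.2
      simp only [PiLp.sub_apply, mat_apply, Matrix.of_apply, emb_apply]
      rw [sq_eq_zero_iff, norm_eq_zero, sub_eq_zero]
      by_cases hm0 : (m : ℕ) = 0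
      · rw [Finset.sum_eq_zero (fun m' _ => by
          rw [if_neg (by simp only [R]; omega), zero_smul]), hm0, tt_zero]
        simp
      · let b' : Fin 2 := ⟨m % 2, Nat.mod_lt _ two_pos⟩
        have e1 : (m : ℕ) = 2 * (m / 2) + b' := by simp only [b']; omega
        have e2 : star (tt s m) = star (tt s (m / 2)) * star (s b') := by
          conv_lhs => rw [e1, tt_step s (by omega), star_mul]
        rw [← mul_apply_eq_comp, ← map_mul, e2, mul_assoc]
        by_cases hbb : b' = b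
        · rw [hbb, h.isom, mul_one,
            Finset.sum_eq_single (⟨m / 2, by omega⟩ : Fin (2 ^ (n + 1))) ?_ (by simp),
            if_pos ⟨by rw [← hbb]; exact e1, by simp only; omega⟩, one_smul]
          intro m' _ hm'
          rw [if_neg, zero_smul]
          rintro ⟨h1, -⟩
          exact hm' (Fin.ext (by simp only; omega))
        · rw [h.orth hbb, Finset.sum_eq_zero (fun m' _ => by
            rw [if_neg, zero_smul]
            rintro ⟨h1, -⟩
            exact hbb (Fin.ext (by simp only [b']; omega)))]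
          simp
  · refine hfin _ _ ?_
    rw [PiLp.norm_sq_eq_of_L2, hconj]
    have e : ∀ m : Fin (2 ^ (n + 1)), ‖(emb ρ s (n + 1) (ρ (star (s b)) T) -
        mat (Matrix.of fun m m' => if R m' m then (1 : ℂ) else 0) (emb ρ s (n + 1) T)) m‖ ^ 2 =
        ((n + 1 : ℕ) : ℝ)⁻¹ * (‖ρ (star (tt s m)) (ρ (star (s b)) T)‖ ^ 2 -
          if (m : ℕ) < 2 ^ n then ‖ρ (star (tt s m)) (ρ (star (s b)) T)‖ ^ 2 else 0) := by
      intro m
      have hm2 := m.2
      simp only [PiLp.sub_apply, mat_apply, Matrix.of_apply, emb_apply]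
      by_cases hm : (m : ℕ) < 2 ^ n
      · rw [if_pos hm, sub_self, mul_zero, sq_eq_zero_iff, norm_eq_zero, sub_eq_zero]
        by_cases hm0 : (m : ℕ) = 0
        · rw [Finset.sum_eq_zero (fun m' _ => by
            rw [if_neg (by simp only [R]; omega), zero_smul]), hm0, tt_zero]
          simp
        · rw [Finset.sum_eq_single (⟨2 * m + b, by omega⟩ : Fin (2 ^ (n + 1))) ?_
            (by simp), if_pos ⟨rfl, hm0⟩, one_smul, tt_step s hm0, star_mul, map_mul]
          · rfl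
          · intro m' _ hm'
            rw [if_neg, zero_smul]
            rintro ⟨h1, -⟩
            exact hm' (Fin.ext h1)
      · rw [if_neg hm, sub_zero, Finset.sum_eq_zero (fun m' _ => by
          rw [if_neg, zero_smul]
          rintro ⟨h1, -⟩
          have := m'.2
          omega), sub_zero, norm_sq_scale]
    simp only [e, ← Finset.mul_sum, Finset.sum_sub_distrib]
    refine mul_le_mul_of_nonneg_left ?_ (by positivity)
    rw [Fin.sum_univ_eq_sum_range (fun m => ‖ρ (star (tt s m)) (ρ (star (s b)) T)‖ ^ 2),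
      Fin.sum_univ_eq_sum_range (fun m =>
        if m < 2 ^ n then ‖ρ (star (tt s m)) (ρ (star (s b)) T)‖ ^ 2 else 0),
      ← Finset.sum_filter, h.sum_norm]
    have : (Finset.range (2 ^ (n + 1))).filter (fun m => m < 2 ^ n) = Finset.range (2 ^ n) := by
      ext m
      simp only [Finset.mem_filter, Finset.mem_range, pow_succ]
      omega
    rw [this, h.sum_norm]
    push_cast
    linarith [hsb' T]

theorem Cz.approx (h : Cz s)
    (hgen : (StarAlgebra.adjoin ℂ ({s 0, s 1} : Set O)).topologicalClosure = ⊤) (y : O) {ε : ℝ}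
    (hε : 0 < ε) : ∀ᶠ N in atTop, ∃ b : Matrix (Fin (2 ^ N)) (Fin (2 ^ N)) ℂ,
      Apx ρ s N y b ε ∧ Apx ρ s N (star y) bᴴ ε := by
  have hy : y ∈ closure (StarAlgebra.adjoin ℂ ({s 0, s 1} : Set O) : Set O) := by
    have : y ∈ (StarAlgebra.adjoin ℂ ({s 0, s 1} : Set O)).topologicalClosure := by
      rw [hgen]; trivial
    exact this
  obtain ⟨q, hq, hyq⟩ := Metric.mem_closure_iff.1 hy (ε / 2) (by positivity)
  have hg : Good ρ s q := by
    clear hyq
    induction hq using StarAlgebra.adjoin_induction with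
    | mem x hx =>
      rcases hx with rfl | rfl
      · exact h.good_gen 0
      · exact h.good_gen 1
    | algebraMap r => exact good_scalar r
    | add x y _ _ hx hy => exact hx.add hy
    | mul x y _ _ hx hy => exact hx.mul hy
    | star x _ hx => exact hx.star
  obtain ⟨C, -, hC⟩ := hg
  filter_upwards [hC (ε / 2) (by positivity), eventually_ne_atTop 0] with N ⟨b, _, _, h3, h4⟩ hN
  have key : ∀ z : O, ‖z‖ ≤ ε / 2 → Apx ρ s N z 0 (ε / 2) := by
    intro z hz T
    have : mat (0 : Matrix (Fin (2 ^ N)) (Fin (2 ^ N)) ℂ) (emb ρ s N T) = 0 := by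
      ext a; simp
    rw [this, sub_zero, h.norm_emb ρ hN]
    exact (norm_rho_le ρ _ _).trans (mul_le_mul_of_nonneg_right hz (norm_nonneg _))
  rw [dist_eq_norm] at hyq
  refine ⟨b, ?_, ?_⟩
  · simpa using h3.add (key _ hyq.le)
  · simpa using h4.add (key (star (y - q)) (by rw [norm_star]; exact hyq.le))

end Crest.Agent.H2.KEP
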