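import Crest.Agent.H2.KEPLim

/-! The finite-dimensional contradiction. -/

set_option autoImplicit false
set_option linter.unusedSectionVars false

open scoped InnerProductSpace ComplexConjugate ComplexOrder Matrix
open Filter Topology

namespace Crest.Agent.H2.KEP

variable {W : Type} [NormedAddCommGroup W] [InnerProductSpace ℂ W]

section mat

variable {I : Type} [Fintype I]

/-- finite sums of copies of `W` -/
abbrev PW (I W : Type) := PiLp 2 (fun _ : I => W)

/-- scalar matrices acting on finite sums of copies of `W` -/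
noncomputable def mat (b : Matrix I I ℂ) : PW I W →ₗ[ℂ] PW I W where
  toFun t := WithLp.toLp 2 fun a => ∑ a', b a a' • t a'
  map_add' s t := by ext a; simp [Finset.sum_add_distrib]
  map_smul' c t := by ext a; simp [Finset.smul_sum, smul_smul, mul_comm]

@[simp] lemma mat_apply (b : Matrix I I ℂ) (t : PW I W) (a : I) :
    mat b t a = ∑ a', b a a' • t a' := rfl

/-- diagonal operators -/
noncomputable def dg (L : W →L[ℂ] W) : PW I W →ₗ[ℂ] PW I W where
  toFun t := WithLp.toLp 2 fun a => L (t a)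
  map_add' s t := by ext a; simp
  map_smul' c t := by ext a; simp

@[simp] lemma dg_apply (L : W →L[ℂ] W) (t : PW I W) (a : I) : dg L t a = L (t a) := rfl

lemma mat_mul (b b' : Matrix I I ℂ) (t : PW I W) : mat (b * b') t = mat b (mat b' t) := by
  ext a
  simp only [mat_apply, Matrix.mul_apply, Finset.sum_smul, Finset.smul_sum, smul_smul]
  exact Finset.sum_comm

lemma mat_add (b b' : Matrix I I ℂ) (t : PW I W) : mat (b + b') t = mat b t + mat b' t := by
  ext a
  simp [add_smul, Finset.sum_add_distrib]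

lemma mat_smul (c : ℂ) (b : Matrix I I ℂ) (t : PW I W) : mat (c • b) t = c • mat b t := by
  ext a
  simp [Finset.smul_sum, smul_smul]

lemma mat_one [DecidableEq I] (t : PW I W) : mat (1 : Matrix I I ℂ) t = t := by
  ext a
  simp [Matrix.one_apply, ite_smul]

lemma dg_mat (L : W →L[ℂ] W) (b : Matrix I I ℂ) (t : PW I W) : dg L (mat b t) = mat b (dg L t) := by
  ext a
  simp

lemma inner_mat (b : Matrix I I ℂ) (s t : PW I W) : ⟪mat b s, t⟫_ℂ = ⟪s, mat bᴴ t⟫_ℂ := by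
  simp only [PiLp.inner_apply, mat_apply, sum_inner, inner_sum, inner_smul_left, inner_smul_right,
    Matrix.conjTranspose_apply]
  exact Finset.sum_comm

lemma norm_mat_unitary [DecidableEq I] {P : Matrix I I ℂ} (hP : Pᴴ * P = 1) (t : PW I W) :
    ‖mat P t‖ = ‖t‖ := by
  rw [norm_eq_sqrt_re_inner (𝕜 := ℂ), inner_mat, ← mat_mul, hP, mat_one,
    ← norm_eq_sqrt_re_inner (𝕜 := ℂ)]

lemma expand_sq (b : Matrix I I ℂ) (L : W →L[ℂ] W) (hL : ∀ x y, ⟪L x, L y⟫_ℂ = ⟪x, y⟫_ℂ)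
    (t : PW I W) : ‖mat b (dg L t) - t‖ ^ 2 =
      (∑ a, ∑ a', ∑ a'', conj (b a a') * (b a a'' * ⟪t a', t a''⟫_ℂ)).re -
        2 * (∑ a, ∑ a', b a a' * ⟪t a, L (t a')⟫_ℂ).re + ‖t‖ ^ 2 := by
  rw [norm_sub_sq (𝕜 := ℂ), ← inner_self_eq_norm_sq (𝕜 := ℂ) (mat b (dg L t)),
    inner_re_symm (mat b (dg L t)) t]
  simp only [PiLp.inner_apply, mat_apply, dg_apply, sum_inner, inner_sum, inner_smul_left,
    inner_smul_right, hL, RCLike.re_to_complex, Finset.mul_sum]
  congr 3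
  refine Finset.sum_congr rfl fun a _ => ?_
  rw [Finset.sum_comm]
  exact Finset.sum_congr rfl fun _ _ => Finset.sum_congr rfl fun _ _ => by ring

end mat

lemma schur {P : Type} [Fintype P] (x y : P → W) (c : P → ℝ) :
    0 ≤ (∑ p, ∑ q, ((c p * c q : ℝ) : ℂ) * (⟪x p, x q⟫_ℂ * conj ⟪y p, y q⟫_ℂ)).re := by
  have h := ((Matrix.posSemidef_gram ℂ x).hadamard
    (Matrix.posSemidef_gram ℂ y).transpose).re_dotProduct_nonneg (fun p => (c p : ℂ))
  refine h.trans (le_of_eq ?_)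
  simp only [dotProduct, Matrix.mulVec, Matrix.hadamard_apply, Matrix.transpose_apply,
    Matrix.gram_apply, Finset.mul_sum, RCLike.re_to_complex, Pi.star_apply, inner_conj_symm]
  congr 1
  refine Finset.sum_congr rfl fun p _ => Finset.sum_congr rfl fun q _ => ?_
  simp only [RCLike.star_def, Complex.conj_ofReal]
  push_cast
  ring

lemma amgm {d d' : ℝ} (hd : 0 ≤ d) (hd' : 0 ≤ d') (b M : ℂ) (hM : ‖M‖ ^ 2 ≤ d * d') :
    4 * (b * M).re ≤ ‖b‖ ^ 2 * (d + d') + 2 * ((√d)⁻¹ * (√d')⁻¹ * ‖M‖ ^ 2) := by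
  have h1 : (b * M).re ≤ ‖b‖ * ‖M‖ := (Complex.re_le_norm _).trans (norm_mul_le _ _)
  by_cases h0 : d * d' = 0
  · have : ‖M‖ = 0 := by
      rw [h0] at hM
      exact pow_eq_zero_iff (two_ne_zero) |>.1 (le_antisymm hM (sq_nonneg _))
    rw [this] at h1 ⊢
    have : 0 ≤ ‖b‖ ^ 2 * (d + d') := by positivity
    nlinarith
  · have hp : 0 < d := lt_of_le_of_ne hd (fun h => h0 (by rw [← h, zero_mul]))
    have hp' : 0 < d' := lt_of_le_of_ne hd' (fun h => h0 (by rw [← h, mul_zero]))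
    set α := √d with hα
    set α' := √d' with hα'
    have e1 : d = α ^ 2 := (Real.sq_sqrt hd).symm
    have e2 : d' = α' ^ 2 := (Real.sq_sqrt hd').symm
    have a1 : 0 < α := Real.sqrt_pos.2 hp
    have a2 : 0 < α' := Real.sqrt_pos.2 hp'
    have e3 : 2 * (‖b‖ * ‖M‖) ≤ ‖b‖ ^ 2 * (α * α') + α⁻¹ * α'⁻¹ * ‖M‖ ^ 2 := by
      have : α⁻¹ * α'⁻¹ * (‖b‖ * (α * α') - ‖M‖) ^ 2 =
          ‖b‖ ^ 2 * (α * α') + α⁻¹ * α'⁻¹ * ‖M‖ ^ 2 - 2 * (‖b‖ * ‖M‖) := by
        field_simp; ring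
      have h2 : 0 ≤ α⁻¹ * α'⁻¹ * (‖b‖ * (α * α') - ‖M‖) ^ 2 := by positivity
      linarith
    rw [e1, e2]
    nlinarith [mul_nonneg (sq_nonneg ‖b‖) (sq_nonneg (α - α'))]

variable {F : Type} [Field F] [Fintype F] {Γ : Type} [Group Γ] {g : Fin 4 → F → Γ}

/-- a tower of subspaces of a unitary representation -/
structure Tower (g : Fin 4 → F → Γ) (L : Γ →* (W →L[ℂ] W)) (K : ℕ → Submodule ℂ W) : Prop where
  isom : ∀ s x y, ⟪L s x, L s y⟫_ℂ = ⟪x, y⟫_ℂ
  inv : ∀ k, ∀ s ∈ genG g, ∀ x ∈ K k, L s x ∈ K k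
  ex : ∃ f : ℕ → F → Γ, (∀ l c, f l c ∈ genG g) ∧ (∀ l, ∀ x ∈ K l, ∑ c, L (f l c) x = 0) ∧
    ∀ k l, k < l → ∀ c, ∀ x ∈ K k, L (f l c) x = x

variable {L : Γ →* (W →L[ℂ] W)} {K : ℕ → Submodule ℂ W} {I : Type} [Fintype I]

lemma Lapp_mul (L : Γ →* (W →L[ℂ] W)) (s s' : Γ) (x : W) : L (s * s') x = L s (L s' x) := by
  rw [map_mul]; rfl

/-- the matrix coefficient of the tensor vector -/
noncomputable def Phi (β : I → ℝ) (M M' : I → I → ℂ) : ℝ :=
  (∑ a, ∑ a', ((β a * β a' : ℝ) : ℂ) * (M a a' * conj (M' a a'))).re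

theorem pair_gap (hg : Gens g) (hT : Tower g L K) {k l : ℕ} (hkl : k < l) (s t : I → W)
    (hs : ∀ a, s a ∈ K l) (ht : ∀ a, t a ∈ K k) (β : I → ℝ) :
    Phi β (fun a a' => ⟪s a, L 1 (s a')⟫_ℂ) (fun a a' => ⟪t a, L 1 (t a')⟫_ℂ) / 2 ≤
      (Fintype.card F : ℝ)⁻¹ * ∑ j, ∑ c,
        (Phi β (fun a a' => ⟪s a, L 1 (s a')⟫_ℂ) (fun a a' => ⟪t a, L 1 (t a')⟫_ℂ) -
          Phi β (fun a a' => ⟪s a, L (g j c) (s a')⟫_ℂ) (fun a a' => ⟪t a, L (g j c) (t a')⟫_ℂ)) := by
  classical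
  obtain ⟨f, hf, hf0, hf1⟩ := hT.ex
  let ψ : Γ → Γ → ℝ := fun u u' => Phi β (fun a a' => ⟪L u (s a), L u' (s a')⟫_ℂ)
    (fun a a' => ⟪L u (t a), L u' (t a')⟫_ℂ)
  obtain ⟨V, _, _, U, ξ, hU, hξ⟩ := kernel_rep ψ
    (fun u u' => by
      simp only [ψ, Phi]
      rw [Finset.sum_comm, ← Complex.conj_re]
      simp only [map_sum, map_mul, Complex.conj_ofReal, inner_conj_symm]
      congr 1
      exact Finset.sum_congr rfl fun a _ => Finset.sum_congr rfl fun a' _ => by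
        rw [mul_comm (β a)])
    (fun S c => by
      have := schur (P := S × I) (fun p => L p.1 (s p.2)) (fun p => L p.1 (t p.2))
        (fun p => c p.1 * β p.2)
      refine this.trans (le_of_eq ?_)
      simp only [ψ, Phi, Fintype.sum_prod_type, Complex.re_sum, Finset.mul_sum,
        Complex.re_ofReal_mul]
      rw [← Finset.sum_coe_sort S]
      refine Finset.sum_congr rfl fun u _ => ?_
      rw [← Finset.sum_coe_sort S, Finset.sum_comm]
      refine Finset.sum_congr rfl fun u' _ => Finset.sum_congr rfl fun a _ =>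
        Finset.sum_congr rfl fun a' _ => by ring)
    (fun u u' u'' => by simp only [ψ, Lapp_mul, hT.isom])
  have key := gap_of_null hU hg ξ (f l) (hf l) (fun h hh => by
    rw [← sq_eq_zero_iff, ← real_inner_self_eq_norm_sq, sum_inner]
    refine Finset.sum_eq_zero fun c' _ => ?_
    simp only [inner_sum, ← app_mul, hξ, ψ, Phi]
    rw [← Complex.re_sum, Finset.sum_comm]
    have : ∀ a, ∑ c, ∑ a', ((β a * β a' : ℝ) : ℂ) *
        (⟪L (f l c' * h) (s a), L (f l c * h) (s a')⟫_ℂ *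
          conj ⟪L (f l c' * h) (t a), L (f l c * h) (t a')⟫_ℂ) = 0 := by
      intro a
      rw [Finset.sum_comm]
      refine Finset.sum_eq_zero fun a' _ => ?_
      simp only [Lapp_mul L (f l _) h (t a'), hf1 k l hkl _ _ (hT.inv k h hh _ (ht a')),
        ← Finset.mul_sum, ← Finset.sum_mul, ← inner_sum, Lapp_mul L (f l _) h (s a'),
        hf0 l _ (hT.inv l h hh _ (hs a')), inner_zero_right, zero_mul, mul_zero]
    simp only [this, Finset.sum_const_zero, Complex.zero_re])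
  have e1 : ∀ u, ⟪ξ, U u ξ⟫_ℝ = Phi β (fun a a' => ⟪s a, L u (s a')⟫_ℂ)
      (fun a a' => ⟪t a, L u (t a')⟫_ℂ) := by
    intro u
    have := hξ 1 u
    simpa [ψ] using this
  have e2 : ‖ξ‖ ^ 2 = Phi β (fun a a' => ⟪s a, L 1 (s a')⟫_ℂ)
      (fun a a' => ⟪t a, L 1 (t a')⟫_ℂ) := by
    rw [← e1, ← real_inner_self_eq_norm_sq]; simp
  rw [en_eq_sum hU hg] at key
  simp only [norm_sub_sq_real, hU.norm, real_inner_comm ξ, e1, e2] at key
  refine key.trans (le_of_eq ?_)
  rw [mul_inv, mul_comm (2 : ℝ)⁻¹, mul_assoc, Finset.mul_sum]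
  congr 1
  refine Finset.sum_congr rfl fun j _ => ?_
  rw [Finset.mul_sum]
  exact Finset.sum_congr rfl fun c _ => by ring

lemma Phi_tendsto_left {l : Filter ℕ} (β : I → ℝ) {M : ℕ → I → I → ℂ} {M₀ : I → I → ℂ}
    (h : ∀ a a', Tendsto (fun k => M k a a') l (𝓝 (M₀ a a'))) (M' : I → I → ℂ) :
    Tendsto (fun k => Phi β (M k) M') l (𝓝 (Phi β M₀ M')) :=
  (Complex.continuous_re.tendsto _).comp (tendsto_finsetSum _ fun a _ =>
    tendsto_finsetSum _ fun a' _ => ((h a a').mul_const _).const_mul _)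

lemma Phi_tendsto_right {l : Filter ℕ} (β : I → ℝ) {M : ℕ → I → I → ℂ} {M₀ : I → I → ℂ}
    (h : ∀ a a', Tendsto (fun k => M k a a') l (𝓝 (M₀ a a'))) (M' : I → I → ℂ) :
    Tendsto (fun k => Phi β M' (M k)) l (𝓝 (Phi β M' M₀)) :=
  (Complex.continuous_re.tendsto _).comp (tendsto_finsetSum _ fun a _ =>
    tendsto_finsetSum _ fun a' _ =>
      (((Complex.continuous_conj.tendsto _).comp (h a a')).const_mul _).const_mul _)

lemma Phi_self (β : I → ℝ) (M : I → I → ℂ) :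
    Phi β M M = ∑ a, ∑ a', β a * β a' * ‖M a a'‖ ^ 2 := by
  simp only [Phi, Complex.re_sum, Complex.re_ofReal_mul, Complex.mul_conj, Complex.ofReal_re,
    Complex.normSq_eq_norm_sq]

theorem final_diag [DecidableEq I] (hg : Gens g) (hT : Tower g L K)
    (b : Fin 4 → F → Matrix I I ℂ) (t : ℕ → PW I W) (ht : ∀ k a, t k a ∈ K k)
    (h1 : ∀ k, ‖t k‖ = 1) {η : ℝ}
    (C1 : ∀ k j c, ‖mat (b j c) (dg (L (g j c)) (t k)) - t k‖ ≤ η)
    (C2 : ∀ k j c, ‖mat (b j c)ᴴ (dg (L (g j c)⁻¹) (t k)) - t k‖ ≤ η) (d : I → ℝ)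
    (hd : ∀ a a', Tendsto (fun k => ⟪t k a, t k a'⟫_ℂ) (hyperfilter ℕ : Filter ℕ)
      (𝓝 (if a = a' then (d a : ℂ) else 0))) : 1 / 8 ≤ η ^ 2 := by
  have hn := card_pos' (F := F)
  have hnorm : ∀ s x, ‖L s x‖ = ‖x‖ := fun s x => by
    rw [norm_eq_sqrt_re_inner (𝕜 := ℂ), hT.isom, ← norm_eq_sqrt_re_inner (𝕜 := ℂ)]
  have hta : ∀ k a, ‖t k a‖ ≤ 1 := fun k a => (PiLp.norm_apply_le (t k) a).trans (h1 k).le
  have hex : ∀ s a a', ∃ c, Tendsto (fun k => ⟪t k a, L s (t k a')⟫_ℂ)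
      (hyperfilter ℕ : Filter ℕ) (𝓝 c) := fun s a a' =>
    exists_lim _ _ 1 (Eventually.of_forall fun k => (norm_inner_le_norm _ _).trans (by
      rw [hnorm]; exact mul_le_one₀ (hta k a) (norm_nonneg _) (hta k a')))
  choose M hM using hex
  have hM1 : ∀ a a', M 1 a a' = if a = a' then (d a : ℂ) else 0 := fun a a' =>
    tendsto_nhds_unique (hM 1 a a') (by simpa using hd a a')
  have hdn : ∀ a, Tendsto (fun k => ‖t k a‖ ^ 2) (hyperfilter ℕ : Filter ℕ) (𝓝 (d a)) := by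
    intro a
    have := (Complex.continuous_re.tendsto _).comp (hd a a)
    simp only [if_true, Complex.ofReal_re] at this
    refine this.congr fun k => ?_
    exact inner_self_eq_norm_sq (𝕜 := ℂ) _
  have hd0 : ∀ a, 0 ≤ d a := fun a => ge_of_tendsto' (hdn a) fun k => sq_nonneg _
  have hd1 : ∑ a, d a = 1 := by
    refine tendsto_nhds_unique (tendsto_finsetSum _ fun a _ => hdn a) ?_
    simp only [← PiLp.norm_sq_eq_of_L2, h1, one_pow]
    exact tendsto_const_nhds
  have hCS : ∀ s a a', ‖M s a a'‖ ^ 2 ≤ d a * d a' := fun s a a' =>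
    le_of_tendsto_of_tendsto' ((hM s a a').norm.pow 2) ((hdn a).mul (hdn a')) fun k => by
      rw [← mul_pow]
      exact pow_le_pow_left₀ (norm_nonneg _) ((norm_inner_le_norm _ _).trans (by rw [hnorm])) 2
  set β : I → ℝ := fun a => (√(d a))⁻¹ with hβ
  have hlt : ∀ k, ∀ᶠ l in (hyperfilter ℕ : Filter ℕ), k < l := fun k =>
    (eventually_gt_atTop k).filter_mono (by
      rw [← Nat.cofinite_eq_atTop]; exact hyperfilter_le_cofinite)
  have s1 : ∀ k, Phi β (M 1) (fun a a' => ⟪t k a, L 1 (t k a')⟫_ℂ) / 2 ≤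
      (Fintype.card F : ℝ)⁻¹ * ∑ j, ∑ c, (Phi β (M 1) (fun a a' => ⟪t k a, L 1 (t k a')⟫_ℂ) -
          Phi β (M (g j c)) (fun a a' => ⟪t k a, L (g j c) (t k a')⟫_ℂ)) := by
    intro k
    refine le_of_tendsto_of_tendsto ((Phi_tendsto_left β (hM 1) _).div_const 2)
      ((tendsto_finsetSum _ fun j _ => tendsto_finsetSum _ fun c _ =>
        (Phi_tendsto_left β (hM 1) _).sub (Phi_tendsto_left β (hM (g j c)) _)).const_mul _) ?_
    filter_upwards [hlt k] with l hl
    exact pair_gap hg hT hl (t l) (t k) (ht l) (ht k) β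
  have s2 : Phi β (M 1) (M 1) / 2 ≤
      (Fintype.card F : ℝ)⁻¹ * ∑ j, ∑ c, (Phi β (M 1) (M 1) - Phi β (M (g j c)) (M (g j c))) :=
    le_of_tendsto_of_tendsto' ((Phi_tendsto_right β (hM 1) _).div_const 2)
      ((tendsto_finsetSum _ fun j _ => tendsto_finsetSum _ fun c _ =>
        (Phi_tendsto_right β (hM 1) _).sub (Phi_tendsto_right β (hM (g j c)) _)).const_mul _) s1
  have s3 : Phi β (M 1) (M 1) = 1 := by
    rw [Phi_self, ← hd1]
    refine Finset.sum_congr rfl fun a _ => ?_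
    rw [Finset.sum_eq_single a (fun a' _ h => by simp [hM1, h.symm]) (by simp), hM1, if_pos rfl,
      Complex.norm_real, Real.norm_eq_abs, sq_abs, ← mul_inv, Real.mul_self_sqrt (hd0 a)]
    by_cases h : d a = 0
    · simp [h]
    · field_simp
  have hq : ∀ B : Matrix I I ℂ, Tendsto (fun k =>
      (∑ a, ∑ a', ∑ a'', conj (B a a') * (B a a'' * ⟪t k a', t k a''⟫_ℂ)).re)
      (hyperfilter ℕ : Filter ℕ) (𝓝 (∑ a, ∑ a', ‖B a a'‖ ^ 2 * d a')) := by
    intro B
    have := (Complex.continuous_re.tendsto _).comp (tendsto_finsetSum Finset.univ fun a _ =>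
      tendsto_finsetSum Finset.univ fun a' _ => tendsto_finsetSum Finset.univ fun a'' _ =>
        ((hd a' a'').const_mul (B a a'')).const_mul (conj (B a a')))
    have e : (∑ a, ∑ a', ∑ a'', conj (B a a') *
        (B a a'' * (if a' = a'' then (d a' : ℂ) else 0))).re = ∑ a, ∑ a', ‖B a a'‖ ^ 2 * d a' := by
      simp only [mul_ite, mul_zero, Finset.sum_ite_eq, Finset.mem_univ, if_true, Complex.re_sum]
      refine Finset.sum_congr rfl fun a _ => Finset.sum_congr rfl fun a' _ => ?_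
      rw [← mul_assoc, Complex.conj_mul', Complex.re_mul_ofReal]
      norm_cast
    rw [e] at this
    exact this
  have s4 : ∀ j c, 1 - Phi β (M (g j c)) (M (g j c)) ≤ η ^ 2 := by
    intro j c
    have hl : Tendsto (fun k => (∑ a, ∑ a', b j c a a' * ⟪t k a, L (g j c) (t k a')⟫_ℂ).re)
        (hyperfilter ℕ : Filter ℕ) (𝓝 (∑ a, ∑ a', b j c a a' * M (g j c) a a').re) :=
      (Complex.continuous_re.tendsto _).comp (tendsto_finsetSum Finset.univ fun a _ =>
        tendsto_finsetSum Finset.univ fun a' _ => (hM _ a a').const_mul _)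
    have c1 : ∑ a, ∑ a', ‖b j c a a'‖ ^ 2 * d a' -
        2 * (∑ a, ∑ a', b j c a a' * M (g j c) a a').re + 1 ≤ η ^ 2 := by
      refine le_of_tendsto' (((hq (b j c)).sub (hl.const_mul 2)).add_const 1) fun k => ?_
      have := pow_le_pow_left₀ (norm_nonneg _) (C1 k j c) 2
      rwa [expand_sq _ _ (hT.isom _), h1, one_pow] at this
    have c2 : ∑ a, ∑ a', ‖(b j c)ᴴ a a'‖ ^ 2 * d a' -
        2 * (∑ a, ∑ a', b j c a a' * M (g j c) a a').re + 1 ≤ η ^ 2 := by
      refine le_of_tendsto' (((hq (b j c)ᴴ).sub (hl.const_mul 2)).add_const 1) fun k => ?_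
      have := pow_le_pow_left₀ (norm_nonneg _) (C2 k j c) 2
      rw [expand_sq _ _ (hT.isom _), h1, one_pow] at this
      refine le_trans (le_of_eq ?_) this
      congr 3
      rw [Finset.sum_comm, ← Complex.conj_re]
      simp only [map_sum, map_mul, inner_conj_symm, Matrix.conjTranspose_apply, RCLike.star_def]
      congr 1
      refine Finset.sum_congr rfl fun a _ => Finset.sum_congr rfl fun a' _ => ?_
      rw [← hT.isom (g j c) (t k a), ← Lapp_mul, mul_inv_cancel, map_one]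
      rfl
    rw [Finset.sum_comm] at c2
    simp only [Matrix.conjTranspose_apply, norm_star] at c2
    have c3 : 4 * (∑ a, ∑ a', b j c a a' * M (g j c) a a').re ≤
        ∑ a, ∑ a', ‖b j c a a'‖ ^ 2 * d a + ∑ a, ∑ a', ‖b j c a a'‖ ^ 2 * d a' +
          2 * Phi β (M (g j c)) (M (g j c)) := by
      simp only [Phi_self, Complex.re_sum, Finset.mul_sum, ← Finset.sum_add_distrib]
      refine Finset.sum_le_sum fun a _ => Finset.sum_le_sum fun a' _ => ?_
      have := amgm (hd0 a) (hd0 a') (b j c a a') _ (hCS (g j c) a a')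
      rw [← mul_add]
      exact this
    linarith
  rw [s3] at s2
  have s5 : ∑ j, ∑ c, (1 - Phi β (M (g j c)) (M (g j c))) ≤ ∑ _j : Fin 4, ∑ _c : F, η ^ 2 :=
    Finset.sum_le_sum fun j _ => Finset.sum_le_sum fun c _ => s4 j c
  simp only [Finset.sum_const, Finset.card_univ, Fintype.card_fin, nsmul_eq_mul] at s5
  rw [le_inv_mul_iff₀ hn] at s2
  push_cast at s5
  nlinarith

theorem final_contra (hg : Gens g) (hT : Tower g L K)
    (b : Fin 4 → F → Matrix I I ℂ) (t : ℕ → PW I W) (ht : ∀ k a, t k a ∈ K k)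
    (h1 : ∀ k, ‖t k‖ = 1) {η : ℝ}
    (C1 : ∀ k j c, ‖mat (b j c) (dg (L (g j c)) (t k)) - t k‖ ≤ η)
    (C2 : ∀ k j c, ‖mat (b j c)ᴴ (dg (L (g j c)⁻¹) (t k)) - t k‖ ≤ η) : 1 / 8 ≤ η ^ 2 := by
  classical
  have hta : ∀ k a, ‖t k a‖ ≤ 1 := fun k a => (PiLp.norm_apply_le (t k) a).trans (h1 k).le
  have hex : ∀ a a', ∃ c, Tendsto (fun k => ⟪t k a', t k a⟫_ℂ)
      (hyperfilter ℕ : Filter ℕ) (𝓝 c) := fun a a' =>
    exists_lim _ _ 1 (Eventually.of_forall fun k => (norm_inner_le_norm _ _).trans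
      (mul_le_one₀ (hta k a') (norm_nonneg _) (hta k a)))
  choose ρ hρ using hex
  let ρ' : Matrix I I ℂ := ρ
  have hH : ρ'.IsHermitian := by
    ext a a'
    refine tendsto_nhds_unique ((Complex.continuous_conj.tendsto _).comp (hρ a' a)) ?_
    exact (hρ a a').congr fun k => (inner_conj_symm _ _).symm
  set P : Matrix I I ℂ := star (hH.eigenvectorUnitary : Matrix I I ℂ) with hP
  have hP1 : Pᴴ * P = 1 := by
    rw [hP, ← Matrix.star_eq_conjTranspose, star_star]
    exact Unitary.coe_mul_star_self _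
  have hP2 : P * ρ' * Pᴴ = Matrix.diagonal (RCLike.ofReal ∘ hH.eigenvalues) := by
    rw [← hH.conjStarAlgAut_star_eigenvectorUnitary, Unitary.conjStarAlgAut_apply]
    rfl
  refine final_diag hg hT (fun j c => P * b j c * Pᴴ) (fun k => mat P (t k))
    (fun k a => Submodule.sum_mem _ fun a' _ => Submodule.smul_mem _ _ (ht k a'))
    (fun k => by rw [norm_mat_unitary hP1, h1]) (fun k j c => ?_) (fun k j c => ?_)
    hH.eigenvalues (fun a a' => ?_)
  · rw [dg_mat, ← mat_mul, mul_assoc, hP1, mul_one, mat_mul, ← map_sub, norm_mat_unitary hP1]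
    exact C1 k j c
  · rw [dg_mat, ← mat_mul, Matrix.conjTranspose_mul, Matrix.conjTranspose_mul,
      Matrix.conjTranspose_conjTranspose, mul_assoc, mul_assoc, hP1, mul_one, mat_mul, ← map_sub,
      norm_mat_unitary hP1]
    exact C2 k j c
  · have e1 := tendsto_finsetSum Finset.univ fun c _ => tendsto_finsetSum Finset.univ fun c' _ =>
      ((hρ c' c).const_mul (P a' c')).mul_const (conj (P a c))
    have e2 := congrFun (congrFun hP2 a') a
    simp only [Matrix.mul_apply, Finset.sum_mul, Matrix.conjTranspose_apply, RCLike.star_def,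
      Matrix.diagonal_apply, Function.comp] at e2
    have e3 : (if a = a' then (hH.eigenvalues a : ℂ) else 0) =
        ∑ c, ∑ c', P a' c' * ρ c' c * conj (P a c) := by
      rw [show (∑ c, ∑ c', P a' c' * ρ c' c * conj (P a c)) = _ from e2]
      by_cases h : a = a'
      · subst h; simp
      · simp [h, Ne.symm h]
    rw [e3]
    refine e1.congr fun k => ?_
    simp only [mat_apply, sum_inner, inner_sum, inner_smul_left, inner_smul_right]
    rw [Finset.sum_comm]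
    exact Finset.sum_congr rfl fun _ _ => by
      rw [Finset.mul_sum]; exact Finset.sum_congr rfl fun _ _ => by ring

end Crest.Agent.H2.KEP
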