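import Mathlib

/-! A spectral gap for four one-parameter subgroups that pairwise generate Heisenberg groups. -/

set_option autoImplicit false
set_option linter.unusedSectionVars false

open scoped RealInnerProductSpace
open Filter Topology

namespace Crest.Agent.H2.KEP

section proj

variable {V : Type} [SeminormedAddCommGroup V] [InnerProductSpace ℝ V]

/-- symmetric idempotents -/
structure SP (P : Module.End ℝ V) : Prop where
  idem : P * P = P
  symm : ∀ x y, ⟪P x, y⟫ = ⟪x, P y⟫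

lemma SP.app {P : Module.End ℝ V} (h : SP P) (x : V) : P (P x) = P x :=
  LinearMap.congr_fun h.idem x

lemma SP.compl {P : Module.End ℝ V} (h : SP P) : SP (1 - P) := by
  refine ⟨?_, fun x y => ?_⟩
  · rw [sub_mul, mul_sub, mul_sub, h.idem]; simp
  · simp [inner_sub_left, inner_sub_right, h.symm]

lemma SP.norm_sq {P : Module.End ℝ V} (h : SP P) (x : V) : ‖P x‖ ^ 2 = ⟪P x, x⟫ := by
  rw [← real_inner_self_eq_norm_sq, h.symm, h.app, h.symm]

lemma SP.pyth {P : Module.End ℝ V} (h : SP P) (x : V) :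
    ‖P x‖ ^ 2 + ‖(1 - P) x‖ ^ 2 = ‖x‖ ^ 2 := by
  rw [h.norm_sq, h.compl.norm_sq, ← inner_add_left, ← real_inner_self_eq_norm_sq]
  simp

lemma SP.norm_le {P : Module.End ℝ V} (h : SP P) (x : V) : ‖P x‖ ≤ ‖x‖ := by
  have := h.pyth x
  exact abs_le_of_sq_le_sq' (by nlinarith [sq_nonneg ‖(1 - P) x‖]) (norm_nonneg _) |>.2

lemma SP.split {R : Module.End ℝ V} (h : SP R) (x y : V) :
    ⟪x, y⟫ = ⟪R x, R y⟫ + ⟪(1 - R) x, (1 - R) y⟫ := by
  rw [h.symm, h.app, h.compl.symm, h.compl.app, ← inner_add_right]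
  simp

lemma angle {P Q : Module.End ℝ V} (hP : SP P) (hQ : SP Q) (x : V)
    (h : ‖Q (P x)‖ ≤ 1 / 6 * ‖P x‖) :
    -(1 / 6 * (‖(1 - P) x‖ ^ 2 + ‖(1 - Q) x‖ ^ 2)) ≤ 2 * ⟪(1 - P) x, (1 - Q) x⟫ := by
  have h1 : ⟪P x, Q x⟫ ≤ 1 / 6 * ‖P x‖ * ‖Q x‖ := by
    rw [← hQ.app x, ← hQ.symm]
    refine (real_inner_le_norm _ _).trans ?_
    rw [hQ.app]
    exact mul_le_mul_of_nonneg_right h (norm_nonneg _)
  have h2 : ‖P x + Q x‖ ^ 2 ≤ 7 / 6 * (‖P x‖ ^ 2 + ‖Q x‖ ^ 2) := by
    rw [norm_add_sq_real]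
    nlinarith [sq_nonneg (‖P x‖ - ‖Q x‖)]
  have h3 : ‖P x‖ ^ 2 + ‖Q x‖ ^ 2 ≤ ‖P x + Q x‖ * ‖x‖ := by
    rw [hP.norm_sq, hQ.norm_sq, ← inner_add_left]
    exact real_inner_le_norm _ _
  have h4 : ‖P x‖ ^ 2 + ‖Q x‖ ^ 2 ≤ 7 / 6 * ‖x‖ ^ 2 := by
    set s := ‖P x‖ ^ 2 + ‖Q x‖ ^ 2 with hs
    have hs0 : 0 ≤ s := by positivity
    rcases hs0.eq_or_lt with h0 | h0
    · rw [← h0]; positivity
    · have h5 : s ^ 2 ≤ (‖P x + Q x‖ * ‖x‖) ^ 2 := pow_le_pow_left₀ hs0 h3 2
      have h6 : (‖P x + Q x‖ * ‖x‖) ^ 2 ≤ 7 / 6 * s * ‖x‖ ^ 2 := by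
        rw [mul_pow]; exact mul_le_mul_of_nonneg_right h2 (sq_nonneg _)
      have h7 : s * s ≤ s * (7 / 6 * ‖x‖ ^ 2) := by nlinarith
      exact le_of_mul_le_mul_left h7 h0
  have h5 := hP.pyth x
  have h6 := hQ.pyth x
  set a := (1 - P) x with ha
  set b := (1 - Q) x with hb
  have h7 : ‖a‖ ^ 2 + ‖b‖ ^ 2 ≤ ‖a + b‖ * ‖x‖ := by
    rw [ha, hb, hP.compl.norm_sq, hQ.compl.norm_sq, ← inner_add_left]
    exact real_inner_le_norm _ _
  have h8 : 5 / 6 * (‖a‖ ^ 2 + ‖b‖ ^ 2) ≤ ‖a + b‖ ^ 2 := by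
    set e := ‖a‖ ^ 2 + ‖b‖ ^ 2 with he
    have he0 : 0 ≤ e := by positivity
    have h9 : 5 / 6 * ‖x‖ ^ 2 ≤ e := by linarith
    rcases he0.eq_or_lt with h0 | h0
    · rw [← h0]; simp
    · have h5 : e ^ 2 ≤ (‖a + b‖ * ‖x‖) ^ 2 := pow_le_pow_left₀ he0 h7 2
      have h6 : 5 / 6 * (‖a + b‖ * ‖x‖) ^ 2 ≤ ‖a + b‖ ^ 2 * e := by
        rw [mul_pow]
        nlinarith [mul_le_mul_of_nonneg_left h9 (sq_nonneg ‖a + b‖)]
      have h7 : e * (5 / 6 * e) ≤ e * ‖a + b‖ ^ 2 := by nlinarith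
      exact le_of_mul_le_mul_left h7 h0
  rw [norm_add_sq_real] at h8
  linarith

lemma pair_ineq {P Q R : Module.End ℝ V} (hP : SP P) (hQ : SP Q) (hR : SP R)
    (cP : Commute R P) (cQ : Commute R Q) (h1 : R * (P * Q) = R * (Q * P)) {n : ℝ} (hn : 36 ≤ n)
    (h2 : (1 - R) * (P * Q * P) = n⁻¹ • ((1 - R) * P)) (x : V) :
    -(1 / 6 * (‖(1 - P) x‖ ^ 2 + ‖(1 - Q) x‖ ^ 2)) ≤ 2 * ⟪(1 - P) x, (1 - Q) x⟫ := by
  have cP1 : Commute R (1 - P) := (Commute.one_right R).sub_right cP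
  have cQ1 : Commute R (1 - Q) := (Commute.one_right R).sub_right cQ
  have cP2 : Commute (1 - R) (1 - P) := (Commute.one_left _).sub_left cP1
  have cQ2 : Commute (1 - R) (1 - Q) := (Commute.one_left _).sub_left cQ1
  have cP3 : Commute (1 - R) P := (Commute.one_left _).sub_left cP
  have cQ3 : Commute (1 - R) Q := (Commute.one_left _).sub_left cQ
  have ap : ∀ {S T : Module.End ℝ V}, Commute S T → ∀ y, S (T y) = T (S y) :=
    fun h y => LinearMap.congr_fun h.eq y
  -- the part where the centre acts trivially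
  have hA : 0 ≤ ⟪R ((1 - P) x), R ((1 - Q) x)⟫ := by
    have e1 : R * ((1 - P) * (1 - Q)) = R * ((1 - Q) * (1 - P)) := by
      simp only [sub_mul, mul_sub, one_mul, mul_one, h1]; abel
    have e2 : ∀ y, R ((1 - P) ((1 - Q) y)) = R ((1 - Q) ((1 - P) y)) :=
      fun y => LinearMap.congr_fun e1 y
    have e3 : ⟪R ((1 - P) x), R ((1 - Q) x)⟫ = ‖R ((1 - P) ((1 - Q) x))‖ ^ 2 := by
      rw [← real_inner_self_eq_norm_sq]
      conv_rhs => rw [hR.symm, hR.app, ap cP1, hP.compl.symm, hP.compl.app, hQ.compl.symm,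
        ← ap cP1, ← ap cQ1, ← e2, hQ.compl.app]
      rw [hR.symm, hR.app, hP.compl.symm, ap cP1]
    rw [e3]; positivity
  have hB := angle hP hQ ((1 - R) x) (by
    have e1 : ‖Q (P ((1 - R) x))‖ ^ 2 = n⁻¹ * ‖P ((1 - R) x)‖ ^ 2 := by
      rw [hQ.norm_sq, ← hP.symm, hP.norm_sq, ← real_inner_smul_left]
      congr 1
      have := LinearMap.congr_fun h2 x
      simp only [Module.End.mul_apply, LinearMap.smul_apply] at this
      rw [← ap cP3, ← ap cQ3, ← ap cP3, this]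
    have e2 : n⁻¹ ≤ (1 / 6) ^ 2 := by
      rw [inv_le_comm₀ (by linarith) (by norm_num)]; norm_num; exact hn
    refine abs_le_of_sq_le_sq' ?_ (by positivity) |>.2
    rw [e1, mul_pow]
    exact mul_le_mul_of_nonneg_right e2 (sq_nonneg _))
  rw [← ap cP2, ← ap cQ2] at hB
  rw [hR.split ((1 - P) x) ((1 - Q) x), ← hR.pyth ((1 - P) x), ← hR.pyth ((1 - Q) x)]
  nlinarith [sq_nonneg ‖R ((1 - P) x)‖, sq_nonneg ‖R ((1 - Q) x)‖]

end proj

section heis

variable {F : Type} [Field F] [Fintype F] {Γ : Type} [Group Γ]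

/-- one-parameter subgroups -/
def OneP (A : F → Γ) : Prop := ∀ c d, A (c + d) = A c * A d

lemma OneP.zero {A : F → Γ} (h : OneP A) : A 0 = 1 := by
  have := h 0 0
  rw [add_zero] at this
  exact left_eq_mul.mp this

lemma OneP.neg {A : F → Γ} (h : OneP A) (c : F) : A (-c) = (A c)⁻¹ := by
  rw [eq_inv_iff_mul_eq_one, ← h, neg_add_cancel, h.zero]

/-- Heisenberg pairs -/
def Heis (A B : F → Γ) : Prop :=
  ∃ Z : F → Γ, OneP Z ∧ (∀ e c, Commute (Z e) (A c)) ∧ (∀ e d, Commute (Z e) (B d)) ∧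
    ∀ c d, A c * B d = Z (c * d) * (B d * A c)

variable {V : Type} [SeminormedAddCommGroup V] [InnerProductSpace ℝ V]

/-- isometric representations -/
def Isom (U : Γ →* Module.End ℝ V) : Prop := ∀ g x y, ⟪U g x, U g y⟫ = ⟪x, y⟫

lemma Isom.norm {U : Γ →* Module.End ℝ V} (hU : Isom U) (g : Γ) (x : V) : ‖U g x‖ = ‖x‖ := by
  rw [norm_eq_sqrt_real_inner, hU, ← norm_eq_sqrt_real_inner]

lemma app_mul (U : Γ →* Module.End ℝ V) (g h : Γ) (x : V) : U (g * h) x = U g (U h x) := by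
  rw [map_mul]; rfl

lemma Isom.adj {U : Γ →* Module.End ℝ V} (hU : Isom U) (g : Γ) (x y : V) :
    ⟪U g x, y⟫ = ⟪x, U g⁻¹ y⟫ := by
  rw [← hU g x (U g⁻¹ y), ← app_mul, mul_inv_cancel, map_one]; rfl

/-- averaging operator -/
noncomputable def av (U : Γ →* Module.End ℝ V) (A : F → Γ) : Module.End ℝ V :=
  (Fintype.card F : ℝ)⁻¹ • ∑ c, U (A c)

lemma card_pos' : (0 : ℝ) < Fintype.card F := by
  exact_mod_cast Fintype.card_pos

lemma mul_av (U : Γ →* Module.End ℝ V) {A : F → Γ} (hA : OneP A) (c : F) :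
    U (A c) * av U A = av U A := by
  rw [av, mul_smul_comm, Finset.mul_sum]
  congr 1
  refine Fintype.sum_equiv (Equiv.addLeft c) _ _ fun d => ?_
  rw [← map_mul, ← hA]; rfl

lemma av_mul (U : Γ →* Module.End ℝ V) {A : F → Γ} (hA : OneP A) (c : F) :
    av U A * U (A c) = av U A := by
  rw [av, smul_mul_assoc, Finset.sum_mul]
  congr 1
  refine Fintype.sum_equiv (Equiv.addRight c) _ _ fun d => ?_
  rw [← map_mul, ← hA]; rfl

lemma av_const (T : Module.End ℝ V) : (Fintype.card F : ℝ)⁻¹ • ∑ _c : F, T = T := by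
  rw [Finset.sum_const, Finset.card_univ, ← Nat.cast_smul_eq_nsmul ℝ, smul_smul,
    inv_mul_cancel₀ card_pos'.ne', one_smul]

lemma av_sp {U : Γ →* Module.End ℝ V} (hU : Isom U) {A : F → Γ} (hA : OneP A) : SP (av U A) := by
  refine ⟨?_, fun x y => ?_⟩
  · conv_lhs => rw [av]
    rw [smul_mul_assoc, Finset.sum_mul]
    simp only [← av.eq_1, mul_av U hA]
    exact av_const _
  · simp only [av, LinearMap.smul_apply, LinearMap.sum_apply, real_inner_smul_left,
      real_inner_smul_right, sum_inner, inner_sum]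
    congr 1
    refine Fintype.sum_equiv (Equiv.neg F) _ _ fun d => ?_
    rw [hU.adj, ← hA.neg]; rfl

lemma av_comm (U : Γ →* Module.End ℝ V) {Z A : F → Γ} (h : ∀ e c, Commute (Z e) (A c)) :
    Commute (av U Z) (av U A) := by
  refine Commute.smul_left (Commute.smul_right ?_ _) _
  exact Commute.sum_left _ _ _ fun e _ => Commute.sum_right _ _ _ fun c _ => (h e c).map U

lemma comm_av (U : Γ →* Module.End ℝ V) {z : Γ} {A : F → Γ} (h : ∀ c, Commute z (A c)) :
    Commute (U z) (av U A) := by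
  refine Commute.smul_right ?_ _
  exact Commute.sum_right _ _ _ fun c _ => (h c).map U

lemma heis_ineq (hF : 36 ≤ Fintype.card F) {U : Γ →* Module.End ℝ V} (hU : Isom U) {A B : F → Γ}
    (hA : OneP A) (hB : OneP B) (h : Heis A B) (x : V) :
    -(1 / 6 * (‖(1 - av U A) x‖ ^ 2 + ‖(1 - av U B) x‖ ^ 2)) ≤
      2 * ⟪(1 - av U A) x, (1 - av U B) x⟫ := by
  classical
  obtain ⟨Z, hZ, cA, cB, hc⟩ := h
  refine pair_ineq (av_sp hU hA) (av_sp hU hB) (av_sp hU hZ) (av_comm U cA) (av_comm U cB) ?_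
    (n := Fintype.card F) (by exact_mod_cast hF) ?_ x
  · have e1 : ∀ c d, av U Z * (U (A c) * U (B d)) = av U Z * (U (B d) * U (A c)) := by
      intro c d
      rw [← map_mul, hc, map_mul, ← mul_assoc, av_mul U hZ, map_mul]
    rw [av.eq_1 U A, av.eq_1 U B]
    simp only [smul_mul_assoc, mul_smul_comm, Finset.sum_mul, Finset.mul_sum, e1,
      ← Finset.smul_sum]
    rw [Finset.sum_comm]
  · have e1 : ∀ d, d ≠ 0 → (1 - av U Z) * (av U A * U (B d) * av U A) = 0 := by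
      intro d hd
      have e2 : ∀ c, U (Z (c * d)) * (av U A * U (B d) * av U A) = av U A * U (B d) * av U A := by
        intro c
        have e4 : U (A c) * U (B d) = U (Z (c * d)) * (U (B d) * U (A c)) := by
          rw [← map_mul, hc, map_mul, map_mul]
        calc U (Z (c * d)) * (av U A * U (B d) * av U A)
            = av U A * (U (Z (c * d)) * (U (B d) * U (A c))) * av U A := by
              rw [← mul_assoc (av U A), ← (comm_av U (cA (c * d))).eq]
              simp only [mul_assoc, mul_av U hA]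
          _ = av U A * U (B d) * av U A := by
              rw [← e4, ← mul_assoc, av_mul U hA]
      have e3 : av U Z * (av U A * U (B d) * av U A) = av U A * U (B d) * av U A := by
        conv_lhs => rw [av.eq_1 U Z]
        rw [smul_mul_assoc, Finset.sum_mul,
          ← Fintype.sum_equiv (Equiv.mulRight₀ d hd) (fun _ => av U A * U (B d) * av U A) _
            (fun c => (e2 c).symm)]
        exact av_const _
      rw [sub_mul, one_mul, e3, sub_self]
    rw [av.eq_1 U B]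
    simp only [smul_mul_assoc, mul_smul_comm, Finset.sum_mul, Finset.mul_sum]
    congr 1
    rw [Finset.sum_eq_single 0 (fun d _ hd => e1 d hd) (by simp), hB.zero, map_one, mul_one,
      (av_sp hU hA).idem]

lemma sum_norm_sq {U : Γ →* Module.End ℝ V} (hU : Isom U) {A : F → Γ} (hA : OneP A) (x : V) :
    ∑ c, ‖U (A c) x - x‖ ^ 2 = 2 * Fintype.card F * ‖(1 - av U A) x‖ ^ 2 := by
  rw [(av_sp hU hA).compl.norm_sq]
  simp only [norm_sub_sq_real, hU.norm, LinearMap.sub_apply, Module.End.one_apply, inner_sub_left,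
    av, LinearMap.smul_apply, LinearMap.sum_apply, real_inner_smul_left, sum_inner,
    real_inner_self_eq_norm_sq, Finset.sum_add_distrib, Finset.sum_sub_distrib, Finset.sum_const,
    Finset.card_univ, nsmul_eq_mul, ← Finset.mul_sum]
  have := (card_pos' (F := F)).ne'
  field_simp
  ring

/-- the four generating one-parameter subgroups -/
structure Gens (g : Fin 4 → F → Γ) : Prop where
  card : 36 ≤ Fintype.card F
  oneP : ∀ j, OneP (g j)
  heis : ∀ j j', j < j' → Heis (g j) (g j')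

/-- the Laplacian -/
noncomputable def lap (U : Γ →* Module.End ℝ V) (g : Fin 4 → F → Γ) : Module.End ℝ V :=
  ∑ j, (1 - av U (g j))

/-- normalised energy -/
noncomputable def en (U : Γ →* Module.End ℝ V) (g : Fin 4 → F → Γ) (x : V) : ℝ :=
  ∑ j, ‖(1 - av U (g j)) x‖ ^ 2

variable {U : Γ →* Module.End ℝ V} {g : Fin 4 → F → Γ}

lemma en_nonneg (x : V) : 0 ≤ en U g x := Finset.sum_nonneg fun _ _ => sq_nonneg _

lemma en_eq (hU : Isom U) (hg : Gens g) (x : V) : en U g x = ⟪lap U g x, x⟫ := by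
  simp only [en, lap, LinearMap.sum_apply, sum_inner]
  exact Finset.sum_congr rfl fun j _ => (av_sp hU (hg.oneP j)).compl.norm_sq x

lemma lap_symm (hU : Isom U) (hg : Gens g) (x y : V) : ⟪lap U g x, y⟫ = ⟪x, lap U g y⟫ := by
  simp only [lap, LinearMap.sum_apply, sum_inner, inner_sum]
  exact Finset.sum_congr rfl fun j _ => (av_sp hU (hg.oneP j)).compl.symm x y

lemma en_le (hU : Isom U) (hg : Gens g) (x : V) : en U g x ≤ 4 * ‖x‖ ^ 2 := by
  have : ∀ j, ‖(1 - av U (g j)) x‖ ^ 2 ≤ ‖x‖ ^ 2 := fun j =>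
    pow_le_pow_left₀ (norm_nonneg _) ((av_sp hU (hg.oneP j)).compl.norm_le x) 2
  simp only [en, Fin.sum_univ_four]
  linarith [this 0, this 1, this 2, this 3]

lemma norm_lap_le (hU : Isom U) (hg : Gens g) (x : V) : ‖lap U g x‖ ≤ 4 * ‖x‖ := by
  have : ∀ j, ‖(1 - av U (g j)) x‖ ≤ ‖x‖ := fun j => (av_sp hU (hg.oneP j)).compl.norm_le x
  simp only [lap, LinearMap.sum_apply]
  refine (norm_sum_le _ _).trans ?_
  simp only [Fin.sum_univ_four]
  linarith [this 0, this 1, this 2, this 3]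

theorem gap_sq (hU : Isom U) (hg : Gens g) (x : V) : en U g x / 2 ≤ ‖lap U g x‖ ^ 2 := by
  have h := fun j j' (hj : j < j') =>
    heis_ineq hg.card hU (hg.oneP j) (hg.oneP j') (hg.heis j j' hj) x
  have h01 := h 0 1 (by decide)
  have h02 := h 0 2 (by decide)
  have h03 := h 0 3 (by decide)
  have h12 := h 1 2 (by decide)
  have h13 := h 1 3 (by decide)
  have h23 := h 2 3 (by decide)
  simp only [en, lap, Fin.sum_univ_four, LinearMap.add_apply]
  generalize (1 - av U (g 0)) x = a at *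
  generalize (1 - av U (g 1)) x = b at *
  generalize (1 - av U (g 2)) x = c at *
  generalize (1 - av U (g 3)) x = d at *
  simp only [norm_add_sq_real, inner_add_left]
  linarith

theorem gap_quant (hU : Isom U) (hg : Gens g) {x : V} (hx : ‖x‖ = 1) {ν δ : ℝ} (h0 : 0 ≤ ν)
    (h1 : ν ≤ 1 / 2) (hν : ∀ t : ℝ, ν * ‖x - t • lap U g x‖ ^ 2 ≤ en U g (x - t • lap U g x))
    (hδ : en U g x ≤ ν + δ) : (ν * (1 / 2 - ν)) ^ 2 ≤ 64 * δ := by
  have e0 := hν 0
  simp only [zero_smul, sub_zero, hx] at e0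
  have e2 := gap_sq hU hg x
  have e3 : en U g (lap U g x) ≤ 64 := by
    have := norm_lap_le hU hg x
    rw [hx] at this
    nlinarith [en_le hU hg (lap U g x), norm_nonneg (lap U g x)]
  set m := ν * (1 / 2 - ν) with hm
  have hm0 : 0 ≤ m := mul_nonneg h0 (by linarith)
  have e4 := hν (m / 64)
  set t := m / 64 with ht
  have e5 : ‖x - t • lap U g x‖ ^ 2 = 1 - 2 * t * en U g x + t ^ 2 * ‖lap U g x‖ ^ 2 := by
    rw [norm_sub_sq_real, hx, real_inner_smul_right, norm_smul, en_eq hU hg, real_inner_comm,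
      mul_pow, Real.norm_eq_abs, sq_abs]
    ring
  have e6 : en U g (x - t • lap U g x) =
      en U g x - 2 * t * ‖lap U g x‖ ^ 2 + t ^ 2 * en U g (lap U g x) := by
    simp only [en_eq hU hg, map_sub, map_smul, inner_sub_left, inner_sub_right,
      real_inner_smul_left, real_inner_smul_right]
    rw [lap_symm hU hg (lap U g x) x, real_inner_self_eq_norm_sq]
    ring
  rw [e5, e6] at e4
  have ht0 : 0 ≤ t := by positivity
  have e7 : m ≤ ‖lap U g x‖ ^ 2 - ν * en U g x := by nlinarith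
  have e8 : 2 * t * m ≤ δ + 64 * t ^ 2 := by
    nlinarith [mul_le_mul_of_nonneg_left e7 ht0, mul_le_mul_of_nonneg_left e3 (sq_nonneg t),
      mul_nonneg h0 (mul_nonneg (sq_nonneg t) (sq_nonneg ‖lap U g x‖))]
  rw [ht] at e8
  nlinarith

end heis

lemma exists_near_inf {W : Type} [SeminormedAddCommGroup W] [NormedSpace ℝ W] (S : Set W)
    (hS : ∀ (c : ℝ) x, x ∈ S → c • x ∈ S) (e : W → ℝ) (he : ∀ (c : ℝ) x, e (c • x) = c ^ 2 * e x)
    (he0 : ∀ x, 0 ≤ e x) (hne : ∃ x ∈ S, ‖x‖ ≠ 0) :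
    ∃ ν : ℝ, (∀ x ∈ S, ν * ‖x‖ ^ 2 ≤ e x) ∧ ∀ δ > 0, ∃ x ∈ S, ‖x‖ = 1 ∧ e x < ν + δ := by
  have hnorm : ∀ x : W, ‖x‖ ≠ 0 → ‖‖x‖⁻¹ • x‖ = 1 := fun x hx => by
    rw [norm_smul, norm_inv, norm_norm, inv_mul_cancel₀ hx]
  let T : Set ℝ := e '' {x | x ∈ S ∧ ‖x‖ = 1}
  have hT : T.Nonempty := by
    obtain ⟨x, hx, hx0⟩ := hne
    exact ⟨_, ‖x‖⁻¹ • x, ⟨hS _ _ hx, hnorm x hx0⟩, rfl⟩
  have hb : BddBelow T := ⟨0, by rintro _ ⟨x, -, rfl⟩; exact he0 x⟩
  refine ⟨sInf T, fun x hx => ?_, fun δ hδ => ?_⟩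
  · by_cases hx0 : ‖x‖ = 0
    · rw [hx0]; simpa using he0 x
    · have := csInf_le hb ⟨‖x‖⁻¹ • x, ⟨hS _ _ hx, hnorm x hx0⟩, rfl⟩
      rw [he, inv_pow, ← div_eq_inv_mul, le_div_iff₀ (by positivity)] at this
      exact this
  · obtain ⟨_, ⟨x, hx, rfl⟩, h⟩ := exists_lt_of_csInf_lt hT (lt_add_of_pos_right _ hδ)
    exact ⟨x, hx.1, hx.2, h⟩

section null

variable {F : Type} [Field F] [Fintype F] {Γ : Type} [Group Γ]
variable {V : Type} [SeminormedAddCommGroup V] [InnerProductSpace ℝ V]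
variable {U : Γ →* Module.End ℝ V} {g : Fin 4 → F → Γ}

/-- the subgroup generated by the four one-parameter subgroups -/
def genG (g : Fin 4 → F → Γ) : Subgroup Γ := Subgroup.closure (Set.range fun p : Fin 4 × F => g p.1 p.2)

lemma gen_mem (g : Fin 4 → F → Γ) (j : Fin 4) (c : F) : g j c ∈ genG g :=
  Subgroup.subset_closure ⟨(j, c), rfl⟩

lemma en_smul (c : ℝ) (x : V) : en U g (c • x) = c ^ 2 * en U g x := by
  simp only [en, map_smul, norm_smul, mul_pow, Real.norm_eq_abs, sq_abs, Finset.mul_sum]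

lemma move_le (hU : Isom U) (hg : Gens g) {h : Γ} (hh : h ∈ genG g) :
    ∃ C : ℝ, ∀ x, ‖U h x - x‖ ≤ C * √(en U g x) := by
  induction hh using Subgroup.closure_induction with
  | mem h hh =>
    obtain ⟨⟨j, c⟩, rfl⟩ := hh
    refine ⟨2, fun x => ?_⟩
    have e1 : U (g j c) x - x = U (g j c) ((1 - av U (g j)) x) - (1 - av U (g j)) x := by
      have := LinearMap.congr_fun (mul_av U (hg.oneP j) c) x
      simp only [Module.End.mul_apply] at this
      simp only [LinearMap.sub_apply, Module.End.one_apply, map_sub, this]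
      abel
    have e2 : ‖(1 - av U (g j)) x‖ ≤ √(en U g x) := by
      apply Real.le_sqrt_of_sq_le
      exact Finset.single_le_sum (f := fun j => ‖(1 - av U (g j)) x‖ ^ 2)
        (fun _ _ => sq_nonneg _) (Finset.mem_univ j)
    show ‖U (g j c) x - x‖ ≤ _
    rw [e1]
    refine (norm_sub_le _ _).trans ?_
    rw [hU.norm]
    linarith
  | one => exact ⟨0, fun x => by simp⟩
  | mul a b _ _ ha hb =>
    obtain ⟨C, ha⟩ := ha
    obtain ⟨D, hb⟩ := hb
    refine ⟨C + D, fun x => ?_⟩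
    have e1 : U (a * b) x - x = U a (U b x - x) + (U a x - x) := by
      rw [app_mul, map_sub]; abel
    rw [e1]
    refine (norm_add_le _ _).trans ?_
    rw [hU.norm]
    linarith [ha x, hb x]
  | inv a _ ha =>
    obtain ⟨C, ha⟩ := ha
    refine ⟨C, fun x => ?_⟩
    rw [← hU.norm a, map_sub, ← app_mul, mul_inv_cancel, map_one, norm_sub_rev]
    exact ha x

theorem gap_of_null (hU : Isom U) (hg : Gens g) (ξ : V) (f : F → Γ) (hf : ∀ c, f c ∈ genG g)
    (hnull : ∀ h ∈ genG g, ‖∑ c, U (f c) (U h ξ)‖ = 0) : ‖ξ‖ ^ 2 / 2 ≤ en U g ξ := by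
  by_cases hξ : ‖ξ‖ = 0
  · rw [hξ]; simpa using en_nonneg ξ
  let S : Submodule ℝ V := Submodule.span ℝ {x | ∃ h ∈ genG g, x = U h ξ}
  have hξS : ξ ∈ S := Submodule.subset_span ⟨1, one_mem _, by simp⟩
  have hinv : ∀ h ∈ genG g, ∀ x ∈ S, U h x ∈ S := by
    intro h hh x hx
    induction hx using Submodule.span_induction with
    | mem x hx =>
      obtain ⟨h', hh', rfl⟩ := hx
      exact Submodule.subset_span ⟨h * h', mul_mem hh hh', (app_mul U _ _ _).symm⟩
    | zero => simp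
    | add x y _ _ hx hy => rw [map_add]; exact add_mem hx hy
    | smul a x _ hx => rw [map_smul]; exact S.smul_mem _ hx
  have hlap : ∀ x ∈ S, lap U g x ∈ S := by
    intro x hx
    simp only [lap, av, LinearMap.sum_apply, LinearMap.sub_apply, Module.End.one_apply,
      LinearMap.smul_apply]
    exact S.sum_mem fun j _ => S.sub_mem hx (S.smul_mem _ (S.sum_mem fun c _ =>
      hinv _ (gen_mem g j c) x hx))
  have hn : ∀ x ∈ S, ‖∑ c, U (f c) x‖ = 0 := by
    intro x hx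
    induction hx using Submodule.span_induction with
    | mem x hx =>
      obtain ⟨h', hh', rfl⟩ := hx
      exact hnull h' hh'
    | zero => simp
    | add x y _ _ hx hy =>
      simp only [map_add, Finset.sum_add_distrib]
      exact le_antisymm ((norm_add_le _ _).trans (by rw [hx, hy]; simp)) (norm_nonneg _)
    | smul a x _ hx =>
      simp only [map_smul, ← Finset.smul_sum, norm_smul, hx, mul_zero]
  choose C hC using fun c => move_le hU hg (hf c)
  have hlow : ∀ x ∈ S, ‖x‖ = 1 → 1 ≤ (∑ c, C c) ^ 2 * en U g x := by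
    intro x hx hx1
    have e1 : (Fintype.card F : ℝ) • x = ∑ c, U (f c) x - ∑ c, (U (f c) x - x) := by
      simp [Nat.cast_smul_eq_nsmul]
    have e2 : (Fintype.card F : ℝ) ≤ (∑ c, C c) * √(en U g x) := by
      have := congrArg norm e1
      rw [norm_smul, hx1, mul_one, Real.norm_natCast] at this
      rw [this]
      refine (norm_sub_le _ _).trans ?_
      rw [hn x hx, zero_add, Finset.sum_mul]
      exact (norm_sum_le _ _).trans (Finset.sum_le_sum fun c _ => hC c x)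
    have e3 : (1 : ℝ) ≤ Fintype.card F := by exact_mod_cast Fintype.card_pos
    have e4 := pow_le_pow_left₀ zero_le_one (e3.trans e2) 2
    rwa [mul_pow, Real.sq_sqrt (en_nonneg x), one_pow] at e4
  obtain ⟨ν, h1, h2⟩ := exists_near_inf (S : Set V) (fun c x hx => S.smul_mem c hx) (en U g)
    en_smul en_nonneg ⟨ξ, hξS, hξ⟩
  have hν0 : 0 < ν := by
    by_contra hle
    push Not at hle
    obtain ⟨x, hx, hx1, hx2⟩ := h2 (1 / ((∑ c, C c) ^ 2 + 1)) (by positivity)
    have e1 := hlow x hx hx1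
    have e2 : en U g x * ((∑ c, C c) ^ 2 + 1) < 1 := by
      rw [← lt_div_iff₀ (by positivity)]; linarith
    nlinarith [en_nonneg (U := U) (g := g) x]
  have hν : 1 / 2 ≤ ν := by
    by_contra hlt
    push Not at hlt
    have hm : 0 < ν * (1 / 2 - ν) := mul_pos hν0 (by linarith)
    obtain ⟨x, hx, hx1, hx2⟩ := h2 ((ν * (1 / 2 - ν)) ^ 2 / 128) (by positivity)
    have := gap_quant hU hg hx1 hν0.le hlt.le
      (fun t => h1 _ (S.sub_mem hx (S.smul_mem _ (hlap x hx)))) hx2.le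
    nlinarith [sq_pos_of_pos hm]
  nlinarith [h1 ξ hξS, sq_nonneg ‖ξ‖]

end null

/-- the representation attached to an invariant positive kernel -/
theorem kernel_rep {Γ : Type} [Group Γ] (ψ : Γ → Γ → ℝ) (hsymm : ∀ g h, ψ g h = ψ h g)
    (hpos : ∀ (s : Finset Γ) (c : Γ → ℝ), 0 ≤ ∑ g ∈ s, ∑ h ∈ s, c g * c h * ψ g h)
    (hinv : ∀ s g h, ψ (s * g) (s * h) = ψ g h) :
    ∃ (V : Type) (_ : SeminormedAddCommGroup V) (_ : InnerProductSpace ℝ V)
      (U : Γ →* Module.End ℝ V) (ξ : V), Isom U ∧ ∀ g h, ⟪U g ξ, U h ξ⟫ = ψ g h := by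
  classical
  let B : (Γ →₀ ℝ) →ₗ[ℝ] (Γ →₀ ℝ) →ₗ[ℝ] ℝ :=
    Finsupp.linearCombination ℝ (fun g => Finsupp.linearCombination ℝ (ψ g))
  have hB : ∀ g h a b, B (Finsupp.single g a) (Finsupp.single h b) = a * b * ψ g h := by
    intro g h a b
    simp [B]; ring
  have hBs : ∀ x y, B x y = B y x := by
    have : B = B.flip := by
      ext g h
      simp [hB, hsymm g h]
    intro x y
    conv_lhs => rw [this]
    rfl
  let core : PreInnerProductSpace.Core ℝ (Γ →₀ ℝ) :=
    { inner := fun x y => B x y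
      conj_inner_symm := fun x y => by simpa using hBs y x
      re_inner_nonneg := fun x => by
        have := hpos x.support x
        simp only [B, Finsupp.linearCombination_apply, Finsupp.sum, LinearMap.sum_apply,
          LinearMap.smul_apply, smul_eq_mul, Finset.mul_sum, RCLike.re_to_real]
        simpa only [mul_assoc] using this
      add_left := fun x y z => by simp
      smul_left := fun x y r => by simp }
  letI i1 : SeminormedAddCommGroup (Γ →₀ ℝ) :=
    InnerProductSpace.Core.toSeminormedAddCommGroup (c := core)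
  letI i2 : InnerProductSpace ℝ (Γ →₀ ℝ) := InnerProductSpace.ofCore core
  let U : Γ →* Module.End ℝ (Γ →₀ ℝ) :=
    { toFun := fun g => Finsupp.lmapDomain ℝ ℝ (g * ·)
      map_one' := by ext; simp
      map_mul' := fun g h => by ext; simp [mul_assoc] }
  have hU : ∀ g h a, U g (Finsupp.single h a) = Finsupp.single (g * h) a := by
    intro g h a; simp [U]
  refine ⟨Γ →₀ ℝ, i1, i2, U, Finsupp.single 1 1, ?_, ?_⟩
  · intro s x y
    have : B.compl₁₂ (U s) (U s) = B := by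
      ext g h
      simp [hU, hB, hinv]
    exact LinearMap.congr_fun₂ this x y
  · intro g h
    show B _ _ = _
    rw [hU, hU, hB]; simp

end Crest.Agent.H2.KEP
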