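import Crest.Agent.H2.KEPMain

/-! The concrete group acting on `ℤ × (ℕ → F)`. -/

set_option autoImplicit false
set_option linter.unusedSectionVars false
set_option linter.unusedSimpArgs false

namespace Crest.Agent.H2.KEP

variable {F : Type} [Field F]

/-- the set acted upon -/
abbrev Om (F : Type) := ℤ × (ℕ → F)

/-- a one-parameter family of permutations from an additive action -/
def mkP (act : F → Om F → Om F) (h0 : ∀ y, act 0 y = y)
    (hadd : ∀ c d y, act (c + d) y = act c (act d y)) (c : F) : Equiv.Perm (Om F) where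
  toFun := act c
  invFun := act (-c)
  left_inv y := by rw [← hadd, neg_add_cancel, h0]
  right_inv y := by rw [← hadd, add_neg_cancel, h0]

/-- shear by `d` steps on the residue class `j` -/
def shA (d : ℕ) (j : ℤ) (c : F) (y : Om F) : Om F :=
  (y.1, fun i => y.2 i + if (y.1 - 2 - i - j) % 3 = 0 then c * y.2 (i + d) else 0)

/-- translation at relative position `m` -/
def trA (m : ℤ) (c : F) (y : Om F) : Om F :=
  (y.1, fun i => y.2 i + if (i : ℤ) = y.1 - 1 - m then c else 0)

/-- translation at position `0` -/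
def taA (c : F) (y : Om F) : Om F := (y.1, fun i => y.2 i + if i = 0 then c else 0)

lemma sh_add {d : ℕ} (hd : d = 1 ∨ d = 2) (j : ℤ) (c e : F) (y : Om F) :
    shA d j (c + e) y = shA d j c (shA d j e y) := by
  refine Prod.ext rfl (funext fun i => ?_)
  simp only [shA]
  split_ifs with h1 h2
  · exfalso; push_cast at h2; omega
  · ring
  · ring

/-- the shears -/
def pa (j : ℤ) : F → Equiv.Perm (Om F) :=
  mkP (shA 1 j) (fun y => by simp [shA]) (sh_add (Or.inl rfl) j)

/-- the double shears -/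
def pz (j : ℤ) : F → Equiv.Perm (Om F) :=
  mkP (shA 2 j) (fun y => by simp [shA]) (sh_add (Or.inr rfl) j)

/-- the translations -/
def pt (m : ℤ) : F → Equiv.Perm (Om F) :=
  mkP (trA m) (fun y => by simp [trA]) (fun c e y => by
    refine Prod.ext rfl (funext fun i => ?_)
    simp only [trA]
    split_ifs <;> ring)

/-- the central translations -/
def pτ : F → Equiv.Perm (Om F) :=
  mkP taA (fun y => by simp [taA]) (fun c e y => by
    refine Prod.ext rfl (funext fun i => ?_)
    simp only [taA]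
    split_ifs <;> ring)

/-- the level shift -/
def pw : Equiv.Perm (Om F) where
  toFun y := (y.1 + 1, y.2)
  invFun y := (y.1 - 1, y.2)
  left_inv y := by simp
  right_inv y := by simp

/-- index set of the generators -/
inductive GI (F : Type) : Type
  | a (j : ℤ) (c : F)
  | z (j : ℤ) (c : F)
  | t (j : ℤ) (c : F)
  | τ (c : F)
  | w
  deriving Countable

/-- the generators -/
def gen : GI F → Equiv.Perm (Om F)
  | .a j c => pa j c
  | .z j c => pz j c
  | .t j c => pt j c
  | .τ c => pτ c
  | .w => pw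

variable (F) in
/-- the group -/
def Gam : Subgroup (Equiv.Perm (Om F)) := Subgroup.closure (Set.range gen)

instance [Countable F] : Countable (Gam F) := by
  have h1 : Countable (FreeGroup (GI F)) := Quot.mk_surjective.countable
  have h2 : (Gam F : Set (Equiv.Perm (Om F))) = Set.range (FreeGroup.lift gen) := by
    rw [Gam, ← FreeGroup.range_lift_eq_closure]; rfl
  have h3 : (Gam F : Set (Equiv.Perm (Om F))).Countable := h2 ▸ Set.countable_range _
  exact h3.to_subtype

/-- generators as elements of the group -/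
def ge (x : GI F) : Gam F := ⟨gen x, Subgroup.subset_closure ⟨x, rfl⟩⟩

lemma Gam_ext {a b : Gam F} (h : ∀ y : Om F, a • y = b • y) : a = b :=
  Subtype.ext (Equiv.ext h)

lemma a_smul (j : ℤ) (c : F) (y : Om F) : ge (.a j c) • y = shA 1 j c y := rfl
lemma z_smul (j : ℤ) (c : F) (y : Om F) : ge (.z j c) • y = shA 2 j c y := rfl
lemma t_smul (j : ℤ) (c : F) (y : Om F) : ge (.t j c) • y = trA j c y := rfl
lemma τ_smul (c : F) (y : Om F) : ge (.τ c) • y = taA c y := rfl
lemma w_smul (y : Om F) : ge (.w : GI F) • y = (y.1 + 1, y.2) := rfl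

macro "rel_tac" : tactic => `(tactic| (
  refine Gam_ext fun y => Prod.ext (by
    simp only [mul_smul, a_smul, z_smul, t_smul, τ_smul, w_smul, shA, trA, taA, one_smul])
    (funext fun i => ?_)
  simp only [mul_smul, a_smul, z_smul, t_smul, τ_smul, w_smul, shA, trA, taA, one_smul, add_assoc,
    Nat.reduceAdd]
  split_ifs <;> first | contradiction | (exfalso; push_cast at *; omega) | ring_nf))

lemma a_one (j : ℤ) : OneP (fun c : F => ge (.a j c)) := fun c d => by rel_tac
lemma z_one (j : ℤ) : OneP (fun c : F => ge (.z j c)) := fun c d => by rel_tac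
lemma t_one (j : ℤ) : OneP (fun c : F => ge (.t j c)) := fun c d => by rel_tac
lemma τ_one : OneP (fun c : F => ge (.τ c)) := fun c d => by rel_tac

lemma Heis.symm {Γ : Type} [Group Γ] {A B : F → Γ} (h : Heis A B) : Heis B A := by
  obtain ⟨Z, hZ, cA, cB, hc⟩ := h
  refine ⟨fun e => Z (-e), fun c d => by simp only [neg_add, hZ _ _], fun e c => cB _ _, fun e c => cA _ _,
    fun c d => ?_⟩
  rw [hc, ← mul_assoc, ← hZ, mul_comm d c, neg_add_cancel]
  have := hZ 0 0
  rw [add_zero] at this
  rw [left_eq_mul.mp this, one_mul]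

lemma heis_aa {j j' : ℤ} (h : (j - 1 - j') % 3 = 0) :
    Heis (fun c : F => ge (.a j c)) (fun c : F => ge (.a j' c)) :=
  ⟨fun e => ge (.z j e), z_one j, fun e c => by unfold Commute SemiconjBy; rel_tac,
    fun e c => by unfold Commute SemiconjBy; rel_tac, fun c d => by rel_tac⟩

lemma rel_at {j m : ℤ} (h : (j - m) % 3 = 0) (c d : F) :
    ge (.a j c) * ge (.t m d) = ge (.t (m + 1) (c * d)) * (ge (.t m d) * ge (.a j c)) := by
  rel_tac

lemma rel_at' {j m : ℤ} (h : (j - m) % 3 ≠ 0) (c d : F) :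
    ge (.a j c) * ge (.t m d) = ge (.t m d) * ge (.a j c) := by
  rel_tac

lemma rel_tt (m m' : ℤ) (c d : F) : ge (.t m c) * ge (.t m' d) = ge (.t m' d) * ge (.t m c) := by
  rel_tac

lemma rel_aw {j j' : ℤ} (h : (j - 1 - j') % 3 = 0) (c : F) :
    ge (.a j c) * ge .w = ge .w * ge (.a j' c) := by
  rel_tac

lemma rel_tw (m : ℤ) (c : F) : ge (.t (m + 1) c) * ge .w = ge .w * ge (.t m c) := by
  rel_tac

lemma heis_at0 : Heis (fun c : F => ge (.a 0 c)) (fun c : F => ge (.t 0 c)) :=
  ⟨fun e => ge (.t (0 + 1) e), t_one _, fun e c => (rel_at' (by norm_num) c e).symm,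
    fun e c => rel_tt _ _ _ _, rel_at (by norm_num)⟩

lemma heis_at {j : ℤ} (h : (j - 0) % 3 ≠ 0) :
    Heis (fun c : F => ge (.a j c)) (fun c : F => ge (.t 0 c)) :=
  ⟨fun _ => 1, fun _ _ => by simp, fun _ _ => Commute.one_left _, fun _ _ => Commute.one_left _,
    fun c d => by rw [one_mul]; exact rel_at' h c d⟩

lemma τ_central (c : F) (s : Gam F) : ge (.τ c) * s = s * ge (.τ c) := by
  obtain ⟨s, hs⟩ := s
  induction hs using Subgroup.closure_induction with
  | mem s hs =>
    obtain ⟨x, rfl⟩ := hs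
    show ge (.τ c) * ge x = ge x * ge (.τ c)
    cases x
    · rel_tac
    · rel_tac
    · rel_tac
    · rel_tac
    · rfl
  | one => exact (Commute.one_right _).eq
  | mul a b ha hb iha ihb =>
    exact (Commute.mul_right (a := ge (.τ c)) (b := ⟨a, ha⟩) (c := ⟨b, hb⟩) iha ihb).eq
  | inv a ha iha => exact (Commute.inv_right (a := ge (.τ c)) (b := ⟨a, ha⟩) iha).eq

/-- the four one-parameter subgroups -/
def gg : Fin 4 → F → Gam F :=
  ![fun c => ge (.a 0 c), fun c => ge (.a 1 c), fun c => ge (.a 2 c), fun c => ge (.t 0 c)]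

lemma t_mem [Fintype F] (m : ℕ) (c : F) : ge (.t m c) ∈ genG (gg (F := F)) := by
  induction m generalizing c with
  | zero => exact gen_mem gg 3 c
  | succ m ih =>
    have key : ∀ j : ℤ, (j - m) % 3 = 0 → ge (.a j c) ∈ genG (gg (F := F)) →
        ge (.t (m + 1 : ℕ) c) ∈ genG (gg (F := F)) := by
      intro j hj ha
      have := rel_at hj c 1
      rw [mul_one, ← mul_inv_eq_iff_eq_mul] at this
      push_cast
      rw [← this]
      exact mul_mem (mul_mem ha (ih 1)) (inv_mem (mul_mem (ih 1) ha))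
    obtain h | h | h : m % 3 = 0 ∨ m % 3 = 1 ∨ m % 3 = 2 := by omega
    · exact key 0 (by omega) (gen_mem gg 0 c)
    · exact key 1 (by omega) (gen_mem gg 1 c)
    · exact key 2 (by omega) (gen_mem gg 2 c)

/-- the concrete data -/
def setup [Fintype F] (hF : 36 ≤ Fintype.card F) : Setup F (Gam F) (Om F) where
  g := gg
  gens := ⟨hF, fun j => by
    fin_cases j
    exacts [a_one 0, a_one 1, a_one 2, t_one 0], fun j j' h => by
    fin_cases j <;> fin_cases j' <;> simp only [Fin.mk_lt_mk, Nat.reduceLT] at h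
    · exact (heis_aa (j := 1) (j' := 0) (by norm_num)).symm
    · exact heis_aa (j := 0) (j' := 2) (by norm_num)
    · exact heis_at0
    · exact (heis_aa (j := 2) (j' := 1) (by norm_num)).symm
    · exact heis_at (j := 1) (by norm_num)
    · exact heis_at (j := 2) (by norm_num)⟩
  r := fun x => ge (.t 0 x) * ge .w
  hrec := fun j c => by
    have h0 : ge (.t 0 (0 : F)) = 1 := by
      have := t_one (F := F) 0 0 0
      rw [add_zero] at this
      exact left_eq_mul.mp this
    fin_cases j
    · refine ⟨Equiv.refl _, fun x => ⟨3, c * x, 2, c, ?_⟩⟩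
      show ge (.a 0 c) * (ge (.t 0 x) * ge .w) =
        ge (.t 0 x) * ge .w * (ge (.t 0 (c * x)) * ge (.a 2 c))
      rw [← mul_assoc, rel_at (by norm_num), ← mul_assoc, rel_tt, mul_assoc, mul_assoc,
        rel_aw (j' := 2) (by norm_num), ← mul_assoc (ge (.t (0 + 1) _)), rel_tw]
      simp only [mul_assoc]
    · refine ⟨Equiv.refl _, fun x => ⟨3, 0, 0, c, ?_⟩⟩
      show ge (.a 1 c) * (ge (.t 0 x) * ge .w) =
        ge (.t 0 x) * ge .w * (ge (.t 0 0) * ge (.a 0 c))
      rw [← mul_assoc, rel_at' (by norm_num), mul_assoc, rel_aw (j' := 0) (by norm_num), h0,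
        one_mul, mul_assoc]
    · refine ⟨Equiv.refl _, fun x => ⟨3, 0, 1, c, ?_⟩⟩
      show ge (.a 2 c) * (ge (.t 0 x) * ge .w) =
        ge (.t 0 x) * ge .w * (ge (.t 0 0) * ge (.a 1 c))
      rw [← mul_assoc, rel_at' (by norm_num), mul_assoc, rel_aw (j' := 1) (by norm_num), h0,
        one_mul, mul_assoc]
    · refine ⟨Equiv.addLeft c, fun x => ⟨3, 0, 3, 0, ?_⟩⟩
      show ge (.t 0 c) * (ge (.t 0 x) * ge .w) =
        ge (.t 0 (c + x)) * ge .w * (ge (.t 0 0) * ge (.t 0 0))
      rw [h0, mul_one, mul_one, ← mul_assoc]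
      exact congrArg (· * ge .w) (t_one 0 c x).symm
  τ := fun c => ge (.τ c)
  τ_one := τ_one
  τ_comm := τ_central
  Y := fun k => {y | y.1 = k ∧ ∀ i, k ≤ i → y.2 i = 0}
  Y_g := fun k j c z hz => by
    have ha : ∀ j : ℤ, (ge (.a j c) • z).1 = k ∧ ∀ i, k ≤ i → (ge (.a j c) • z).2 i = 0 :=
      fun j => ⟨hz.1, fun i hi => by
        simp [a_smul, shA, hz.2 i hi, hz.2 (i + 1) (by omega)]⟩
    fin_cases j
    exacts [ha 0, ha 1, ha 2, ⟨hz.1, fun i hi => by
      show (ge (.t 0 c) • z).2 i = 0
      simp only [t_smul, trA, hz.2 i hi, hz.1]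
      rw [if_neg (by omega), add_zero]⟩]
  Y_r := fun k x z hz => ⟨by simp [mul_smul, t_smul, w_smul, trA, hz.1], fun i hi => by
    simp only [mul_smul, t_smul, w_smul, trA, hz.2 i (by omega), hz.1]
    rw [if_neg (by omega), add_zero]⟩
  Y_τ := fun c z hz => ⟨hz.1, fun i hi => by
    simp only [τ_smul, taA, hz.2 i hi]
    rw [if_neg (by omega), add_zero]⟩
  disj := fun k x x' z hz z' hz' h => by
    have := congrFun (congrArg Prod.snd h) k
    simpa [mul_smul, t_smul, w_smul, trA, hz.1, hz'.1, hz.2 k le_rfl, hz'.2 k le_rfl] using this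
  f := fun l c => ge (.t l c)
  f_mem := t_mem
  f_τ := fun l c z hz => by
    refine Prod.ext rfl (funext fun i => ?_)
    simp only [t_smul, τ_smul, trA, taA, hz.1]
    split_ifs <;> first | (exfalso; push_cast at *; omega) | rfl
  f_triv := fun k l hkl c z hz => by
    refine Prod.ext rfl (funext fun i => ?_)
    simp only [t_smul, trA, hz.1]
    rw [if_neg (by push_cast; omega), add_zero]
  o := (0, 0)
  o_mem := ⟨rfl, fun _ _ => rfl⟩
  o_fix := fun j c => by
    have ha : ∀ j : ℤ, ge (.a j c) • ((0, 0) : Om F) = (0, 0) := fun j =>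
      Prod.ext rfl (funext fun i => by simp [a_smul, shA])
    fin_cases j
    exacts [ha 0, ha 1, ha 2, Prod.ext rfl (funext fun i => by
      show (ge (.t 0 c) • ((0, 0) : Om F)).2 i = 0
      simp only [t_smul, trA]
      rw [if_neg (by omega)]; simp)]
  o_τ := Prod.ext rfl (funext fun i => by simp [mul_smul, t_smul, w_smul, τ_smul, trA, taA])

end Crest.Agent.H2.KEP
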