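import Crest.Agent.H2.KEPGap

/-! Asymptotic representations, their limits, and the robust spectral gap. -/

set_option autoImplicit false
set_option linter.unusedSectionVars false

open scoped InnerProductSpace
open Filter Topology

namespace Crest.Agent.H2.KEP

lemma exists_lim {ι : Type} (ω : Ultrafilter ι) {E : Type} [NormedAddCommGroup E] [ProperSpace E]
    (f : ι → E) (C : ℝ) (hf : ∀ᶠ i in (ω : Filter ι), ‖f i‖ ≤ C) :
    ∃ c, Tendsto f (ω : Filter ι) (𝓝 c) := by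
  obtain ⟨c, -, hc⟩ := (isCompact_closedBall (0 : E) C).ultrafilter_le_nhds (ω.map f) (by
    rw [Ultrafilter.coe_map, le_principal_iff, mem_map]
    filter_upwards [hf] with i hi
    simpa using hi)
  exact ⟨c, hc⟩

lemma tendsto_zero_of_le {ι : Type} {l : Filter ι} {f g : ι → ℝ} (hg : Tendsto g l (𝓝 0))
    (h0 : ∀ i, 0 ≤ f i) (h : ∀ᶠ i in l, f i ≤ g i) : Tendsto f l (𝓝 0) :=
  squeeze_zero' (Eventually.of_forall h0) h hg

lemma eventually_choice {ι : Type} {l : Filter ι} {β : ι → Type} [∀ i, Nonempty (β i)]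
    {r : ∀ i, β i → Prop} (h : ∀ᶠ i in l, ∃ y, r i y) : ∃ f : ∀ i, β i, ∀ᶠ i in l, r i (f i) := by
  classical
  refine ⟨fun i => if hi : ∃ y, r i y then hi.choose else Classical.arbitrary _, ?_⟩
  filter_upwards [h] with i hi
  rw [dif_pos hi]
  exact hi.choose_spec

variable {ι : Type} {Γ : Type} [Group Γ]

/-- asymptotic unitary representations along an ultrafilter -/
structure AsRep (ω : Ultrafilter ι) {B : ι → Type} [∀ i, CStarAlgebra (B i)]
    (v : ∀ i, Γ → B i) : Prop where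
  mul : ∀ g h, Tendsto (fun i => ‖v i g * v i h - v i (g * h)‖) (ω : Filter ι) (𝓝 0)
  star : ∀ g, Tendsto (fun i => ‖star (v i g) - v i g⁻¹‖) (ω : Filter ι) (𝓝 0)
  one : Tendsto (fun i => ‖v i 1 - 1‖) (ω : Filter ι) (𝓝 0)
  bdd : ∀ g, ∀ᶠ i in (ω : Filter ι), ‖v i g‖ ≤ 2

variable {ω : Ultrafilter ι}

lemma AsRep.twist {O : Type} [CStarAlgebra O] {y : ι → Γ → O} (h : AsRep (B := fun _ => O) ω y)
    {B : ι → Type} [∀ i, CStarAlgebra (B i)] (ρ : ∀ i, O →⋆ₐ[ℂ] B i) (L : ∀ i, Γ →* B i)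
    (hL : ∀ i g, Star.star (L i g) = L i g⁻¹) (hn : ∀ i g, ‖L i g‖ ≤ 1)
    (hc : ∀ i g x, L i g * ρ i x = ρ i x * L i g) :
    AsRep ω (fun i g => ρ i (y i g) * L i g) := by
  have hle : ∀ i x g, ‖ρ i x * L i g‖ ≤ ‖x‖ := fun i x g =>
    (norm_mul_le _ _).trans ((mul_le_of_le_one_right (norm_nonneg _) (hn i g)).trans
      (NonUnitalStarAlgHom.norm_apply_le (ρ i) x))
  refine ⟨fun g g' => ?_, fun g => ?_, ?_, fun g => ?_⟩
  · refine tendsto_zero_of_le (h.mul g g') (fun _ => norm_nonneg _) (Eventually.of_forall fun i => ?_)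
    refine le_trans (le_of_eq ?_) (hle i _ (g * g'))
    congr 1
    rw [map_sub, sub_mul, map_mul (ρ i), map_mul (L i), mul_assoc, ← mul_assoc (L i g), hc]
    simp only [mul_assoc]
  · refine tendsto_zero_of_le (h.star g) (fun _ => norm_nonneg _) (Eventually.of_forall fun i => ?_)
    refine le_trans (le_of_eq ?_) (hle i _ g⁻¹)
    congr 1
    rw [star_mul, hL, ← map_star, hc, map_sub, sub_mul]
  · refine tendsto_zero_of_le h.one (fun _ => norm_nonneg _) (Eventually.of_forall fun i => ?_)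
    refine le_trans (le_of_eq ?_) (hle i _ 1)
    congr 1
    simp
  · filter_upwards [h.bdd g] with i hi
    exact (hle i _ g).trans hi

lemma AsRep.star_mul {B : ι → Type} [∀ i, CStarAlgebra (B i)] {v : ∀ i, Γ → B i}
    (h : AsRep ω v) (g g' : Γ) :
    Tendsto (fun i => ‖Star.star (v i g) * v i g' - v i (g⁻¹ * g')‖) (ω : Filter ι) (𝓝 0) := by
  have h1 := ((h.star g).mul_const 2).add (h.mul g⁻¹ g')
  simp only [zero_mul, zero_add] at h1
  refine tendsto_zero_of_le h1 (fun _ => norm_nonneg _) ?_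
  filter_upwards [h.bdd g'] with i hi
  have e : Star.star (v i g) * v i g' - v i (g⁻¹ * g') =
      (Star.star (v i g) - v i g⁻¹) * v i g' + (v i g⁻¹ * v i g' - v i (g⁻¹ * g')) := by
    noncomm_ring
  rw [e]
  refine (norm_add_le _ _).trans (add_le_add_left ?_ _)
  exact (norm_mul_le _ _).trans (mul_le_mul_of_nonneg_left hi (norm_nonneg _))

lemma norm_sq_sum_c {W : Type} [NormedAddCommGroup W] [InnerProductSpace ℂ W] {α : Type}
    (s : Finset α) (c : α → ℝ) (x : α → W) :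
    ‖∑ g ∈ s, c g • x g‖ ^ 2 = ∑ g ∈ s, ∑ h ∈ s, c g * c h * (⟪x g, x h⟫_ℂ).re := by
  rw [← inner_self_eq_norm_sq (𝕜 := ℂ), sum_inner]
  simp only [inner_sum, ← Complex.coe_smul, inner_smul_left, inner_smul_right, RCLike.re_to_complex,
    Complex.re_sum, Complex.conj_ofReal, Complex.re_ofReal_mul]
  exact Finset.sum_congr rfl fun g _ => Finset.sum_congr rfl fun h _ => by ring

lemma norm_sq_sum_r {V : Type} [SeminormedAddCommGroup V] [InnerProductSpace ℝ V] {α : Type}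
    (s : Finset α) (c : α → ℝ) (x : α → V) :
    ‖∑ g ∈ s, c g • x g‖ ^ 2 = ∑ g ∈ s, ∑ h ∈ s, c g * c h * ⟪x g, x h⟫_ℝ := by
  rw [← real_inner_self_eq_norm_sq, sum_inner]
  simp only [inner_sum, real_inner_smul_left, real_inner_smul_right]
  exact Finset.sum_congr rfl fun g _ => Finset.sum_congr rfl fun h _ => by ring

lemma tendsto_of_sub {l : Filter ι} {f g : ι → ℝ} {c : ℝ} (hg : Tendsto g l (𝓝 c))
    (h : Tendsto (fun i => |f i - g i|) l (𝓝 0)) : Tendsto f l (𝓝 c) := by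
  have := hg.add ((tendsto_zero_iff_abs_tendsto_zero _).2 h)
  simpa using this

variable {W : ι → Type} [∀ i, NormedAddCommGroup (W i)] [∀ i, InnerProductSpace ℂ (W i)]
  [∀ i, CompleteSpace (W i)] {v : ∀ i, Γ → (W i →L[ℂ] W i)}

theorem AsRep.limit (h : AsRep ω v) (T : ∀ i, W i) (hT : ∀ᶠ i in (ω : Filter ι), ‖T i‖ = 1) :
    ∃ (V : Type) (_ : SeminormedAddCommGroup V) (_ : InnerProductSpace ℝ V)
      (U : Γ →* Module.End ℝ V) (ξ : V), Isom U ∧ ‖ξ‖ = 1 ∧
      (∀ z : Γ →₀ ℝ, Tendsto (fun i => ‖Finsupp.linearCombination ℝ (fun g => v i g (T i)) z‖)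
        (ω : Filter ι) (𝓝 ‖Finsupp.linearCombination ℝ (fun g => U g ξ) z‖)) ∧
      (∀ (s : Γ) (z : Γ →₀ ℝ), Tendsto (fun i =>
        ‖v i s (Finsupp.linearCombination ℝ (fun g => v i g (T i)) z) -
          Finsupp.linearCombination ℝ (fun g => v i g (T i)) z‖)
        (ω : Filter ι) (𝓝 ‖U s (Finsupp.linearCombination ℝ (fun g => U g ξ) z) -
          Finsupp.linearCombination ℝ (fun g => U g ξ) z‖)) ∧
      (∀ s : Γ, Tendsto (fun i => ‖v i s (T i) - T i‖) (ω : Filter ι) (𝓝 ‖U s ξ - ξ‖)) := by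
  classical
  have hop : ∀ (D : ∀ i, W i →L[ℂ] W i), Tendsto (fun i => ‖D i‖) (ω : Filter ι) (𝓝 0) →
      Tendsto (fun i => ‖D i (T i)‖) (ω : Filter ι) (𝓝 0) := by
    intro D hD
    refine tendsto_zero_of_le hD (fun _ => norm_nonneg _) ?_
    filter_upwards [hT] with i hi
    simpa [hi] using (D i).le_opNorm (T i)
  have hex : ∀ g, ∃ c, Tendsto (fun i => (⟪T i, v i g (T i)⟫_ℂ).re) (ω : Filter ι) (𝓝 c) := by
    intro g
    refine exists_lim ω _ 2 ?_
    filter_upwards [hT, h.bdd g] with i hi h2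
    refine (Complex.abs_re_le_norm _).trans ((norm_inner_le_norm _ _).trans ?_)
    have := (v i g).le_opNorm (T i)
    rw [hi] at this ⊢
    linarith
  choose L hL using hex
  have hψ : ∀ g g', Tendsto (fun i => (⟪v i g (T i), v i g' (T i)⟫_ℂ).re) (ω : Filter ι)
      (𝓝 (L (g⁻¹ * g'))) := by
    intro g g'
    refine tendsto_of_sub (hL _) (tendsto_zero_of_le (hop _ (h.star_mul g g'))
      (fun _ => abs_nonneg _) ?_)
    filter_upwards [hT] with i hi
    rw [← Complex.sub_re, ← ContinuousLinearMap.adjoint_inner_right, ← inner_sub_right]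
    refine (Complex.abs_re_le_norm _).trans ((norm_inner_le_norm _ _).trans ?_)
    rw [hi, one_mul]
    rfl
  obtain ⟨V, _, _, U, ξ, hU, hξ⟩ := kernel_rep (fun g g' => L (g⁻¹ * g'))
    (fun g g' => tendsto_nhds_unique (hψ g g') ((hψ g' g).congr fun i => inner_re_symm (𝕜 := ℂ) _ _))
    (fun s c => ge_of_tendsto' (tendsto_finsetSum s fun g _ => tendsto_finsetSum s fun g' _ =>
      (hψ g g').const_mul (c g * c g')) fun i => by
        rw [← norm_sq_sum_c]; positivity)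
    (fun s g g' => by simp [mul_assoc])
  have h1 : ∀ z : Γ →₀ ℝ, Tendsto (fun i => ‖Finsupp.linearCombination ℝ (fun g => v i g (T i)) z‖)
        (ω : Filter ι) (𝓝 ‖Finsupp.linearCombination ℝ (fun g => U g ξ) z‖) := by
    intro z
    have e1 := tendsto_finsetSum z.support fun g _ => tendsto_finsetSum z.support fun g' _ =>
      (hψ g g').const_mul (z g * z g')
    simp only [← norm_sq_sum_c, ← hξ, ← norm_sq_sum_r] at e1
    have e2 := e1.sqrt
    simp only [Real.sqrt_sq (norm_nonneg _)] at e2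
    exact e2
  have h2 : ∀ (s : Γ) (z : Γ →₀ ℝ), Tendsto (fun i =>
      ‖v i s (Finsupp.linearCombination ℝ (fun g => v i g (T i)) z) -
        Finsupp.linearCombination ℝ (fun g => v i g (T i)) (z.mapDomain (s * ·))‖)
      (ω : Filter ι) (𝓝 0) := by
    intro s z
    induction z using Finsupp.induction_linear with
    | zero => simp
    | add a b ha hb =>
      refine tendsto_zero_of_le (by have := ha.add hb; rwa [add_zero] at this)
        (fun _ => norm_nonneg _)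
        (Eventually.of_forall fun i => ?_)
      rw [Finsupp.mapDomain_add, map_add, map_add, map_add]
      refine le_trans (le_of_eq ?_) (norm_add_le _ _)
      congr 1; abel
    | single g a =>
      have := (hop _ (h.mul s g)).const_mul ‖a‖
      rw [mul_zero] at this
      refine this.congr fun i => ?_
      rw [Finsupp.mapDomain_single, Finsupp.linearCombination_single,
        Finsupp.linearCombination_single, ContinuousLinearMap.map_smul_of_tower, ← smul_sub,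
        norm_smul]
      rfl
  have h3 : ∀ (s : Γ) (z : Γ →₀ ℝ), U s (Finsupp.linearCombination ℝ (fun g => U g ξ) z) =
      Finsupp.linearCombination ℝ (fun g => U g ξ) (z.mapDomain (s * ·)) := by
    intro s z
    induction z using Finsupp.induction_linear with
    | zero => simp
    | add a b ha hb => rw [Finsupp.mapDomain_add, map_add, map_add, map_add, ha, hb]
    | single g a => simp
  have h4 := hop _ h.one
  refine ⟨V, inferInstance, inferInstance, U, ξ, hU, ?_, h1, fun s z => ?_, fun s => ?_⟩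
  · have e1 := h1 (Finsupp.single 1 1)
    simp only [Finsupp.linearCombination_single, one_smul, map_one, Module.End.one_apply] at e1
    refine tendsto_nhds_unique e1 (tendsto_of_sub (g := fun _ => 1) tendsto_const_nhds
      (tendsto_zero_of_le h4 (fun _ => abs_nonneg _) ?_))
    filter_upwards [hT] with i hi
    rw [← hi]
    exact abs_norm_sub_norm_le _ _
  · rw [h3, ← map_sub]
    refine tendsto_of_sub (h1 _) (tendsto_zero_of_le (h2 s z) (fun _ => abs_nonneg _)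
      (Eventually.of_forall fun i => ?_))
    refine (abs_norm_sub_norm_le _ _).trans (le_of_eq ?_)
    congr 1
    rw [map_sub]; abel
  · have e1 := h1 (Finsupp.single s 1 - Finsupp.single 1 1)
    simp only [map_sub, Finsupp.linearCombination_single, one_smul, map_one,
      Module.End.one_apply] at e1
    refine tendsto_of_sub e1 (tendsto_zero_of_le h4 (fun _ => abs_nonneg _)
      (Eventually.of_forall fun i => ?_))
    refine (abs_norm_sub_norm_le _ _).trans (le_of_eq ?_)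
    congr 1
    simp

variable {F : Type} [Field F] [Fintype F] {g : Fin 4 → F → Γ}

/-- energy for approximate representations -/
noncomputable def En (g : Fin 4 → F → Γ) {W : Type} [NormedAddCommGroup W] [InnerProductSpace ℂ W]
    (v : Γ → (W →L[ℂ] W)) (x : W) : ℝ :=
  (2 * Fintype.card F : ℝ)⁻¹ * ∑ j, ∑ c, ‖v (g j c) x - x‖ ^ 2

lemma en_eq_sum {V : Type} [SeminormedAddCommGroup V] [InnerProductSpace ℝ V]
    {U : Γ →* Module.End ℝ V} (hU : Isom U) (hg : Gens g) (x : V) :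
    en U g x = (2 * Fintype.card F : ℝ)⁻¹ * ∑ j, ∑ c, ‖U (g j c) x - x‖ ^ 2 := by
  simp only [sum_norm_sq hU (hg.oneP _), ← Finset.mul_sum, en]
  have := (card_pos' (F := F)).ne'
  field_simp

theorem AsRep.robust_en (h : AsRep ω v) (hg : Gens g) (K : ∀ i, ℕ → Submodule ℂ (W i))
    (hK : ∀ i k j c x, x ∈ K i k → v i (g j c) x ∈ K i k) {η₀ η₁ : ℝ} (h0 : 0 < η₀)
    (h1 : η₁ < 1 / 2) :
    ∀ᶠ i in (ω : Filter ι), ∀ k, (∃ x ∈ K i k, ‖x‖ = 1 ∧ En g (v i) x ≤ η₁) →
      ∃ x ∈ K i k, ‖x‖ = 1 ∧ En g (v i) x ≤ η₀ := by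
  classical
  by_contra hcon
  rw [← Ultrafilter.eventually_not] at hcon
  set m := η₀ * (1 / 2 - η₁) with hm
  have hm0 : 0 < m := mul_pos h0 (by linarith)
  have hch : ∀ᶠ i in (ω : Filter ι), ∃ p : ℕ × ℝ × W i, η₀ ≤ p.2.1 ∧ p.2.1 ≤ η₁ ∧
      (∀ x ∈ K i p.1, p.2.1 * ‖x‖ ^ 2 ≤ En g (v i) x) ∧ p.2.2 ∈ K i p.1 ∧ ‖p.2.2‖ = 1 ∧
      En g (v i) p.2.2 ≤ p.2.1 + m ^ 2 / 128 := by
    filter_upwards [hcon] with i hi
    push Not at hi
    obtain ⟨k, ⟨x, hx, hx1, hx2⟩, hk⟩ := hi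
    obtain ⟨ν, e1, e2⟩ := exists_near_inf (K i k : Set (W i))
      (fun c x hx => (K i k).smul_of_tower_mem c hx) (En g (v i)) (fun c x => by
        simp only [En, ContinuousLinearMap.map_smul_of_tower, ← smul_sub, norm_smul, mul_pow,
          Real.norm_eq_abs, sq_abs, ← Finset.mul_sum]
        ring) (fun x => by unfold En; positivity) ⟨x, hx, by rw [hx1]; norm_num⟩
    obtain ⟨T, hT, hT1, hT2⟩ := e2 (m ^ 2 / 128) (by positivity)
    refine ⟨(k, ν, T), ?_, ?_, e1, hT, hT1, hT2.le⟩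
    · refine le_of_forall_pos_le_add fun δ hδ => ?_
      obtain ⟨T', hT', hT1', hT2'⟩ := e2 δ hδ
      exact ((hk T' hT' hT1').trans hT2').le
    · have := e1 x hx
      rw [hx1] at this
      show ν ≤ η₁
      linarith
  obtain ⟨p, hp⟩ := eventually_choice hch
  obtain ⟨ν, hν⟩ := exists_lim ω (fun i => (p i).2.1) (|η₀| + |η₁|) (by
    filter_upwards [hp] with i hi
    rw [Real.norm_eq_abs, abs_le]
    constructor
    · linarith [hi.1, neg_abs_le η₀, abs_nonneg η₁]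
    · linarith [hi.2.1, le_abs_self η₁, abs_nonneg η₀])
  have hν0 : η₀ ≤ ν := ge_of_tendsto hν (hp.mono fun i hi => hi.1)
  have hν1 : ν ≤ η₁ := le_of_tendsto hν (hp.mono fun i hi => hi.2.1)
  obtain ⟨V, _, _, U, ξ, hU, hξ, l1, l2, l3⟩ := h.limit (fun i => (p i).2.2)
    (hp.mono fun i hi => hi.2.2.2.2.1)
  have key := gap_quant hU hg hξ (ν := ν) (δ := m ^ 2 / 128) (by linarith) (by linarith) ?_ ?_
  · have : m ≤ ν * (1 / 2 - ν) := mul_le_mul hν0 (by linarith) (by linarith) (by linarith)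
    nlinarith
  · intro t
    let z : Γ →₀ ℝ := Finsupp.single (g 0 0) 1 - t • ∑ j, (Finsupp.single (g 0 0) 1 -
      (Fintype.card F : ℝ)⁻¹ • ∑ c, Finsupp.single (g j c) 1)
    have hz : Finsupp.linearCombination ℝ (fun s => U s ξ) z = ξ - t • lap U g ξ := by
      simp only [z, lap, av, (hg.oneP 0).zero, map_sum, map_sub, map_smul,
        Finsupp.linearCombination_single, one_smul, map_one, Module.End.one_apply,
        LinearMap.sum_apply, LinearMap.sub_apply, LinearMap.smul_apply]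
    have e1 := (hν.mul ((l1 z).pow 2))
    have e2 := (tendsto_finsetSum Finset.univ fun j _ => tendsto_finsetSum Finset.univ fun c _ =>
      (l2 (g j c) z).pow 2).const_mul (2 * Fintype.card F : ℝ)⁻¹
    rw [hz] at e1 e2
    rw [en_eq_sum hU hg]
    refine le_of_tendsto_of_tendsto e1 e2 ?_
    filter_upwards [hp] with i hi
    refine hi.2.2.1 _ ?_
    have hT := hi.2.2.2.1
    simp only [z, map_sub, map_smul, map_sum, Finsupp.linearCombination_single, one_smul]
    exact sub_mem (hK _ _ _ _ _ hT) (Submodule.smul_of_tower_mem _ _ (sum_mem fun j _ =>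
      sub_mem (hK _ _ _ _ _ hT) (Submodule.smul_of_tower_mem _ _ (sum_mem fun c _ =>
        hK _ _ _ _ _ hT))))
  · have e2 := (tendsto_finsetSum Finset.univ fun j _ => tendsto_finsetSum Finset.univ fun c _ =>
      (l3 (g j c)).pow 2).const_mul (2 * Fintype.card F : ℝ)⁻¹
    rw [en_eq_sum hU hg]
    refine le_of_tendsto_of_tendsto e2 (hν.add_const _) ?_
    filter_upwards [hp] with i hi
    exact hi.2.2.2.2.2

/-- almost invariant unit vectors in a subspace -/
def AI (g : Fin 4 → F → Γ) {W : Type} [NormedAddCommGroup W] [InnerProductSpace ℂ W]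
    (v : Γ → (W →L[ℂ] W)) (K : Submodule ℂ W) (η : ℝ) : Prop :=
  ∃ x ∈ K, ‖x‖ = 1 ∧ ∀ j c, ‖v (g j c) x - x‖ ≤ η

lemma AI.of_le {W : Type} [NormedAddCommGroup W] [InnerProductSpace ℂ W]
    {v : Γ → (W →L[ℂ] W)} {K : Submodule ℂ W} {x : W} (hx : x ∈ K) {a b η : ℝ} (ha : 0 < a)
    (h1 : a ≤ ‖x‖) (h2 : ∀ j c, ‖v (g j c) x - x‖ ≤ b) (h3 : b ≤ η * a) : AI g v K η := by
  have hx0 : 0 < ‖x‖ := ha.trans_le h1
  refine ⟨((‖x‖⁻¹ : ℝ) : ℂ) • x, K.smul_mem _ hx, ?_, fun j c => ?_⟩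
  · rw [norm_smul, Complex.norm_real, norm_inv, norm_norm, inv_mul_cancel₀ hx0.ne']
  · rw [map_smul, ← smul_sub, norm_smul, Complex.norm_real, norm_inv, norm_norm,
      inv_mul_le_iff₀ hx0]
    have h4 : 0 ≤ η := by
      have := (norm_nonneg _).trans ((h2 j c).trans h3)
      exact nonneg_of_mul_nonneg_left this ha
    nlinarith [h2 j c]

theorem AsRep.robust (h : AsRep ω v) (hg : Gens g) (K : ∀ i, ℕ → Submodule ℂ (W i))
    (hK : ∀ i k j c x, x ∈ K i k → v i (g j c) x ∈ K i k) {η : ℝ} (h0 : 0 < η) :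
    ∀ᶠ i in (ω : Filter ι), ∀ k, AI g (v i) (K i k) (1 / 3) → AI g (v i) (K i k) η := by
  have hn := card_pos' (F := F)
  filter_upwards [h.robust_en hg K hK (η₀ := (2 * Fintype.card F : ℝ)⁻¹ * η ^ 2) (η₁ := 2 / 9)
    (by positivity) (by norm_num)] with i hi k ⟨x, hx, hx1, hx2⟩
  obtain ⟨y, hy, hy1, hy2⟩ := hi k ⟨x, hx, hx1, by
    have : ∑ j, ∑ c, ‖v i (g j c) x - x‖ ^ 2 ≤ ∑ _j : Fin 4, ∑ _c : F, (1 / 3 : ℝ) ^ 2 :=
      Finset.sum_le_sum fun j _ => Finset.sum_le_sum fun c _ =>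
        pow_le_pow_left₀ (norm_nonneg _) (hx2 j c) 2
    simp only [Finset.sum_const, Finset.card_univ, Fintype.card_fin, nsmul_eq_mul] at this
    unfold En
    rw [inv_mul_le_iff₀ (by positivity)]
    push_cast at this
    linarith⟩
  refine ⟨y, hy, hy1, fun j c => ?_⟩
  unfold En at hy2
  have e1 := le_of_mul_le_mul_left hy2 (by positivity)
  have e2 : ‖v i (g j c) y - y‖ ^ 2 ≤ ∑ j, ∑ c, ‖v i (g j c) y - y‖ ^ 2 :=
    (Finset.single_le_sum (f := fun c => ‖v i (g j c) y - y‖ ^ 2) (fun _ _ => sq_nonneg _)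
      (Finset.mem_univ c)).trans (Finset.single_le_sum
        (f := fun j => ∑ c, ‖v i (g j c) y - y‖ ^ 2)
        (fun _ _ => Finset.sum_nonneg fun _ _ => sq_nonneg _) (Finset.mem_univ j))
  exact abs_le_of_sq_le_sq' (e2.trans e1) h0.le |>.2

/-- the recursion relation -/
def Rec (g : Fin 4 → F → Γ) (r : F → Γ) : Prop :=
  ∀ j c, ∃ σ : F ≃ F, ∀ x, ∃ j₁ c₁ j₂ c₂, g j c * r x = r (σ x) * (g j₁ c₁ * g j₂ c₂)

theorem AsRep.propagate (h : AsRep ω v) {r : F → Γ} (hr : Rec g r) {δ : ℝ} (hδ : 0 < δ) :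
    ∀ᶠ i in (ω : Filter ι), ∀ (T : W i) (η : ℝ), ‖T‖ = 1 → (∀ j c, ‖v i (g j c) T - T‖ ≤ η) →
      ∀ j c, ‖v i (g j c) (∑ x, v i (r x) T) - ∑ x, v i (r x) T‖ ≤
        Fintype.card F * (6 * η + δ) := by
  choose σ j₁ c₁ j₂ c₂ hσ using hr
  have key : ∀ j c x, ∀ᶠ i in (ω : Filter ι), ‖v i (g j c) * v i (r x) -
      v i (r (σ j c x)) * (v i (g (j₁ j c x) (c₁ j c x)) * v i (g (j₂ j c x) (c₂ j c x)))‖ ≤ δ := by
    intro j c x
    set a := g (j₁ j c x) (c₁ j c x)
    set b := g (j₂ j c x) (c₂ j c x)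
    have e1 := ((h.mul (g j c) (r x)).add (h.mul (r (σ j c x)) (a * b))).add
      ((h.mul a b).const_mul 2)
    simp only [add_zero, mul_zero] at e1
    filter_upwards [e1.eventually (ge_mem_nhds hδ), h.bdd (r (σ j c x))] with i hi h2
    refine le_trans ?_ hi
    have e2 : v i (g j c) * v i (r x) - v i (r (σ j c x)) * (v i a * v i b) =
        (v i (g j c) * v i (r x) - v i (g j c * r x)) -
        (v i (r (σ j c x)) * v i (a * b) - v i (r (σ j c x) * (a * b))) -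
        v i (r (σ j c x)) * (v i a * v i b - v i (a * b)) := by
      rw [hσ j c x, mul_sub]; abel
    rw [e2]
    refine (norm_sub_le _ _).trans (add_le_add (norm_sub_le _ _) ?_)
    exact (norm_mul_le _ _).trans (mul_le_mul_of_nonneg_right h2 (norm_nonneg _))
  have k1 := (eventually_all.2 fun j => eventually_all.2 fun c => eventually_all.2 fun x =>
    key j c x)
  have k2 := (eventually_all.2 fun x => h.bdd (r x))
  have k3 := (eventually_all.2 fun j => eventually_all.2 fun c => h.bdd (g j c))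
  filter_upwards [k1, k2, k3] with i h1 h2 h3 T η hT hη j c
  rw [map_sum, ← Equiv.sum_comp (σ j c) (fun x => v i (r x) T), ← Finset.sum_sub_distrib]
  refine (norm_sum_le _ _).trans ?_
  rw [← Finset.card_univ, ← nsmul_eq_mul, ← Finset.sum_const]
  refine Finset.sum_le_sum fun x _ => ?_
  set a := g (j₁ j c x) (c₁ j c x)
  set b := g (j₂ j c x) (c₂ j c x)
  have e2 : v i (g j c) (v i (r x) T) - v i (r (σ j c x)) T =
      (v i (g j c) * v i (r x) - v i (r (σ j c x)) * (v i a * v i b)) T +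
      v i (r (σ j c x)) (v i a (v i b T - T) + (v i a T - T)) := by
    simp
  rw [e2]
  have e3 := (v i (g j c) * v i (r x) - v i (r (σ j c x)) * (v i a * v i b)).le_opNorm T
  have e4 := (v i (r (σ j c x))).le_opNorm (v i a (v i b T - T) + (v i a T - T))
  have e5 := (v i a).le_opNorm (v i b T - T)
  have e6 := norm_add_le (v i a (v i b T - T)) (v i a T - T)
  have e7 : ‖v i a T - T‖ ≤ η := hη _ _
  have e8 : ‖v i b T - T‖ ≤ η := hη _ _
  have e9 : ‖v i a‖ * ‖v i b T - T‖ ≤ 2 * η :=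
    mul_le_mul (h3 _ _) e8 (norm_nonneg _) (by norm_num)
  have e10 : ‖v i (r (σ j c x))‖ * ‖v i a (v i b T - T) + (v i a T - T)‖ ≤ 2 * (3 * η) :=
    mul_le_mul (h2 _) (by linarith) (norm_nonneg _) (by norm_num)
  rw [hT, mul_one] at e3
  refine (norm_add_le _ _).trans ?_
  linarith [h1 j c x]

lemma AsRep.lower (h : AsRep ω v) (s : Γ) :
    ∀ᶠ i in (ω : Filter ι), ∀ T : W i, ‖T‖ = 1 → 1 / 3 ≤ ‖v i s T‖ := by
  have e1 := (h.mul s⁻¹ s).add h.one
  rw [add_zero, inv_mul_cancel] at e1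
  filter_upwards [e1.eventually (ge_mem_nhds (show (0 : ℝ) < 1 / 3 by norm_num)), h.bdd s⁻¹]
    with i hi h2 T hT
  have e2 : T = v i s⁻¹ (v i s T) - ((v i s⁻¹ * v i s - v i 1) T + (v i 1 - 1) T) := by simp
  have e3 := (v i s⁻¹).le_opNorm (v i s T)
  have e4 := (v i s⁻¹ * v i s - v i 1).le_opNorm T
  have e5 := (v i 1 - 1).le_opNorm T
  have e6 := norm_sub_le (v i s⁻¹ (v i s T)) ((v i s⁻¹ * v i s - v i 1) T + (v i 1 - 1) T)
  have e7 := norm_add_le ((v i s⁻¹ * v i s - v i 1) T) ((v i 1 - 1) T)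
  have e8 := mul_le_mul_of_nonneg_right h2 (norm_nonneg (v i s T))
  rw [← e2] at e6
  rw [hT] at e4 e5 e6
  linarith

theorem AsRep.all_levels (h : AsRep ω v) (hg : Gens g) (K : ∀ i, ℕ → Submodule ℂ (W i))
    (hK : ∀ i k j c x, x ∈ K i k → v i (g j c) x ∈ K i k) {r : F → Γ} (hr : Rec g r)
    (hl1 : ∀ i k T, T ∈ K i k → ∑ x, v i (r x) T ∈ K i (k + 1))
    (hl2 : ∀ i k T, T ∈ K i k → ‖v i (r 0) T‖ ≤ ‖∑ x, v i (r x) T‖)
    (hstart : ∀ᶠ i in (ω : Filter ι), AI g (v i) (K i 0) (1 / 3)) {η : ℝ} (hη : 0 < η) :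
    ∀ᶠ i in (ω : Filter ι), ∀ k, AI g (v i) (K i k) η := by
  have hn := card_pos' (F := F)
  have hδ : (0 : ℝ) < 1 / (63 * Fintype.card F) := by positivity
  filter_upwards [h.robust hg K hK hη, h.robust hg K hK hδ, h.propagate hr hδ, h.lower (r 0),
    hstart] with i h1 h2 h3 h4 h5 k
  refine h1 k ?_
  induction k with
  | zero => exact h5
  | succ k ih =>
    obtain ⟨T, hT, hT1, hT2⟩ := h2 k ih
    refine AI.of_le (hl1 i k T hT) (a := 1 / 3) (by norm_num) ((h4 T hT1).trans (hl2 i k T hT))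
      (h3 T _ hT1 hT2) (le_of_eq ?_)
    field_simp
    norm_num

lemma start_geom {V : Type} [SeminormedAddCommGroup V] [InnerProductSpace ℝ V] {S : Type}
    [Fintype S] (x : S → V) (hx : ∀ s, ‖x s‖ = 1) (y : V) (hy : ‖y‖ = 1) (s₀ : S) {η R : ℝ}
    (h0 : 0 < η) (h1 : η ≤ 1 / 8) (hR : R = 4 * Fintype.card S / η ^ 2)
    (h : R * Fintype.card S ≤ ‖R • ∑ s, x s - y‖) :
    (∀ s, ‖x s - x s₀‖ ≤ η) ∧ 3 / 2 ≤ ‖y - x s₀‖ ^ 2 := by
  set m : ℝ := (Fintype.card S : ℝ) with hm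
  have hm1 : 1 ≤ m := by
    have : Nonempty S := ⟨s₀⟩
    rw [hm]; exact_mod_cast Fintype.card_pos
  have hRη : R * η ^ 2 = 4 * m := by rw [hR]; field_simp
  have hR4 : 4 ≤ R := by
    by_contra hlt
    push Not at hlt
    nlinarith
  set u := ∑ s, x s with hu
  have hu1 : ‖u‖ ≤ m := by
    refine (norm_sum_le _ _).trans (le_of_eq ?_)
    simp [hx, hm]
  have hu2 : R * m ≤ R * ‖u‖ + 1 := by
    refine h.trans ((norm_sub_le _ _).trans (le_of_eq ?_))
    rw [norm_smul, hy, Real.norm_eq_abs, abs_of_nonneg (by linarith)]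
  have hu3 : 2 * R * ⟪u, y⟫_ℝ ≤ 1 := by
    have e1 := pow_le_pow_left₀ (by positivity) h 2
    rw [norm_sub_sq_real, norm_smul, real_inner_smul_left, hy, Real.norm_eq_abs,
      abs_of_nonneg (by linarith)] at e1
    have e2 : (R * ‖u‖) ^ 2 ≤ (R * m) ^ 2 :=
      pow_le_pow_left₀ (by positivity) (mul_le_mul_of_nonneg_left hu1 (by linarith)) 2
    linarith
  have hsum : ∑ s, ∑ s', ‖x s - x s'‖ ^ 2 = 2 * m ^ 2 - 2 * ‖u‖ ^ 2 := by
    simp only [norm_sub_sq_real, hx, Finset.sum_add_distrib, Finset.sum_sub_distrib,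
      ← Finset.mul_sum, ← inner_sum, ← sum_inner, ← hu, real_inner_self_eq_norm_sq,
      Finset.sum_const, Finset.card_univ, nsmul_eq_mul, ← hm]
    ring
  have hA : ∀ s, ‖x s - x s₀‖ ≤ η := by
    intro s
    have e2 : ‖x s - x s₀‖ ^ 2 ≤ ∑ s, ∑ s', ‖x s - x s'‖ ^ 2 :=
      (Finset.single_le_sum (f := fun s' => ‖x s - x s'‖ ^ 2) (fun _ _ => sq_nonneg _)
        (Finset.mem_univ s₀)).trans (Finset.single_le_sum
          (f := fun s => ∑ s', ‖x s - x s'‖ ^ 2)
          (fun _ _ => Finset.sum_nonneg fun _ _ => sq_nonneg _) (Finset.mem_univ s))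
    refine abs_le_of_sq_le_sq' (e2.trans ?_) h0.le |>.2
    rw [hsum]
    have e3 : R * (2 * m ^ 2 - 2 * ‖u‖ ^ 2) ≤ R * η ^ 2 := by
      rw [hRη]
      have : R * (2 * m ^ 2 - 2 * ‖u‖ ^ 2) = 2 * (R * m - R * ‖u‖) * (m + ‖u‖) := by ring
      rw [this]
      nlinarith [norm_nonneg u]
    exact le_of_mul_le_mul_left e3 (by linarith)
  refine ⟨hA, ?_⟩
  have e1 : m * ⟪x s₀, y⟫_ℝ ≤ ⟪u, y⟫_ℝ + m * η := by
    have e2 : ∀ s, ⟪x s₀, y⟫_ℝ ≤ ⟪x s, y⟫_ℝ + η := by
      intro s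
      have := real_inner_le_norm (x s₀ - x s) y
      rw [inner_sub_left, hy, mul_one, norm_sub_rev] at this
      linarith [hA s]
    have := Finset.sum_le_sum fun s (_ : s ∈ Finset.univ) => e2 s
    simpa [Finset.sum_add_distrib, ← sum_inner, ← hu, ← hm] using this
  have e3 : ⟪u, y⟫_ℝ ≤ 1 / 8 := by nlinarith
  have e4 : ⟪x s₀, y⟫_ℝ ≤ 1 / 4 := by nlinarith
  rw [norm_sub_rev, norm_sub_sq_real, hx, hy]
  linarith

theorem AsRep.start (h : AsRep ω v) (hg : Gens g) (w f : Γ) {η R : ℝ} (h0 : 0 < η)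
    (h1 : η ≤ 1 / 8) (hR : R = 4 * Fintype.card (Fin 4 × F) / η ^ 2) (ξ : ∀ i, W i)
    (hξ : ∀ i, ‖ξ i‖ = 1)
    (hbig : ∀ δ > 0, ∀ᶠ i in (ω : Filter ι), R * Fintype.card (Fin 4 × F) - δ ≤
      ‖R • ∑ s : Fin 4 × F, v i (g s.1 s.2) (ξ i) - v i (w⁻¹ * f * w) (ξ i)‖) :
    ∀ᶠ i in (ω : Filter ι), (∀ j c, ‖v i (g j c) (ξ i) - ξ i‖ ≤ 2 * η) ∧
      1 ≤ ‖v i (f * w) (ξ i) - v i w (ξ i)‖ := by
  obtain ⟨V, _, _, U, ζ, hU, hζ, l1, -, l3⟩ := h.limit ξ (Eventually.of_forall hξ)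
  have e1 := l1 (R • ∑ s : Fin 4 × F, Finsupp.single (g s.1 s.2) 1 -
    Finsupp.single (w⁻¹ * f * w) 1)
  simp only [map_sub, map_smul, map_sum, Finsupp.linearCombination_single, one_smul] at e1
  have e2 : R * Fintype.card (Fin 4 × F) ≤
      ‖R • ∑ s : Fin 4 × F, U (g s.1 s.2) ζ - U (w⁻¹ * f * w) ζ‖ :=
    le_of_forall_pos_le_add fun δ hδ => by
      have := ge_of_tendsto e1 (hbig δ hδ)
      linarith
  obtain ⟨e3, e4⟩ := start_geom (fun s : Fin 4 × F => U (g s.1 s.2) ζ)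
    (fun s => by rw [hU.norm, hζ]) _ (by rw [hU.norm, hζ]) (0, 0) h0 h1 hR e2
  simp only [(hg.oneP 0).zero, map_one, Module.End.one_apply] at e3 e4
  have e5 := l1 (Finsupp.single (f * w) 1 - Finsupp.single w 1)
  simp only [map_sub, Finsupp.linearCombination_single, one_smul] at e5
  have e6 : 1 < ‖U (f * w) ζ - U w ζ‖ := by
    rw [← hU.norm w⁻¹, map_sub, ← app_mul, ← app_mul, inv_mul_cancel, map_one, ← mul_assoc]
    exact lt_of_pow_lt_pow_left₀ 2 (norm_nonneg _) (by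
      simp only [Module.End.one_apply]; linarith)
  refine Eventually.and (eventually_all.2 fun j => eventually_all.2 fun c => ?_)
    (e5.eventually (le_mem_nhds e6))
  exact (l3 (g j c)).eventually (ge_mem_nhds (lt_of_le_of_lt (e3 (j, c)) (by linarith)))

end Crest.Agent.H2.KEP
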