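import Mathlib
import Crest.Prelude.Def_CStarEmbedding

/-! Universal C⋆-algebras on generators and relations; norming representations. -/

set_option autoImplicit false

open scoped InnerProductSpace ComplexOrder ENNReal
open Filter Topology Crest.AnalysisR.CStarEmbedding

namespace Crest.Agent.H2.KEP

section univ

variable {X : Type}

/-- evaluation of the free algebra on letters and starred letters -/
noncomputable def ev {B : Type} [Ring B] [StarRing B] [Algebra ℂ B] (v : X → B) :
    FreeAlgebra ℂ (X × Bool) →ₐ[ℂ] B :=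
  FreeAlgebra.lift ℂ (fun l => if l.2 then v l.1 else star (v l.1))

lemma ev_true {B : Type} [Ring B] [StarRing B] [Algebra ℂ B] (v : X → B) (x : X) :
    ev v (FreeAlgebra.ι ℂ (x, true)) = v x := by simp [ev]

lemma ev_false {B : Type} [Ring B] [StarRing B] [Algebra ℂ B] (v : X → B) (x : X) :
    ev v (FreeAlgebra.ι ℂ (x, false)) = star (v x) := by simp [ev]

lemma exists_star (f : FreeAlgebra ℂ (X × Bool)) : ∃ f' : FreeAlgebra ℂ (X × Bool),
    ∀ (B : Type) [CStarAlgebra B] (v : X → B), ev v f' = star (ev v f) := by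
  induction f using FreeAlgebra.induction with
  | grade0 r => exact ⟨algebraMap _ _ (star r), fun B _ v => by
      simp [Algebra.algebraMap_eq_smul_one]⟩
  | grade1 l =>
    obtain ⟨x, b⟩ := l
    cases b
    · exact ⟨FreeAlgebra.ι ℂ (x, true), fun B _ v => by simp [ev_true, ev_false]⟩
    · exact ⟨FreeAlgebra.ι ℂ (x, false), fun B _ v => by simp [ev_true, ev_false]⟩
  | mul a b ha hb =>
    obtain ⟨a', ha⟩ := ha
    obtain ⟨b', hb⟩ := hb
    exact ⟨b' * a', fun B _ v => by simp [ha, hb]⟩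
  | add a b ha hb =>
    obtain ⟨a', ha⟩ := ha
    obtain ⟨b', hb⟩ := hb
    exact ⟨a' + b', fun B _ v => by simp [ha, hb]⟩

lemma map_ev {B C : Type} [CStarAlgebra B] [CStarAlgebra C] (π : B →⋆ₐ[ℂ] C) (v : X → B)
    (f : FreeAlgebra ℂ (X × Bool)) : π (ev v f) = ev (fun x => π (v x)) f := by
  induction f using FreeAlgebra.induction with
  | grade0 r => simp [Algebra.algebraMap_eq_smul_one]
  | grade1 l =>
    obtain ⟨x, b⟩ := l
    cases b <;> simp [ev_true, ev_false, map_star]
  | mul a b ha hb => simp [ha, hb]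
  | add a b ha hb => simp [ha, hb]

lemma ev_mem {B : Type} [CStarAlgebra B] (v : X → B) (f : FreeAlgebra ℂ (X × Bool)) :
    ev v f ∈ StarAlgebra.adjoin ℂ (Set.range v) := by
  induction f using FreeAlgebra.induction with
  | grade0 r => simpa using StarSubalgebra.algebraMap_mem _ r
  | grade1 l =>
    obtain ⟨x, b⟩ := l
    cases b
    · rw [ev_false]; exact star_mem (StarAlgebra.subset_adjoin _ _ ⟨x, rfl⟩)
    · rw [ev_true]; exact StarAlgebra.subset_adjoin _ _ ⟨x, rfl⟩
  | mul a b ha hb => rw [map_mul]; exact mul_mem ha hb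
  | add a b ha hb => rw [map_add]; exact add_mem ha hb

lemma mem_range_ev {B : Type} [CStarAlgebra B] (v : X → B) {b : B}
    (hb : b ∈ StarAlgebra.adjoin ℂ (Set.range v)) : ∃ f, ev v f = b := by
  induction hb using StarAlgebra.adjoin_induction with
  | mem x hx => obtain ⟨x, rfl⟩ := hx; exact ⟨_, ev_true v x⟩
  | algebraMap r => exact ⟨algebraMap _ _ r, by simp⟩
  | add x y _ _ hx hy =>
    obtain ⟨f, rfl⟩ := hx
    obtain ⟨g, rfl⟩ := hy
    exact ⟨f + g, by simp⟩
  | mul x y _ _ hx hy =>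
    obtain ⟨f, rfl⟩ := hx
    obtain ⟨g, rfl⟩ := hy
    exact ⟨f * g, by simp⟩
  | star x _ hx =>
    obtain ⟨f, rfl⟩ := hx
    obtain ⟨f', hf⟩ := exists_star f
    exact ⟨f', hf _ v⟩

lemma exists_hom_of_le {U B : Type} [CStarAlgebra U] [CStarAlgebra B] (v : X → U) (w : X → B)
    (hgen : (StarAlgebra.adjoin ℂ (Set.range v)).topologicalClosure = ⊤)
    (hle : ∀ f, ‖ev w f‖ ≤ ‖ev v f‖) : ∃ φ : U →⋆ₐ[ℂ] B, ∀ x, φ (v x) = w x := by
  have hd : DenseRange (ev v).toLinearMap := by
    intro a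
    have ha : a ∈ (StarAlgebra.adjoin ℂ (Set.range v)).topologicalClosure := by
      rw [hgen]; trivial
    refine closure_mono ?_ (show a ∈ closure (StarAlgebra.adjoin ℂ (Set.range v) : Set U) from ha)
    intro b hb
    exact mem_range_ev v hb
  let ψ : U →L[ℂ] B := (ev w).toLinearMap.extendOfNorm (ev v).toLinearMap
  have hψ : ∀ f, ψ (ev v f) = ev w f := fun f =>
    LinearMap.extendOfNorm_eq hd ⟨1, fun f => by simpa using hle f⟩ f
  refine ⟨{ toFun := ψ
            map_one' := by simpa using hψ 1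
            map_mul' := ?_
            map_zero' := map_zero ψ
            map_add' := map_add ψ
            commutes' := fun r => by simpa using hψ (algebraMap _ _ r)
            map_star' := ?_ }, fun x => ?_⟩
  · intro a b
    refine hd.induction_on₂ (p := fun a b => ψ (a * b) = ψ a * ψ b) ?_ ?_ a b
    · exact isClosed_eq (by fun_prop) (by fun_prop)
    · intro f g
      have := hψ (f * g)
      simp only [map_mul] at this
      simp [this, hψ]
  · intro a
    refine hd.induction_on (p := fun a => ψ (star a) = star (ψ a)) a ?_ ?_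
    · exact isClosed_eq (by fun_prop) (by fun_prop)
    · intro f
      obtain ⟨f', hf⟩ := exists_star f
      have := hψ f'
      rw [hf, hf] at this
      simp [this, hψ]
  · have := hψ (FreeAlgebra.ι ℂ (x, true))
    rw [ev_true, ev_true] at this
    exact this

/-- a representation of the generators -/
structure RepOf (X : Type) (Rel : ∀ (B : Type) [CStarAlgebra B], (X → B) → Prop) where
  B : Type
  [inst : CStarAlgebra B]
  [nt : Nontrivial B]
  w : X → B
  rel : Rel B w

attribute [instance] RepOf.inst RepOf.nt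

theorem exists_universal (X : Type) (Rel : ∀ (B : Type) [CStarAlgebra B], (X → B) → Prop)
    (hnorm : ∀ (B : Type) [CStarAlgebra B] (v : X → B), Rel B v → ∀ x, ‖v x‖ ≤ 1)
    (hsep : ∀ (U : Type) [CStarAlgebra U] (v : X → U) (ι : Type) (B : ι → Type)
      [∀ i, CStarAlgebra (B i)] (π : ∀ i, U →⋆ₐ[ℂ] B i), (∀ a b, (∀ i, π i a = π i b) → a = b) →
      (∀ i, Rel (B i) (fun x => π i (v x))) → Rel U v) :
    ∃ (U : Type) (_ : CStarAlgebra U) (v : X → U), Rel U v ∧
      (StarAlgebra.adjoin ℂ (Set.range v)).topologicalClosure = ⊤ ∧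
      ∀ (B : Type) [CStarAlgebra B] (w : X → B), Rel B w →
        ∃ φ : U →⋆ₐ[ℂ] B, ∀ x, φ (v x) = w x := by
  let J := {N : FreeAlgebra ℂ (X × Bool) → ℝ // ∃ R : RepOf X Rel, ∀ f, N f = ‖ev R.w f‖}
  choose R hR using fun j : J => j.2
  let P := lp (fun j => (R j).B) ∞
  let _ : CStarAlgebra P := {}
  let V : X → P := fun x => ⟨fun j => (R j).w x, memℓp_infty ⟨1, by
    rintro _ ⟨j, rfl⟩
    exact hnorm _ _ (R j).rel x⟩⟩
  let π : ∀ j, P →⋆ₐ[ℂ] (R j).B := fun j =>
    { toFun := fun b => b j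
      map_one' := rfl
      map_mul' := fun _ _ => rfl
      map_zero' := rfl
      map_add' := fun _ _ => rfl
      commutes' := fun _ => rfl
      map_star' := fun _ => rfl }
  let S := (StarAlgebra.adjoin ℂ (Set.range V)).topologicalClosure
  have hcl : IsClosed (S : Set P) := (StarAlgebra.adjoin ℂ (Set.range V)).isClosed_topologicalClosure
  let _ : CStarAlgebra S := StarSubalgebra.cstarAlgebra _
  have hmem : ∀ x, V x ∈ S := fun x =>
    (StarAlgebra.adjoin ℂ (Set.range V)).le_topologicalClosure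
      (StarAlgebra.subset_adjoin _ _ ⟨x, rfl⟩)
  let v : X → S := fun x => ⟨V x, hmem x⟩
  have hsub : ∀ f, ((ev v f : S) : P) = ev V f := fun f => map_ev S.subtype v f
  have hgen : (StarAlgebra.adjoin ℂ (Set.range v)).topologicalClosure = ⊤ := by
    rw [eq_top_iff]
    intro a _
    show a ∈ closure (StarAlgebra.adjoin ℂ (Set.range v) : Set S)
    rw [Metric.mem_closure_iff]
    intro ε hε
    have ha : (a : P) ∈ closure (StarAlgebra.adjoin ℂ (Set.range V) : Set P) := a.2
    obtain ⟨b, hb, hab⟩ := Metric.mem_closure_iff.1 ha ε hε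
    obtain ⟨f, rfl⟩ := mem_range_ev V hb
    refine ⟨ev v f, ev_mem v f, ?_⟩
    rw [← hsub] at hab
    exact hab
  refine ⟨S, inferInstance, v, ?_, hgen, ?_⟩
  · refine hsep S v J (fun j => (R j).B) (fun j => (π j).comp S.subtype) ?_ (fun j => (R j).rel)
    intro a b hab
    apply Subtype.ext
    apply lp.ext
    funext j
    exact hab j
  · intro B _ w hw
    refine exists_hom_of_le v w hgen fun f => ?_
    by_cases hB : Nontrivial B
    · let R0 : RepOf X Rel := ⟨B, w, hw⟩
      let j : J := ⟨fun f => ‖ev w f‖, R0, fun f => rfl⟩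
      have h1 : ‖ev w f‖ = ‖ev (R j).w f‖ := hR j f
      have h2 : π j (ev V f) = ev (R j).w f := map_ev (π j) V f
      rw [h1, ← h2, ← hsub]
      exact lp.norm_apply_le_norm (by simp) ((ev v f : S) : P) j
    · rw [not_nontrivial_iff_subsingleton] at hB
      rw [Subsingleton.elim (ev w f) 0, norm_zero]
      exact norm_nonneg _

end univ

lemma norm_le_one_of_isom {B : Type} [CStarAlgebra B] {v : B} (h : star v * v = 1) : ‖v‖ ≤ 1 := by
  have h1 : ‖star v * v‖ ≤ 1 := by
    rw [h]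
    rcases subsingleton_or_nontrivial B with hB | hB
    · rw [Subsingleton.elim (1 : B) 0]; simp
    · simp
  rw [CStarRing.norm_star_mul_self] at h1
  nlinarith [norm_nonneg v]

theorem exists_cuntz : ∃ (O : Type) (_ : CStarAlgebra O) (s₁ s₂ : O), IsCuntzTwo O s₁ s₂ := by
  obtain ⟨U, _, v, ⟨h1, h2, h3⟩, hgen, huniv⟩ := exists_universal Bool
    (fun B _ v => star (v false) * v false = 1 ∧ star (v true) * v true = 1 ∧
      v false * star (v false) + v true * star (v true) = 1)
    (fun B _ v h x => by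
      cases x
      · exact norm_le_one_of_isom h.1
      · exact norm_le_one_of_isom h.2.1)
    (fun U _ v ι B _ π hπ h => ⟨hπ _ _ fun i => by simpa [map_star] using (h i).1,
      hπ _ _ fun i => by simpa [map_star] using (h i).2.1,
      hπ _ _ fun i => by simpa [map_star] using (h i).2.2⟩)
  refine ⟨U, inferInstance, v false, v true, h1, h2, h3, ?_, ?_⟩
  · rw [← hgen]
    congr 2
    ext a
    simp
  · intro B _ t₁ t₂ e1 e2 e3
    obtain ⟨φ, hφ⟩ := huniv B (fun b => if b then t₂ else t₁) ⟨e1, e2, e3⟩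
    exact ⟨φ, hφ false, hφ true⟩

theorem exists_full (Γ : Type) [Group Γ] :
    ∃ (A : Type) (_ : CStarAlgebra A) (u : Γ →* unitary A), IsFullGroupCStar A u := by
  obtain ⟨U, _, v, ⟨h1, h2, h3⟩, hgen, huniv⟩ := exists_universal Γ
    (fun B _ v => v 1 = 1 ∧ (∀ g h, v (g * h) = v g * v h) ∧ ∀ g, star (v g) = v g⁻¹)
    (fun B _ v h x => norm_le_one_of_isom (by rw [h.2.2, ← h.2.1, inv_mul_cancel, h.1]))
    (fun U _ v ι B _ π hπ h => ⟨hπ _ _ fun i => by simpa using (h i).1,
      fun g g' => hπ _ _ fun i => by simpa using (h i).2.1 g g',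
      fun g => hπ _ _ fun i => by simpa [map_star] using (h i).2.2 g⟩)
  let u : Γ →* unitary U :=
    { toFun := fun g => ⟨v g, by
        constructor
        · rw [h3, ← h2, inv_mul_cancel, h1]
        · rw [h3, ← h2, mul_inv_cancel, h1]⟩
      map_one' := Subtype.ext h1
      map_mul' := fun g h => Subtype.ext (h2 g h) }
  refine ⟨U, inferInstance, u, hgen, ?_⟩
  intro B _ w
  exact huniv B (fun g => (w g : B)) ⟨by simp, fun g h => by simp, fun g => by
    rw [map_inv]; rfl⟩

lemma complex_eq_of_re {z : ℂ} {r : ℝ} (h1 : ‖z‖ ≤ r) (h2 : r ≤ z.re) : z = r := by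
  have h3 : ‖z‖ ^ 2 = z.re ^ 2 + z.im ^ 2 := by
    rw [Complex.sq_norm, Complex.normSq_apply]; ring
  have h4 : z.re ≤ ‖z‖ := Complex.re_le_norm z
  have h5 : z.re = r := by linarith
  have h6 : ‖z‖ = r := by linarith
  have h7 : z.im ^ 2 = 0 := by rw [h6, h5] at h3; linarith
  apply Complex.ext
  · simpa using h5
  · simpa using h7

lemma pos_of_norm_le {O : Type} [CStarAlgebra O] [Nontrivial O] (τ : O →L[ℂ] ℂ) (hn : ‖τ‖ ≤ 1)
    (h1 : τ 1 = 1) (a : O) : 0 ≤ τ (star a * a) := by
  let _ := CStarAlgebra.spectralOrder O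
  have _ := CStarAlgebra.spectralOrderedRing O
  have hle : ∀ b, ‖τ b‖ ≤ ‖b‖ := fun b => (τ.le_opNorm b).trans
    (mul_le_of_le_one_left (norm_nonneg _) hn)
  set h := star a * a with hh
  have h0 : 0 ≤ h := star_mul_self_nonneg a
  have hsa : star h = h := by simp [hh]
  have him : (τ h).im = 0 := by
    have key : ∀ t : ℝ, 2 * (τ h).im * t ≤ ‖h‖ ^ 2 := by
      intro t
      have e1 : ‖h + ((t : ℂ) * Complex.I) • (1 : O)‖ ^ 2 ≤ ‖h‖ ^ 2 + t ^ 2 := by
        rw [sq, ← CStarRing.norm_star_mul_self]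
        have : star (h + ((t : ℂ) * Complex.I) • (1 : O)) * (h + ((t : ℂ) * Complex.I) • (1 : O))
            = h * h + ((t ^ 2 : ℝ) : ℂ) • (1 : O) := by
          rw [star_add, star_smul, hsa, star_one]
          simp only [add_mul, mul_add, smul_mul_assoc, mul_smul_comm, one_mul, mul_one, smul_smul]
          have e2 : star ((t : ℂ) * Complex.I) = -((t : ℂ) * Complex.I) := by simp
          rw [e2]
          have e3 : (t : ℂ) * Complex.I * -((t : ℂ) * Complex.I) = ((t ^ 2 : ℝ) : ℂ) := by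
            push_cast
            linear_combination (-(t : ℂ) ^ 2) * Complex.I_sq
          rw [smul_add, smul_smul, e3, neg_smul]
          abel
        rw [this]
        refine (norm_add_le _ _).trans (add_le_add ?_ ?_)
        · rw [sq]; exact norm_mul_le _ _
        · rw [norm_smul, norm_one, mul_one, Complex.norm_real, Real.norm_eq_abs, abs_of_nonneg]
          positivity
      have e4 := hle (h + ((t : ℂ) * Complex.I) • (1 : O))
      rw [map_add, map_smul, h1, smul_eq_mul, mul_one] at e4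
      have e5 : ‖τ h + (t : ℂ) * Complex.I‖ ^ 2 = (τ h).re ^ 2 + ((τ h).im + t) ^ 2 := by
        rw [Complex.sq_norm, Complex.normSq_apply]; simp; ring
      have e6 : ‖τ h + (t : ℂ) * Complex.I‖ ^ 2 ≤ ‖h + ((t : ℂ) * Complex.I) • (1 : O)‖ ^ 2 :=
        pow_le_pow_left₀ (norm_nonneg _) e4 2
      nlinarith [sq_nonneg (τ h).re, sq_nonneg (τ h).im]
    by_contra hne
    have := key ((‖h‖ ^ 2 + 1) / (2 * (τ h).im))
    rw [mul_div_cancel₀ _ (by simpa using hne)] at this
    linarith
  have hre : 0 ≤ (τ h).re := by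
    have e1 : h ≤ algebraMap ℝ O ‖h‖ := IsSelfAdjoint.le_algebraMap_norm_self hsa
    have e2 : ‖algebraMap ℝ O ‖h‖ - h‖ ≤ ‖algebraMap ℝ O ‖h‖‖ :=
      CStarAlgebra.norm_le_norm_of_nonneg_of_le (sub_nonneg.2 e1) (sub_le_self _ h0)
    rw [norm_algebraMap', norm_norm] at e2
    have e3 := (hle _).trans e2
    have e4 : τ (algebraMap ℝ O ‖h‖) = (‖h‖ : ℂ) := by
      rw [Algebra.algebraMap_eq_smul_one, ← Complex.coe_smul, map_smul, h1]; simp
    rw [map_sub, e4] at e3
    have e5 := (Complex.re_le_norm _).trans e3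
    simpa using e5
  exact Complex.nonneg_iff.mpr ⟨hre, him.symm⟩

/-- a norming state -/
theorem exists_state {O : Type} [CStarAlgebra O] [Nontrivial O] (y : O) :
    ∃ τ : O →ₗ[ℂ] ℂ, (∀ a, 0 ≤ τ (star a * a)) ∧ τ 1 = 1 ∧ τ (star y * y) = (‖y‖ ^ 2 : ℝ) := by
  let _ := CStarAlgebra.spectralOrder O
  have _ := CStarAlgebra.spectralOrderedRing O
  set h := star y * y with hh
  have h0 : 0 ≤ h := star_mul_self_nonneg y
  have hn : 1 + ‖h‖ ≤ ‖1 + h‖ := by
    have e1 : ‖h‖ ∈ spectrum ℝ h := CStarAlgebra.norm_mem_spectrum_of_nonneg h0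
    have e2 : 1 + ‖h‖ ∈ spectrum ℝ (algebraMap ℝ O 1 + h) := by
      rw [← spectrum.singleton_add_eq]
      exact Set.add_mem_add rfl e1
    have e3 := spectrum.norm_le_norm_of_mem e2
    rw [map_one] at e3
    exact (le_abs_self _).trans e3
  obtain ⟨τ, hτ, hτh⟩ := exists_dual_vector'' ℂ (1 + h)
  have hle : ∀ b, ‖τ b‖ ≤ ‖b‖ := fun b => (τ.le_opNorm b).trans
    (mul_le_of_le_one_left (norm_nonneg _) hτ)
  have e1 : (τ 1).re + (τ h).re = ‖1 + h‖ := by
    have := congrArg Complex.re hτh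
    simpa using this
  have e2 : ‖τ 1‖ ≤ 1 := by simpa using hle 1
  have e3 := Complex.re_le_norm (τ 1)
  have e4 := Complex.re_le_norm (τ h)
  have e5 := hle h
  have h1 : τ 1 = 1 := by simpa using complex_eq_of_re e2 (by linarith)
  refine ⟨τ.toLinearMap, pos_of_norm_le τ hτ h1, h1, ?_⟩
  have := complex_eq_of_re e5 (by linarith)
  rw [hh, CStarRing.norm_star_mul_self] at this
  rw [sq]
  exact this

/-- a norming representation -/
theorem exists_rep {O : Type} [CStarAlgebra O] [Nontrivial O] (y : O) :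
    ∃ (H : Type) (_ : NormedAddCommGroup H) (_ : InnerProductSpace ℂ H) (_ : CompleteSpace H)
      (π : O →⋆ₐ[ℂ] (H →L[ℂ] H)) (ξ : H), ‖ξ‖ = 1 ∧ ‖π y ξ‖ = ‖y‖ := by
  obtain ⟨τ, hpos, h1, hy⟩ := exists_state y
  let _ := CStarAlgebra.spectralOrder O
  have _ := CStarAlgebra.spectralOrderedRing O
  let f : O →ₚ[ℂ] ℂ := PositiveLinearMap.mk₀ τ (fun x hx => by
    obtain ⟨y, rfl⟩ := CStarAlgebra.nonneg_iff_eq_star_mul_self.mp hx
    exact hpos y)
  have hf : ∀ a, f a = τ a := fun a => rfl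
  have hap : ∀ a : O, f.gnsStarAlgHom a ((f.toPreGNS 1 : f.PreGNS) : f.GNS)
      = ((f.toPreGNS a : f.PreGNS) : f.GNS) := by
    intro a
    show f.gnsNonUnitalStarAlgHom a _ = _
    rw [PositiveLinearMap.gnsNonUnitalStarAlgHom_apply_coe]
    simp
  have hn : ∀ a : O, (‖((f.toPreGNS a : f.PreGNS) : f.GNS)‖ ^ 2 : ℝ) = (τ (star a * a)).re := by
    intro a
    rw [← inner_self_eq_norm_sq (𝕜 := ℂ), UniformSpace.Completion.inner_coe,
      PositiveLinearMap.preGNS_inner_def]
    simp [hf]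
  refine ⟨f.GNS, inferInstance, inferInstance, inferInstance, f.gnsStarAlgHom,
    ((f.toPreGNS 1 : f.PreGNS) : f.GNS), ?_, ?_⟩
  · have := hn 1
    rw [star_one, mul_one, h1, Complex.one_re] at this
    nlinarith [norm_nonneg (((f.toPreGNS 1 : f.PreGNS) : f.GNS))]
  · rw [hap]
    have := hn y
    rw [hy, Complex.ofReal_re] at this
    exact (sq_eq_sq₀ (norm_nonneg _) (norm_nonneg _)).mp this

end Crest.Agent.H2.KEP
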