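import Crest.Agent.H2.KEPCuntz
import Crest.Agent.H2.KEPUniv

/-! The abstract non-embedding theorem for a group action with a tower of finite levels. -/

set_option autoImplicit false
set_option linter.unusedSectionVars false

open scoped InnerProductSpace ComplexConjugate Matrix ENNReal
open Filter Topology Crest.AnalysisR.CStarEmbedding

namespace Crest.Agent.H2.KEP

section l2

variable {Ω : Type} {H : Type} [NormedAddCommGroup H] [InnerProductSpace ℂ H] [CompleteSpace H]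

/-- square-summable `H`-valued functions -/
abbrev L2 (Ω H : Type) [NormedAddCommGroup H] := lp (fun _ : Ω => H) 2

lemma hasSum_sq (f : L2 Ω H) : HasSum (fun i => ‖f i‖ ^ 2) (‖f‖ ^ 2) := by
  have := lp.hasSum_norm (p := 2) (by norm_num) f
  simpa using this

lemma mem_of_summable {f : Ω → H} (h : Summable fun i => ‖f i‖ ^ 2) :
    Memℓp (E := fun _ : Ω => H) f 2 := by
  apply memℓp_gen
  simpa using h

/-- reindexing as a linear isometry -/
noncomputable def shI (e : Ω ≃ Ω) : L2 Ω H →ₗᵢ[ℂ] L2 Ω H where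
  toFun f := ⟨fun x => f (e x), mem_of_summable
    ((e.summable_iff (f := fun x => ‖f x‖ ^ 2)).mpr (hasSum_sq f).summable)⟩
  map_add' _ _ := rfl
  map_smul' _ _ := rfl
  norm_map' f := by
    have h1 := (e.hasSum_iff (f := fun x => ‖f x‖ ^ 2)).mpr (hasSum_sq f)
    exact (sq_eq_sq₀ (norm_nonneg _) (norm_nonneg _)).mp ((hasSum_sq _).unique h1)

variable {Γ : Type} [Group Γ] [MulAction Γ Ω]

variable (Ω H) in
/-- the permutation representation -/
noncomputable def Lsh : Γ →* (L2 Ω H →L[ℂ] L2 Ω H) where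
  toFun g := (shI (MulAction.toPerm g⁻¹)).toContinuousLinearMap
  map_one' := by
    ext f y
    show f ((1 : Γ)⁻¹ • y) = f y
    simp
  map_mul' g h := by
    ext f y
    show f ((g * h)⁻¹ • y) = f (h⁻¹ • g⁻¹ • y)
    rw [mul_inv_rev, mul_smul]

lemma Lsh_apply (g : Γ) (T : L2 Ω H) (y : Ω) : Lsh Ω H g T y = T (g⁻¹ • y) := rfl

lemma Lsh_inner (g : Γ) (S T : L2 Ω H) : ⟪Lsh Ω H g S, Lsh Ω H g T⟫_ℂ = ⟪S, T⟫_ℂ :=
  (shI (MulAction.toPerm g⁻¹)).inner_map_map S T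

lemma Lsh_norm (g : Γ) (T : L2 Ω H) : ‖Lsh Ω H g T‖ = ‖T‖ :=
  (shI (MulAction.toPerm g⁻¹)).norm_map T

lemma Lsh_opNorm (g : Γ) : ‖Lsh Ω H g‖ ≤ 1 :=
  ContinuousLinearMap.opNorm_le_bound _ zero_le_one fun T => by rw [Lsh_norm, one_mul]

lemma Lsh_star (g : Γ) : star (Lsh Ω H g) = Lsh Ω H g⁻¹ := by
  rw [ContinuousLinearMap.star_eq_adjoint, eq_comm, ContinuousLinearMap.eq_adjoint_iff]
  intro x y
  rw [← Lsh_inner g, ← Lapp_mul, mul_inv_cancel, map_one]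
  rfl

/-- fibrewise operators, as linear maps -/
noncomputable def fibL (a : H →L[ℂ] H) : L2 Ω H →ₗ[ℂ] L2 Ω H where
  toFun T := ⟨fun y => a (T y), ((lp.memℓp T).const_smul (‖a‖ : ℂ)).mono' fun y => by
    simpa [norm_smul] using a.le_opNorm (T y)⟩
  map_add' S T := by ext y; exact map_add a _ _
  map_smul' c T := by ext y; exact map_smul a _ _

lemma fibL_norm (a : H →L[ℂ] H) (T : L2 Ω H) : ‖fibL a T‖ ≤ ‖a‖ * ‖T‖ := by
  have := lp.norm_mono (p := 2) (by norm_num) (x := fibL a T) (y := (‖a‖ : ℂ) • T) fun y => by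
    rw [lp.coeFn_smul, Pi.smul_apply, norm_smul, Complex.norm_real, norm_norm]
    exact a.le_opNorm (T y)
  rwa [norm_smul, Complex.norm_real, norm_norm] at this

variable (Ω H) in
/-- fibrewise operators -/
noncomputable def fib : (H →L[ℂ] H) →⋆ₐ[ℂ] (L2 Ω H →L[ℂ] L2 Ω H) where
  toFun a := (fibL a).mkContinuous ‖a‖ (fibL_norm a)
  map_one' := by ext; rfl
  map_mul' _ _ := by ext; rfl
  map_zero' := by ext; rfl
  map_add' _ _ := by ext; rfl
  commutes' _ := by ext; rfl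
  map_star' a := by
    rw [ContinuousLinearMap.star_eq_adjoint (𝕜 := ℂ) ((fibL a).mkContinuous ‖a‖ (fibL_norm a)),
      ContinuousLinearMap.eq_adjoint_iff]
    intro x y
    rw [lp.inner_eq_tsum, lp.inner_eq_tsum]
    congr 1
    ext z
    exact ContinuousLinearMap.adjoint_inner_left a _ _

lemma fib_apply (a : H →L[ℂ] H) (T : L2 Ω H) (y : Ω) : fib Ω H a T y = a (T y) := rfl

lemma Lsh_fib (g : Γ) (a : H →L[ℂ] H) : Lsh Ω H g * fib Ω H a = fib Ω H a * Lsh Ω H g := by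
  ext; rfl

lemma Lsh_fib_apply (g : Γ) (a : H →L[ℂ] H) (T : L2 Ω H) :
    Lsh Ω H g (fib Ω H a T) = fib Ω H a (Lsh Ω H g T) := rfl

lemma l2_sum_apply {α : Type} (s : Finset α) (T : α → L2 Ω H) (y : Ω) :
    (∑ x ∈ s, T x) y = ∑ x ∈ s, T x y := by
  rw [lp.coeFn_sum, Finset.sum_apply]

lemma Lsh_congr {Y : Set Ω} {s s' : Γ} (h : ∀ z ∈ Y, s • z = s' • z) {T : L2 Ω H}
    (hT : ∀ z ∉ Y, T z = 0) : Lsh Ω H s T = Lsh Ω H s' T := by
  ext y
  rw [Lsh_apply, Lsh_apply]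
  by_cases h1 : s⁻¹ • y ∈ Y
  · have := h _ h1
    rw [smul_inv_smul] at this
    conv_rhs => rw [this, inv_smul_smul]
  · by_cases h2 : s'⁻¹ • y ∈ Y
    · have := h _ h2
      rw [smul_inv_smul] at this
      conv_lhs => rw [← this, inv_smul_smul]
    · rw [hT _ h1, hT _ h2]

end l2

/-- the combinatorial data -/
structure Setup (F Γ Ω : Type) [Field F] [Fintype F] [Group Γ] [MulAction Γ Ω] where
  g : Fin 4 → F → Γ
  gens : Gens g
  r : F → Γ
  hrec : Rec g r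
  τ : F → Γ
  τ_one : OneP τ
  τ_comm : ∀ c s, τ c * s = s * τ c
  Y : ℕ → Set Ω
  Y_g : ∀ k j c, ∀ z ∈ Y k, g j c • z ∈ Y k
  Y_r : ∀ k x, ∀ z ∈ Y k, r x • z ∈ Y (k + 1)
  Y_τ : ∀ c, ∀ z ∈ Y 1, τ c • z ∈ Y 1
  disj : ∀ k x x', ∀ z ∈ Y k, ∀ z' ∈ Y k, r x • z = r x' • z' → x = x'
  f : ℕ → F → Γ
  f_mem : ∀ l c, f l c ∈ genG g
  f_τ : ∀ l c, ∀ z ∈ Y (l + 1), f l c • z = τ c • z
  f_triv : ∀ k l, k < l → ∀ c, ∀ z ∈ Y (k + 1), f l c • z = z
  o : Ω
  o_mem : o ∈ Y 0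
  o_fix : ∀ j c, g j c • o = o
  o_τ : τ 1 • r 0 • o = r 1 • o

namespace Setup

variable {F Γ Ω : Type} [Field F] [Fintype F] [Group Γ] [MulAction Γ Ω] (S : Setup F Γ Ω)
variable (H : Type) [NormedAddCommGroup H] [InnerProductSpace ℂ H] [CompleteSpace H]

/-- the tower of subspaces -/
def K (k : ℕ) : Submodule ℂ (L2 Ω H) where
  carrier := {T | (∀ z ∉ S.Y (k + 1), T z = 0) ∧ ∑ c, Lsh Ω H (S.τ c) T = 0}
  add_mem' := fun {a b} ha hb => ⟨fun z hz => by simp [ha.1 z hz, hb.1 z hz], by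
    simp only [map_add, Finset.sum_add_distrib, ha.2, hb.2, add_zero]⟩
  zero_mem' := ⟨fun _ _ => rfl, by simp⟩
  smul_mem' := fun c a ha => ⟨fun z hz => by simp [ha.1 z hz], by
    simp only [map_smul, ← Finset.smul_sum, ha.2, smul_zero]⟩

variable {H}

lemma fib_mem {k : ℕ} (a : H →L[ℂ] H) {T : L2 Ω H} (hT : T ∈ S.K H k) : fib Ω H a T ∈ S.K H k :=
  ⟨fun z hz => by rw [fib_apply, hT.1 z hz, map_zero], by
    simp only [Lsh_fib_apply, ← map_sum, hT.2, map_zero]⟩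

lemma τ_L (c : F) (s : Γ) (T : L2 Ω H) :
    Lsh Ω H (S.τ c) (Lsh Ω H s T) = Lsh Ω H s (Lsh Ω H (S.τ c) T) := by
  rw [← Lapp_mul, S.τ_comm, Lapp_mul]

lemma supp_L {Y Y' : Set Ω} {s : Γ} (h : ∀ z ∈ Y, s • z ∈ Y') {T : L2 Ω H}
    (hT : ∀ z ∉ Y, T z = 0) : ∀ z ∉ Y', Lsh Ω H s T z = 0 := fun z hz => by
  rw [Lsh_apply]
  refine hT _ fun h1 => hz ?_
  simpa using h _ h1

lemma Y_G (k : ℕ) {s : Γ} (hs : s ∈ genG S.g) : ∀ z, z ∈ S.Y k ↔ s • z ∈ S.Y k := by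
  induction hs using Subgroup.closure_induction with
  | mem s hs =>
    obtain ⟨⟨j, c⟩, rfl⟩ := hs
    refine fun z => ⟨S.Y_g k j c z, fun h => ?_⟩
    have := S.Y_g k j (-c) _ h
    rwa [(S.gens.oneP j).neg, inv_smul_smul] at this
  | one => simp
  | mul a b _ _ ha hb => intro z; rw [mul_smul, ← ha, ← hb]
  | inv a _ ha => intro z; rw [ha (a⁻¹ • z), smul_inv_smul]

lemma L_mem {k : ℕ} {s : Γ} (hs : s ∈ genG S.g) {T : L2 Ω H} (hT : T ∈ S.K H k) :
    Lsh Ω H s T ∈ S.K H k :=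
  ⟨supp_L (fun z hz => (S.Y_G _ hs z).1 hz) hT.1, by
    simp only [S.τ_L, ← map_sum, hT.2, map_zero]⟩

lemma tower : Tower S.g (Lsh Ω H) (S.K H) := by
  refine ⟨Lsh_inner, fun k s hs x hx => S.L_mem hs hx, S.f, S.f_mem, fun l x hx => ?_,
    fun k l hkl c x hx => ?_⟩
  · rw [← hx.2]
    exact Finset.sum_congr rfl fun c _ => Lsh_congr (S.f_τ l c) hx.1
  · rw [Lsh_congr (s' := 1) (fun z hz => by rw [S.f_triv k l hkl c z hz, one_smul]) hx.1, map_one]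
    rfl

lemma lift_supp {k : ℕ} (a : F → H →L[ℂ] H) {T : L2 Ω H} (hT : ∀ z ∉ S.Y k, T z = 0) :
    ∀ z ∉ S.Y (k + 1), (∑ x, (fib Ω H (a x) * Lsh Ω H (S.r x)) T) z = 0 := by
  intro z hz
  rw [l2_sum_apply]
  refine Finset.sum_eq_zero fun x _ => ?_
  show a x (Lsh Ω H (S.r x) T z) = 0
  rw [supp_L (S.Y_r k x) hT z hz, map_zero]

lemma lift_apply {k : ℕ} (a : F → H →L[ℂ] H) {T : L2 Ω H} (hT : ∀ z ∉ S.Y k, T z = 0) (x : F)
    {z : Ω} (hz : z ∈ S.Y k) :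
    (∑ x, (fib Ω H (a x) * Lsh Ω H (S.r x)) T) (S.r x • z) = a x (T z) := by
  rw [l2_sum_apply, Finset.sum_eq_single x ?_ (by simp)]
  · show a x (T ((S.r x)⁻¹ • S.r x • z)) = _
    rw [inv_smul_smul]
  · intro x' _ hx'
    show a x' (T ((S.r x')⁻¹ • S.r x • z)) = 0
    rw [hT, map_zero]
    intro h
    exact hx' (S.disj k x' x _ h _ hz (smul_inv_smul _ _))

lemma lift_mem {k : ℕ} (a : F → H →L[ℂ] H) {T : L2 Ω H} (hT : T ∈ S.K H k) :
    ∑ x, (fib Ω H (a x) * Lsh Ω H (S.r x)) T ∈ S.K H (k + 1) := by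
  refine ⟨S.lift_supp a hT.1, ?_⟩
  simp only [map_sum]
  rw [Finset.sum_comm]
  refine Finset.sum_eq_zero fun x _ => ?_
  show ∑ c, Lsh Ω H (S.τ c) (fib Ω H (a x) (Lsh Ω H (S.r x) T)) = 0
  simp only [Lsh_fib_apply, S.τ_L, ← map_sum, hT.2, map_zero]

lemma lift_norm {k : ℕ} (a : F → H →L[ℂ] H) {T : L2 Ω H} (hT : T ∈ S.K H k) :
    ‖(fib Ω H (a 0) * Lsh Ω H (S.r 0)) T‖ ≤ ‖∑ x, (fib Ω H (a x) * Lsh Ω H (S.r x)) T‖ := by
  refine lp.norm_mono (by norm_num) fun y => ?_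
  by_cases h : (S.r 0)⁻¹ • y ∈ S.Y (k + 1)
  · have := S.lift_apply a hT.1 0 h
    rw [smul_inv_smul] at this
    rw [this]
    exact le_rfl
  · show ‖a 0 (T ((S.r 0)⁻¹ • y))‖ ≤ _
    rw [hT.1 _ h, map_zero, norm_zero]
    exact norm_nonneg _

lemma start_ai (a : Γ → H →L[ℂ] H) (ξ : H) {b : ℝ} [DecidableEq Ω]
    (h1 : ∀ j c, ‖(fib Ω H (a (S.g j c)) * Lsh Ω H (S.g j c))
      (∑ x, (fib Ω H (a (S.r x)) * Lsh Ω H (S.r x)) (lp.single 2 S.o ξ)) -
      ∑ x, (fib Ω H (a (S.r x)) * Lsh Ω H (S.r x)) (lp.single 2 S.o ξ)‖ ≤ b)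
    (h2 : 1 ≤ ‖a (S.r 1) ξ - a (S.r 0) ξ‖) (hb : b ≤ 1 / 12) :
    AI S.g (fun s => fib Ω H (a s) * Lsh Ω H s) (S.K H 0) (1 / 3) := by
  have hn := card_pos' (F := F)
  have hT : ∀ z ∉ S.Y 0, (lp.single 2 S.o ξ : L2 Ω H) z = 0 := fun z hz =>
    lp.single_apply_ne _ _ _ (fun h => hz (h ▸ S.o_mem))
  have hs := S.lift_supp (fun x => a (S.r x)) hT
  have ha := fun x => S.lift_apply (fun x => a (S.r x)) hT x S.o_mem
  generalize (∑ x, (fib Ω H (a (S.r x)) * Lsh Ω H (S.r x)) (lp.single 2 S.o ξ)) = T at h1 hs ha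
  simp only [lp.single_apply_self] at ha
  let P : L2 Ω H →L[ℂ] L2 Ω H := (Fintype.card F : ℂ)⁻¹ • ∑ c, Lsh Ω H (S.τ c)
  have hP : ∀ x, P x = (Fintype.card F : ℂ)⁻¹ • ∑ c, Lsh Ω H (S.τ c) x := fun x => by simp [P]
  have hτP : ∀ c x, Lsh Ω H (S.τ c) (P x) = P x := by
    intro c x
    rw [hP, map_smul, map_sum]
    congr 1
    refine Fintype.sum_equiv (Equiv.addLeft c) _ _ fun d => ?_
    rw [← Lapp_mul, ← S.τ_one]; rfl
  have hPn : ∀ x, ‖P x‖ ≤ ‖x‖ := by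
    intro x
    rw [hP, norm_smul, norm_inv, Complex.norm_natCast, inv_mul_le_iff₀ hn]
    refine (norm_sum_le _ _).trans (le_of_eq ?_)
    simp [Lsh_norm]
  refine AI.of_le (x := T - P T) (show T - P T ∈ S.K H 0 from ⟨fun z hz => ?_, ?_⟩) (a := 1 / 2)
    (b := 2 * b) (by norm_num) ?_ (fun j c => ?_) (by linarith)
  · rw [lp.coeFn_sub, Pi.sub_apply, hs z hz, hP, lp.coeFn_smul, Pi.smul_apply, l2_sum_apply,
      Finset.sum_eq_zero fun c _ => supp_L (S.Y_τ c) hs z hz]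
    simp
  · simp only [map_sub, Finset.sum_sub_distrib, hτP, Finset.sum_const, Finset.card_univ]
    rw [hP, ← Nat.cast_smul_eq_nsmul ℂ, smul_smul, mul_inv_cancel₀ (by exact_mod_cast hn.ne'),
      one_smul, sub_self]
  · have e1 : T - Lsh Ω H (S.τ 1) T = (T - P T) - Lsh Ω H (S.τ 1) (T - P T) := by
      rw [map_sub, hτP]; abel
    have e2 := lp.norm_apply_le_norm (by norm_num) (T - Lsh Ω H (S.τ 1) T) (S.r 1 • S.o)
    rw [lp.coeFn_sub, Pi.sub_apply, Lsh_apply, ha, ← S.o_τ, inv_smul_smul, ha, e1] at e2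
    have e3 := norm_sub_le (T - P T) (Lsh Ω H (S.τ 1) (T - P T))
    rw [Lsh_norm] at e3
    linarith
  · have e1 : ∀ x, (fib Ω H (a (S.g j c)) * Lsh Ω H (S.g j c)) (P x) =
        P ((fib Ω H (a (S.g j c)) * Lsh Ω H (S.g j c)) x) := by
      intro x
      rw [hP, hP, map_smul, map_sum]
      congr 1
      refine Finset.sum_congr rfl fun d _ => ?_
      show fib Ω H _ (Lsh Ω H _ (Lsh Ω H _ x)) = Lsh Ω H _ (fib Ω H _ (Lsh Ω H _ x))
      rw [Lsh_fib_apply, S.τ_L]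
    have e2 : (fib Ω H (a (S.g j c)) * Lsh Ω H (S.g j c)) (T - P T) - (T - P T) =
        ((fib Ω H (a (S.g j c)) * Lsh Ω H (S.g j c)) T - T) -
          P ((fib Ω H (a (S.g j c)) * Lsh Ω H (S.g j c)) T - T) := by
      rw [map_sub, map_sub, e1]; abel
    show ‖(fib Ω H (a (S.g j c)) * Lsh Ω H (S.g j c)) (T - P T) - (T - P T)‖ ≤ _
    rw [e2]
    linarith [norm_sub_le ((fib Ω H (a (S.g j c)) * Lsh Ω H (S.g j c)) T - T)
      (P ((fib Ω H (a (S.g j c)) * Lsh Ω H (S.g j c)) T - T)),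
      hPn ((fib Ω H (a (S.g j c)) * Lsh Ω H (S.g j c)) T - T), h1 j c]

lemma norm_lower {A : Type} [CStarAlgebra A] {u : Γ →* unitary A} (hA : IsFullGroupCStar A u)
    {R : ℝ} (hR : 0 ≤ R) : R * Fintype.card (Fin 4 × F) ≤
      ‖(R : ℂ) • ∑ s : Fin 4 × F, (u (S.g s.1 s.2) : A) - u ((S.r 0)⁻¹ * S.r 1)‖ := by
  classical
  let w : Γ →* unitary (L2 Ω ℂ →L[ℂ] L2 Ω ℂ) :=
    { toFun := fun s => ⟨Lsh Ω ℂ s, by
        constructor
        · rw [Lsh_star, ← map_mul, inv_mul_cancel, map_one]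
        · rw [Lsh_star, ← map_mul, mul_inv_cancel, map_one]⟩
      map_one' := Subtype.ext (map_one _)
      map_mul' := fun g h => Subtype.ext (map_mul _ g h) }
  obtain ⟨φ, hφ⟩ := hA.2 _ w
  have h1 := norm_rho_le φ ((R : ℂ) • ∑ s : Fin 4 × F, (u (S.g s.1 s.2) : A) -
    u ((S.r 0)⁻¹ * S.r 1)) (lp.single 2 S.o 1)
  rw [lp.norm_single (by norm_num), norm_one, mul_one] at h1
  refine le_trans ?_ ((lp.norm_apply_le_norm (by norm_num) _ S.o).trans h1)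
  simp only [map_sub, map_smul, map_sum, hφ, sub_apply, smul_apply, sum_apply, lp.coeFn_sub,
    lp.coeFn_smul, Pi.sub_apply, Pi.smul_apply, l2_sum_apply]
  have e1 : ∀ s : Fin 4 × F, (w (S.g s.1 s.2) : L2 Ω ℂ →L[ℂ] L2 Ω ℂ) (lp.single 2 S.o 1) S.o = 1 := by
    intro s
    show (lp.single 2 S.o (1 : ℂ) : L2 Ω ℂ) ((S.g s.1 s.2)⁻¹ • S.o) = 1
    rw [← (S.gens.oneP _).neg, S.o_fix, lp.single_apply_self]
  have e2 : (w ((S.r 0)⁻¹ * S.r 1) : L2 Ω ℂ →L[ℂ] L2 Ω ℂ) (lp.single 2 S.o 1) S.o = 0 := by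
    show (lp.single 2 S.o (1 : ℂ) : L2 Ω ℂ) (((S.r 0)⁻¹ * S.r 1)⁻¹ • S.o) = 0
    refine lp.single_apply_ne _ _ _ fun h => ?_
    rw [inv_smul_eq_iff, mul_smul, eq_inv_smul_iff] at h
    exact zero_ne_one (S.disj 0 _ _ _ S.o_mem _ S.o_mem h)
  simp only [e1, e2, Finset.sum_const, Finset.card_univ, sub_zero, nsmul_eq_mul, mul_one,
    smul_eq_mul, norm_mul, Complex.norm_real, Complex.norm_natCast, Real.norm_eq_abs,
    abs_of_nonneg hR, le_refl]

end Setup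

section emb

variable {ω : Ultrafilter ℕ} {A O : Type} [CStarAlgebra A] [CStarAlgebra O] {φ : ℕ → A → O}

lemma emb_sum (hφ : IsUltrapowerEmbedding ω A O φ) {α : Type} (s : Finset α) (a : α → A) :
    Tendsto (fun n => ‖φ n (∑ x ∈ s, a x) - ∑ x ∈ s, φ n (a x)‖) (ω : Filter ℕ) (𝓝 0) := by
  classical
  induction s using Finset.induction_on with
  | empty => simpa using hφ.2.2.1 0 0
  | insert x s hx ih =>
    have := (hφ.2.1 (a x) (∑ x ∈ s, a x)).add ih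
    rw [add_zero] at this
    refine tendsto_zero_of_le this (fun _ => norm_nonneg _) (Eventually.of_forall fun n => ?_)
    rw [Finset.sum_insert hx, Finset.sum_insert hx]
    refine le_trans (le_of_eq ?_) (norm_add_le _ _)
    congr 1; abel

lemma emb_comb (hφ : IsUltrapowerEmbedding ω A O φ) {α : Type} (s : Finset α) (a : α → A) (b : A)
    (c : ℂ) : Tendsto (fun n => ‖φ n (c • ∑ x ∈ s, a x - b) - (c • ∑ x ∈ s, φ n (a x) - φ n b)‖)
      (ω : Filter ℕ) (𝓝 0) := by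
  have := (((hφ.2.1 (c • ∑ x ∈ s, a x) ((-1 : ℂ) • b)).add (hφ.2.2.1 c (∑ x ∈ s, a x))).add
    (hφ.2.2.1 (-1) b)).add ((emb_sum hφ s a).const_mul ‖c‖)
  simp only [add_zero, mul_zero] at this
  refine tendsto_zero_of_le this (fun _ => norm_nonneg _) (Eventually.of_forall fun n => ?_)
  rw [← norm_smul]
  refine le_trans (le_of_eq ?_) ((norm_add_le _ _).trans (add_le_add_left
    ((norm_add_le _ _).trans (add_le_add_left (norm_add_le _ _) _)) _))
  congr 1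
  simp only [neg_smul, one_smul, sub_eq_add_neg]
  simp only [smul_add, smul_neg]
  abel

lemma emb_asRep (hφ : IsUltrapowerEmbedding ω A O φ) {Γ : Type} [Group Γ] (u : Γ →* unitary A) :
    AsRep (B := fun _ => O) ω (fun n g => φ n (u g)) := by
  refine ⟨fun g h => ?_, fun g => ?_, ?_, fun g => ?_⟩
  · refine (hφ.2.2.2.1 (u g) (u h)).congr fun n => ?_
    rw [norm_sub_rev, map_mul]; rfl
  · refine (hφ.2.2.2.2.1 (u g)).congr fun n => ?_
    rw [norm_sub_rev, map_inv]; rfl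
  · simpa using hφ.2.2.2.2.2.1
  · refine (hφ.2.2.2.2.2.2 (u g)).eventually (ge_mem_nhds ?_)
    have : ‖(u g : A)‖ ≤ 1 := norm_le_one_of_isom (u g).2.1
    linarith

end emb

theorem Setup.no_embedding {F Γ Ω : Type} [Field F] [Fintype F] [Group Γ] [MulAction Γ Ω]
    (S : Setup F Γ Ω) {A : Type} [CStarAlgebra A] {u : Γ →* unitary A} (hA : IsFullGroupCStar A u)
    {O : Type} [CStarAlgebra O] {s₁ s₂ : O} (hO : IsCuntzTwo O s₁ s₂) (ω : Ultrafilter ℕ)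
    (φ : ℕ → A → O) (hφ : IsUltrapowerEmbedding ω A O φ) : False := by
  classical
  have hn := card_pos' (F := F)
  have hn1 : (1 : ℝ) ≤ Fintype.card F := by exact_mod_cast Fintype.card_pos
  set η : ℝ := 1 / (156 * Fintype.card F) with hη
  have hη0 : 0 < η := by positivity
  have hη1 : η ≤ 1 / 8 := by
    rw [hη]; exact one_div_le_one_div_of_le (by norm_num) (by linarith)
  set R : ℝ := 4 * Fintype.card (Fin 4 × F) / η ^ 2 with hR
  have hm : (0 : ℝ) < Fintype.card (Fin 4 × F) := by exact_mod_cast Fintype.card_pos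
  have hR0 : 0 < R := by positivity
  set x : A := (R : ℂ) • ∑ s : Fin 4 × F, (u (S.g s.1 s.2) : A) - u ((S.r 0)⁻¹ * S.r 1) with hx
  have hxn : R * Fintype.card (Fin 4 × F) ≤ ‖x‖ := S.norm_lower hA hR0.le
  have hlim := hφ.2.2.2.2.2.2 x
  have hO1 : Nontrivial O := by
    by_contra hO1
    rw [not_nontrivial_iff_subsingleton] at hO1
    have : ‖x‖ = 0 := tendsto_nhds_unique hlim (by
      simp only [Subsingleton.elim (φ _ x) 0, norm_zero]; exact tendsto_const_nhds)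
    nlinarith [mul_pos hR0 hm]
  choose H i1 i2 i3 π ξ hξ hπ using fun n => exists_rep (φ n x)
  have hy := emb_asRep hφ u
  have ha : AsRep ω (fun n s => π n (φ n (u s))) := by
    have := hy.twist π (fun n => 1) (fun _ _ => by simp) (fun n _ => ContinuousLinearMap.norm_id_le) (fun _ _ _ => by simp)
    simpa using this
  have hv := hy.twist (fun n => (fib Ω (H n)).comp (π n)) (fun n => Lsh Ω (H n))
    (fun _ => Lsh_star) (fun _ => Lsh_opNorm) (fun n g x => Lsh_fib g _)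
  have hs := ha.start S.gens (S.r 0) (S.r 1 * (S.r 0)⁻¹) hη0 hη1 hR ξ hξ (fun δ hδ => by
    have e1 := emb_comb hφ Finset.univ (fun s : Fin 4 × F => (u (S.g s.1 s.2) : A))
      (u ((S.r 0)⁻¹ * S.r 1)) R
    filter_upwards [e1.eventually (ge_mem_nhds (half_pos hδ)),
      hlim.eventually (le_mem_nhds (show ‖x‖ - δ / 2 < ‖x‖ by linarith))] with n h1 h2
    have e2 := norm_rho_le (π n) (φ n x - ((R : ℂ) • ∑ s : Fin 4 × F, φ n (u (S.g s.1 s.2)) -
      φ n (u ((S.r 0)⁻¹ * S.r 1)))) (ξ n)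
    rw [hξ, mul_one, map_sub, sub_apply] at e2
    have e3 := norm_sub_norm_le (π n (φ n x) (ξ n)) (π n ((R : ℂ) • ∑ s : Fin 4 × F,
      φ n (u (S.g s.1 s.2)) - φ n (u ((S.r 0)⁻¹ * S.r 1))) (ξ n))
    rw [hπ] at e3
    have e4 : π n ((R : ℂ) • ∑ s : Fin 4 × F, φ n (u (S.g s.1 s.2)) -
        φ n (u ((S.r 0)⁻¹ * S.r 1))) (ξ n) = R • ∑ s : Fin 4 × F,
          π n (φ n (u (S.g s.1 s.2))) (ξ n) -
          π n (φ n (u ((S.r 0)⁻¹ * (S.r 1 * (S.r 0)⁻¹) * S.r 0))) (ξ n) := by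
      rw [mul_assoc, inv_mul_cancel_right, map_sub, map_smul, map_sum, sub_apply, smul_apply,
        sum_apply, Complex.coe_smul]
    rw [← e4]
    linarith)
  have hstart : ∀ᶠ n in (ω : Filter ℕ), AI S.g (fun s => ((fib Ω (H n)).comp (π n)) (φ n (u s)) *
      Lsh Ω (H n) s) (S.K (H n) 0) (1 / 3) := by
    filter_upwards [hs, hv.propagate S.hrec hη0] with n ⟨h1, h2⟩ h3
    rw [inv_mul_cancel_right] at h2
    refine S.start_ai (fun s => π n (φ n (u s))) (ξ n) (h3 (lp.single 2 S.o (ξ n)) (2 * η)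
      (by rw [lp.norm_single (by norm_num), hξ]) (fun j c => ?_)) h2 (le_of_eq ?_)
    · have e : (((fib Ω (H n)).comp (π n)) (φ n (u (S.g j c))) * Lsh Ω (H n) (S.g j c))
          (lp.single 2 S.o (ξ n)) = lp.single 2 S.o (π n (φ n (u (S.g j c))) (ξ n)) := by
        ext y
        show π n (φ n (u (S.g j c))) ((lp.single 2 S.o (ξ n) : L2 Ω (H n)) ((S.g j c)⁻¹ • y)) = _
        by_cases hy : y = S.o
        · rw [hy, ← (S.gens.oneP _).neg, S.o_fix, lp.single_apply_self, lp.single_apply_self]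
        · rw [lp.single_apply_ne _ _ _ hy, lp.single_apply_ne, map_zero]
          intro h
          rw [inv_smul_eq_iff, S.o_fix] at h
          exact hy h
      rw [e, ← lp.single_sub, lp.norm_single (by norm_num)]
      exact h1 j c
    · rw [hη]; field_simp; norm_num
  have hall := hv.all_levels S.gens (fun n => S.K (H n))
    (fun n k j c x hx => S.fib_mem _ (S.L_mem (gen_mem _ j c) hx)) S.hrec
    (fun n k T hT => S.lift_mem (fun x => π n (φ n (u (S.r x)))) hT)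
    (fun n k T hT => S.lift_norm (fun x => π n (φ n (u (S.r x)))) hT) hstart
    (η := 1 / 10) (by norm_num)
  have hst := eventually_all.2 fun j => eventually_all.2 fun c =>
    (hy.star (S.g j c)).eventually (ge_mem_nhds (show (0 : ℝ) < 1 / 10 by norm_num))
  obtain ⟨n, h1, h2⟩ := (hall.and hst).exists
  choose T hT hT1 hT2 using h1
  let s : Fin 2 → O := ![s₁, s₂]
  have hcz : Cz s := ⟨fun b => by fin_cases b; exacts [hO.1, hO.2.1], hO.2.2.1⟩
  let ρ := (fib Ω (H n)).comp (π n)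
  have hap := eventually_all.2 fun j => eventually_all.2 fun c =>
    hcz.approx (ρ := ρ) hO.2.2.2.1 (φ n (u (S.g j c))) (show (0 : ℝ) < 1 / 10 by norm_num)
  obtain ⟨N, hN, hN0⟩ := (hap.and (eventually_ne_atTop 0)).exists
  choose b hb1 hb2 using hN
  have hdg : ∀ g : Γ, ∀ T, dg (Lsh Ω (H n) g) (emb ρ s N T) = emb ρ s N (Lsh Ω (H n) g T) := by
    intro g T
    ext1 m
    rw [dg_apply, emb_apply, emb_apply, map_smul]
    rfl
  have hkey : ∀ (g : Γ) (y : O) (B : Matrix _ _ ℂ) (T : L2 Ω (H n)), Apx ρ s N y B (1 / 10) →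
      ‖T‖ = 1 → ‖mat B (dg (Lsh Ω (H n) g) (emb ρ s N T)) - emb ρ s N T‖ ≤
        1 / 10 + ‖ρ y (Lsh Ω (H n) g T) - T‖ := by
    intro g y B T hB hT
    have e1 := hB (Lsh Ω (H n) g T)
    rw [Lsh_norm, hT, mul_one, norm_sub_rev] at e1
    rw [hdg, ← hcz.norm_emb ρ hN0 (ρ y (Lsh Ω (H n) g T) - T), map_sub]
    exact (norm_sub_le_norm_sub_add_norm_sub _ _ _).trans (add_le_add_left e1 _)
  have := final_contra S.gens S.tower b (fun k => emb ρ s N (T k))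
    (fun k a => Submodule.smul_mem _ _ (S.fib_mem _ (hT k)))
    (fun k => by rw [hcz.norm_emb ρ hN0, hT1]) (η := 3 / 10)
    (fun k j c => (hkey _ _ _ _ (hb1 j c) (hT1 k)).trans (by
      have := hT2 k j c
      have e : ‖ρ (φ n (u (S.g j c))) (Lsh Ω (H n) (S.g j c) (T k)) - T k‖ ≤ 1 / 10 := this
      linarith))
    (fun k j c => (hkey _ _ _ _ (hb2 j c) (hT1 k)).trans (by
      have := hT2 k j (-c)
      rw [(S.gens.oneP j).neg] at this
      have e : ‖ρ (φ n (u (S.g j c)⁻¹)) (Lsh Ω (H n) (S.g j c)⁻¹ (T k)) - T k‖ ≤ 1 / 10 := this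
      have e1 := norm_rho_le ρ (star (φ n (u (S.g j c))) - φ n (u (S.g j c)⁻¹))
        (Lsh Ω (H n) (S.g j c)⁻¹ (T k))
      rw [Lsh_norm, hT1, mul_one, map_sub, sub_apply] at e1
      have e2 := norm_sub_le_norm_sub_add_norm_sub
        (ρ (star (φ n (u (S.g j c)))) (Lsh Ω (H n) (S.g j c)⁻¹ (T k)))
        (ρ (φ n (u (S.g j c)⁻¹)) (Lsh Ω (H n) (S.g j c)⁻¹ (T k))) (T k)
      linarith [h2 j c]))
  norm_num at this

end Crest.Agent.H2.KEP
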