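import Crest.Agent.H5.MuI

/-! Row 186: infinite dominant dimension and infinite injective dimension. -/

set_option autoImplicit false
open CategoryTheory Abelian

universe u

namespace Crest.Agent.H2.Mu
open Crest.Agent.H5.Mu

variable {A : Type u} [Ring A]

/-- `Ext^n(N, I) = 0` -/
def Van (A : Type u) [Ring A] (I N : Type u) [AddCommGroup I] [Module A I] [AddCommGroup N]
    [Module A N] (n : ℕ) : Prop :=
  ∀ e : Ext (ModuleCat.of A N) (ModuleCat.of A I) n, e = 0

section ses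
variable {I N1 N2 N3 : Type u} [AddCommGroup I] [Module A I] [AddCommGroup N1] [Module A N1]
  [AddCommGroup N2] [Module A N2] [AddCommGroup N3] [Module A N3]

structure SES (f : N1 →ₗ[A] N2) (g : N2 →ₗ[A] N3) : Prop where
  ex : Function.Exact f g
  inj : Function.Injective f
  surj : Function.Surjective g

variable {f : N1 →ₗ[A] N2} {g : N2 →ₗ[A] N3}

abbrev SES.S (h : SES f g) : ShortComplex (ModuleCat.{u} A) :=
  ModuleCat.shortComplexOfCompEqZero f g h.ex.linearMap_comp_eq_zero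

theorem SES.se (h : SES f g) : h.S.ShortExact :=
  ModuleCat.shortComplex_shortExact h.S h.ex h.inj h.surj

theorem SES.van1 (h : SES f g) (n : ℕ) (h2 : Van A I N2 n) (h3 : Van A I N3 (n + 1)) :
    Van A I N1 n := by
  intro x₁
  obtain ⟨x₂, rfl⟩ := Ext.contravariant_sequence_exact₁ h.se (ModuleCat.of A I) x₁
    (add_comm 1 n) (h3 _)
  rw [h2 x₂, Ext.comp_zero]

theorem SES.ext_of_van (h : SES f g) (h3 : Van A I N3 1) (u : N1 →ₗ[A] I) :
    ∃ v : N2 →ₗ[A] I, ∀ x, v (f x) = u x := by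
  obtain ⟨x₂, hx⟩ := Ext.contravariant_sequence_exact₁ h.se (ModuleCat.of A I)
    (Ext.mk₀ (ModuleCat.ofHom u)) (add_zero 1) (h3 _)
  obtain ⟨v, rfl⟩ := (Ext.mk₀_bijective _ _).2 x₂
  rw [Ext.mk₀_comp_mk₀] at hx
  have := (Ext.mk₀_bijective _ _).1 hx
  refine ⟨v.hom, fun x => ?_⟩
  have h2 := congrArg (fun φ => φ.hom x) this
  simpa using h2

theorem van_proj (h : Module.Projective A N2) (n : ℕ) : Van A I N2 (n + 1) :=
  haveI : HasProjectiveDimensionLT (ModuleCat.of A N2) 1 := inferInstance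
  fun e => e.eq_zero_of_hasProjectiveDimensionLT 1 (by omega)

theorem ses_rr (he : Function.Exact f g) (hf : Function.Injective f) : SES f g.rangeRestrict :=
  ⟨fun x => by
    rw [← he x]
    exact ⟨fun h => congrArg Subtype.val h, fun h => Subtype.ext h⟩, hf, g.surjective_rangeRestrict⟩

theorem ses_range (he : Function.Exact f g) :
    SES (LinearMap.range f).subtype g.rangeRestrict :=
  ses_rr (fun x => by
    rw [he x]
    constructor
    · rintro ⟨y, hy⟩
      exact ⟨⟨x, y, hy⟩, rfl⟩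
    · rintro ⟨⟨_, y, rfl⟩, rfl⟩
      exact ⟨y, rfl⟩) Subtype.val_injective

end ses

variable {W : Type u} [AddCommGroup W] [Module A W]

theorem pow_proj (D : Dom A W) (m : ℕ) : Module.Projective A (Fin m → W) := by
  have := D.proj
  exact Module.Projective.of_equiv (DFinsupp.linearEquivFunOnFintype (R := A)
    (M := fun _ : Fin m => W))

theorem pow_inj (D : Dom A W) (m : ℕ) : Module.Injective A (Fin m → W) := by
  have := D.inj
  infer_instance

/-- `Ext^(j+1)(range d_j, Γ) ≠ 0` -/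
theorem not_van (D : Dom A W) (j : ℕ) : ¬ Van A A (LinearMap.range (D.d j)) (j + 1) := by
  induction j with
  | zero =>
    intro h
    obtain ⟨v, hv⟩ := (ses_rr D.ex0 D.ε_inj).ext_of_van h LinearMap.id
    exact D.nsplit v (hv 1)
  | succ j ih =>
    intro h
    exact ih ((ses_range (D.ex j)).van1 (j + 1) (van_proj (pow_proj D _) j) h)

theorem not_injDim (D : Dom A W) (n : ℕ) : ¬ HasInjectiveDimensionLT (ModuleCat.of A A) n := by
  intro h
  exact not_van D n fun e => e.eq_zero_of_hasInjectiveDimensionLT n (by omega)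

theorem s0284_of {K : Type u} [Field K] (h : DomStmt K) :
    ∃ (Γ : Type u) (_ : Ring Γ) (_ : Algebra K Γ), FiniteDimensional K Γ ∧
      (∃ (I : ℕ → ModuleCat.{u} Γ) (ε : Γ →ₗ[Γ] I 0) (d : ∀ j : ℕ, I j →ₗ[Γ] I (j + 1)),
        Function.Injective ε ∧ Function.Exact ε (d 0) ∧ (∀ j, Function.Exact (d j) (d (j + 1))) ∧
        ∀ j, Module.Projective Γ (I j) ∧ Module.Injective Γ (I j)) ∧
      ∀ n : ℕ, ¬ HasInjectiveDimensionLT (ModuleCat.of Γ Γ) n := by
  obtain ⟨Γ, _, _, W, _, _, hfd, ⟨D⟩⟩ := h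
  exact ⟨Γ, inferInstance, inferInstance, hfd,
    ⟨fun j => ModuleCat.of Γ (Fin (D.n j) → W), D.ε, D.d, D.ε_inj, D.ex0, D.ex,
      fun j => ⟨pow_proj D _, pow_inj D _⟩⟩, not_injDim D⟩

end Crest.Agent.H2.Mu
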