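import Mathlib

set_option autoImplicit false

namespace Crest.Agent.H2.OM

/-- upper end of the dyadic interval of length `2^j` containing `c` -/
def upE (j c : ℕ) : ℕ := (c / 2 ^ j + 1) * 2 ^ j
/-- lower end of the dyadic interval of length `2^j` containing `c` -/
def loE (j c : ℕ) : ℕ := (c / 2 ^ j) * 2 ^ j

def theta (h t c : ℕ) : ℕ := if t ≤ h then upE (h - t) c else loE (t - h - 1) c

def bitP (h t c : ℕ) : ℕ := (c / 2 ^ (if t ≤ h then h - t else t - h - 2)) % 2

lemma bitP_lt (h t c : ℕ) : bitP h t c < 2 := Nat.mod_lt _ (by norm_num)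

lemma theta_mono (h t : ℕ) {c c' : ℕ} (hc : c ≤ c') : theta h t c ≤ theta h t c' := by
  unfold theta upE loE
  split_ifs
  · exact Nat.mul_le_mul_right _ (Nat.succ_le_succ (Nat.div_le_div_right hc))
  · exact Nat.mul_le_mul_right _ (Nat.div_le_div_right hc)

lemma upE_succ (j c : ℕ) : upE (j + 1) c = ((c / 2 ^ j) / 2 * 2 + 2) * 2 ^ j := by
  unfold upE
  rw [pow_succ, ← Nat.div_div_eq_div_mul]
  ring

lemma loE_succ (j c : ℕ) : loE (j + 1) c = ((c / 2 ^ j) / 2 * 2) * 2 ^ j := by
  unfold loE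
  rw [pow_succ, ← Nat.div_div_eq_div_mul]
  ring

lemma theta_anti (h t c : ℕ) : theta h (t + 1) c ≤ theta h t c := by
  unfold theta
  by_cases h1 : t + 1 ≤ h
  · have h2 : t ≤ h := by omega
    rw [if_pos h1, if_pos h2]
    have : h - t = (h - (t + 1)) + 1 := by omega
    rw [this, upE_succ]
    unfold upE
    exact Nat.mul_le_mul_right _ (by omega)
  · rw [if_neg h1]
    by_cases h2 : t ≤ h
    · rw [if_pos h2]
      have e1 : h - t = 0 := by omega
      have e2 : t + 1 - h - 1 = 0 := by omega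
      rw [e1, e2]
      simp [upE, loE]
    · rw [if_neg h2]
      have : t + 1 - h - 1 = (t - h - 1) + 1 := by omega
      rw [this, loE_succ]
      unfold loE
      exact Nat.mul_le_mul_right _ (by omega)

lemma theta_zero (h : ℕ) {c : ℕ} (hc : c < 2 ^ h) : theta h 0 c = 2 ^ h := by
  unfold theta upE
  simp [Nat.div_eq_of_lt hc]

lemma theta_last (h : ℕ) {c : ℕ} (hc : c < 2 ^ h) : theta h (2 * h + 1) c = 0 := by
  unfold theta loE
  have h1 : ¬ (2 * h + 1 ≤ h) := by omega
  have h2 : 2 * h + 1 - h - 1 = h := by omega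
  rw [if_neg h1, h2]
  simp [Nat.div_eq_of_lt hc]

lemma theta_mid (h c : ℕ) : theta h h c = c + 1 := by
  simp [theta, upE]

lemma theta_mid' (h c : ℕ) : theta h (h + 1) c = c := by
  simp [theta, loE]

lemma theta_key (h t c r : ℕ) (ht : t ≠ h) (h1 : theta h (t + 1) c ≤ r) (h2 : r < theta h t c) :
    bitP h (t + 1) r ≠ bitP h (t + 1) c := by
  unfold theta at h1 h2
  unfold bitP
  by_cases a1 : t + 1 ≤ h
  · have a2 : t ≤ h := by omega
    rw [if_pos a1] at h1
    rw [if_pos a2] at h2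
    rw [if_pos a1]
    have : h - t = (h - (t + 1)) + 1 := by omega
    rw [this, upE_succ] at h2
    unfold upE at h1
    have hp : 0 < 2 ^ (h - (t + 1)) := by positivity
    rw [← Nat.le_div_iff_mul_le hp] at h1
    rw [← Nat.div_lt_iff_lt_mul hp] at h2
    omega
  · have a2 : ¬ t ≤ h := by omega
    rw [if_neg a1] at h1
    rw [if_neg a2] at h2
    rw [if_neg a1]
    have e1 : t + 1 - h - 1 = (t - h - 1) + 1 := by omega
    have e2 : t + 1 - h - 2 = t - h - 1 := by omega
    rw [e1, loE_succ] at h1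
    rw [e2]
    unfold loE at h2
    have hp : 0 < 2 ^ (t - h - 1) := by positivity
    rw [← Nat.le_div_iff_mul_le hp] at h1
    rw [← Nat.div_lt_iff_lt_mul hp] at h2
    omega

end Crest.Agent.H2.OM
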