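import Mathlib
import Crest.Agent.H2.OMTheta

set_option autoImplicit false

namespace Crest.Agent.H2.OM

/-- The pattern, on natural-number indices. -/
def HP (i j : ℕ) : Prop :=
  (i = 0 ∧ (j = 0 ∨ j = 64 ∨ j = 65)) ∨
  (1 ≤ i ∧ i ≤ 63 ∧ 1 ≤ j ∧ j ≤ 63 ∧ (i = 1 ∨ (i + j) % 2 = 0)) ∨
  (i = 64 ∧ j = 0) ∨ (i = 65 ∧ (j = 0 ∨ j = 64))

instance (i j : ℕ) : Decidable (HP i j) := by unfold HP; infer_instance

/-- block index -/
def blk (h i : ℕ) : ℕ := i / 2 ^ h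

/-- start of the payload zone -/
def R0 (h : ℕ) : ℕ := (4 * h + 68) * 2 ^ h

/-- cluster index of a payload row -/
def rx (h i : ℕ) : ℕ := (i - R0 h) / (2 * h + 1)
/-- copy index (step) of a payload row -/
def rt (h i : ℕ) : ℕ := 2 * h + 1 - (i - R0 h) % (2 * h + 1)
/-- copy index of a payload column -/
def ct (h j : ℕ) : ℕ :=
  if blk h j ≤ 4 * h + 67 then 0
  else if blk h j < 6 * h + 68 then 1 + (j - R0 h) % (2 * h) else 2 * h + 1
/-- cluster index of a payload column -/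
def cc (h j : ℕ) : ℕ :=
  if blk h j ≤ 4 * h + 67 then 0
  else if blk h j < 6 * h + 68 then (j - R0 h) / (2 * h) else 0

def inC (h k j : ℕ) : Prop :=
  k = 0 ∨ ((ct h j + 1 = k / 2 ∨ ct h j = k / 2) ∧
    (ct h j = 0 ∨ ct h j = 2 * h + 1 ∨ bitP h (k / 2) (cc h j) = k % 2))

def inR (h k i : ℕ) : Prop := k = 0 ∨ k = 2 * rt h i + bitP h (rt h i) (rx h i)

/-- The host matrix, on natural-number indices. -/
def AP (h i j : ℕ) : Prop :=
  (blk h i < 4 * h + 4 ∧ blk h j < 4 * h + 4 ∧ blk h i = blk h j) ∨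
  (blk h i < 4 * h + 4 ∧ 4 * h + 67 ≤ blk h j ∧ blk h j < 6 * h + 69 ∧ inC h (blk h i) j) ∨
  (4 * h + 4 ≤ blk h i ∧ blk h i < 4 * h + 67 ∧ 4 * h + 4 ≤ blk h j ∧ blk h j < 4 * h + 67 ∧
    (blk h i = 4 * h + 4 ∨ (blk h i + blk h j) % 2 = 0)) ∨
  (blk h i = 4 * h + 67 ∧ blk h j < 4 * h + 4 ∧ blk h j ≠ 0) ∨
  (4 * h + 68 ≤ blk h i ∧ blk h i < 6 * h + 69 ∧ blk h j < 4 * h + 4 ∧ inR h (blk h j) i) ∨
  (4 * h + 68 ≤ blk h i ∧ blk h i < 6 * h + 69 ∧ 4 * h + 67 ≤ blk h j ∧ blk h j < 6 * h + 69 ∧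
    rx h i < theta h (ct h j) (cc h j))

/-- position of payload row copy `t` (1 ≤ t ≤ 2h+1) in cluster `x` -/
def rowPos (h t x : ℕ) : ℕ := R0 h + x * (2 * h + 1) + (2 * h + 1 - t)
/-- position of payload column copy `t` (1 ≤ t ≤ 2h) in cluster `c` -/
def colPos (h t c : ℕ) : ℕ := R0 h + c * (2 * h) + (t - 1)

lemma two_pow_pos' (h : ℕ) : 0 < 2 ^ h := by positivity

lemma blk_mono (h : ℕ) {i i' : ℕ} (hi : i ≤ i') : blk h i ≤ blk h i' := Nat.div_le_div_right hi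

lemma rx_mono (h : ℕ) {i i' : ℕ} (hi : i ≤ i') : rx h i ≤ rx h i' :=
  Nat.div_le_div_right (by omega)

lemma R0_le_iff (h i : ℕ) : R0 h ≤ i ↔ 4 * h + 68 ≤ blk h i := by
  unfold R0 blk
  rw [Nat.le_div_iff_mul_le (two_pow_pos' h)]

lemma blk_lt_iff (h i k : ℕ) : blk h i < k ↔ i < k * 2 ^ h := by
  unfold blk
  rw [Nat.div_lt_iff_lt_mul (two_pow_pos' h)]

lemma rx_lt (h i : ℕ) (h1 : 4 * h + 68 ≤ blk h i) (h2 : blk h i < 6 * h + 69) :
    rx h i < 2 ^ h := by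
  unfold rx
  rw [← R0_le_iff] at h1
  rw [blk_lt_iff] at h2
  rw [Nat.div_lt_iff_lt_mul (by omega)]
  unfold R0 at *
  have : (6 * h + 69) * 2 ^ h = (4 * h + 68) * 2 ^ h + 2 ^ h * (2 * h + 1) := by ring
  omega

lemma rt_bounds (h i : ℕ) : 1 ≤ rt h i ∧ rt h i ≤ 2 * h + 1 := by
  unfold rt
  have := Nat.mod_lt (i - R0 h) (show 0 < 2 * h + 1 by omega)
  omega

lemma cc_lt (h j : ℕ) (hh : 1 ≤ h) : cc h j < 2 ^ h := by
  unfold cc
  split_ifs with a1 a2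
  · exact two_pow_pos' h
  · have h1 : R0 h ≤ j := by rw [R0_le_iff]; omega
    rw [blk_lt_iff] at a2
    rw [Nat.div_lt_iff_lt_mul (by omega)]
    unfold R0 at *
    have : (6 * h + 68) * 2 ^ h = (4 * h + 68) * 2 ^ h + 2 ^ h * (2 * h) := by ring
    omega
  · exact two_pow_pos' h

lemma ct_le (h j : ℕ) (hh : 1 ≤ h) : ct h j ≤ 2 * h + 1 := by
  unfold ct
  have := Nat.mod_lt (j - R0 h) (show 0 < 2 * h by omega)
  split_ifs <;> omega

/-- a cluster column is determined by its copy and cluster index -/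
lemma col_decode (h j : ℕ) (h1 : 1 ≤ ct h j) (h2 : ct h j ≤ 2 * h) :
    j = colPos h (ct h j) (cc h j) := by
  unfold colPos
  unfold ct at *
  unfold cc
  split_ifs at h1 h2 ⊢ with a1 a2
  · omega
  · have h1 : R0 h ≤ j := by rw [R0_le_iff]; omega
    have := Nat.div_add_mod' (j - R0 h) (2 * h)
    omega
  · omega

/-- order of payload columns -/
lemma col_order (h j j' : ℕ) (hh : 1 ≤ h) (hj : j < j') :
    (ct h j = 0 ∨ ct h j' = 2 * h + 1 ∨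
      (1 ≤ ct h j ∧ ct h j ≤ 2 * h ∧ 1 ≤ ct h j' ∧ ct h j' ≤ 2 * h ∧ cc h j ≤ cc h j')) := by
  have hb := blk_mono h hj.le
  unfold ct cc
  have m1 := Nat.mod_lt (j - R0 h) (show 0 < 2 * h by omega)
  have m2 := Nat.mod_lt (j' - R0 h) (show 0 < 2 * h by omega)
  have m3 : (j - R0 h) / (2 * h) ≤ (j' - R0 h) / (2 * h) := Nat.div_le_div_right (by omega)
  split_ifs <;> omega

lemma ct_zero_cc (h j : ℕ) (hh : 1 ≤ h) (h0 : ct h j = 0 ∨ ct h j = 2 * h + 1) : cc h j = 0 := by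
  unfold ct at h0
  unfold cc
  have m1 := Nat.mod_lt (j - R0 h) (show 0 < 2 * h by omega)
  split_ifs at h0 ⊢ <;> omega

lemma blk_eq (h b o : ℕ) (ho : o < 2 ^ h) : blk h (b * 2 ^ h + o) = b := by
  unfold blk
  rw [mul_comm, Nat.mul_add_div (two_pow_pos' h), Nat.div_eq_of_lt ho, add_zero]

lemma off_eq (h b o : ℕ) (ho : o < 2 ^ h) : (b * 2 ^ h + o) % 2 ^ h = o := by
  rw [mul_comm, Nat.mul_add_mod, Nat.mod_eq_of_lt ho]

lemma rowPos_spec (h t x : ℕ) (ht1 : 1 ≤ t) (ht2 : t ≤ 2 * h + 1) (hx : x < 2 ^ h) :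
    4 * h + 68 ≤ blk h (rowPos h t x) ∧ blk h (rowPos h t x) < 6 * h + 69 ∧
      rx h (rowPos h t x) = x ∧ rt h (rowPos h t x) = t := by
  have e : rowPos h t x - R0 h = x * (2 * h + 1) + (2 * h + 1 - t) := by unfold rowPos; omega
  refine ⟨?_, ?_, ?_, ?_⟩
  · rw [← R0_le_iff]; unfold rowPos; omega
  · rw [blk_lt_iff]
    unfold rowPos R0
    have : (6 * h + 69) * 2 ^ h = (4 * h + 68) * 2 ^ h + 2 ^ h * (2 * h + 1) := by ring
    have h2 : (x + 1) * (2 * h + 1) ≤ 2 ^ h * (2 * h + 1) := Nat.mul_le_mul_right _ hx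
    have h3 : (x + 1) * (2 * h + 1) = x * (2 * h + 1) + (2 * h + 1) := by ring
    omega
  · unfold rx
    rw [e, mul_comm, Nat.mul_add_div (by omega), Nat.div_eq_of_lt (by omega), add_zero]
  · unfold rt
    rw [e, mul_comm x, Nat.mul_add_mod, Nat.mod_eq_of_lt (by omega)]
    omega

lemma colPos_spec (h t c : ℕ) (ht1 : 1 ≤ t) (ht2 : t ≤ 2 * h) (hc : c < 2 ^ h) :
    4 * h + 68 ≤ blk h (colPos h t c) ∧ blk h (colPos h t c) < 6 * h + 68 ∧
      cc h (colPos h t c) = c ∧ ct h (colPos h t c) = t := by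
  have e : colPos h t c - R0 h = c * (2 * h) + (t - 1) := by unfold colPos; omega
  have a1 : 4 * h + 68 ≤ blk h (colPos h t c) := by rw [← R0_le_iff]; unfold colPos; omega
  have a2 : blk h (colPos h t c) < 6 * h + 68 := by
    rw [blk_lt_iff]
    unfold colPos R0
    have : (6 * h + 68) * 2 ^ h = (4 * h + 68) * 2 ^ h + 2 ^ h * (2 * h) := by ring
    have h2 : (c + 1) * (2 * h) ≤ 2 ^ h * (2 * h) := Nat.mul_le_mul_right _ hc
    have h3 : (c + 1) * (2 * h) = c * (2 * h) + (2 * h) := by ring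
    omega
  refine ⟨a1, a2, ?_, ?_⟩
  · unfold cc
    rw [if_neg (by omega), if_pos a2, e, mul_comm, Nat.mul_add_div (by omega),
      Nat.div_eq_of_lt (by omega), add_zero]
  · unfold ct
    rw [if_neg (by omega), if_pos a2, e, mul_comm, Nat.mul_add_mod, Nat.mod_eq_of_lt (by omega)]
    omega

end Crest.Agent.H2.OM
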