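import Mathlib
import Crest.Agent.H2.OMDefs

set_option autoImplicit false

namespace Crest.Agent.H2.OM

def rowOK (h x y i : ℕ) : Prop :=
  (blk h i ≤ 4 * h + 67 ∧ i % 2 ^ h = y) ∨ (4 * h + 68 ≤ blk h i ∧ blk h i < 6 * h + 69 ∧ rx h i = x)

def colOK (h x z j : ℕ) : Prop :=
  ((blk h j ≤ 4 * h + 67 ∨ blk h j = 6 * h + 68) ∧ j % 2 ^ h = z) ∨
    (4 * h + 68 ≤ blk h j ∧ blk h j < 6 * h + 68 ∧ cc h j = x)

def Struct (h x y i j : ℕ) : Prop :=
  rowOK h x y i ∧ colOK h x ((x + y) % 2 ^ h) j ∧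
    (blk h i ≤ 4 * h + 67 ∨ blk h j ≤ 4 * h + 67 ∨ blk h j = 6 * h + 68)

lemma Struct_inj {h x y x' y' i j : ℕ} (hx : x < 2 ^ h) (hy : y < 2 ^ h) (hx' : x' < 2 ^ h)
    (hy' : y' < 2 ^ h) (H : Struct h x y i j) (H' : Struct h x' y' i j) : x = x' ∧ y = y' := by
  obtain ⟨a1, a2, a3⟩ := H
  obtain ⟨b1, b2, -⟩ := H'
  unfold rowOK at a1 b1
  unfold colOK at a2 b2
  have key : (y = y' ∧ (x + y) % 2 ^ h = (x' + y') % 2 ^ h) ∨ (x = x' ∧ y = y') ∨
      (x = x' ∧ (x + y) % 2 ^ h = (x' + y') % 2 ^ h) := by omega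
  rcases key with ⟨e1, e2⟩ | e | ⟨e1, e2⟩
  · subst e1
    exact ⟨Nat.ModEq.eq_of_lt_of_lt (Nat.ModEq.add_right_cancel' y e2) hx hx', rfl⟩
  · exact e
  · subst e1
    exact ⟨rfl, Nat.ModEq.eq_of_lt_of_lt (Nat.ModEq.add_left_cancel' x e2) hy hy'⟩

lemma Struct_lt {h x y i j : ℕ} (H : Struct h x y i j) :
    i < (6 * h + 69) * 2 ^ h ∧ j < (6 * h + 69) * 2 ^ h := by
  obtain ⟨a1, a2, -⟩ := H
  unfold rowOK at a1
  unfold colOK at a2
  rw [← blk_lt_iff, ← blk_lt_iff]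
  omega

def HasCopy (h : ℕ) (B : ℕ → ℕ → Prop) : Prop :=
  ∃ ρ γ : ℕ → ℕ, (∀ i, i < 65 → ρ i < ρ (i + 1)) ∧ (∀ i, i < 65 → γ i < γ (i + 1)) ∧
    ρ 65 < (6 * h + 69) * 2 ^ h ∧ γ 65 < (6 * h + 69) * 2 ^ h ∧
    ∀ i, i < 66 → ∀ j, j < 66 → (B (ρ i) (γ j) ↔ HP i j)

def emb (h k y p1 p2 i : ℕ) : ℕ :=
  if i = 0 then k * 2 ^ h + y else if i ≤ 63 then (4 * h + 3 + i) * 2 ^ h + y
  else if i = 64 then p1 else p2

lemma lt_of_blk_lt {h i j : ℕ} (H : blk h i < blk h j) : i < j := by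
  by_contra hn
  have := blk_mono h (not_lt.1 hn)
  omega

lemma emb_blk0 (h k y p1 p2 : ℕ) (hy : y < 2 ^ h) :
    blk h (emb h k y p1 p2 0) = k ∧ emb h k y p1 p2 0 % 2 ^ h = y := by
  unfold emb
  rw [if_pos rfl]
  exact ⟨blk_eq h k y hy, off_eq h k y hy⟩

lemma emb_blk (h k y p1 p2 i : ℕ) (hy : y < 2 ^ h) (h1 : 1 ≤ i) (h2 : i ≤ 63) :
    blk h (emb h k y p1 p2 i) = 4 * h + 3 + i ∧ emb h k y p1 p2 i % 2 ^ h = y := by
  unfold emb
  rw [if_neg (by omega), if_pos h2]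
  exact ⟨blk_eq h _ y hy, off_eq h _ y hy⟩

lemma emb64 (h k y p1 p2 : ℕ) : emb h k y p1 p2 64 = p1 := by simp [emb]
lemma emb65 (h k y p1 p2 : ℕ) : emb h k y p1 p2 65 = p2 := by simp [emb]

lemma emb_mono (h k y p1 p2 : ℕ) (hy : y < 2 ^ h) (hk : k < 4 * h + 4)
    (hp : 4 * h + 67 ≤ blk h p1) (hp12 : p1 < p2) :
    ∀ i, i < 65 → emb h k y p1 p2 i < emb h k y p1 p2 (i + 1) := by
  intro i hi
  by_cases h0 : i = 0
  · subst h0
    apply lt_of_blk_lt (h := h)
    rw [(emb_blk0 h k y p1 p2 hy).1, (emb_blk h k y p1 p2 (0 + 1) hy (by omega) (by omega)).1]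
    omega
  by_cases h1 : i < 63
  · apply lt_of_blk_lt (h := h)
    rw [(emb_blk h k y p1 p2 i hy (by omega) (by omega)).1,
      (emb_blk h k y p1 p2 (i + 1) hy (by omega) (by omega)).1]
    omega
  by_cases h2 : i = 63
  · subst h2
    apply lt_of_blk_lt (h := h)
    rw [(emb_blk h k y p1 p2 63 hy (by omega) (by omega)).1, emb64]
    omega
  have : i = 64 := by omega
  subst this
  rw [emb64, emb65]; exact hp12

lemma copy_of {h x y : ℕ} {B : ℕ → ℕ → Prop} (hy : y < 2 ^ h)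
    (hB : ∀ i j, Struct h x y i j → (B i j ↔ AP h i j))
    (k p1 p2 q1 q2 : ℕ) (hk : k < 4 * h + 4) (hp : p1 < p2) (hq : q1 < q2)
    (bp1 : 4 * h + 67 ≤ blk h p1) (bp2 : blk h p2 < 6 * h + 69)
    (bq1 : 4 * h + 67 ≤ blk h q1) (bq2 : blk h q2 < 6 * h + 69)
    (op1 : rowOK h x y p1) (op2 : rowOK h x y p2)
    (oq1 : colOK h x ((x + y) % 2 ^ h) q1) (oq2 : colOK h x ((x + y) % 2 ^ h) q2)
    (c1 : inC h k q1) (c2 : inC h k q2)
    (r1 : (blk h p1 = 4 * h + 67 ∧ k ≠ 0) ∨ (4 * h + 68 ≤ blk h p1 ∧ inR h k p1))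
    (r2 : 4 * h + 68 ≤ blk h p2 ∧ inR h k p2)
    (v11 : ¬ B p1 q1) (v12 : ¬ B p1 q2) (v21 : B p2 q1) (v22 : ¬ B p2 q2) : HasCopy h B := by
  set z := (x + y) % 2 ^ h with hz
  have hz' : z < 2 ^ h := Nat.mod_lt _ (two_pow_pos' h)
  have mp := blk_mono h hp.le
  have mq := blk_mono h hq.le
  refine ⟨emb h k y p1 p2, emb h k z q1 q2, emb_mono h k y p1 p2 hy hk bp1 hp,
    emb_mono h k z q1 q2 hz' hk bq1 hq, ?_, ?_, ?_⟩
  · rw [emb65, ← blk_lt_iff]; exact bp2
  · rw [emb65, ← blk_lt_iff]; exact bq2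
  intro i hi j hj
  -- describe row
  have ri : (i = 0 ∧ blk h (emb h k y p1 p2 i) = k ∧ emb h k y p1 p2 i % 2 ^ h = y) ∨
      (1 ≤ i ∧ i ≤ 63 ∧ blk h (emb h k y p1 p2 i) = 4 * h + 3 + i ∧ emb h k y p1 p2 i % 2 ^ h = y) ∨
      (i = 64 ∧ emb h k y p1 p2 i = p1) ∨ (i = 65 ∧ emb h k y p1 p2 i = p2) := by
    by_cases h0 : i = 0
    · left; subst h0; exact ⟨rfl, emb_blk0 h k y p1 p2 hy⟩
    by_cases h1 : i ≤ 63
    · right; left; exact ⟨by omega, h1, emb_blk h k y p1 p2 i hy (by omega) h1⟩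
    by_cases h2 : i = 64
    · right; right; left; subst h2; exact ⟨rfl, emb64 ..⟩
    · right; right; right
      have : i = 65 := by omega
      subst this; exact ⟨rfl, emb65 ..⟩
  have cj : (j = 0 ∧ blk h (emb h k z q1 q2 j) = k ∧ emb h k z q1 q2 j % 2 ^ h = z) ∨
      (1 ≤ j ∧ j ≤ 63 ∧ blk h (emb h k z q1 q2 j) = 4 * h + 3 + j ∧ emb h k z q1 q2 j % 2 ^ h = z) ∨
      (j = 64 ∧ emb h k z q1 q2 j = q1) ∨ (j = 65 ∧ emb h k z q1 q2 j = q2) := by
    by_cases h0 : j = 0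
    · left; subst h0; exact ⟨rfl, emb_blk0 h k z q1 q2 hz'⟩
    by_cases h1 : j ≤ 63
    · right; left; exact ⟨by omega, h1, emb_blk h k z q1 q2 j hz' (by omega) h1⟩
    by_cases h2 : j = 64
    · right; right; left; subst h2; exact ⟨rfl, emb64 ..⟩
    · right; right; right
      have : j = 65 := by omega
      subst this; exact ⟨rfl, emb65 ..⟩
  generalize emb h k y p1 p2 i = a at ri
  generalize emb h k z q1 q2 j = b at cj
  have oa : rowOK h x y a := by
    rcases ri with ⟨-, e1, e2⟩ | ⟨_, _, e1, e2⟩ | ⟨-, e⟩ | ⟨-, e⟩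
    · left; exact ⟨by omega, e2⟩
    · left; exact ⟨by omega, e2⟩
    · rw [e]; exact op1
    · rw [e]; exact op2
  have ob : colOK h x z b := by
    rcases cj with ⟨-, e1, e2⟩ | ⟨_, _, e1, e2⟩ | ⟨-, e⟩ | ⟨-, e⟩
    · left; exact ⟨by omega, e2⟩
    · left; exact ⟨by omega, e2⟩
    · rw [e]; exact oq1
    · rw [e]; exact oq2
  by_cases hij : i ≤ 63 ∨ j ≤ 63
  · have st : Struct h x y a b := ⟨oa, ob, by omega⟩
    rw [hB a b st]
    unfold AP HP
    rcases ri with ⟨i0, e1, -⟩ | ⟨i1, i2, e1, -⟩ | ⟨i0, e⟩ | ⟨i0, e⟩ <;>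
    rcases cj with ⟨j0, f1, -⟩ | ⟨j1, j2, f1, -⟩ | ⟨j0, f⟩ | ⟨j0, f⟩
    · constructor
      · intro _; omega
      · intro _; left; omega
    · constructor
      · rintro (H | H | H | H | H | H) <;> omega
      · intro H; omega
    · constructor
      · intro _; omega
      · intro _; right; left; subst f; rw [e1]; exact ⟨hk, bq1, by omega, c1⟩
    · constructor
      · intro _; omega
      · intro _; right; left; subst f; rw [e1]; exact ⟨hk, by omega, bq2, c2⟩
    · constructor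
      · rintro (H | H | H | H | H | H) <;> omega
      · intro H; omega
    · constructor
      · rintro (H | H | H | H | H | H) <;> omega
      · intro H; right; right; left; omega
    · subst f
      constructor
      · rintro (H | H | H | H | H | H) <;> omega
      · intro H; omega
    · subst f
      constructor
      · rintro (H | H | H | H | H | H) <;> omega
      · intro H; omega
    · subst e
      constructor
      · intro _; omega
      · intro _
        rcases r1 with r | r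
        · right; right; right; left; omega
        · right; right; right; right; left; rw [f1]; exact ⟨r.1, by omega, hk, r.2⟩
    · subst e
      constructor
      · rintro (H | H | H | H | H | H) <;> omega
      · intro H; omega
    · omega
    · omega
    · subst e
      constructor
      · intro _; omega
      · intro _
        right; right; right; right; left; rw [f1]; exact ⟨r2.1, by omega, hk, r2.2⟩
    · subst e
      constructor
      · rintro (H | H | H | H | H | H) <;> omega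
      · intro H; omega
    · omega
    · omega
  · unfold HP
    rcases ri with ⟨i0, e1, -⟩ | ⟨i1, i2, e1, -⟩ | ⟨i0, e⟩ | ⟨i0, e⟩ <;>
    rcases cj with ⟨j0, f1, -⟩ | ⟨j1, j2, f1, -⟩ | ⟨j0, f⟩ | ⟨j0, f⟩ <;> try omega
    · subst e f; exact ⟨fun H => absurd H v11, fun H => by omega⟩
    · subst e f; exact ⟨fun H => absurd H v12, fun H => by omega⟩
    · subst e f; exact ⟨fun _ => by omega, fun _ => v21⟩
    · subst e f; exact ⟨fun H => absurd H v22, fun H => by omega⟩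

/-- the payload column of copy `t` used by the test structure -/
def pcol (h x z t : ℕ) : ℕ :=
  if t = 0 then (4 * h + 67) * 2 ^ h + z else if t ≤ 2 * h then colPos h t x
  else (6 * h + 68) * 2 ^ h + z

lemma pcol_spec (h x z t : ℕ) (hx : x < 2 ^ h) (hz : z < 2 ^ h) (ht : t ≤ 2 * h + 1) :
    4 * h + 67 ≤ blk h (pcol h x z t) ∧ blk h (pcol h x z t) < 6 * h + 69 ∧
    colOK h x z (pcol h x z t) ∧ ct h (pcol h x z t) = t ∧
    (t = 0 ∨ t = 2 * h + 1 ∨ cc h (pcol h x z t) = x) ∧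
    (t = 0 → blk h (pcol h x z t) = 4 * h + 67) ∧
    (t = 2 * h + 1 → blk h (pcol h x z t) = 6 * h + 68) ∧
    (1 ≤ t → t ≤ 2 * h → 4 * h + 68 ≤ blk h (pcol h x z t) ∧ blk h (pcol h x z t) < 6 * h + 68) := by
  unfold pcol
  split_ifs with h0 h1
  · have e1 := blk_eq h (4 * h + 67) z hz
    have e2 := off_eq h (4 * h + 67) z hz
    refine ⟨by omega, by omega, Or.inl ⟨by omega, e2⟩, ?_, by omega, by omega, by omega, by omega⟩
    unfold ct; rw [if_pos (by omega)]; omega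
  · obtain ⟨a, b, c, d⟩ := colPos_spec h t x (by omega) h1 hx
    exact ⟨by omega, by omega, Or.inr ⟨a, b, c⟩, d, by omega, by omega, by omega, by omega⟩
  · have e1 := blk_eq h (6 * h + 68) z hz
    have e2 := off_eq h (6 * h + 68) z hz
    refine ⟨by omega, by omega, Or.inl ⟨by omega, e2⟩, ?_, by omega, by omega, by omega, by omega⟩
    unfold ct; rw [if_neg (by omega), if_neg (by omega)]; omega

lemma pcol_lt (h x z t t' : ℕ) (hx : x < 2 ^ h) (hz : z < 2 ^ h) (htt : t < t')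
    (ht : t' ≤ 2 * h + 1) : pcol h x z t < pcol h x z t' := by
  obtain ⟨a1, a2, -, -, -, a6, a7, a8⟩ := pcol_spec h x z t hx hz (by omega)
  obtain ⟨b1, b2, -, -, -, b6, b7, b8⟩ := pcol_spec h x z t' hx hz ht
  by_cases h0 : t = 0 ∨ t' = 2 * h + 1
  · apply lt_of_blk_lt (h := h)
    omega
  · unfold pcol
    rw [if_neg (by omega), if_pos (by omega), if_neg (by omega), if_pos (by omega)]
    unfold colPos
    omega

theorem far_core {h x y : ℕ} {B : ℕ → ℕ → Prop} (hh : 1 ≤ h) (hx : x < 2 ^ h) (hy : y < 2 ^ h)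
    (hB : ∀ i j, Struct h x y i j → (B i j ↔ AP h i j)) : HasCopy h B := by
  by_contra hno
  set z := (x + y) % 2 ^ h with hz
  have hz' : z < 2 ^ h := Nat.mod_lt _ (two_pow_pos' h)
  have rowok : ∀ t, 1 ≤ t → t ≤ 2 * h + 1 → rowOK h x y (rowPos h t x) := by
    intro t h1 h2
    obtain ⟨a, b, c, -⟩ := rowPos_spec h t x h1 h2 hx
    exact Or.inr ⟨a, b, c⟩
  -- last column is zero on payload rows
  have lastz : ∀ t, 1 ≤ t → t ≤ 2 * h + 1 → ¬ B (rowPos h t x) (pcol h x z (2 * h + 1)) := by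
    intro t h1 h2
    obtain ⟨a, b, c, -⟩ := rowPos_spec h t x h1 h2 hx
    obtain ⟨a1, a2, a3, a4, -, -, a7, -⟩ := pcol_spec h x z (2 * h + 1) hx hz' le_rfl
    rw [hB _ _ ⟨rowok t h1 h2, a3, by omega⟩]
    unfold AP
    rw [a4, theta_last h (cc_lt h _ hh)]
    rintro (H | H | H | H | H | H) <;> omega
  -- horizontal step
  have hor : ∀ s, s ≤ 2 * h → B (rowPos h (s + 1) x) (pcol h x z s) →
      B (rowPos h (s + 1) x) (pcol h x z (s + 1)) := by
    intro s hs hv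
    by_contra hv'
    apply hno
    obtain ⟨a, b, c, d⟩ := rowPos_spec h (s + 1) x (by omega) (by omega) hx
    obtain ⟨a1, a2, a3, a4, a5, -, -, -⟩ := pcol_spec h x z s hx hz' (by omega)
    obtain ⟨b1, b2, b3, b4, b5, -, -, -⟩ := pcol_spec h x z (s + 1) hx hz' (by omega)
    have hb := bitP_lt h (s + 1) x
    have e1 := blk_eq h (4 * h + 67) y hy
    have e2 := off_eq h (4 * h + 67) y hy
    have dz : ∀ q, colOK h x z q → 4 * h + 67 ≤ blk h q → ¬ B ((4 * h + 67) * 2 ^ h + y) q := by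
      intro q hq1 hq2
      rw [hB _ _ ⟨Or.inl ⟨by omega, e2⟩, hq1, by omega⟩]
      unfold AP
      rintro (H | H | H | H | H | H) <;> omega
    have k2 : (2 * (s + 1) + bitP h (s + 1) x) / 2 = s + 1 := by omega
    have k3 : (2 * (s + 1) + bitP h (s + 1) x) % 2 = bitP h (s + 1) x := by omega
    refine copy_of hy hB (2 * (s + 1) + bitP h (s + 1) x) ((4 * h + 67) * 2 ^ h + y)
      (rowPos h (s + 1) x) (pcol h x z s) (pcol h x z (s + 1)) (by omega)
      (lt_of_blk_lt (h := h) (by omega)) (pcol_lt h x z s (s + 1) hx hz' (by omega) (by omega))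
      (by omega) b a1 b2 (Or.inl ⟨by omega, e2⟩) (rowok _ (by omega) (by omega)) a3 b3 ?_ ?_
      (Or.inl ⟨e1, by omega⟩) ⟨a, ?_⟩ (dz _ a3 a1) (dz _ b3 b1) hv hv'
    · right
      rw [k2, k3, a4]
      refine ⟨Or.inl rfl, ?_⟩
      rcases a5 with e | e | e
      · exact Or.inl e
      · exact Or.inr (Or.inl e)
      · rw [e]; exact Or.inr (Or.inr rfl)
    · right
      rw [k2, k3, b4]
      refine ⟨Or.inr rfl, ?_⟩
      rcases b5 with e | e | e
      · exact Or.inl e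
      · exact Or.inr (Or.inl e)
      · rw [e]; exact Or.inr (Or.inr rfl)
    · right; rw [c, d]
  -- vertical step
  have ver : ∀ t, 1 ≤ t → t ≤ 2 * h → B (rowPos h t x) (pcol h x z t) →
      B (rowPos h (t + 1) x) (pcol h x z t) := by
    intro t h1 h2 hv
    by_contra hv'
    apply hno
    obtain ⟨a, b, c, d⟩ := rowPos_spec h (t + 1) x (by omega) (by omega) hx
    obtain ⟨a', b', c', d'⟩ := rowPos_spec h t x (by omega) (by omega) hx
    obtain ⟨a1, a2, a3, a4, a5, -, -, -⟩ := pcol_spec h x z t hx hz' (by omega)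
    obtain ⟨b1, b2, b3, b4, b5, -, -, -⟩ := pcol_spec h x z (2 * h + 1) hx hz' (by omega)
    refine copy_of hy hB 0 (rowPos h (t + 1) x) (rowPos h t x) (pcol h x z t)
      (pcol h x z (2 * h + 1)) (by omega) (by unfold rowPos; omega)
      (pcol_lt h x z t (2 * h + 1) hx hz' (by omega) (by omega))
      (by omega) b' a1 b2 (rowok _ (by omega) (by omega)) (rowok _ (by omega) (by omega)) a3 b3
      (Or.inl rfl) (Or.inl rfl) (Or.inr ⟨a, Or.inl rfl⟩) ⟨a', Or.inl rfl⟩ hv'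
      (lastz _ (by omega) (by omega)) hv (lastz _ (by omega) (by omega))
  have base : B (rowPos h 1 x) (pcol h x z 0) := by
    obtain ⟨a, b, c, -⟩ := rowPos_spec h 1 x (by omega) (by omega) hx
    obtain ⟨a1, a2, a3, a4, -, a6, -, -⟩ := pcol_spec h x z 0 hx hz' (by omega)
    rw [hB _ _ ⟨rowok 1 (by omega) (by omega), a3, by omega⟩]
    unfold AP
    right; right; right; right; right
    rw [a4, theta_zero h (cc_lt h _ hh), c]
    exact ⟨a, b, a1, a2, hx⟩
  have chain : ∀ s, s ≤ 2 * h → B (rowPos h (s + 1) x) (pcol h x z s) := by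
    intro s hs
    induction s with
    | zero => exact base
    | succ m ih => exact ver (m + 1) (by omega) hs (hor m (by omega) (ih (by omega)))
  exact lastz (2 * h + 1) (by omega) le_rfl (hor (2 * h) le_rfl (chain _ le_rfl))

end Crest.Agent.H2.OM
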