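import Mathlib
import Crest.Agent.H2.OMDefs

set_option autoImplicit false

namespace Crest.Agent.H2.OM

/-- in gadget zone -/
def gz (h i : ℕ) : Prop := 4 * h + 4 ≤ blk h i ∧ blk h i < 4 * h + 67

lemma AP_gz {h i j : ℕ} (H : AP h i j) : gz h i ↔ gz h j := by
  unfold AP at H
  unfold gz
  rcases H with H | H | H | H | H | H <;> omega

lemma AP_gz_iff {h i j : ℕ} (hi : gz h i) (hj : gz h j) :
    AP h i j ↔ (blk h i = 4 * h + 4 ∨ (blk h i + blk h j) % 2 = 0) := by
  unfold gz at hi hj
  unfold AP
  constructor
  · rintro (H | H | H | H | H | H) <;> omega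
  · intro H
    right; right; left
    omega

/-- anchor rows in the same block have the same entries -/
lemma AP_anchor_row {h i i' j : ℕ} (hi : blk h i < 4 * h + 4) (e : blk h i = blk h i')
    (H : AP h i j) : AP h i' j := by
  unfold AP at H ⊢
  rw [← e]
  rcases H with H | H | H | H | H | H
  · left; exact H
  · right; left; exact H
  all_goals omega

lemma AP_anchor_col {h i j j' : ℕ} (hj : blk h j < 4 * h + 4) (e : blk h j = blk h j')
    (H : AP h i j) : AP h i j' := by
  unfold AP at H ⊢
  rw [← e]
  rcases H with H | H | H | H | H | H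
  · left; exact H
  · omega
  · omega
  · right; right; right; left; exact H
  · right; right; right; right; left; exact H
  · omega

lemma mono_of_succ {f : ℕ → ℕ} (hf : ∀ i, i < 65 → f i < f (i + 1)) {i j : ℕ} (hij : i < j)
    (hj : j < 66) : f i < f j := by
  induction j with
  | zero => omega
  | succ k ih =>
    have := hf k (by omega)
    rcases Nat.lt_succ_iff_lt_or_eq.1 hij with h1 | h1
    · have := ih h1 (by omega); omega
    · subst h1; exact this

section
variable {h : ℕ} {ρ γ : ℕ → ℕ}

lemma step1 (hρ : ∀ i, i < 65 → ρ i < ρ (i + 1)) (hγ : ∀ i, i < 65 → γ i < γ (i + 1))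
    (hA : ∀ i, i < 66 → ∀ j, j < 66 → (AP h (ρ i) (γ j) ↔ HP i j)) : gz h (ρ 1) := by
  by_contra hn
  have hc : ∀ j, 1 ≤ j → j ≤ 63 → ¬ gz h (γ j) := by
    intro j h1 h2
    have : AP h (ρ 1) (γ j) := (hA 1 (by omega) j (by omega)).2 (by unfold HP; omega)
    rw [← AP_gz this]; exact hn
  have hr : ∀ i, 1 ≤ i → i ≤ 63 → ¬ gz h (ρ i) := by
    intro i h1 h2
    have : AP h (ρ i) (γ i) := (hA i (by omega) i (by omega)).2 (by unfold HP; omega)
    rw [AP_gz this]; exact hc i h1 h2
  have mρ : ∀ i j, i < j → j < 66 → blk h (ρ i) ≤ blk h (ρ j) :=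
    fun i j a b => blk_mono h (mono_of_succ hρ a b).le
  have mγ : ∀ i j, i < j → j < 66 → blk h (γ i) ≤ blk h (γ j) :=
    fun i j a b => blk_mono h (mono_of_succ hγ a b).le
  have one : ∀ i j, 1 ≤ i → i ≤ 63 → 1 ≤ j → j ≤ 63 → (i + j) % 2 = 0 → AP h (ρ i) (γ j) :=
    fun i j a b c d e => (hA i (by omega) j (by omega)).2 (by unfold HP; omega)
  have zero : ∀ i j, 2 ≤ i → i ≤ 63 → 1 ≤ j → j ≤ 63 → (i + j) % 2 = 1 → ¬ AP h (ρ i) (γ j) :=
    fun i j a b c d e H => by
      have := (hA i (by omega) j (by omega)).1 H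
      unfold HP at this; omega
  -- column 6 is an anchor column
  have c6 : blk h (γ 6) < 4 * h + 4 := by
    by_contra c6
    have g6 := hc 6 (by omega) (by omega)
    unfold gz at g6
    -- row 8 is an anchor row
    have r8 : blk h (ρ 8) < 4 * h + 4 := by
      by_contra r8
      have a8 := one 8 6 (by omega) (by omega) (by omega) (by omega) (by omega)
      have a9 := zero 9 6 (by omega) (by omega) (by omega) (by omega) (by omega)
      have a10 := one 10 6 (by omega) (by omega) (by omega) (by omega) (by omega)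
      have m89 := mρ 8 9 (by omega) (by omega)
      have m910 := mρ 9 10 (by omega) (by omega)
      have x910 : rx h (ρ 9) ≤ rx h (ρ 10) := rx_mono h (hρ 9 (by omega)).le
      apply a9
      unfold AP at a8 a10 ⊢
      right; right; right; right; right
      rcases a8 with H | H | H | H | H | H <;> try omega
    have step : ∀ i, 2 ≤ i → i < 8 → blk h (ρ i) < blk h (ρ (i + 1)) := by
      intro i h1 h2
      have m1 := mρ i (i + 1) (by omega) (by omega)
      have m2 : blk h (ρ (i + 1)) ≤ blk h (ρ 8) := by
        rcases Nat.lt_or_ge (i + 1) 8 with h3 | h3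
        · exact mρ _ _ h3 (by omega)
        · have : i + 1 = 8 := by omega
          rw [this]
      by_contra hlt
      have e : blk h (ρ i) = blk h (ρ (i + 1)) := by omega
      rcases Nat.mod_two_eq_zero_or_one i with hp | hp
      · exact zero (i + 1) 6 (by omega) (by omega) (by omega) (by omega) (by omega)
          (AP_anchor_row (by omega) e (one i 6 (by omega) (by omega) (by omega) (by omega) (by omega)))
      · exact zero i 6 (by omega) (by omega) (by omega) (by omega) (by omega)
          (AP_anchor_row (by omega) e.symm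
            (one (i + 1) 6 (by omega) (by omega) (by omega) (by omega) (by omega)))
    have s2 := step 2 (by omega) (by omega)
    have s3 := step 3 (by omega) (by omega)
    have s4 := step 4 (by omega) (by omega)
    have s5 := step 5 (by omega) (by omega)
    have s6 := step 6 (by omega) (by omega)
    have s7 := step 7 (by omega) (by omega)
    norm_num at s2 s3 s4 s5 s6 s7
    have a4 := one 4 6 (by omega) (by omega) (by omega) (by omega) (by omega)
    have a8 := one 8 6 (by omega) (by omega) (by omega) (by omega) (by omega)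
    unfold AP inC at a4 a8
    rcases a4 with H | H | H | H | H | H <;> try omega
  have step : ∀ j, 2 ≤ j → j < 6 → blk h (γ j) < blk h (γ (j + 1)) := by
    intro j h1 h2
    have m1 := mγ j (j + 1) (by omega) (by omega)
    have m2 : blk h (γ (j + 1)) ≤ blk h (γ 6) := by
      rcases Nat.lt_or_ge (j + 1) 6 with h3 | h3
      · exact mγ _ _ h3 (by omega)
      · have : j + 1 = 6 := by omega
        rw [this]
    by_contra hlt
    have e : blk h (γ j) = blk h (γ (j + 1)) := by omega
    rcases Nat.mod_two_eq_zero_or_one j with hp | hp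
    · exact zero 2 (j + 1) (by omega) (by omega) (by omega) (by omega) (by omega)
        (AP_anchor_col (by omega) e (one 2 j (by omega) (by omega) (by omega) (by omega) (by omega)))
    · exact zero 2 j (by omega) (by omega) (by omega) (by omega) (by omega)
        (AP_anchor_col (by omega) e.symm
          (one 2 (j + 1) (by omega) (by omega) (by omega) (by omega) (by omega)))
  have s2 := step 2 (by omega) (by omega)
  have s3 := step 3 (by omega) (by omega)
  have s4 := step 4 (by omega) (by omega)
  have s5 := step 5 (by omega) (by omega)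
  norm_num at s2 s3 s4 s5
  have a2 := one 2 2 (by omega) (by omega) (by omega) (by omega) (by omega)
  have a3 := zero 2 3 (by omega) (by omega) (by omega) (by omega) (by omega)
  have a4 := one 2 4 (by omega) (by omega) (by omega) (by omega) (by omega)
  have a6 := one 2 6 (by omega) (by omega) (by omega) (by omega) (by omega)
  apply a3
  unfold AP inR at a2 a4 a6
  unfold AP
  rcases a4 with H | H | H | H | H | H
  · omega
  · omega
  · omega
  · right; right; right; left; omega
  · omega
  · omega

lemma step2 (hρ : ∀ i, i < 65 → ρ i < ρ (i + 1)) (hγ : ∀ i, i < 65 → γ i < γ (i + 1))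
    (hA : ∀ i, i < 66 → ∀ j, j < 66 → (AP h (ρ i) (γ j) ↔ HP i j)) :
    blk h (ρ 0) < 4 * h + 4 ∧ blk h (γ 0) < 4 * h + 4 ∧ 4 * h + 67 ≤ blk h (ρ 64) ∧
      4 * h + 67 ≤ blk h (γ 64) := by
  have g1 := step1 hρ hγ hA
  have hc : ∀ j, 1 ≤ j → j ≤ 63 → gz h (γ j) := by
    intro j h1 h2
    have : AP h (ρ 1) (γ j) := (hA 1 (by omega) j (by omega)).2 (by unfold HP; omega)
    rw [← AP_gz this]; exact g1
  have hr : ∀ i, 1 ≤ i → i ≤ 63 → gz h (ρ i) := by
    intro i h1 h2
    have : AP h (ρ i) (γ i) := (hA i (by omega) i (by omega)).2 (by unfold HP; omega)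
    rw [AP_gz this]; exact hc i h1 h2
  have sr : ∀ i, i < 64 → gz h (ρ i) → gz h (ρ (i + 1)) → blk h (ρ i) < blk h (ρ (i + 1)) := by
    intro i hi a b
    have m := blk_mono h (hρ i (by omega)).le
    by_contra hlt
    have e : blk h (ρ i) = blk h (ρ (i + 1)) := by omega
    have c1 := hc 1 (by omega) (by omega)
    have e1 := (AP_gz_iff a c1).symm.trans (hA i (by omega) 1 (by omega))
    have e2 := (AP_gz_iff b c1).symm.trans (hA (i + 1) (by omega) 1 (by omega))
    rw [e] at e1
    have := e1.symm.trans e2
    unfold HP at this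
    omega
  have sc : ∀ j, j < 64 → gz h (γ j) → gz h (γ (j + 1)) → blk h (γ j) < blk h (γ (j + 1)) := by
    intro j hj a b
    have m := blk_mono h (hγ j (by omega)).le
    by_contra hlt
    have e : blk h (γ j) = blk h (γ (j + 1)) := by omega
    have c1 := hr 3 (by omega) (by omega)
    have e1 := (AP_gz_iff c1 a).symm.trans (hA 3 (by omega) j (by omega))
    have e2 := (AP_gz_iff c1 b).symm.trans (hA 3 (by omega) (j + 1) (by omega))
    rw [e] at e1
    have := e1.symm.trans e2
    unfold HP at this
    omega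
  have chr : ∀ k, k ≤ 62 → blk h (ρ 1) + k ≤ blk h (ρ (1 + k)) := by
    intro k hk
    induction k with
    | zero => simp
    | succ m ih =>
      have := ih (by omega)
      have := sr (1 + m) (by omega) (hr _ (by omega) (by omega)) (hr _ (by omega) (by omega))
      rw [← add_assoc 1 m 1]
      omega
  have chc : ∀ k, k ≤ 62 → blk h (γ 1) + k ≤ blk h (γ (1 + k)) := by
    intro k hk
    induction k with
    | zero => simp
    | succ m ih =>
      have := ih (by omega)
      have := sc (1 + m) (by omega) (hc _ (by omega) (by omega)) (hc _ (by omega) (by omega))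
      rw [← add_assoc 1 m 1]
      omega
  have r62 := chr 62 le_rfl
  have c62 := chc 62 le_rfl
  norm_num at r62 c62
  have gr1 := hr 1 (by omega) (by omega)
  have gr63 := hr 63 (by omega) (by omega)
  have gc1 := hc 1 (by omega) (by omega)
  have gc63 := hc 63 (by omega) (by omega)
  have m1 := blk_mono h (hρ 0 (by omega)).le
  have m2 := blk_mono h (hγ 0 (by omega)).le
  have m3 := blk_mono h (hρ 63 (by omega)).le
  have m4 := blk_mono h (hγ 63 (by omega)).le
  have t1 := sr 0 (by omega)
  have t2 := sc 0 (by omega)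
  have t3 := sr 63 (by omega)
  have t4 := sc 63 (by omega)
  norm_num at m1 m2 m3 m4 t1 t2 t3 t4
  unfold gz at *
  omega

theorem rigid (hh : 1 ≤ h) (hρ : ∀ i, i < 65 → ρ i < ρ (i + 1))
    (hγ : ∀ i, i < 65 → γ i < γ (i + 1))
    (hA : ∀ i, i < 66 → ∀ j, j < 66 → (AP h (ρ i) (γ j) ↔ HP i j)) :
    ∃ c, c < 2 ^ h ∧ γ 64 = colPos h h c ∧ γ 65 = colPos h (h + 1) c := by
  obtain ⟨r0, c0, r64, c64⟩ := step2 hρ hγ hA
  have m1 := blk_mono h (hρ 64 (by omega)).le
  have m2 := blk_mono h (hγ 64 (by omega)).le
  have x1 := rx_mono h (hρ 64 (by omega)).le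
  norm_num at m1 m2 x1
  have a00 : AP h (ρ 0) (γ 0) := (hA 0 (by omega) 0 (by omega)).2 (by unfold HP; omega)
  have a01 : AP h (ρ 0) (γ 64) := (hA 0 (by omega) 64 (by omega)).2 (by unfold HP; omega)
  have a02 : AP h (ρ 0) (γ 65) := (hA 0 (by omega) 65 (by omega)).2 (by unfold HP; omega)
  have a10 : AP h (ρ 64) (γ 0) := (hA 64 (by omega) 0 (by omega)).2 (by unfold HP; omega)
  have a20 : AP h (ρ 65) (γ 0) := (hA 65 (by omega) 0 (by omega)).2 (by unfold HP; omega)
  have a21 : AP h (ρ 65) (γ 64) := (hA 65 (by omega) 64 (by omega)).2 (by unfold HP; omega)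
  have a11 : ¬ AP h (ρ 64) (γ 64) := fun H => by
    have := (hA 64 (by omega) 64 (by omega)).1 H
    unfold HP at this; omega
  have a22 : ¬ AP h (ρ 65) (γ 65) := fun H => by
    have := (hA 65 (by omega) 65 (by omega)).1 H
    unfold HP at this; omega
  have ek : blk h (ρ 0) = blk h (γ 0) := by
    unfold AP at a00
    rcases a00 with H | H | H | H | H | H <;> omega
  have b1 : blk h (γ 64) < 6 * h + 69 ∧ inC h (blk h (ρ 0)) (γ 64) := by
    unfold AP at a01
    rcases a01 with H | H | H | H | H | H <;> try omega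
    exact ⟨H.2.2.1, H.2.2.2⟩
  have b2 : blk h (γ 65) < 6 * h + 69 ∧ inC h (blk h (ρ 0)) (γ 65) := by
    unfold AP at a02
    rcases a02 with H | H | H | H | H | H <;> try omega
    exact ⟨H.2.2.1, H.2.2.2⟩
  have b3 : 4 * h + 68 ≤ blk h (ρ 65) ∧ blk h (ρ 65) < 6 * h + 69 ∧
      rx h (ρ 65) < theta h (ct h (γ 64)) (cc h (γ 64)) := by
    unfold AP at a21
    rcases a21 with H | H | H | H | H | H <;> omega
  have b4 : theta h (ct h (γ 65)) (cc h (γ 65)) ≤ rx h (ρ 65) := by
    by_contra hlt
    apply a22
    unfold AP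
    right; right; right; right; right
    omega
  have b5 : blk h (ρ 64) = 4 * h + 67 := by
    by_contra hne
    apply a11
    unfold AP
    right; right; right; right; right
    omega
  have b6 : blk h (γ 0) ≠ 0 := by
    unfold AP at a10
    rcases a10 with H | H | H | H | H | H <;> omega
  have b7 : blk h (γ 0) = 2 * rt h (ρ 65) + bitP h (rt h (ρ 65)) (rx h (ρ 65)) := by
    unfold AP inR at a20
    rcases a20 with H | H | H | H | H | H <;> omega
  have hb := bitP_lt h (rt h (ρ 65)) (rx h (ρ 65))
  have ht := rt_bounds h (ρ 65)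
  have hx := rx_lt h (ρ 65) b3.1 b3.2.1
  obtain ⟨s, hs⟩ : ∃ s, rt h (ρ 65) = s + 1 := ⟨rt h (ρ 65) - 1, by omega⟩
  rw [hs] at b7 hb ht
  have k2 : blk h (ρ 0) / 2 = s + 1 := by omega
  have k3 : blk h (ρ 0) % 2 = bitP h (s + 1) (rx h (ρ 65)) := by omega
  obtain ⟨-, d1⟩ := b1
  obtain ⟨-, d2⟩ := b2
  unfold inC at d1 d2
  rw [k2, k3] at d1 d2
  have d1' := d1.resolve_left (by omega)
  have d2' := d2.resolve_left (by omega)
  clear d1 d2
  obtain ⟨d1, e1⟩ := d1'
  obtain ⟨d2, e2⟩ := d2'
  have ord := col_order h (γ 64) (γ 65) hh (hγ 64 (by omega))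
  have l1 := cc_lt h (γ 64) hh
  have l2 := cc_lt h (γ 65) hh
  obtain ⟨-, -, b3⟩ := b3
  -- exclude the degenerate end columns
  have n1 : ct h (γ 64) ≠ 2 * h + 1 := by
    intro e; rw [e, theta_last h l1] at b3; omega
  have n2 : ct h (γ 65) ≠ 0 := by
    intro e; rw [e, theta_zero h l2] at b4; omega
  set r := rx h (ρ 65) with hr
  set t1 := ct h (γ 64) with ht1
  set t2 := ct h (γ 65) with ht2
  set c1 := cc h (γ 64) with hc1
  set c2 := cc h (γ 65) with hc2
  rcases ord with o | o | o
  · -- t1 = 0 : s = 0 and t2 = 1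
    exfalso
    have s0 : s = 0 := by omega
    have t21 : t2 = 1 := by omega
    subst s0
    rw [t21] at b4
    have hk := theta_key h 0 c2 r (by omega) b4 (by rw [theta_zero h l2]; exact hx)
    rcases e2 with e | e | e
    · omega
    · omega
    · exact hk e.symm
  · exfalso
    have s0 : s = 2 * h := by omega
    have t11 : t1 = 2 * h := by omega
    subst s0
    rw [t11] at b3
    have hk := theta_key h (2 * h) c1 r (by omega) (by rw [theta_last h l1]; omega) b3
    rcases e1 with e | e | e
    · omega
    · omega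
    · exact hk e.symm
  · obtain ⟨o1, o2, o3, o4, o5⟩ := o
    have e1' : bitP h (s + 1) c1 = bitP h (s + 1) r := by omega
    have e2' : bitP h (s + 1) c2 = bitP h (s + 1) r := by omega
    have mono1 := theta_mono h s o5
    have mono2 := theta_mono h (s + 1) o5
    have anti := theta_anti h s c1
    have t1s : t1 = s := by
      by_contra hne
      have : t1 = s + 1 := by omega
      rw [this] at b3
      rcases d2 with d | d
      · have : t2 = s := by omega
        rw [this] at b4; omega
      · rw [d] at b4; omega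
    have t2s : t2 = s + 1 := by
      by_contra hne
      have : t2 = s := by omega
      rw [this] at b4; rw [t1s] at b3; omega
    rw [t1s] at b3
    rw [t2s] at b4
    have sh : s = h := by
      by_contra hne
      exact theta_key h s c1 r hne (by omega) b3 e1'.symm
    subst sh
    rw [theta_mid] at b3
    rw [theta_mid'] at b4
    have : c1 = c2 := by omega
    refine ⟨c1, l1, ?_, ?_⟩
    · have := col_decode s (γ 64) o1 o2
      rw [← ht1, t1s, ← hc1] at this
      exact this
    · have e := col_decode s (γ 65) o3 o4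
      rw [← ht2, t2s, ← hc2, ← this] at e
      exact e

end

end Crest.Agent.H2.OM
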