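import Crest.Agent.Lead.P3I

/-! Row 40, piece P3: small facts. -/

set_option autoImplicit false

namespace Crest.Agent.H2.P3
open MeasureTheory Metric Set Filter Topology
open scoped ENNReal NNReal
open Crest.Agent.H2.Gm Crest.Agent.Lead.P3

lemma norm_e (t : ℝ) : ‖e t‖ = 1 := Complex.norm_exp_ofReal_mul_I t

lemma e_add (s t : ℝ) : e (s + t) = e s * e t := by
  simp only [e]; rw [← Complex.exp_add]; congr 1; push_cast; ring

lemma b1 (S : Set ℝ) (hS : MeasurableSet S) : ∀ᵐ s : ℝ, s ∈ S → Dens S s := by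
  filter_upwards [Besicovitch.ae_tendsto_measure_inter_div_of_measurableSet volume hS.compl]
    with s hs hsS γ hγ
  rw [indicator_of_notMem (by simpa using hsS)] at hs
  have h1 := hs.eventually (gt_mem_nhds (show (0 : ℝ≥0∞) < ENNReal.ofReal (γ / 2) by
    simpa using hγ))
  filter_upwards [h1, self_mem_nhdsWithin] with r hr hr0
  have hr0' : 0 < r := hr0
  rw [Real.volume_closedBall, Real.closedBall_eq_Icc,
    ENNReal.div_lt_iff (Or.inl (by simpa using hr0')) (Or.inl ENNReal.ofReal_ne_top),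
    ← ENNReal.ofReal_mul (by positivity)] at hr
  rw [sdiff_eq, inter_comm]
  refine hr.le.trans (le_of_eq ?_)
  congr 1; ring

lemma b2 (R : ℝ → ℝ → Prop) (L : ℝ) (N : Set ℝ) (hL : 0 ≤ L)
    (h : ∀ t₁ u₁ t₂ u₂, R t₁ u₁ → R t₂ u₂ → |t₁ - t₂| ≤ L * |u₁ - u₂|) :
    volume {t | ∃ u ∈ N, R t u} ≤ ENNReal.ofReal L * volume N := by
  classical
  set D := {u ∈ N | ∃ t, R t u}
  set f : ℝ → ℝ := fun u => if h : ∃ t, R t u then h.choose else 0
  have hf : ∀ u ∈ D, R (f u) u := fun u hu => by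
    simp only [f, dif_pos hu.2]; exact hu.2.choose_spec
  have h1 : {t | ∃ u ∈ N, R t u} ⊆ f '' D := by
    rintro t ⟨u, hu, hR⟩
    refine ⟨u, ⟨hu, t, hR⟩, ?_⟩
    have := h _ _ _ _ (hf u ⟨hu, t, hR⟩) hR
    rw [sub_self, abs_zero, mul_zero, abs_nonpos_iff, sub_eq_zero] at this
    exact this
  have h2 : LipschitzOnWith L.toNNReal f D := LipschitzOnWith.of_dist_le_mul fun x hx y hy => by
    rw [Real.dist_eq, Real.dist_eq, Real.coe_toNNReal _ hL]
    exact h _ _ _ _ (hf x hx) (hf y hy)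
  have h3 := h2.hausdorffMeasure_image_le (d := 1) zero_le_one
  rw [hausdorffMeasure_real, ENNReal.rpow_one] at h3
  refine (measure_mono h1).trans (h3.trans ?_)
  exact mul_le_mul_right (measure_mono fun u hu => hu.1) _

lemma meas_add {S : Set ℂ} (hS : MeasurableSet S) : MeasurableSet {p : ℂ × ℂ | p.1 + p.2 ∈ S} :=
  (show Measurable fun p : ℂ × ℂ => p.1 + p.2 by fun_prop) hS

lemma b4 (S : Set ℂ) (hS : MeasurableSet S) : Measurable (circ S) := by
  have : circ S = fun y => σ (Prod.mk y ⁻¹' {p : ℂ × ℂ | p.1 + p.2 ∈ S}) := by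
    ext y; rw [circ_eq hS]; rfl
  rw [this]
  exact measurable_measure_prodMk_left (meas_add hS)

lemma b5 (S : Set ℂ) (u : ℂ) (a : ℝ) (hS : MeasurableSet S) :
    volume {t | t ∈ Icc a (a + 2 * Real.pi) ∧ u + e t ∈ S} = circ S u := by
  have hm : MeasurableSet {v : ℂ | u + v ∈ S} := measurable_const_add u hS
  rw [circ_eq hS, ← σ_rot (norm_e a) hm,
    σ_apply (show MeasurableSet {v : ℂ | e a * v ∈ {v : ℂ | u + v ∈ S}} from
      measurable_const_mul _ hm), ← measure_preimage_add volume a]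
  refine measure_congr ?_
  filter_upwards [measure_eq_zero_iff_ae_notMem.1 (measure_singleton (0 : ℝ))] with t ht
  have ht' : t ≠ 0 := ht
  refine propext ?_
  change (a + t ∈ Icc a (a + 2 * Real.pi) ∧ u + e (a + t) ∈ S) ↔
    (t ∈ Ioc 0 (2 * Real.pi) ∧ u + e a * e t ∈ S)
  rw [e_add]
  refine and_congr_left fun _ => ⟨fun h => ⟨lt_of_le_of_ne (by linarith [h.1]) ht'.symm,
    by linarith [h.2]⟩, fun h => ⟨by linarith [h.1], by linarith [h.2]⟩⟩

lemma b6 (S : Set ℂ) (hS : MeasurableSet S) :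
    ∫⁻ w, circ S w = ENNReal.ofReal (2 * Real.pi) * volume S := by
  have h1 := Measure.prod_apply (μ := volume) (ν := σ) (meas_add hS)
  rw [Measure.prod_apply_symm (meas_add hS)] at h1
  have h2 : ∫⁻ w, circ S w = ∫⁻ w, σ (Prod.mk w ⁻¹' {p : ℂ × ℂ | p.1 + p.2 ∈ S}) :=
    lintegral_congr fun y => by rw [circ_eq hS]; rfl
  have h3 : ∫⁻ y, volume ((fun x => (x, y)) ⁻¹' {p : ℂ × ℂ | p.1 + p.2 ∈ S}) ∂σ =
      ∫⁻ _, volume S ∂σ := lintegral_congr fun u => measure_preimage_add_right volume u S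
  rw [h2, ← h1, h3, lintegral_const, σ_univ, mul_comm]

lemma b3 (C : Col) : ∀ᵐ u : ℂ, Full C u := by
  set N := (⋃ i, C.A i)ᶜ
  have hN : MeasurableSet N := (MeasurableSet.iUnion C.meas).compl
  have h0 : volume N = 0 := by
    refine measure_eq_zero_iff_ae_notMem.2 ?_
    filter_upwards [C.cover] with x hx h
    exact h (mem_iUnion.2 hx)
  have h1 := b6 N hN
  rw [h0, mul_zero, lintegral_eq_zero_iff (b4 N hN)] at h1
  filter_upwards [h1] with u hu
  have h2 : ∀ k : ℤ, ∀ᵐ t : ℝ, ¬ (t ∈ Icc (k : ℝ) (k + 2 * Real.pi) ∧ u + e t ∈ N) := fun k =>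
    measure_eq_zero_iff_ae_notMem.1 ((b5 N u k hN).trans hu)
  filter_upwards [ae_all_iff.2 h2] with t ht
  by_contra hc
  refine ht ⌊t⌋ ⟨⟨Int.floor_le t, ?_⟩, fun h => hc (mem_iUnion.1 h)⟩
  linarith [Int.lt_floor_add_one t, Real.pi_gt_three]

lemma circ_zero (C : Col) {i : Fin 5} {u : ℂ} (hu : u ∈ C.A i) : circ (C.A i) u = 0 := by
  unfold circ
  rw [eq_empty_of_forall_notMem (s := {t : ℝ | t ∈ Ioc 0 (2 * Real.pi) ∧
    u + Complex.exp (t * Complex.I) ∈ C.A i}) fun t ht => C.proper i _ ht.2 _ hu (by simp)]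
  simp

lemma b7 (C : Col) (x : ℂ) (i : Fin 5) (hx : x ∈ closure (C.A i)) : Av C x {i} := by
  intro η hη
  obtain ⟨w, w1, w2, w3⟩ := C.gen hx (b3 C) hη
  refine ⟨w, w3, w2, fun j hj => ?_⟩
  rw [Finset.mem_singleton.1 hj, circ_zero C w1]
  simpa using hη

lemma b8 (C : Col) (x : ℂ) (i j : Fin 5) (h : Half C x i j) :
    x ∈ closure (C.A i) ∧ Av C x {i, j} := by
  have key : ∀ η > 0, ∃ u, Full C u ∧ u ∈ C.A i ∧ dist u x < η ∧
      circ (C.A j) u < ENNReal.ofReal η := fun η hη => by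
    by_contra hc
    refine h η hη (measure_eq_zero_iff_ae_notMem.2 ?_)
    filter_upwards [b3 C] with u hu hu'
    exact hc ⟨u, hu, hu'⟩
  refine ⟨Metric.mem_closure_iff.2 fun η hη => ?_, fun η hη => ?_⟩
  · obtain ⟨u, -, h1, h2, -⟩ := key η hη
    exact ⟨u, h1, by rwa [dist_comm]⟩
  · obtain ⟨u, h0, h1, h2, h3⟩ := key η hη
    refine ⟨u, h2, h0, fun k hk => ?_⟩
    rcases Finset.mem_insert.1 hk with rfl | hk
    · rw [circ_zero C h1]; simpa using hη
    · rwa [Finset.mem_singleton.1 hk]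

lemma b9 (C : Col) (ε : ℝ) (y : ℂ) (hε : 0 < ε) : ∃ i, Lb C ε y i := by
  have h1 := C.vol_le (ball y ε)
  have h2 : ∑ _i : Fin 5, ENNReal.ofReal (Real.pi / 5 * ε ^ 2) = volume (ball y ε) := by
    rw [vol_ball _ hε.le, ← ENNReal.ofReal_sum_of_nonneg (fun _ _ => by positivity)]
    congr 1
    simp only [Finset.sum_const, Finset.card_univ, Fintype.card_fin, nsmul_eq_mul, Nat.cast_ofNat]
    ring
  obtain ⟨i, -, hi⟩ := ENNReal.exists_le_of_sum_le Finset.univ_nonempty (h2.le.trans h1)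
  exact ⟨i, hi⟩

lemma closed_acc (E : Set ℝ) : IsClosed {s | Acc E s} := by
  refine isClosed_of_closure_subset fun s hs η hη => ?_
  obtain ⟨s', h1, h2⟩ := Metric.mem_closure_iff.1 hs (η / 2) (by positivity)
  obtain ⟨a, h3, h4⟩ := h1 (η / 2) (by positivity)
  refine ⟨a, ?_, h4⟩
  rw [Real.dist_eq] at h2
  rw [abs_lt] at *
  constructor <;> linarith [h2.1, h2.2, h3.1, h3.2]

lemma ne_acc {E : Set ℝ} (hE : MeasurableSet E) (h : volume E ≠ 0) : ∃ s, Acc E s := by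
  by_contra hc
  refine h (measure_eq_zero_iff_ae_notMem.2 ?_)
  filter_upwards [b1 E hE] with s hs hs'
  exact hc ⟨s, fun η hη => ⟨s, by simpa using hη, hs hs'⟩⟩

lemma b10 (E E' : Set ℝ) (hE : MeasurableSet E) (hE' : MeasurableSet E')
    (h : ∀ᵐ s : ℝ, s ∈ E ∨ s ∈ E') (h1 : volume E ≠ 0) (h2 : volume E' ≠ 0) :
    ∃ s, Acc E s ∧ Acc E' s := by
  obtain ⟨a, ha⟩ := ne_acc hE h1
  obtain ⟨b, hb⟩ := ne_acc hE' h2
  have hc : (univ : Set ℝ) ⊆ {s | Acc E s} ∪ {s | Acc E' s} := by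
    intro s _
    by_contra hn
    simp only [mem_union, mem_ofPred_eq, Lead.P3.Acc, not_or, not_forall, not_exists, not_and] at hn
    obtain ⟨⟨η, hη, H⟩, η', hη', H'⟩ := hn
    have h3 : volume (ball s (min η η')) ≠ 0 := (measure_ball_pos _ _ (lt_min hη hη')).ne'
    refine h3 (measure_eq_zero_iff_ae_notMem.2 ?_)
    filter_upwards [h, b1 E hE, b1 E' hE'] with t t1 t2 t3 t4
    rw [mem_ball, Real.dist_eq, lt_min_iff] at t4
    exact t1.elim (fun h => H t t4.1 (t2 h)) fun h => H' t t4.2 (t3 h)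
  obtain ⟨s, -, hs⟩ := isPreconnected_closed_iff.1 isPreconnected_univ _ _ (closed_acc E)
    (closed_acc E') hc ⟨a, trivial, ha⟩ ⟨b, trivial, hb⟩
  exact ⟨s, hs⟩

lemma b11 (S : Set ℂ) (z : ℂ) (δ ε : ℝ) (hS : MeasurableSet S)
    (hP : ∀ x ∈ S, ∀ y ∈ S, dist x y ≠ 1) (hε : 0 < ε) (hδ : ε ≤ δ) :
    volume {w | w ∈ ball z δ ∧
      ∃ t, ENNReal.ofReal (Real.pi / 5 * ε ^ 2) ≤ volume (S ∩ ball (w + e t) ε)} ≤
      5 * volume (ball z (2 * δ) \ S) := by
  set N := ball z (2 * δ) \ S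
  have hN : MeasurableSet N := measurableSet_ball.diff hS
  set T := {p : ℂ × ℂ | p.2 ∈ N ∧ dist p.2 p.1 < ε}
  have hT : MeasurableSet T := (measurable_snd hN).inter
    (measurableSet_lt (f := fun p : ℂ × ℂ => dist p.2 p.1) (by fun_prop) measurable_const)
  set c := ENNReal.ofReal (Real.pi / 5 * ε ^ 2)
  have c0 : c ≠ 0 := by simp only [c, ne_eq, ENNReal.ofReal_eq_zero, not_le]; positivity
  have h1 := mul_meas_ge_le_lintegral₀
    (measurable_measure_prodMk_left (ν := volume) hT).aemeasurable (μ := volume) c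
  rw [← Measure.prod_apply hT, Measure.prod_apply_symm hT] at h1
  have h2 : ∫⁻ y, volume ((fun x => (x, y)) ⁻¹' T) = c * (5 * volume N) := by
    rw [lintegral_congr (g := N.indicator fun _ => c * 5) fun y => ?_,
      lintegral_indicator_const hN, mul_assoc]
    by_cases hy : y ∈ N
    · rw [indicator_of_mem hy, show (fun x => (x, y)) ⁻¹' T = ball y ε from by
        ext x; simp [T, hy, dist_comm], vol_ball _ hε.le, ← ENNReal.ofReal_ofNat 5,
        ← ENNReal.ofReal_mul (by positivity)]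
      congr 1; ring
    · rw [indicator_of_notMem hy, show (fun x => (x, y)) ⁻¹' T = ∅ from by
        ext x; simp [T, hy], measure_empty]
  rw [h2, ENNReal.mul_le_mul_iff_right c0 ENNReal.ofReal_ne_top] at h1
  refine le_trans (measure_mono ?_) h1
  rintro w ⟨hw, t, ht⟩
  refine ht.trans ?_
  rw [← measure_preimage_add_right volume (e t) (S ∩ ball (w + e t) ε)]
  refine measure_mono fun p hp => ?_
  have hp2 : dist p w < ε := by simpa using hp.2
  refine ⟨⟨mem_ball.2 ?_, fun h => hP _ hp.1 _ h (by simp [norm_e])⟩, hp2⟩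
  linarith [dist_triangle p w z, mem_ball.1 hw]

theorem basicStmt : BasicStmt :=
  ⟨b1, b2, b3, b4, b5, b6, b7, b8, b9, b10, b11⟩

end Crest.Agent.H2.P3
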