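import Crest.Agent.H2.PlDefs

/-! Row 40: minimal norm constructions in Hilbert space. -/

set_option autoImplicit false

namespace Crest.Agent.H2.Pl
open MeasureTheory Filter Topology
open scoped InnerProductSpace

section Hilbert
variable {H : Type} [NormedAddCommGroup H] [InnerProductSpace ℂ H]

lemma exists_min [CompleteSpace H] {K : Set H} (hne : K.Nonempty) (hc : IsClosed K)
    (hv : Convex ℝ K) : ∃ ζ ∈ K, ∀ k ∈ K, ‖k - ζ‖ ^ 2 ≤ ‖k‖ ^ 2 - ‖ζ‖ ^ 2 := by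
  letI : InnerProductSpace ℝ H := InnerProductSpace.rclikeToReal ℂ H
  obtain ⟨v, hvK, hv2⟩ := exists_norm_eq_iInf_of_complete_convex hne hc.isComplete hv 0
  refine ⟨v, hvK, fun k hk => ?_⟩
  have h := (norm_eq_iInf_iff_real_inner_le_zero hv hvK).1 hv2 k hk
  rw [zero_sub, inner_neg_left, inner_sub_right, real_inner_self_eq_norm_sq] at h
  rw [norm_sub_sq_real, real_inner_comm]
  linarith

lemma hull_map (A : H →ₗᵢ[ℂ] H) {s t : Set H} (h : ∀ x ∈ s, A x ∈ t) {x : H}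
    (hx : x ∈ closure (convexHull ℝ s)) : A x ∈ closure (convexHull ℝ t) := by
  have h1 : ∀ y ∈ convexHull ℝ s, A y ∈ convexHull ℝ t := by
    intro y hy
    have : convexHull ℝ s ⊆ (A.toLinearMap.restrictScalars ℝ) ⁻¹' convexHull ℝ t :=
      convexHull_min (fun z hz => subset_convexHull ℝ t (h z hz))
        ((convex_convexHull ℝ t).linear_preimage _)
    exact this hy
  exact map_mem_closure A.continuous hx h1

lemma approx_of_mem_hull {κ : Type} {f : κ → H} {P : κ → Prop} {ζ : H}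
    (h : ζ ∈ closure (convexHull ℝ {x | ∃ w, P w ∧ x = f w})) {ε : ℝ} (hε : 0 < ε) :
    ∃ (ι : Type) (_ : Fintype ι) (w : ι → κ) (p : ι → ℝ), (∀ i, 0 ≤ p i) ∧ ∑ i, p i = 1 ∧
      (∀ i, P (w i)) ∧ ‖∑ i, p i • f (w i) - ζ‖ < ε := by
  obtain ⟨y, hy, hd⟩ := Metric.mem_closure_iff.1 h ε hε
  obtain ⟨ι, _, p, z, h0, h1, hz, rfl⟩ := mem_convexHull_iff_exists_fintype.1 hy
  choose w hw1 hw2 using hz
  refine ⟨ι, inferInstance, w, p, h0, h1, hw1, ?_⟩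
  rw [dist_comm, dist_eq_norm] at hd
  simpa [hw2] using hd

lemma eq_of_min {K : Set H} {ζ x : H} (h : ∀ k ∈ K, ‖k - ζ‖ ^ 2 ≤ ‖k‖ ^ 2 - ‖ζ‖ ^ 2) (hx : x ∈ K)
    (hn : ‖x‖ = ‖ζ‖) : x = ζ := by
  have := h x hx
  rw [hn, sub_self] at this
  have h2 : ‖x - ζ‖ = 0 := by nlinarith [norm_nonneg (x - ζ)]
  exact sub_eq_zero.1 (norm_eq_zero.1 h2)

lemma exists_inv [CompleteSpace H] {G : Type} [Group G] (V : G → (H →ₗᵢ[ℂ] H))
    (hV : ∀ u v x, ∃ t, V u (V v x) = V t x) (ξ : H) :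
    ∃ ζ ∈ closure (convexHull ℝ {x | ∃ u, True ∧ x = V u ξ}), ∀ u, V u ζ = ζ := by
  obtain ⟨ζ, hζ, hmin⟩ := exists_min (K := closure (convexHull ℝ {x | ∃ u, True ∧ x = V u ξ}))
    ⟨V 1 ξ, subset_closure (subset_convexHull ℝ _ ⟨1, trivial, rfl⟩)⟩ isClosed_closure
    (convex_convexHull ℝ _).closure
  refine ⟨ζ, hζ, fun u => eq_of_min hmin (hull_map (V u) ?_ hζ) ((V u).norm_map ζ)⟩
  rintro _ ⟨v, -, rfl⟩
  obtain ⟨t, ht⟩ := hV u v ξ
  exact ⟨t, trivial, ht⟩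

end Hilbert

theorem contStmt : ContStmt := by
  intro H _ _ _ R V ξ hV hVR
  set S : ℝ → Set H := fun δ => {x | ∃ w : L, ‖(w : ℂ)‖ < δ ∧ x = R.π w ξ} with hS
  set K : ℝ → Set H := fun δ => closure (convexHull ℝ (S δ)) with hK
  have Kmono : ∀ {a b : ℝ}, a ≤ b → K a ⊆ K b := by
    intro a b hab
    refine closure_mono (convexHull_mono ?_)
    rintro _ ⟨w, hw, rfl⟩
    exact ⟨w, hw.trans_le hab, rfl⟩
  have Kξ : ∀ {a : ℝ}, 0 < a → ξ ∈ K a := fun ha =>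
    subset_closure (subset_convexHull ℝ _ ⟨0, by simpa using ha, (R.zero ξ).symm⟩)
  have dpos : ∀ k : ℕ, (0 : ℝ) < (1 / 2) ^ k := fun k => by positivity
  have hex : ∀ k : ℕ, ∃ ζ ∈ K ((1 / 2) ^ k), ∀ x ∈ K ((1 / 2) ^ k),
      ‖x - ζ‖ ^ 2 ≤ ‖x‖ ^ 2 - ‖ζ‖ ^ 2 := fun k =>
    exists_min ⟨ξ, Kξ (dpos k)⟩ isClosed_closure (convex_convexHull ℝ _).closure
  choose z hzK hzmin using hex
  have dle : ∀ {j k : ℕ}, k ≤ j → ((1 / 2 : ℝ)) ^ j ≤ (1 / 2) ^ k := fun h =>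
    pow_le_pow_of_le_one (by norm_num) (by norm_num) h
  have hd : ∀ {j k : ℕ}, k ≤ j → ‖z j - z k‖ ^ 2 ≤ ‖z j‖ ^ 2 - ‖z k‖ ^ 2 := fun {j k} h =>
    hzmin k _ (Kmono (dle h) (hzK j))
  set a : ℕ → ℝ := fun k => ‖z k‖ ^ 2 with ha
  have amono : Monotone a := fun k j h => by
    have := hd h; simp only [ha]; nlinarith [sq_nonneg ‖z j - z k‖]
  have abdd : ∀ k, a k ≤ ‖ξ‖ ^ 2 := fun k => by
    have := hzmin k ξ (Kξ (dpos k)); simp only [ha]; nlinarith [sq_nonneg ‖ξ - z k‖]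
  have bdd : BddAbove (Set.range a) := ⟨‖ξ‖ ^ 2, by rintro _ ⟨k, rfl⟩; exact abdd k⟩
  have alim : Tendsto a atTop (𝓝 (⨆ k, a k)) := tendsto_atTop_ciSup amono bdd
  have ale : ∀ k, a k ≤ ⨆ k, a k := fun k => le_ciSup bdd k
  have hb : Tendsto (fun k => Real.sqrt ((⨆ k, a k) - a k)) atTop (𝓝 0) := by
    have : Tendsto (fun k => (⨆ k, a k) - a k) atTop (𝓝 ((⨆ k, a k) - ⨆ k, a k)) :=
      tendsto_const_nhds.sub alim
    rw [sub_self] at this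
    simpa using this.sqrt
  have hd2 : ∀ {j k : ℕ} {x : H}, k ≤ j → x ∈ K ((1 / 2) ^ k) → ‖x‖ = ‖z j‖ →
      ‖x - z k‖ ≤ Real.sqrt ((⨆ k, a k) - a k) := by
    intro j k x h hx hn
    apply Real.le_sqrt_of_sq_le
    have h1 := hzmin k x hx
    have h2 := ale j
    simp only [ha] at h2 ⊢
    rw [hn] at h1
    linarith
  have hcauchy : CauchySeq z := by
    refine cauchySeq_of_le_tendsto_0' (fun k => Real.sqrt ((⨆ k, a k) - a k)) ?_ hb
    intro n m hnm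
    rw [dist_comm, dist_eq_norm]
    exact hd2 hnm (Kmono (dle hnm) (hzK m)) rfl
  obtain ⟨ζ, hζ⟩ := cauchySeq_tendsto_of_complete hcauchy
  refine ⟨ζ, ?_, ?_, ?_⟩
  · intro δ hδ
    obtain ⟨k, hk⟩ := exists_pow_lt_of_lt_one hδ (show (1 / 2 : ℝ) < 1 by norm_num)
    refine isClosed_closure.mem_of_tendsto hζ ?_
    filter_upwards [eventually_ge_atTop k] with j hj
    exact Kmono ((dle hj).trans hk.le) (hzK j)
  · intro ε hε
    have e1 := (Metric.tendsto_atTop.1 hζ) (ε / 3) (by positivity)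
    have e2 := (Metric.tendsto_atTop.1 hb) (ε / 3) (by positivity)
    obtain ⟨N1, h1⟩ := e1
    obtain ⟨N2, h2⟩ := e2
    set k := max N1 N2
    refine ⟨(1 / 2) ^ (k + 1), dpos _, fun w hw => ?_⟩
    have hmem : R.π w (z (k + 1)) ∈ K ((1 / 2) ^ k) := by
      refine hull_map (R.π w) ?_ (hzK (k + 1))
      rintro _ ⟨w', hw', rfl⟩
      refine ⟨w + w', ?_, (R.add w w' ξ).symm⟩
      have : ‖((w + w' : L) : ℂ)‖ ≤ ‖(w : ℂ)‖ + ‖(w' : ℂ)‖ := by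
        push_cast; exact norm_add_le _ _
      have h3 : ((1 / 2 : ℝ)) ^ k = (1 / 2) ^ (k + 1) + (1 / 2) ^ (k + 1) := by ring
      linarith
    have h3 := hd2 (Nat.le_succ k) hmem ((R.π w).norm_map _)
    have h4 := h1 (k + 1) (by omega)
    have h5 := h1 k (by omega)
    have h6 := h2 k (by omega)
    rw [dist_eq_norm] at h4 h5
    rw [Real.dist_eq, sub_zero, abs_of_nonneg (Real.sqrt_nonneg _)] at h6
    have h7 : ‖R.π w ζ - R.π w (z (k + 1))‖ < ε / 3 := by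
      rw [← map_sub, (R.π w).norm_map, norm_sub_rev]; exact h4
    calc ‖R.π w ζ - ζ‖ = ‖(R.π w ζ - R.π w (z (k + 1))) + (R.π w (z (k + 1)) - z k) + (z k - ζ)‖ := by
          congr 1; abel
      _ ≤ ‖R.π w ζ - R.π w (z (k + 1))‖ + ‖R.π w (z (k + 1)) - z k‖ + ‖z k - ζ‖ := norm_add₃_le
      _ < ε := by linarith
  · intro u
    have h1 : ∀ k, V u (z k) = z k := by
      intro k
      refine eq_of_min (hzmin k) (hull_map (V u) ?_ (hzK k)) ((V u).norm_map _)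
      rintro _ ⟨w, hw, rfl⟩
      exact ⟨u • w, by rwa [norm_smul_L], by rw [hVR, hV]⟩
    have h2 : Tendsto (fun k => V u (z k)) atTop (𝓝 (V u ζ)) := ((V u).continuous.tendsto ζ).comp hζ
    simp only [h1] at h2
    exact tendsto_nhds_unique h2 hζ

end Crest.Agent.H2.Pl
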