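import Crest.Agent.H2.PlA

/-! Row 40: bounded measurable functions, means, function level minimal norm lemmas. -/

set_option autoImplicit false
set_option linter.unusedSectionVars false

namespace Crest.Agent.H2.Pl
open MeasureTheory Filter Topology
open scoped InnerProductSpace ComplexConjugate

/-- bounded and measurable -/
@[fun_prop] def BM {Y E : Type} [MeasurableSpace Y] [NormedAddCommGroup E] [MeasurableSpace E]
    (f : Y → E) : Prop := Measurable f ∧ ∃ C, ∀ y, ‖f y‖ ≤ C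

namespace BM
variable {Y Z E : Type} [MeasurableSpace Y] [MeasurableSpace Z]
section
variable [NormedAddCommGroup E] [MeasurableSpace E]

@[fun_prop] lemma const (c : E) : BM (fun _ : Y => c) := ⟨measurable_const, ‖c‖, fun _ => le_rfl⟩

@[fun_prop] lemma comp {f : Z → E} {g : Y → Z} (hf : BM f) (hg : Measurable g) :
    BM (fun y => f (g y)) := ⟨hf.1.comp hg, hf.2.imp fun _ h _ => h _⟩

@[fun_prop] lemma meas {f : Y → E} (hf : BM f) : Measurable f := hf.1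

lemma of_le {f : Y → E} (hf : Measurable f) {C : ℝ} (h : ∀ y, ‖f y‖ ≤ C) : BM f := ⟨hf, C, h⟩

variable [BorelSpace E] [SecondCountableTopology E]

lemma integrable {f : Y → E} (hf : BM f) (ν : Measure Y) [IsFiniteMeasure ν] : Integrable f ν := by
  obtain ⟨h1, C, h2⟩ := hf
  exact Integrable.of_bound h1.aestronglyMeasurable C (Eventually.of_forall h2)

lemma memLp {f : Y → E} (hf : BM f) (ν : Measure Y) [IsFiniteMeasure ν] : MemLp f 2 ν := by
  obtain ⟨h1, C, h2⟩ := hf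
  exact MemLp.of_bound h1.aestronglyMeasurable C (Eventually.of_forall h2)

@[fun_prop] lemma add {f g : Y → E} (hf : BM f) (hg : BM g) : BM (fun y => f y + g y) := by
  obtain ⟨h1, C, h2⟩ := hf
  obtain ⟨h3, D, h4⟩ := hg
  exact ⟨h1.add h3, C + D, fun y => (norm_add_le _ _).trans (add_le_add (h2 y) (h4 y))⟩

@[fun_prop] lemma neg {f : Y → E} (hf : BM f) : BM (fun y => -f y) := by
  obtain ⟨h1, C, h2⟩ := hf
  exact ⟨h1.neg, C, fun y => by simpa using h2 y⟩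

@[fun_prop] lemma sub {f g : Y → E} (hf : BM f) (hg : BM g) : BM (fun y => f y - g y) := by
  simpa [sub_eq_add_neg] using hf.add hg.neg

@[fun_prop] lemma norm {f : Y → E} (hf : BM f) : BM (fun y => ‖f y‖) := by
  obtain ⟨h1, C, h2⟩ := hf
  exact ⟨h1.norm, C, fun y => by simpa using h2 y⟩

@[fun_prop] lemma sum {ι : Type} (s : Finset ι) {f : ι → Y → E} (hf : ∀ i ∈ s, BM (f i)) :
    BM (fun y => ∑ i ∈ s, f i y) := by
  classical
  induction s using Finset.induction_on with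
  | empty => simpa using BM.const (0 : E)
  | insert a s ha ih =>
    simp only [Finset.sum_insert ha]
    exact (hf a (Finset.mem_insert_self _ _)).add (ih fun i hi => hf i (Finset.mem_insert_of_mem hi))

lemma indicator {f : Y → E} (hf : BM f) {s : Set Y} (hs : MeasurableSet s) :
    BM (s.indicator f) := by
  obtain ⟨h1, C, h2⟩ := hf
  exact ⟨h1.indicator hs, C, fun y => (norm_indicator_le_norm_self _ _).trans (h2 y)⟩
end

section
variable [NormedCommRing E] [NormOneClass E] [MeasurableSpace E] [BorelSpace E]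
  [SecondCountableTopology E]

@[fun_prop] lemma mul {f g : Y → E} (hf : BM f) (hg : BM g) : BM (fun y => f y * g y) := by
  obtain ⟨h1, C, h2⟩ := hf
  obtain ⟨h3, D, h4⟩ := hg
  refine ⟨h1.mul h3, C * D, fun y => (norm_mul_le _ _).trans ?_⟩
  exact mul_le_mul (h2 y) (h4 y) (norm_nonneg _) ((norm_nonneg _).trans (h2 y))

@[fun_prop] lemma prod {ι : Type} (s : Finset ι) {f : ι → Y → E} (hf : ∀ i ∈ s, BM (f i)) :
    BM (fun y => ∏ i ∈ s, f i y) := by
  classical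
  induction s using Finset.induction_on with
  | empty => simpa using BM.const (1 : E)
  | insert a s ha ih =>
    simp only [Finset.prod_insert ha]
    exact (hf a (Finset.mem_insert_self _ _)).mul (ih fun i hi => hf i (Finset.mem_insert_of_mem hi))

@[fun_prop] lemma pow {f : Y → E} (hf : BM f) (n : ℕ) : BM (fun y => f y ^ n) := by
  induction n with
  | zero => simpa using BM.const (1 : E)
  | succ n ih => simpa [pow_succ] using ih.mul hf
end

@[fun_prop] lemma cj {f : Y → ℂ} (hf : BM f) : BM (fun y => conj (f y)) := by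
  obtain ⟨h1, C, h2⟩ := hf
  exact ⟨Complex.continuous_conj.measurable.comp h1, C, fun y => by simpa using h2 y⟩

@[fun_prop] lemma re {f : Y → ℂ} (hf : BM f) : BM (fun y => (f y).re) := by
  obtain ⟨h1, C, h2⟩ := hf
  exact ⟨Complex.measurable_re.comp h1, C, fun y => (Complex.abs_re_le_norm _).trans (h2 y)⟩

@[fun_prop] lemma ofReal {f : Y → ℝ} (hf : BM f) : BM (fun y => ((f y : ℝ) : ℂ)) := by
  obtain ⟨h1, C, h2⟩ := hf
  exact ⟨Complex.measurable_ofReal.comp h1, C, fun y => by simpa using h2 y⟩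

@[fun_prop] lemma div_const {f : Y → ℝ} (hf : BM f) (c : ℝ) : BM (fun y => f y / c) := by
  simpa [div_eq_mul_inv] using hf.mul (BM.const c⁻¹)

@[fun_prop] lemma cdiv_const {f : Y → ℂ} (hf : BM f) (c : ℂ) : BM (fun y => f y / c) := by
  simpa [div_eq_mul_inv] using hf.mul (BM.const c⁻¹)
end BM

/-! ### Means -/
namespace Mean
variable {G : Type} [Mul G] (M : Mean G)

/-- bounded real function -/
def Bd (f : G → ℝ) : Prop := ∃ C, ∀ x, |f x| ≤ C

lemma const (c : ℝ) : M.m (fun _ => c) = c := by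
  have : (fun _ : G => c) = c • (fun _ : G => (1 : ℝ)) := by ext; simp
  rw [this, map_smul, M.one]; simp

lemma mono {f g : G → ℝ} (hf : Bd f) (hg : Bd g) (h : ∀ x, f x ≤ g x) : M.m f ≤ M.m g := by
  obtain ⟨C, hC⟩ := hf
  obtain ⟨D, hD⟩ := hg
  have := M.pos (g - f) ⟨D + C, fun x => (abs_sub _ _).trans (add_le_add (hD x) (hC x))⟩
    (fun x => by simpa using h x)
  rw [map_sub] at this
  linarith

lemma abs_le {f g : G → ℝ} (hg : Bd g) (h : ∀ x, |f x| ≤ g x) : |M.m f| ≤ M.m g := by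
  obtain ⟨D, hD⟩ := hg
  have hf : Bd f := ⟨D, fun x => (h x).trans ((le_abs_self _).trans (hD x))⟩
  rw [_root_.abs_le]
  constructor
  · have := M.mono (f := -f) (g := g) (hf.imp fun C hC x => by simpa using hC x) ⟨D, hD⟩
      (fun x => (neg_le_abs _).trans (h x))
    rw [map_neg] at this
    linarith
  · exact M.mono hf ⟨D, hD⟩ fun x => (le_abs_self _).trans (h x)

lemma abs_le_const {f : G → ℝ} {C : ℝ} (h : ∀ x, |f x| ≤ C) : |M.m f| ≤ C := by
  have := M.abs_le (g := fun _ => C) ⟨|C|, fun _ => le_rfl⟩ h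
  rwa [M.const] at this

lemma fun_add (f g : G → ℝ) : M.m (fun x => f x + g x) = M.m f + M.m g := map_add M.m f g
lemma fun_sub (f g : G → ℝ) : M.m (fun x => f x - g x) = M.m f - M.m g := map_sub M.m f g
lemma fun_mul (c : ℝ) (f : G → ℝ) : M.m (fun x => c * f x) = c * M.m f := map_smul M.m c f
lemma fun_sum {ι : Type} (s : Finset ι) (f : ι → G → ℝ) :
    M.m (fun x => ∑ i ∈ s, f i x) = ∑ i ∈ s, M.m (f i) := by
  rw [← map_sum]; congr 1; ext x; simp
end Mean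

section Fun
variable {Y : Type} [MeasurableSpace Y] {ν : Measure Y} [IsProbabilityMeasure ν]

lemma norm_int_le {f : Y → ℂ} {C : ℝ} (h : ∀ y, ‖f y‖ ≤ C) : ‖∫ y, f y ∂ν‖ ≤ C := by
  simpa using norm_integral_le_of_norm_le_const (μ := ν) (Eventually.of_forall h)

lemma norm_sq_Lp (f : Lp ℂ 2 ν) : ‖f‖ ^ 2 = ∫ y, ‖f y‖ ^ 2 ∂ν := by
  have h1 : ((‖f‖ ^ 2 : ℝ) : ℂ) = ⟪f, f⟫_ℂ := by
    rw [inner_self_eq_norm_sq_to_K]; simp
  rw [L2.inner_def] at h1
  have h2 : ∀ y, ⟪f y, f y⟫_ℂ = ((‖f y‖ ^ 2 : ℝ) : ℂ) := fun y => by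
    rw [inner_self_eq_norm_sq_to_K]; simp
  simp_rw [h2] at h1
  rw [integral_complex_ofReal] at h1
  exact_mod_cast h1

lemma ae_le_one_of_hull {s : Set (Lp ℂ 2 ν)} (hs : ∀ f ∈ s, ∀ᵐ y ∂ν, ‖f y‖ ≤ 1) {ζ : Lp ℂ 2 ν}
    (hζ : ζ ∈ closure (convexHull ℝ s)) : ∀ᵐ y ∂ν, ‖ζ y‖ ≤ 1 := by
  have hconv : Convex ℝ {f : Lp ℂ 2 ν | ∀ᵐ y ∂ν, ‖f y‖ ≤ 1} := by
    intro f hf g hg a b ha hb hab
    filter_upwards [hf, hg, Lp.coeFn_add (a • f) (b • g), Lp.coeFn_smul a f, Lp.coeFn_smul b g]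
      with y h1 h2 h3 h4 h5
    rw [h3, Pi.add_apply, h4, h5, Pi.smul_apply, Pi.smul_apply]
    refine (norm_add_le _ _).trans ?_
    rw [norm_smul, norm_smul, Real.norm_of_nonneg ha, Real.norm_of_nonneg hb]
    nlinarith
  have hsub := convexHull_min (t := {f : Lp ℂ 2 ν | ∀ᵐ y ∂ν, ‖f y‖ ≤ 1}) hs hconv
  obtain ⟨x, hx, hlim⟩ := mem_closure_iff_seq_limit.1 hζ
  obtain ⟨ns, -, hns⟩ := (tendstoInMeasure_of_tendsto_Lp hlim).exists_seq_tendsto_ae
  have hall : ∀ᵐ y ∂ν, ∀ n, ‖x n y‖ ≤ 1 := ae_all_iff.2 fun n => hsub (hx n)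
  filter_upwards [hns, hall] with y h1 h2
  exact le_of_tendsto' h1.norm fun n => h2 _

lemma exists_rep {ζ : Lp ℂ 2 ν} (h : ∀ᵐ y ∂ν, ‖ζ y‖ ≤ 1) :
    ∃ g : Y → ℂ, Measurable g ∧ (∀ y, ‖g y‖ ≤ 1) ∧ g =ᵐ[ν] ζ := by
  have hm : Measurable (ζ : Y → ℂ) := (Lp.stronglyMeasurable ζ).measurable
  refine ⟨{y | ‖ζ y‖ ≤ 1}.indicator ζ, hm.indicator (measurableSet_le hm.norm measurable_const),
    fun y => ?_, ?_⟩
  · by_cases hy : ‖ζ y‖ ≤ 1 <;> simp [Set.indicator, hy]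
  · filter_upwards [h] with y hy
    simp [Set.indicator, hy]

lemma coeFn_comb {ι : Type} [Fintype ι] (p : ι → ℝ) (f : ι → Lp ℂ 2 ν) :
    (∑ i, p i • f i : Lp ℂ 2 ν) =ᵐ[ν] fun y => ∑ i, (p i : ℂ) * f i y := by
  have h1 := Lp.coeFn_fun_finsetSum Finset.univ (fun i => p i • f i)
  have h2 : ∀ᵐ y ∂ν, ∀ i, (p i • f i : Lp ℂ 2 ν) y = (p i : ℂ) * f i y :=
    ae_all_iff.2 fun i => by
      filter_upwards [Lp.coeFn_smul (p i) (f i)] with y hy
      rw [hy]; simp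
  filter_upwards [h1, h2] with y hy1 hy2
  rw [hy1]; simp [hy2]

/-- mean ergodic theorem, function form -/
lemma exists_inv_fun (S : Sys Y ν) {g : Y → ℂ} (hg : Measurable g) (hg1 : ∀ y, ‖g y‖ ≤ 1) :
    ∃ h : Y → ℂ, Measurable h ∧ (∀ y, ‖h y‖ ≤ 1) ∧ (∀ u, (fun y => h (S.T u y)) =ᵐ[ν] h) ∧
      ∀ ε > 0, ∃ (ι : Type) (_ : Fintype ι) (t : ι → U) (p : ι → ℝ), (∀ i, 0 ≤ p i) ∧
        ∑ i, p i = 1 ∧ ∫ y, ‖∑ i, (p i : ℂ) * g (S.T (t i) y) - h y‖ ^ 2 ∂ν < ε := by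
  set V : U → (Lp ℂ 2 ν →ₗᵢ[ℂ] Lp ℂ 2 ν) := fun u => Lp.compMeasurePreservingₗᵢ ℂ (S.T u) (S.mp u)
  have hV : ∀ u (x : Lp ℂ 2 ν), V u x =ᵐ[ν] fun y => x (S.T u y) := fun u x =>
    Lp.coeFn_compMeasurePreserving x (S.mp u)
  have hmem : MemLp g 2 ν := (BM.of_le hg hg1).memLp ν
  have hVg : ∀ u, V u (hmem.toLp g) =ᵐ[ν] fun y => g (S.T u y) := fun u =>
    (hV u _).trans ((S.mp u).quasiMeasurePreserving.ae_eq_comp hmem.coeFn_toLp)
  obtain ⟨ζ, hζ, hinv⟩ := exists_inv V (fun u v x => ⟨v * u, Lp.ext (by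
    filter_upwards [hV u (V v x), hV (v * u) x,
      (S.mp u).quasiMeasurePreserving.ae_eq_comp (hV v x)] with y h1 h2 h3
    rw [h1, h2, S.T_mul]; exact h3)⟩) (hmem.toLp g)
  obtain ⟨h, hm, h1, hae⟩ := exists_rep (ae_le_one_of_hull (by
    rintro _ ⟨u, -, rfl⟩
    filter_upwards [hVg u] with y hy
    rw [hy]; exact hg1 _) hζ)
  refine ⟨h, hm, h1, fun u => ?_, fun ε hε => ?_⟩
  · have := hV u ζ
    rw [hinv] at this
    exact ((S.mp u).quasiMeasurePreserving.ae_eq_comp hae).trans (this.symm.trans hae.symm)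
  · obtain ⟨ι, _, t, p, h0, hs, -, hlt⟩ := approx_of_mem_hull hζ (Real.sqrt_pos.2 hε)
    refine ⟨ι, inferInstance, t, p, h0, hs, ?_⟩
    have h2 := (Real.lt_sqrt (norm_nonneg _)).1 hlt
    rw [norm_sq_Lp] at h2
    refine lt_of_eq_of_lt (integral_congr_ae ?_) h2
    have h3 : ∀ᵐ y ∂ν, ∀ i, V (t i) (hmem.toLp g) y = g (S.T (t i) y) :=
      ae_all_iff.2 fun i => hVg (t i)
    filter_upwards [Lp.coeFn_sub (∑ i, p i • V (t i) (hmem.toLp g)) ζ,
      coeFn_comb p fun i => V (t i) (hmem.toLp g), h3, hae] with y e1 e2 e3 e4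
    refine Eq.trans ?_ (congrArg (fun x => ‖x‖ ^ 2) e1).symm
    rw [Pi.sub_apply, e2, e4]; simp [e3]

namespace Sys
variable (S : Sys Y ν)

@[fun_prop] lemma bmF (z : L) : BM (S.F z) := BM.of_le (S.meas z) (fun y => (S.norm z y).le)
@[fun_prop] lemma measT (u : U) : Measurable (S.T u) := (S.mp u).measurable

lemma F_ne (z : L) (y : Y) : S.F z y ≠ 0 := by
  intro h; have := S.norm z y; rw [h] at this; simp at this

lemma F_zero (y : Y) : S.F 0 y = 1 := by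
  have := S.add 0 0 y
  rw [add_zero] at this
  exact (mul_eq_left₀ (S.F_ne 0 y)).1 this.symm

lemma mul_conj (z : L) (y : Y) : S.F z y * conj (S.F z y) = 1 := by
  rw [Complex.mul_conj, Complex.normSq_eq_norm_sq, S.norm]; simp

lemma F_neg (z : L) (y : Y) : S.F (-z) y = conj (S.F z y) := by
  have h1 := S.add z (-z) y
  rw [add_neg_cancel, S.F_zero] at h1
  exact mul_left_cancel₀ (S.F_ne z y) (h1.symm.trans (S.mul_conj z y).symm)

lemma F_sub (z w : L) (y : Y) : S.F (z - w) y = S.F z y * conj (S.F w y) := by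
  rw [sub_eq_add_neg, S.add, S.F_neg]

lemma int_T {E : Type} [NormedAddCommGroup E] [NormedSpace ℝ E] [MeasurableSpace E] [BorelSpace E]
    [SecondCountableTopology E] (u : U) {f : Y → E} (hf : Measurable f) :
    ∫ y, f (S.T u y) ∂ν = ∫ y, f y ∂ν := by
  have := integral_map (μ := ν) (S.mp u).measurable.aemeasurable
    (f := f) hf.aestronglyMeasurable
  rw [(S.mp u).map_eq] at this
  exact this.symm

lemma T_inv_T (u : U) (y : Y) : S.T u⁻¹ (S.T u y) = y := by rw [← S.T_mul, inv_mul_cancel, S.T_one]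
lemma T_T_inv (u : U) (y : Y) : S.T u (S.T u⁻¹ y) = y := by rw [← S.T_mul, mul_inv_cancel, S.T_one]

lemma memLp_mul (z : L) (f : Lp ℂ 2 ν) : MemLp (fun y => S.F z y * f y) 2 ν :=
  (Lp.memLp f).of_le ((S.meas z).aestronglyMeasurable.mul (Lp.aestronglyMeasurable f))
    (Eventually.of_forall fun y => by rw [norm_mul, S.norm, one_mul])

/-- multiplication by `F z` -/
noncomputable def mulL (z : L) : Lp ℂ 2 ν →ₗᵢ[ℂ] Lp ℂ 2 ν where
  toFun f := (S.memLp_mul z f).toLp _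
  map_add' f g := Lp.ext (by
    filter_upwards [(S.memLp_mul z (f + g)).coeFn_toLp, (S.memLp_mul z f).coeFn_toLp,
      (S.memLp_mul z g).coeFn_toLp, Lp.coeFn_add f g,
      Lp.coeFn_add ((S.memLp_mul z f).toLp _) ((S.memLp_mul z g).toLp _)] with y h1 h2 h3 h4 h5
    rw [h1, h5, Pi.add_apply, h2, h3, h4, Pi.add_apply, mul_add])
  map_smul' c f := Lp.ext (by
    filter_upwards [(S.memLp_mul z (c • f)).coeFn_toLp, (S.memLp_mul z f).coeFn_toLp,
      Lp.coeFn_smul c f, Lp.coeFn_smul c ((S.memLp_mul z f).toLp _)] with y h1 h2 h3 h4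
    rw [h1, RingHom.id_apply, h4, Pi.smul_apply, h2, h3, Pi.smul_apply, smul_eq_mul, smul_eq_mul]
    ring)
  norm_map' f := by
    change ‖(S.memLp_mul z f).toLp _‖ = ‖f‖
    rw [Lp.norm_toLp, Lp.norm_def]
    congr 1
    exact eLpNorm_congr_norm_ae (Eventually.of_forall fun y => by rw [norm_mul, S.norm, one_mul])

lemma mulL_ae (z : L) (f : Lp ℂ 2 ν) : S.mulL z f =ᵐ[ν] fun y => S.F z y * f y :=
  (S.memLp_mul z f).coeFn_toLp

lemma comb_sq {ι : Type} [Fintype ι] (w : ι → L) (p : ι → ℝ) :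
    ∫ y, ‖∑ i, (p i : ℂ) * S.F (w i) y‖ ^ 2 ∂ν
      = ∑ i, ∑ j, p i * p j * (∫ y, S.F (w i - w j) y ∂ν).re := by
  have h1 : ∀ y, ‖∑ i, (p i : ℂ) * S.F (w i) y‖ ^ 2
      = ∑ i, ∑ j, p i * p j * (S.F (w i - w j) y).re := by
    intro y
    rw [← Complex.normSq_eq_norm_sq, ← Complex.ofReal_re (Complex.normSq _), ← Complex.mul_conj,
      map_sum, Finset.sum_mul_sum, Complex.re_sum]
    refine Finset.sum_congr rfl fun i _ => ?_
    rw [Complex.re_sum]
    refine Finset.sum_congr rfl fun j _ => ?_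
    rw [S.F_sub, map_mul, Complex.conj_ofReal]
    have : (p i : ℂ) * S.F (w i) y * ((p j : ℂ) * conj (S.F (w j) y))
        = ((p i * p j : ℝ) : ℂ) * (S.F (w i) y * conj (S.F (w j) y)) := by push_cast; ring
    rw [this, Complex.re_ofReal_mul]
  simp_rw [h1]
  rw [integral_finsetSum _ fun i _ => BM.integrable (by fun_prop) ν]
  refine Finset.sum_congr rfl fun i _ => ?_
  rw [integral_finsetSum _ fun j _ => BM.integrable (by fun_prop) ν]
  refine Finset.sum_congr rfl fun j _ => ?_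
  rw [integral_const_mul]
  congr 1
  exact integral_re (𝕜 := ℂ) ((S.bmF _).integrable ν)

/-- A non singular system carries a nonzero invariant weight for which `F` is continuous. -/
lemma exists_cont (h : ¬ Sing (fun z => ∫ y, S.F z y ∂ν)) :
    ∃ W : Y → ℝ, Measurable W ∧ (∀ y, 0 ≤ W y) ∧ (∀ y, W y ≤ 1) ∧
      (∀ u, (fun y => W (S.T u y)) =ᵐ[ν] W) ∧ 0 < ∫ y, W y ∂ν ∧
      ∀ ε > 0, ∃ δ > 0, ∀ w : L, ‖(w : ℂ)‖ < δ → ∫ y, ‖S.F w y - 1‖ ^ 2 * W y ∂ν ≤ ε := by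
  set V : U → (Lp ℂ 2 ν →ₗᵢ[ℂ] Lp ℂ 2 ν) := fun u => Lp.compMeasurePreservingₗᵢ ℂ (S.T u) (S.mp u)
  have hV : ∀ u (x : Lp ℂ 2 ν), V u x =ᵐ[ν] fun y => x (S.T u y) := fun u x =>
    Lp.coeFn_compMeasurePreserving x (S.mp u)
  let R : Rep (Lp ℂ 2 ν) :=
    { π := S.mulL
      zero := fun x => Lp.ext (by
        filter_upwards [S.mulL_ae 0 x] with y hy
        rw [hy, S.F_zero, one_mul])
      add := fun z w x => Lp.ext (by
        filter_upwards [S.mulL_ae (z + w) x, S.mulL_ae z (S.mulL w x), S.mulL_ae w x]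
          with y h1 h2 h3
        rw [h1, h2, h3, S.add, mul_assoc]) }
  have hmem : MemLp (fun _ : Y => (1 : ℂ)) 2 ν := memLp_const 1
  set ξ := hmem.toLp _
  have hξ : ξ =ᵐ[ν] fun _ => 1 := hmem.coeFn_toLp
  have hπξ : ∀ w, S.mulL w ξ =ᵐ[ν] S.F w := fun w => by
    filter_upwards [S.mulL_ae w ξ, hξ] with y h1 h2
    rw [h1, h2, mul_one]
  obtain ⟨ζ, hK, hc, hinv⟩ := contStmt (Lp ℂ 2 ν) R V ξ
    (fun u => Lp.ext (by
      filter_upwards [hV u ξ, (S.mp u).quasiMeasurePreserving.ae_eq_comp hξ, hξ] with y h1 h2 h3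
      rw [h1, h3]; exact h2))
    (fun u z x => Lp.ext (by
      filter_upwards [hV u (S.mulL z x), (S.mp u).quasiMeasurePreserving.ae_eq_comp (S.mulL_ae z x),
        S.mulL_ae (u • z) (V u x), hV u x] with y h1 h2 h3 h4
      change V u (S.mulL z x) y = S.mulL (u • z) (V u x) y
      rw [h1, h3, h4, ← S.F_T]; exact h2))
  obtain ⟨g, hm, h1, hae⟩ := exists_rep (ae_le_one_of_hull (by
    rintro _ ⟨w, -, rfl⟩
    filter_upwards [hπξ w] with y hy
    change ‖S.mulL w ξ y‖ ≤ 1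
    rw [hy, S.norm]) (hK 1 one_pos))
  refine ⟨fun y => ‖g y‖ ^ 2, hm.norm.pow_const 2, fun y => by positivity,
    fun y => pow_le_one₀ (norm_nonneg _) (h1 y), fun u => ?_, ?_, fun ε hε => ?_⟩
  · have := hV u ζ
    rw [hinv] at this
    filter_upwards [((S.mp u).quasiMeasurePreserving.ae_eq_comp hae).trans
      (this.symm.trans hae.symm)] with y hy
    exact congrArg (fun x => ‖x‖ ^ 2) hy
  · have hn : ∫ y, ‖g y‖ ^ 2 ∂ν = ‖ζ‖ ^ 2 := by
      rw [norm_sq_Lp]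
      refine integral_congr_ae ?_
      filter_upwards [hae] with y hy
      rw [hy]
    rw [hn]
    have hne : ζ ≠ 0 := by
      intro h0
      apply h
      intro δ hδ ε hε
      obtain ⟨ι, _, w, p, h0', hs, hw, hlt⟩ := approx_of_mem_hull (hK δ hδ) (Real.sqrt_pos.2 hε)
      refine ⟨ι, inferInstance, w, p, ⟨h0', hs, hw⟩, ?_⟩
      rw [h0, sub_zero] at hlt
      have h2 := (Real.lt_sqrt (norm_nonneg _)).1 hlt
      rw [norm_sq_Lp] at h2
      rw [← S.comb_sq]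
      refine lt_of_eq_of_lt (integral_congr_ae ?_) h2
      have h3 : ∀ᵐ y ∂ν, ∀ i, S.mulL (w i) ξ y = S.F (w i) y := ae_all_iff.2 fun i => hπξ (w i)
      filter_upwards [coeFn_comb p fun i => S.mulL (w i) ξ, h3] with y e2 e3
      change _ = ‖(∑ i, p i • S.mulL (w i) ξ : Lp ℂ 2 ν) y‖ ^ 2
      rw [e2]; simp [e3]
    exact pow_pos (norm_pos_iff.2 hne) 2
  · obtain ⟨δ, hδ, hd⟩ := hc _ (Real.sqrt_pos.2 hε)
    refine ⟨δ, hδ, fun w hw => ?_⟩
    have h2 := (Real.lt_sqrt (norm_nonneg _)).1 (hd w hw)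
    rw [norm_sq_Lp] at h2
    refine le_of_eq_of_le (integral_congr_ae ?_) h2.le
    filter_upwards [Lp.coeFn_sub (S.mulL w ζ) ζ, S.mulL_ae w ζ, hae] with y e1 e2 e3
    change _ = ‖(S.mulL w ζ - ζ : Lp ℂ 2 ν) y‖ ^ 2
    rw [e1, Pi.sub_apply, e2, e3, ← mul_pow, ← norm_mul]
    congr 2; ring

end Sys
end Fun

end Crest.Agent.H2.Pl
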