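import Crest.Agent.H2.PlB

/-! Row 40: factors, conditional expectation, relative square. -/

set_option autoImplicit false
set_option linter.unusedSectionVars false

namespace Crest.Agent.H2.Pl
open MeasureTheory ProbabilityTheory Filter Topology
open scoped ComplexConjugate

variable {Y : Type} [mY : MeasurableSpace Y] [StandardBorelSpace Y] {ν : Measure Y}
  [IsProbabilityMeasure ν]

/-- An invariant sub-σ-algebra. -/
structure Fac (S : Sys Y ν) where
  B : MeasurableSpace Y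
  le : B ≤ mY
  inv : ∀ u s, MeasurableSet[B] s → MeasurableSet[B] (@Sys.T Y mY ν S u ⁻¹' s)

lemma int_normSq {Z : Type} [MeasurableSpace Z] {μ : Measure Z} (f : Z → ℂ) :
    ∫ y, f y * conj (f y) ∂μ = ((∫ y, ‖f y‖ ^ 2 ∂μ : ℝ) : ℂ) := by
  rw [← integral_complex_ofReal]
  refine integral_congr_ae (Eventually.of_forall fun y => ?_)
  simp [Complex.mul_conj, Complex.normSq_eq_norm_sq]

lemma ae_zero_of_int_sq {Z : Type} [MeasurableSpace Z] {μ : Measure Z} [IsFiniteMeasure μ]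
    {f : Z → ℂ} (hf : BM f) (h : ∫ y, ‖f y‖ ^ 2 ∂μ = 0) : f =ᵐ[μ] fun _ => 0 := by
  have := (integral_eq_zero_iff_of_nonneg (fun y => by positivity)
    (BM.integrable (by fun_prop) μ)).1 h
  filter_upwards [this] with y hy
  simpa using hy

namespace Fac
variable {S : Sys Y ν} (Φ : Fac S)

/-- disintegration kernel -/
noncomputable def κ : Kernel Y Y :=
  Kernel.comap (condExpKernel (mΩ := mY) ν Φ.B) id (measurable_id'' Φ.le)

instance : IsMarkovKernel Φ.κ := by unfold κ; infer_instance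

lemma κ_apply (y : Y) : Φ.κ y = condExpKernel (mΩ := mY) ν Φ.B y := rfl

/-- conditional expectation, defined everywhere -/
noncomputable def E (f : Y → ℂ) (y : Y) : ℂ := ∫ y', f y' ∂(Φ.κ y)

lemma E_measB {f : Y → ℂ} (hf : Measurable f) : Measurable[Φ.B] (Φ.E f) :=
  (hf.stronglyMeasurable.integral_condExpKernel (μ := ν) (m := Φ.B)).measurable

lemma E_meas {f : Y → ℂ} (hf : Measurable f) : Measurable (Φ.E f) :=
  (Φ.E_measB hf).mono Φ.le le_rfl

lemma E_le {f : Y → ℂ} {C : ℝ} (h : ∀ y, ‖f y‖ ≤ C) (y : Y) : ‖Φ.E f y‖ ≤ C := norm_int_le h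

@[fun_prop] lemma E_bm {f : Y → ℂ} (hf : BM f) : BM (Φ.E f) :=
  ⟨Φ.E_meas hf.1, hf.2.imp fun _ h => Φ.E_le h⟩

lemma E_ae {f : Y → ℂ} (hf : BM f) : ν[f | Φ.B] =ᵐ[ν] Φ.E f :=
  condExp_ae_eq_integral_condExpKernel Φ.le (hf.integrable ν)

lemma int_mul_E {c f : Y → ℂ} (hc : Measurable[Φ.B] c) (hcb : BM c) (hf : BM f) :
    ∫ y, c y * Φ.E f y ∂ν = ∫ y, c y * f y ∂ν := by
  have h1 := condExp_bilin_of_stronglyMeasurable_left (μ := ν) (m := Φ.B)
    (ContinuousLinearMap.mul ℝ ℂ) (f := c) (g := f) hc.stronglyMeasurable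
    ((hcb.mul hf).integrable ν) (hf.integrable ν)
  have h2 := integral_condExp (μ := ν) Φ.le (f := fun y => ContinuousLinearMap.mul ℝ ℂ (c y) (f y))
  rw [integral_congr_ae h1] at h2
  refine Eq.trans (integral_congr_ae ?_) h2
  filter_upwards [Φ.E_ae hf] with y hy
  simp [hy]

lemma int_E {f : Y → ℂ} (hf : BM f) : ∫ y, Φ.E f y ∂ν = ∫ y, f y ∂ν := by
  simpa using Φ.int_mul_E (c := fun _ => 1) measurable_const (BM.const _) hf

lemma E_conj (f : Y → ℂ) (y : Y) : Φ.E (fun y => conj (f y)) y = conj (Φ.E f y) := integral_conj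

lemma E_sub {f g : Y → ℂ} (hf : BM f) (hg : BM g) (y : Y) :
    Φ.E (fun y => f y - g y) y = Φ.E f y - Φ.E g y :=
  integral_sub (hf.integrable _) (hg.integrable _)

lemma E_div (f : Y → ℂ) (c : ℂ) (y : Y) : Φ.E (fun y => f y / c) y = Φ.E f y / c :=
  integral_div _ _

lemma ae_eq_of_test {a b : Y → ℂ} (ha : Measurable[Φ.B] a) (hab : BM a) (hb : Measurable[Φ.B] b)
    (hbb : BM b) (h : ∀ c : Y → ℂ, Measurable[Φ.B] c → BM c →
      ∫ y, c y * a y ∂ν = ∫ y, c y * b y ∂ν) : a =ᵐ[ν] b := by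
  have h1 := h (fun y => conj (a y - b y))
    (Complex.continuous_conj.measurable.comp (ha.sub hb)) (by fun_prop)
  rw [← sub_eq_zero, ← integral_sub (BM.integrable (by fun_prop) ν)
    (BM.integrable (by fun_prop) ν)] at h1
  have h2 : ∫ y, (a y - b y) * conj (a y - b y) ∂ν = 0 := by
    rw [← h1]; congr 1; ext y; ring
  rw [int_normSq] at h2
  have := ae_zero_of_int_sq (f := fun y => a y - b y) (by fun_prop) (by exact_mod_cast h2)
  filter_upwards [this] with y hy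
  exact sub_eq_zero.1 hy

lemma measB_T {E' : Type} [MeasurableSpace E'] {c : Y → E'} (hc : Measurable[Φ.B] c) (u : U) :
    Measurable[Φ.B] (fun y => c (S.T u y)) := fun _ hs => Φ.inv u _ (hc hs)

lemma E_self {f : Y → ℂ} (hf : Measurable[Φ.B] f) (hb : BM f) : Φ.E f =ᵐ[ν] f :=
  Φ.ae_eq_of_test (Φ.E_measB hb.1) (Φ.E_bm hb) hf hb fun _ hc hcb => Φ.int_mul_E hc hcb hb

lemma E_T {f : Y → ℂ} (hf : BM f) (u : U) :
    Φ.E (fun y => f (S.T u y)) =ᵐ[ν] fun y => Φ.E f (S.T u y) := by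
  have hfT : BM (fun y => f (S.T u y)) := by fun_prop
  refine Φ.ae_eq_of_test (Φ.E_measB hfT.1) (Φ.E_bm hfT) (Φ.measB_T (Φ.E_measB hf.1) u)
    ((Φ.E_bm hf).comp (S.measT u)) fun c hc hcb => ?_
  have hE := Φ.E_bm hf
  rw [Φ.int_mul_E hc hcb hfT, ← S.int_T u⁻¹ (f := fun y => c y * f (S.T u y)) (by fun_prop),
    ← S.int_T u⁻¹ (f := fun y => c y * Φ.E f (S.T u y)) (by fun_prop)]
  simp only [S.T_T_inv]
  exact (Φ.int_mul_E (Φ.measB_T hc u⁻¹) (by fun_prop) hf).symm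

/-- the relative square -/
noncomputable def η : Measure (Y × Y) := ν ⊗ₘ Φ.κ

instance : IsProbabilityMeasure Φ.η := by unfold η; infer_instance

lemma int_η {E' : Type} [NormedAddCommGroup E'] [NormedSpace ℝ E'] [MeasurableSpace E']
    [BorelSpace E'] [SecondCountableTopology E'] {h : Y × Y → E'} (hh : BM h) :
    ∫ p, h p ∂Φ.η = ∫ y, ∫ y', h (y, y') ∂(Φ.κ y) ∂ν :=
  Measure.integral_compProd (hh.integrable _)

lemma int_η_mul {a b : Y → ℂ} (ha : BM a) (hb : BM b) :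
    ∫ p, a p.1 * b p.2 ∂Φ.η = ∫ y, a y * Φ.E b y ∂ν := by
  rw [Φ.int_η (by fun_prop)]
  simp only [integral_const_mul]
  rfl

lemma int_η_fst {E' : Type} [NormedAddCommGroup E'] [NormedSpace ℝ E'] [CompleteSpace E']
    [MeasurableSpace E'] [BorelSpace E'] [SecondCountableTopology E'] {a : Y → E'} (ha : BM a) :
    ∫ p, a p.1 ∂Φ.η = ∫ y, a y ∂ν := by
  rw [Φ.int_η (by fun_prop)]
  simp

lemma int_η_sq {a : Y → ℂ} (ha : BM a) :
    ∫ p, a p.1 * conj (a p.2) ∂Φ.η = ((∫ y, ‖Φ.E a y‖ ^ 2 ∂ν : ℝ) : ℂ) := by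
  have hE := Φ.E_bm ha
  rw [Φ.int_η_mul (b := fun y => conj (a y)) ha ha.cj, ← int_normSq]
  simp only [Φ.E_conj]
  have := Φ.int_mul_E (c := fun y => conj (Φ.E a y)) (f := a)
    (Complex.continuous_conj.measurable.comp (Φ.E_measB ha.1)) (by fun_prop) ha
  simp only [mul_comm (conj (Φ.E a _))] at this
  exact this.symm

lemma mp_of_test {a b : Y → Y} (ha : Measurable a) (hb : Measurable b)
    (h : ∀ f g : Y → ℂ, BM f → BM g →
      ∫ p, f (a p.1) * g (b p.2) ∂Φ.η = ∫ p, f p.1 * g p.2 ∂Φ.η) :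
    MeasurePreserving (Prod.map a b) Φ.η Φ.η := by
  have hm : Measurable (Prod.map a b) := ha.prodMap hb
  refine ⟨hm, ?_⟩
  have : IsProbabilityMeasure (Φ.η.map (Prod.map a b)) := Measure.isProbabilityMeasure_map hm.aemeasurable
  refine Measure.ext_prod fun {s t} hs ht => ?_
  have key : ∀ μ : Measure (Y × Y), ∀ s t : Set Y, MeasurableSet s → MeasurableSet t →
      ∫ p, s.indicator (fun _ => (1 : ℂ)) p.1 * t.indicator (fun _ => (1 : ℂ)) p.2 ∂μ
        = (μ.real (s ×ˢ t) : ℂ) := by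
    intro μ s t hs ht
    have : ∀ p : Y × Y, s.indicator (fun _ => (1 : ℂ)) p.1 * t.indicator (fun _ => (1 : ℂ)) p.2
        = (s ×ˢ t).indicator (fun _ => (1 : ℂ)) p := by
      intro p
      by_cases h1 : p.1 ∈ s <;> by_cases h2 : p.2 ∈ t <;> simp [Set.indicator, h1, h2]
    simp_rw [this]
    rw [integral_indicator (hs.prod ht)]
    simp
  have h1 := h _ _ ((BM.const (1 : ℂ)).indicator hs) ((BM.const (1 : ℂ)).indicator ht)
  rw [key _ s t hs ht] at h1
  have h2 := key Φ.η (a ⁻¹' s) (b ⁻¹' t) (ha hs) (hb ht)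
  have h3 : Φ.η.real ((a ⁻¹' s) ×ˢ (b ⁻¹' t)) = Φ.η.real (s ×ˢ t) := by
    have : ((Φ.η.real ((a ⁻¹' s) ×ˢ (b ⁻¹' t)) : ℝ) : ℂ) = Φ.η.real (s ×ˢ t) := by
      rw [← h2, ← h1]; rfl
    exact_mod_cast this
  rw [Measure.map_apply hm (hs.prod ht), Set.preimage_prod_map_prod]
  exact (measureReal_eq_measureReal_iff (measure_ne_top _ _) (measure_ne_top _ _)).1 h3

lemma mp_diag (u : U) : MeasurePreserving (Prod.map (S.T u) (S.T u)) Φ.η Φ.η := by
  refine Φ.mp_of_test (S.measT u) (S.measT u) fun f g hf hg => ?_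
  have hE := Φ.E_bm hg
  rw [Φ.int_η_mul (a := fun y => f (S.T u y)) (b := fun y => g (S.T u y)) (by fun_prop)
    (by fun_prop), Φ.int_η_mul hf hg, ← S.int_T u (f := fun y => f y * Φ.E g y) (by fun_prop)]
  refine integral_congr_ae ?_
  filter_upwards [Φ.E_T hg u] with y hy
  rw [hy]

/-- the relative square as a system -/
noncomputable def sq : Sys (Y × Y) Φ.η where
  F z p := S.F z p.1 * conj (S.F z p.2)
  T u := Prod.map (S.T u) (S.T u)
  meas z := BM.meas (by fun_prop)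
  norm z p := by simp [S.norm]
  add z w p := by simp only [S.add, map_mul]; ring
  mp := Φ.mp_diag
  T_one p := by simp [Prod.map, S.T_one]
  T_mul u v p := by simp [Prod.map, S.T_mul]
  F_T z u p := by simp [Prod.map, S.F_T]

/-- `k z = ‖E[F_z | B]‖²` -/
noncomputable def k (z : L) : ℝ := ∫ y, ‖Φ.E (S.F z) y‖ ^ 2 ∂ν

lemma k_nonneg (z : L) : 0 ≤ Φ.k z := integral_nonneg fun _ => by positivity

lemma int_sq_F (z : L) : ∫ p, Φ.sq.F z p ∂Φ.η = (Φ.k z : ℂ) := Φ.int_η_sq (S.bmF z)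

/-- the relative square has no continuous part -/
def Sg : Prop := Sing (fun z => ∫ p, Φ.sq.F z p ∂Φ.η)

lemma k_neg (z : L) : Φ.k (-z) = Φ.k z := by
  unfold k
  have : S.F (-z) = fun y => conj (S.F z y) := funext (S.F_neg z)
  simp [this, Φ.E_conj]

end Fac

/-- the trivial factor -/
def botFac (S : Sys Y ν) : Fac S where
  B := ⊥
  le := bot_le
  inv u s hs := by
    rcases MeasurableSpace.measurableSet_bot_iff.1 hs with rfl | rfl <;> simp

lemma botFac_E (S : Sys Y ν) {f : Y → ℂ} (hf : BM f) (y : Y) :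
    (botFac S).E f y = ∫ y, f y ∂ν := by
  obtain ⟨c, hc⟩ := stronglyMeasurable_bot_iff.1 ((botFac S).E_measB hf.1).stronglyMeasurable
  have := (botFac S).int_E hf
  rw [hc] at this ⊢
  simpa using this

lemma botFac_mp (S : Sys Y ν) (u : U) :
    MeasurePreserving (Prod.map (S.T u) id) (botFac S).η (botFac S).η := by
  refine (botFac S).mp_of_test (S.measT u) measurable_id fun f g hf hg => ?_
  rw [(botFac S).int_η_mul (a := fun y => f (S.T u y)) (b := fun y => g (id y)) (by fun_prop)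
    hg, (botFac S).int_η_mul hf hg]
  simp only [id, botFac_E S hg, integral_mul_const, S.int_T u hf.1]

end Crest.Agent.H2.Pl
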