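import Crest.Agent.H2.PlC

/-! Row 40: the maximal compact extension `K` of a factor. -/

set_option autoImplicit false
set_option linter.unusedSectionVars false

namespace Crest.Agent.H2.Pl
open MeasureTheory ProbabilityTheory Filter Topology
open scoped ComplexConjugate symmDiff

variable {Y : Type} [mY : MeasurableSpace Y] [StandardBorelSpace Y] {ν : Measure Y}
  [IsProbabilityMeasure ν]

namespace Fac
variable {S : Sys Y ν} (Φ : Fac S)

/-- `col` has `B`-measurable fibres. -/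
def Col {ι : Type} (col : Y → ι) : Prop := ∀ i, MeasurableSet[Φ.B] {y | col y = i}

/-- almost periodic sets over the factor -/
def APS (A : Set Y) : Prop :=
  MeasurableSet A ∧ ∀ ε > 0, ∃ (ι : Type) (_ : Fintype ι) (Es : ι → Set Y),
    ∀ u : U, ∃ (col : Y → ι) (N : Set Y), Φ.Col col ∧ MeasurableSet N ∧ ν.real N ≤ ε ∧
      ∀ y, y ∉ N → (S.T u y ∈ A ↔ y ∈ Es (col y))

variable {Φ}

lemma Col.prod {ι ι' : Type} {c : Y → ι} {c' : Y → ι'} (h : Φ.Col c) (h' : Φ.Col c') :
    Φ.Col (fun y => (c y, c' y)) := by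
  rintro ⟨i, j⟩
  have : {y | (c y, c' y) = (i, j)} = {y | c y = i} ∩ {y | c' y = j} := by ext; simp
  rw [this]; exact (h i).inter (h' j)

lemma Col.pi {κ : Type} [Finite κ] {ι : κ → Type} {c : ∀ k, Y → ι k} (h : ∀ k, Φ.Col (c k)) :
    Φ.Col (fun y k => c k y) := by
  intro i
  have : {y | (fun k => c k y) = i} = ⋂ k, {y | c k y = i k} := by ext; simp [funext_iff]
  rw [this]; exact MeasurableSet.iInter fun k => h k _

lemma Col.const {ι : Type} (i : ι) : Φ.Col (fun _ => i) := fun _ => MeasurableSet.const _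

/-- anything read off a finite colouring is `B`-measurable -/
lemma Col.meas {ι E : Type} [Finite ι] [MeasurableSpace E] {c : Y → ι} (h : Φ.Col c) (f : ι → E) :
    Measurable[Φ.B] (fun y => f (c y)) := by
  intro s _
  have : (fun y => f (c y)) ⁻¹' s = ⋃ i : {i // f i ∈ s}, {y | c y = i} := by ext; simp
  rw [this]; exact MeasurableSet.iUnion fun i => h _

lemma APS.compl {A : Set Y} (h : Φ.APS A) : Φ.APS Aᶜ := by
  refine ⟨h.1.compl, fun ε hε => ?_⟩
  obtain ⟨ι, _, Es, H⟩ := h.2 ε hε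
  refine ⟨ι, inferInstance, fun i => (Es i)ᶜ, fun u => ?_⟩
  obtain ⟨col, N, h1, h2, h3, h4⟩ := H u
  exact ⟨col, N, h1, h2, h3, fun y hy => not_congr (h4 y hy)⟩

lemma APS.union {A A' : Set Y} (h : Φ.APS A) (h' : Φ.APS A') : Φ.APS (A ∪ A') := by
  refine ⟨h.1.union h'.1, fun ε hε => ?_⟩
  obtain ⟨ι, _, Es, H⟩ := h.2 (ε / 2) (by positivity)
  obtain ⟨ι', _, Es', H'⟩ := h'.2 (ε / 2) (by positivity)
  refine ⟨ι × ι', inferInstance, fun i => Es i.1 ∪ Es' i.2, fun u => ?_⟩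
  obtain ⟨col, N, h1, h2, h3, h4⟩ := H u
  obtain ⟨col', N', h1', h2', h3', h4'⟩ := H' u
  refine ⟨fun y => (col y, col' y), N ∪ N', h1.prod h1', h2.union h2',
    (measureReal_union_le _ _).trans (by linarith), fun y hy => ?_⟩
  rw [Set.mem_union, not_or] at hy
  exact or_congr (h4 y hy.1) (h4' y hy.2)

lemma APS.of_approx {A : Set Y} (hA : MeasurableSet A)
    (h : ∀ ε > 0, ∃ A', Φ.APS A' ∧ ν.real (A ∆ A') ≤ ε) : Φ.APS A := by
  refine ⟨hA, fun ε hε => ?_⟩
  obtain ⟨A', hA', hd⟩ := h (ε / 2) (by positivity)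
  obtain ⟨ι, _, Es, H⟩ := hA'.2 (ε / 2) (by positivity)
  refine ⟨ι, inferInstance, Es, fun u => ?_⟩
  obtain ⟨col, N, h1, h2, h3, h4⟩ := H u
  have hm : MeasurableSet (A ∆ A') := hA.symmDiff hA'.1
  refine ⟨col, N ∪ S.T u ⁻¹' (A ∆ A'), h1, h2.union (S.measT u hm),
    (measureReal_union_le _ _).trans ?_, fun y hy => ?_⟩
  · rw [(S.mp u).measureReal_preimage hm.nullMeasurableSet]; linarith
  · rw [Set.mem_union, not_or] at hy
    rw [← h4 y hy.1]
    have := hy.2
    simp only [Set.mem_preimage, Set.mem_symmDiff] at this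
    tauto

lemma APS.of_B {A : Set Y} (hA : MeasurableSet[Φ.B] A) : Φ.APS A := by
  classical
  refine ⟨Φ.le _ hA, fun ε hε => ⟨Bool, inferInstance, fun i => {_y | i = true}, fun u =>
    ⟨fun y => decide (S.T u y ∈ A), ∅, ?_, MeasurableSet.empty, by simpa using hε.le, by simp⟩⟩⟩
  rintro (_ | _)
  · convert (Φ.inv u A hA).compl using 1
    ext y; simp
  · convert Φ.inv u A hA using 1
    ext y; simp

lemma APS.biUnion {A : ℕ → Set Y} (h : ∀ n, Φ.APS (A n)) (n : ℕ) :
    Φ.APS (Set.accumulate A n) := by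
  induction n with
  | zero => simpa using h 0
  | succ n ih => rw [Set.accumulate_succ]; exact ih.union (h _)

lemma APS.iUnion {A : ℕ → Set Y} (h : ∀ n, Φ.APS (A n)) : Φ.APS (⋃ n, A n) := by
  have hm : MeasurableSet (⋃ n, A n) := MeasurableSet.iUnion fun n => (h n).1
  refine APS.of_approx hm fun ε hε => ?_
  have h1 : Tendsto (fun n => ν.real (Set.accumulate A n)) atTop (𝓝 (ν.real (⋃ n, A n))) :=
    (ENNReal.tendsto_toReal (measure_ne_top _ _)).comp tendsto_measure_iUnion_accumulate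
  obtain ⟨n, hn⟩ := (h1.eventually (lt_mem_nhds
    (show ν.real (⋃ n, A n) - ε < ν.real (⋃ n, A n) by linarith))).exists
  refine ⟨_, APS.biUnion h n, ?_⟩
  have hsub : Set.accumulate A n ⊆ ⋃ n, A n := Set.accumulate_subset_iUnion n
  rw [symmDiff_of_ge hsub, measureReal_sdiff hsub (APS.biUnion h n).1]
  linarith

lemma APS.T {A : Set Y} (h : Φ.APS A) (v : U) : Φ.APS (S.T v ⁻¹' A) := by
  refine ⟨S.measT v h.1, fun ε hε => ?_⟩
  obtain ⟨ι, _, Es, H⟩ := h.2 ε hε
  refine ⟨ι, inferInstance, Es, fun u => ?_⟩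
  obtain ⟨col, N, h1, h2, h3, h4⟩ := H (v * u)
  exact ⟨col, N, h1, h2, h3, fun y hy => by rw [← h4 y hy, S.T_mul]; rfl⟩

variable (Φ)

/-- the maximal compact extension -/
def K : Fac S where
  B := { MeasurableSet' := Φ.APS
         measurableSet_empty := APS.of_B (@MeasurableSet.empty _ Φ.B)
         measurableSet_compl := fun _ h => h.compl
         measurableSet_iUnion := fun _ h => APS.iUnion h }
  le := fun _ h => h.1
  inv := fun u _ h => APS.T h u

lemma mem_K {A : Set Y} : MeasurableSet[Φ.K.B] A ↔ Φ.APS A := Iff.rfl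

lemma le_K : Φ.B ≤ Φ.K.B := fun _ h => APS.of_B h

/-- simultaneous colouring for finitely many sets of `K` -/
lemma exists_col {κ : Type} [Fintype κ] {A : κ → Set Y} (h : ∀ k, MeasurableSet[Φ.K.B] (A k))
    {ε : ℝ} (hε : 0 < ε) : ∃ (ι : Type) (_ : Fintype ι) (Es : κ → ι → Set Y),
    ∀ u : U, ∃ (col : Y → ι) (N : Set Y), Φ.Col col ∧ MeasurableSet N ∧ ν.real N ≤ ε ∧
      ∀ y, y ∉ N → ∀ k, (S.T u y ∈ A k ↔ y ∈ Es k (col y)) := by
  classical
  have hc : (0 : ℝ) < Fintype.card κ + 1 := by positivity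
  choose ι hι Es H using fun k => (h k).2 (ε / (Fintype.card κ + 1)) (by positivity)
  refine ⟨∀ k, ι k, inferInstance, fun k i => Es k (i k), fun u => ?_⟩
  choose col N h1 h2 h3 h4 using fun k => H k u
  refine ⟨fun y k => col k y, ⋃ k, N k, Col.pi h1, MeasurableSet.iUnion h2,
    (measureReal_iUnion_fintype_le _).trans ?_, fun y hy k => h4 k y fun hk => hy ⟨_, ⟨k, rfl⟩, hk⟩⟩
  refine (Finset.sum_le_sum fun k _ => h3 k).trans ?_
  rw [Finset.sum_const, Finset.card_univ, nsmul_eq_mul, mul_div_assoc', div_le_iff₀ hc]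
  nlinarith

end Fac

/-- the tower of compact extensions -/
def tower (S : Sys Y ν) : ℕ → Fac S
  | 0 => botFac S
  | n + 1 => (tower S n).K

end Crest.Agent.H2.Pl

namespace Crest.Agent.H2.Pl
open MeasureTheory

/-- no continuous part over `B` implies none over `K(B)` -/
def StepBStmt : Prop :=
  ∀ (Y : Type) [MeasurableSpace Y] [StandardBorelSpace Y] (ν : Measure Y) [IsProbabilityMeasure ν]
    (S : Sys Y ν) (Φ : Fac S), Φ.Sg → Φ.K.Sg

/-- base of the tower -/
def BaseStmt : Prop :=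
  ∀ (Y : Type) [MeasurableSpace Y] [StandardBorelSpace Y] (ν : Measure Y) [IsProbabilityMeasure ν]
    (S : Sys Y ν), Sing (fun z => ∫ y, S.F z y ∂ν) → (botFac S).Sg

/-- conditional expectations of the `F z` stay away from the circle on every invariant set -/
def NearStmt : Prop :=
  ∀ (Y : Type) [MeasurableSpace Y] [StandardBorelSpace Y] (ν : Measure Y) [IsProbabilityMeasure ν]
    (S : Sys Y ν) (Φ : Fac S), Φ.Sg → ∀ z : L, z ≠ 0 → ∀ W : Y → ℝ, Measurable W → (∀ y, 0 ≤ W y) →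
      (∀ y, W y ≤ 1) → (∀ u, (fun y => W (S.T u y)) =ᵐ[ν] W) →
      ∫ y, ‖Φ.E (S.F z) y‖ * W y ∂ν ≤ 7 / 8 * ∫ y, W y ∂ν

end Crest.Agent.H2.Pl
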