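import Mathlib

/-! Row 40 (chromatic number of the plane): definitions and interface statements for the
reduction of arbitrary colourings to measurable ones. -/

set_option autoImplicit false

namespace Crest.Agent.H2.Pl
open MeasureTheory
open scoped InnerProductSpace

/-- The field of complex algebraic numbers. -/
abbrev L : Type := algebraicClosure ℚ ℂ

/-- Its unit circle, a subgroup of `Lˣ` (acts on `L` by `u • z = u * z`). -/
def U : Subgroup Lˣ where
  carrier := {u | ‖((u : L) : ℂ)‖ = 1}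
  mul_mem' := by
    intro a b ha hb
    simp only [Set.mem_ofPred_eq] at *
    simp [ha, hb]
  one_mem' := by simp
  inv_mem' := by
    intro a ha
    simp only [Set.mem_ofPred_eq] at *
    simp [ha]

/-- The complex number underlying a unit. -/
noncomputable def uc (u : U) : ℂ := (((u : Lˣ) : L) : ℂ)

lemma norm_uc (u : U) : ‖uc u‖ = 1 := u.2

@[simp] lemma coe_smul (u : U) (z : L) : ((u • z : L) : ℂ) = uc u * z := by
  have : u • z = ((u : Lˣ) : L) * z := rfl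
  rw [this]; simp [uc]

@[simp] lemma uc_mul (u v : U) : uc (u * v) = uc u * uc v := by simp [uc]
@[simp] lemma uc_one : uc 1 = 1 := by simp [uc]
@[simp] lemma uc_inv (u : U) : uc u⁻¹ = (uc u)⁻¹ := by simp [uc]
@[simp] lemma uc_pow (u : U) (n : ℕ) : uc (u ^ n) = uc u ^ n := by simp [uc]
@[simp] lemma uc_zpow (u : U) (n : ℤ) : uc (u ^ n) = uc u ^ n := by
  rcases Int.eq_nat_or_neg n with ⟨k, rfl | rfl⟩ <;> simp

lemma uc_inj {u v : U} (h : uc u = uc v) : u = v := by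
  apply Subtype.ext; apply Units.ext; exact Subtype.ext h

lemma norm_smul_L (u : U) (z : L) : ‖((u • z : L) : ℂ)‖ = ‖(z : ℂ)‖ := by
  rw [coe_smul, norm_mul, norm_uc, one_mul]

instance : Countable L := by
  have : Set.Countable {x : ℂ | IsAlgebraic ℚ x} := Algebraic.countable ℚ ℂ
  have h : (↑(algebraicClosure ℚ ℂ) : Set ℂ) = {x : ℂ | IsAlgebraic ℚ x} := by
    ext x; simp [mem_algebraicClosure_iff]
  have h2 : Set.Countable (↑(algebraicClosure ℚ ℂ) : Set ℂ) := h ▸ this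
  exact h2.to_subtype

/-- A root of an algebraic number is algebraic. -/
lemma mem_of_pow {x : ℂ} {n : ℕ} (hn : 0 < n) (z : L) (h : x ^ n = z) : x ∈ algebraicClosure ℚ ℂ := by
  rw [mem_algebraicClosure_iff]
  have hz : IsAlgebraic ℚ (x ^ n) := by rw [h]; exact mem_algebraicClosure_iff.1 z.2
  exact IsAlgebraic.of_pow hn hz

lemma conj_mem (z : L) : (starRingEnd ℂ) (z : ℂ) ∈ algebraicClosure ℚ ℂ := by
  rw [mem_algebraicClosure_iff]
  have hz : IsAlgebraic ℚ (z : ℂ) := mem_algebraicClosure_iff.1 z.2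
  exact hz.algHom ((Complex.conjAe.restrictScalars ℚ).toAlgHom)

lemma norm_mem (z : L) : ((‖(z : ℂ)‖ : ℝ) : ℂ) ∈ algebraicClosure ℚ ℂ := by
  refine mem_of_pow (n := 2) two_pos (z * ⟨_, conj_mem z⟩) ?_
  simp [Complex.mul_conj, Complex.normSq_eq_norm_sq]

/-- Build a unit from an algebraic number of norm one. -/
noncomputable def mkU (z : L) (h : ‖(z : ℂ)‖ = 1) : U :=
  ⟨Units.mk0 z (by rintro rfl; simp at h), by
    change ‖((Units.mk0 z _ : Lˣ) : L).1‖ = 1
    simpa using h⟩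

@[simp] lemma uc_mkU (z : L) (h : ‖(z : ℂ)‖ = 1) : uc (mkU z h) = z := rfl

/-- `U` is divisible. -/
lemma exists_root (t : U) {m : ℤ} (hm : m ≠ 0) : ∃ h : U, h ^ m = t := by
  have key : ∀ (t : U) (n : ℕ), 0 < n → ∃ h : U, h ^ n = t := by
    intro t n hn
    obtain ⟨x, hx⟩ := IsAlgClosed.exists_pow_nat_eq (uc t) hn
    have hmem : x ∈ algebraicClosure ℚ ℂ := mem_of_pow hn ((t : Lˣ) : L) hx
    have hn1 : ‖x‖ = 1 := by
      have h1 : ‖x‖ ^ n = 1 := by rw [← norm_pow, hx, norm_uc]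
      exact (pow_eq_one_iff_of_nonneg (norm_nonneg x) hn.ne').1 h1
    refine ⟨mkU ⟨x, hmem⟩ hn1, uc_inj ?_⟩
    simp [hx]
  rcases Int.eq_nat_or_neg m with ⟨n, rfl | rfl⟩
  · obtain ⟨h, hh⟩ := key t n (by omega)
    exact ⟨h, by simpa using hh⟩
  · obtain ⟨h, hh⟩ := key t⁻¹ n (by omega)
    exact ⟨h, by simp [hh]⟩

/-- An invariant mean on the bounded real functions on a group. -/
structure Mean (G : Type) [Mul G] where
  m : (G → ℝ) →ₗ[ℝ] ℝ
  one : m (fun _ => 1) = 1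
  pos : ∀ f : G → ℝ, (∃ C, ∀ x, |f x| ≤ C) → (∀ x, 0 ≤ f x) → 0 ≤ m f
  inv : ∀ (f : G → ℝ) (h : G), (∃ C, ∀ x, |f x| ≤ C) → m (fun x => f (x * h)) = m f

/-- Abelian groups are amenable. -/
def MeanStmt : Prop := ∀ (G : Type) [CommGroup G], Nonempty (Mean G)

/-- Finite probability weights `p` on points `w i` of the open disc of radius `δ`. -/
structure Wt {ι : Type} [Fintype ι] (δ : ℝ) (w : ι → L) (p : ι → ℝ) : Prop where
  nonneg : ∀ i, 0 ≤ p i
  sum : ∑ i, p i = 1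
  small : ∀ i, ‖(w i : ℂ)‖ < δ

/-- `φ` (a positive definite function) has no continuous part. -/
def Sing (φ : L → ℂ) : Prop :=
  ∀ δ > 0, ∀ ε > 0, ∃ (ι : Type) (_ : Fintype ι) (w : ι → L) (p : ι → ℝ),
    Wt δ w p ∧ ∑ i, ∑ j, p i * p j * (φ (w i - w j)).re < ε

/-- A unitary representation of the additive group of `L`. -/
structure Rep (H : Type) [NormedAddCommGroup H] [InnerProductSpace ℂ H] where
  π : L → (H →ₗᵢ[ℂ] H)
  zero : ∀ x, π 0 x = x
  add : ∀ z w x, π (z + w) x = π z (π w x)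

/-- The spectral statement: a rotation invariant positive definite function on `L` without
continuous part vanishes at `1`. -/
def SpecStmt : Prop :=
  ∀ (H : Type) [NormedAddCommGroup H] [InnerProductSpace ℂ H] [CompleteSpace H]
    (R : Rep H) (ξ : H), (∀ (u : U) (z : L), ⟪ξ, R.π (u • z) ξ⟫_ℂ = ⟪ξ, R.π z ξ⟫_ℂ) →
    Sing (fun z => ⟪ξ, R.π z ξ⟫_ℂ) → ⟪ξ, R.π 1 ξ⟫_ℂ = 0

/-- A measure on characters of `L`, invariant under the rotations. -/
structure Sys (Y : Type) [MeasurableSpace Y] (ν : Measure Y) where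
  F : L → Y → ℂ
  T : U → Y → Y
  meas : ∀ z, Measurable (F z)
  norm : ∀ z y, ‖F z y‖ = 1
  add : ∀ z w y, F (z + w) y = F z y * F w y
  mp : ∀ u, MeasurePreserving (T u) ν ν
  T_one : ∀ y, T 1 y = y
  T_mul : ∀ u v y, T (u * v) y = T u (T v y)
  F_T : ∀ z u y, F z (T u y) = F (u • z) y

/-- Bochner's theorem for the discrete group `L`, with the rotation action. -/
def BochnerStmt : Prop :=
  ∀ (H : Type) [NormedAddCommGroup H] [InnerProductSpace ℂ H] [CompleteSpace H]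
    (R : Rep H) (ξ : H), ‖ξ‖ = 1 → (∀ (u : U) (z : L), ⟪ξ, R.π (u • z) ξ⟫_ℂ = ⟪ξ, R.π z ξ⟫_ℂ) →
    ∃ (Y : Type) (_ : MeasurableSpace Y) (_ : StandardBorelSpace Y) (ν : Measure Y)
      (_ : IsProbabilityMeasure ν) (S : Sys Y ν), ∀ z, ∫ y, S.F z y ∂ν = ⟪ξ, R.π z ξ⟫_ℂ

/-- The ergodic theoretic core. -/
def CoreStmt : Prop :=
  ∀ (Y : Type) [MeasurableSpace Y] [StandardBorelSpace Y] (ν : Measure Y) [IsProbabilityMeasure ν]
    (S : Sys Y ν), Sing (fun z => ∫ y, S.F z y ∂ν) → ∫ y, S.F 1 y ∂ν = 0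

/-- A measurable proper colouring of almost all of the plane, every point of a class being a
Lebesgue density point of it. -/
def MeasCol : Prop :=
  ∃ A : Fin 5 → Set ℂ, (∀ i, MeasurableSet (A i)) ∧ (∀ᵐ x : ℂ, ∃ i, x ∈ A i) ∧
    (∀ i, ∀ x ∈ A i, ∀ y ∈ A i, dist x y ≠ 1) ∧
    ∀ i, ∀ x ∈ A i, Filter.Tendsto
      (fun r : ℝ => volume (A i ∩ Metric.closedBall x r) / volume (Metric.closedBall x r))
      (nhdsWithin 0 (Set.Ioi 0)) (nhds 1)

/-- The reduction. -/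
def ExtractStmt : Prop :=
  MeanStmt → SpecStmt → ∀ c : ℂ → Fin 5, (∀ x y, dist x y = 1 → c x ≠ c y) → MeasCol

/-- The continuous part of a vector (minimal norm construction). `V` is any family of isometries
compatible with the representation. -/
def ContStmt : Prop :=
  ∀ (H : Type) [NormedAddCommGroup H] [InnerProductSpace ℂ H] [CompleteSpace H]
    (R : Rep H) (V : U → (H →ₗᵢ[ℂ] H)) (ξ : H), (∀ u, V u ξ = ξ) →
    (∀ u z x, V u (R.π z x) = R.π (u • z) (V u x)) →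
    ∃ ζ : H, (∀ δ > 0, ζ ∈ closure (convexHull ℝ {x | ∃ w : L, ‖(w : ℂ)‖ < δ ∧ x = R.π w ξ})) ∧
      (∀ ε > 0, ∃ δ > 0, ∀ w : L, ‖(w : ℂ)‖ < δ → ‖R.π w ζ - ζ‖ < ε) ∧ ∀ u, V u ζ = ζ

end Crest.Agent.H2.Pl
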