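import Crest.Agent.H2.PlD

/-! Row 40: almost periodic functions are `K`-measurable; relative weak mixing lemma. -/

set_option autoImplicit false
set_option linter.unusedSectionVars false

namespace Crest.Agent.H2.Pl
open MeasureTheory ProbabilityTheory Filter Topology
open scoped ComplexConjugate

lemma Sys.int_T_inv {Y : Type} [MeasurableSpace Y] {ν : Measure Y} [IsProbabilityMeasure ν]
    (S : Sys Y ν) {f h : Y → ℂ} (hf : Measurable f) (hh : Measurable h) (u : U)
    (hinv : (fun y => h (S.T u y)) =ᵐ[ν] h) :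
    ∫ y, f (S.T u y) * h y ∂ν = ∫ y, f y * h y ∂ν := by
  rw [← S.int_T u (f := fun y => f y * h y) (hf.mul hh)]
  refine integral_congr_ae ?_
  filter_upwards [hinv] with y hy
  rw [hy]

variable {Y : Type} [mY : MeasurableSpace Y] [StandardBorelSpace Y] {ν : Measure Y}
  [IsProbabilityMeasure ν]

namespace Fac
variable {S : Sys Y ν} (Φ : Fac S)

lemma col_decide {s : Set Y} (hs : MeasurableSet[Φ.B] s) [∀ y, Decidable (y ∈ s)] :
    Φ.Col (fun y => decide (y ∈ s)) := by
  rintro (_ | _)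
  · convert hs.compl using 1
    ext y; simp
  · convert hs using 1
    ext y; simp

lemma exists_round {θ : ℝ} (hθ : 0 < θ) : ∃ (G : Type) (_ : Fintype G) (rep : G → ℂ),
    ∀ c : Y → ℂ, Measurable[Φ.B] c → (∀ y, ‖c y‖ ≤ 1) →
      ∃ col : Y → G, Φ.Col col ∧ ∀ y, ‖c y - rep (col y)‖ ≤ θ := by
  classical
  obtain ⟨t, -, ht, hcov⟩ := finite_cover_balls_of_compact (isCompact_closedBall (0 : ℂ) 1) hθ
  have := ht.fintype
  refine ⟨t → Bool, inferInstance,
    fun b => if h : ∃ g, b g = true then (h.choose : ℂ) else 0, fun c hc h1 => ?_⟩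
  refine ⟨fun y g => decide (y ∈ c ⁻¹' Metric.ball (g : ℂ) θ),
    Col.pi fun g => Φ.col_decide (hc Metric.isOpen_ball.measurableSet), fun y => ?_⟩
  have hex : ∃ g : t, decide (y ∈ c ⁻¹' Metric.ball (g : ℂ) θ) = true := by
    obtain ⟨g, hg, h2⟩ := Set.mem_iUnion₂.1 (hcov (show c y ∈ _ by simpa using h1 y))
    exact ⟨⟨g, hg⟩, by simpa using h2⟩
  simp only [dif_pos hex]
  have : dist (c y) _ < θ := of_decide_eq_true hex.choose_spec
  rw [dist_eq_norm] at this
  exact this.le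

/-- almost periodic functions -/
def APF (f : Y → ℂ) : Prop :=
  ∀ ε > 0, ∃ (ι : Type) (_ : Fintype ι) (φ : ι → Y → ℂ), (∀ i, Measurable (φ i)) ∧
    (∀ i y, ‖φ i y‖ ≤ 1) ∧ ∀ u, ∃ c : ι → Y → ℂ, (∀ i, Measurable[Φ.B] (c i)) ∧
      (∀ i y, ‖c i y‖ ≤ 1) ∧ ∫ y, ‖f (S.T u y) - ∑ i, c i y * φ i y‖ ^ 2 ∂ν ≤ ε

lemma aps_level {f : Y → ℂ} (hf : BM f) (h : Φ.APF f) {g : ℂ → ℝ} (hg : Measurable g)
    (hl : ∀ a b, |g a - g b| ≤ ‖a - b‖) {t : ℝ} (ht : ν {y | g (f y) = t} = 0) :
    Φ.APS {y | g (f y) < t} := by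
  have hr : Measurable fun y => g (f y) := hg.comp hf.1
  refine ⟨measurableSet_lt hr measurable_const, fun ε hε => ?_⟩
  have hm : ∀ θ : ℝ, MeasurableSet {y | |g (f y) - t| ≤ θ} := fun θ =>
    measurableSet_le (by fun_prop) measurable_const
  obtain ⟨θ, hθ, hθ2⟩ : ∃ θ > 0, ν.real {y | |g (f y) - t| ≤ θ} ≤ ε / 2 := by
    have h1 := tendsto_measure_iInter_atTop (μ := ν)
      (s := fun n : ℕ => {y | |g (f y) - t| ≤ 1 / ((n : ℝ) + 1)})
      (fun n => (hm _).nullMeasurableSet)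
      (fun a b hab y hy => le_trans (α := ℝ) (show |g (f y) - t| ≤ _ from hy)
        (Nat.one_div_le_one_div hab)) ⟨0, measure_ne_top _ _⟩
    have h2 : (⋂ n : ℕ, {y | |g (f y) - t| ≤ 1 / ((n : ℝ) + 1)}) = {y | g (f y) = t} := by
      ext y
      simp only [Set.mem_iInter, Set.mem_ofPred_eq]
      refine ⟨fun H => ?_, fun H n => by rw [H, sub_self, abs_zero]; positivity⟩
      have := ge_of_tendsto' tendsto_one_div_add_atTop_nhds_zero_nat H
      exact sub_eq_zero.1 (abs_nonpos_iff.1 this)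
    rw [h2, ht] at h1
    have h3 := (ENNReal.tendsto_toReal ENNReal.zero_ne_top).comp h1
    obtain ⟨n, hn⟩ := (h3.eventually (gt_mem_nhds (show (0 : ENNReal).toReal < ε / 2 by
      simp; positivity))).exists
    exact ⟨_, by positivity, hn.le⟩
  obtain ⟨ι, _, φ, hφ, hφ1, H⟩ := h (ε / 2 * (θ / 2) ^ 2) (by positivity)
  have hc : (0 : ℝ) < Fintype.card ι + 1 := by positivity
  obtain ⟨G, _, rep, hrep⟩ := Φ.exists_round (θ := θ / 2 / (Fintype.card ι + 1)) (by positivity)
  classical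
  refine ⟨ι → G, inferInstance, fun col => {y | g (∑ i, rep (col i) * φ i y) < t}, fun u => ?_⟩
  obtain ⟨c, hcm, hc1, hint⟩ := H u
  choose col hcol hcol2 using fun i => hrep (c i) (hcm i) (hc1 i)
  have hbm : BM fun y => ‖f (S.T u y) - ∑ i, c i y * φ i y‖ ^ 2 := by
    have h1 : ∀ i, BM (c i) := fun i => BM.of_le ((hcm i).mono Φ.le le_rfl) (hc1 i)
    have h2 : ∀ i, BM (φ i) := fun i => BM.of_le (hφ i) (hφ1 i)
    fun_prop
  refine ⟨fun y i => col i y, S.T u ⁻¹' {y | |g (f y) - t| ≤ θ} ∪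
    {y | (θ / 2) ^ 2 ≤ ‖f (S.T u y) - ∑ i, c i y * φ i y‖ ^ 2}, Col.pi hcol,
    (S.measT u (hm θ)).union (measurableSet_le measurable_const hbm.1),
    (measureReal_union_le _ _).trans ?_, fun y hy => ?_⟩
  · rw [(S.mp u).measureReal_preimage (hm θ).nullMeasurableSet]
    have := (mul_meas_ge_le_integral_of_nonneg (Eventually.of_forall fun y => by positivity)
      (hbm.integrable ν) ((θ / 2) ^ 2)).trans hint
    rw [mul_comm] at this
    have := le_of_mul_le_mul_right this (by positivity)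
    linarith
  · simp only [Set.mem_union, Set.mem_preimage, Set.mem_ofPred_eq, not_or, not_le] at hy ⊢
    have h1 := lt_of_pow_lt_pow_left₀ 2 (by positivity) hy.2
    have h2 : ‖∑ i, c i y * φ i y - ∑ i, rep (col i y) * φ i y‖ ≤ θ / 2 := by
      rw [← Finset.sum_sub_distrib]
      refine (norm_sum_le _ _).trans ((Finset.sum_le_sum (g := fun _ =>
        θ / 2 / (Fintype.card ι + 1)) fun i _ => ?_).trans ?_)
      · rw [← sub_mul, norm_mul]
        exact (mul_le_of_le_one_right (norm_nonneg _) (hφ1 i y)).trans (hcol2 i y)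
      · rw [Finset.sum_const, Finset.card_univ, nsmul_eq_mul, mul_div_assoc', div_le_iff₀ hc]
        nlinarith
    have h3 := (hl (f (S.T u y)) (∑ i, rep (col i y) * φ i y)).trans
      (norm_sub_le_norm_sub_add_norm_sub _ (∑ i, c i y * φ i y) _)
    have h4 := abs_le.1 h3
    rcases lt_abs.1 hy.1 with h5 | h5 <;> constructor <;> intro <;> linarith [h4.1, h4.2]

lemma measK_real {f : Y → ℂ} (hf : BM f) (h : Φ.APF f) {g : ℂ → ℝ} (hg : Measurable g)
    (hl : ∀ a b, |g a - g b| ≤ ‖a - b‖) : Measurable[Φ.K.B] fun y => g (f y) := by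
  have hr : Measurable fun y => g (f y) := hg.comp hf.1
  have hc := (Measure.countable_meas_level_set_pos (μ := ν) hr).dense_compl ℝ
  refine @measurable_of_Iio ℝ Y _ _ _ Φ.K.B _ _ _ _ fun s => ?_
  have : ∀ n : ℕ, ∃ t, ν {y | g (f y) = t} = 0 ∧ s - 1 / ((n : ℝ) + 1) < t ∧ t < s := fun n => by
    obtain ⟨t, h1, h2⟩ := hc.exists_between (show s - 1 / ((n : ℝ) + 1) < s by
      have : (0 : ℝ) < 1 / ((n : ℝ) + 1) := by positivity
      linarith)
    exact ⟨t, by simpa using h1, h2.1, h2.2⟩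
  choose t h1 h2 h3 using this
  have : (fun y => g (f y)) ⁻¹' Set.Iio s = ⋃ n, {y | g (f y) < t n} := by
    ext y
    simp only [Set.mem_preimage, Set.mem_Iio, Set.mem_iUnion, Set.mem_ofPred_eq]
    refine ⟨fun H => ?_, fun ⟨n, H⟩ => H.trans (h3 n)⟩
    obtain ⟨n, hn⟩ := exists_nat_one_div_lt (sub_pos.2 H)
    exact ⟨n, by linarith [h2 n]⟩
  rw [this]
  exact APS.iUnion fun n => Φ.aps_level hf h hg hl (h1 n)

lemma measK {f : Y → ℂ} (hf : BM f) (h : Φ.APF f) : Measurable[Φ.K.B] f := by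
  have h1 := Φ.measK_real hf h Complex.measurable_re fun a b => by
    simpa using Complex.abs_re_le_norm (a - b)
  have h2 := Φ.measK_real hf h Complex.measurable_im fun a b => by
    simpa using Complex.abs_im_le_norm (a - b)
  have : f = fun y => ((f y).re : ℂ) + ((f y).im : ℂ) * Complex.I := by
    ext y; exact (Complex.re_add_im _).symm
  rw [this]
  exact (Complex.measurable_ofReal.comp h1).add
    ((Complex.measurable_ofReal.comp h2).mul measurable_const)

lemma bm_fib {h : Y × Y → ℂ} (hh : BM h) : BM fun y => ∫ y', h (y, y') ∂(Φ.κ y) :=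
  ⟨(hh.1.stronglyMeasurable.integral_kernel_prod_right' (κ := Φ.κ)).measurable,
    hh.2.imp fun _ H _ => norm_int_le fun _ => H _⟩

lemma int_mul_fib {f : Y → ℂ} {h : Y × Y → ℂ} (hf : BM f) (hh : BM h) :
    ∫ y, f y * ∫ y', h (y, y') ∂(Φ.κ y) ∂ν = ∫ q, f q.1 * h q ∂Φ.η := by
  rw [Φ.int_η (by fun_prop)]
  simp only [integral_const_mul]

lemma lemW {g : Y → ℂ} (hg : Measurable g) (hg1 : ∀ y, ‖g y‖ ≤ 1)
    (h0 : Φ.K.E g =ᵐ[ν] fun _ => 0) {ε : ℝ} (hε : 0 < ε) :
    ∃ (ι : Type) (_ : Fintype ι) (t : ι → U) (p : ι → ℝ), (∀ i, 0 ≤ p i) ∧ ∑ i, p i = 1 ∧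
      ∫ q, ‖∑ i, (p i : ℂ) * (g (S.T (t i) q.1) * conj (g (S.T (t i) q.2)))‖ ^ 2 ∂Φ.η < ε := by
  have hb : BM g := BM.of_le hg hg1
  obtain ⟨h, hm, h1, hinv, happ⟩ := exists_inv_fun Φ.sq (g := fun q => g q.1 * conj (g q.2))
    (BM.meas (by fun_prop)) (fun q => by
      rw [norm_mul, RCLike.norm_conj]; exact mul_le_one₀ (hg1 _) (norm_nonneg _) (hg1 _))
  have hhb : BM h := BM.of_le hm h1
  set D : Y → ℂ := fun y => ∫ y', conj (h (y, y')) * conj (g y') ∂(Φ.κ y) with hD
  have hDb : BM D := Φ.bm_fib (h := fun q => conj (h q) * conj (g q.2)) (by fun_prop)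
  have hDf : ∀ f, BM f → ∫ y, f y * D y ∂ν = ∫ q, f q.1 * (conj (h q) * conj (g q.2)) ∂Φ.η :=
    fun f hf => Φ.int_mul_fib (h := fun q => conj (h q) * conj (g q.2)) hf (by fun_prop)
  have hap : Φ.APF D := by
    intro ε hε
    obtain ⟨ι, _, t, p, p0, p1, hlt⟩ := happ ε hε
    refine ⟨ι, inferInstance, fun i y => conj (g (S.T (t i) y)), fun i => BM.meas (by fun_prop),
      fun i y => by simpa using hg1 _, fun u => ?_⟩
    have hG : ∀ i, BM fun y => g (S.T (t i) y) * conj (g (S.T u y)) := fun i => by fun_prop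
    have hE := fun i => Φ.E_bm (hG i)
    refine ⟨fun i y => p i * Φ.E (fun y => g (S.T (t i) y) * conj (g (S.T u y))) y,
      fun i => (Φ.E_measB (hG i).1).const_mul _, fun i y => ?_, ?_⟩
    · rw [norm_mul, Complex.norm_real, Real.norm_of_nonneg (p0 i)]
      refine mul_le_one₀ (p1 ▸ Finset.single_le_sum (fun j _ => p0 j) (Finset.mem_univ i))
        (norm_nonneg _) (Φ.E_le (fun y => ?_) y)
      rw [norm_mul, RCLike.norm_conj]; exact mul_le_one₀ (hg1 _) (norm_nonneg _) (hg1 _)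
    set d : Y → ℂ := fun y => D (S.T u y) - ∑ i, p i *
      Φ.E (fun y => g (S.T (t i) y) * conj (g (S.T u y))) y * conj (g (S.T (t i) y)) with hd
    set h₀ : Y × Y → ℂ := fun q => ∑ i, (p i : ℂ) * (g (S.T (t i) q.1) * conj (g (S.T (t i) q.2)))
      with hh₀
    have hdb : BM d := by rw [hd]; fun_prop
    have h0b : BM h₀ := by rw [hh₀]; fun_prop
    have key : ∀ f, BM f → ∫ y, f y * d y ∂ν
        = ∫ q, f q.1 * (conj (h q - h₀ q) * conj (g (S.T u q.2))) ∂Φ.η := by
      intro f hf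
      have e1 : ∫ y, f y * D (S.T u y) ∂ν
          = ∫ q, f q.1 * (conj (h q) * conj (g (S.T u q.2))) ∂Φ.η := by
        rw [← S.int_T u⁻¹ (f := fun y => f y * D (S.T u y)) (by fun_prop)]
        simp only [S.T_T_inv]
        rw [hDf _ (by fun_prop), ← Φ.sq.int_T u
          (f := fun q => f (S.T u⁻¹ q.1) * (conj (h q) * conj (g q.2))) (BM.meas (by fun_prop))]
        refine integral_congr_ae ?_
        filter_upwards [hinv u] with q hq
        rw [hq]
        simp [sq, S.T_inv_T]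
      have e2 : ∫ y, f y * ∑ i, p i *
          Φ.E (fun y => g (S.T (t i) y) * conj (g (S.T u y))) y * conj (g (S.T (t i) y)) ∂ν
          = ∫ q, f q.1 * (conj (h₀ q) * conj (g (S.T u q.2))) ∂Φ.η := by
        simp only [hh₀, map_sum, Finset.sum_mul, Finset.mul_sum]
        rw [integral_finsetSum _ fun i _ => BM.integrable (by fun_prop) _,
          integral_finsetSum _ fun i _ => BM.integrable (by fun_prop) _]
        refine Finset.sum_congr rfl fun i _ => ?_
        have := Φ.int_η_mul (a := fun y => f y * p i * conj (g (S.T (t i) y))) (by fun_prop) (hG i)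
        refine Eq.trans (Eq.trans ?_ this.symm) ?_
        · congr 1; ext y; ring
        · congr 1; ext q; simp only [map_mul, Complex.conj_ofReal, Complex.conj_conj]; ring
      simp only [hd, mul_sub, map_sub, sub_mul]
      rw [integral_sub (BM.integrable (by fun_prop) _) (BM.integrable (by fun_prop) _),
        integral_sub (BM.integrable (by fun_prop) _) (BM.integrable (by fun_prop) _), e1, e2]
    have k1 := key (fun y => conj (d y)) (by fun_prop)
    simp only [mul_comm (conj (d _)) (d _)] at k1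
    rw [int_normSq] at k1
    have k2 : ∫ y, ‖d y‖ ^ 2 ∂ν ≤ ∫ q, (‖d q.1‖ ^ 2 + ‖h₀ q - h q‖ ^ 2) / 2 ∂Φ.η := by
      refine (le_abs_self _).trans ?_
      rw [← Real.norm_eq_abs, ← Complex.norm_real, k1]
      refine norm_integral_le_of_norm_le (BM.integrable (by fun_prop) _)
        (Eventually.of_forall fun q => ?_)
      rw [norm_mul, norm_mul, RCLike.norm_conj, RCLike.norm_conj, RCLike.norm_conj,
        norm_sub_rev (h q)]
      have := mul_le_of_le_one_right (norm_nonneg (h₀ q - h q)) (hg1 (S.T u q.2))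
      nlinarith [mul_le_mul_of_nonneg_left this (norm_nonneg (d q.1)),
        sq_nonneg (‖d q.1‖ - ‖h₀ q - h q‖)]
    rw [integral_div, integral_add (BM.integrable (by fun_prop) _) (BM.integrable (by fun_prop) _),
      Φ.int_η_fst (a := fun y => ‖d y‖ ^ 2) (by fun_prop)] at k2
    change ∫ q, ‖h₀ q - h q‖ ^ 2 ∂Φ.η < ε at hlt
    change ∫ y, ‖d y‖ ^ 2 ∂ν ≤ ε
    linarith
  have z1 : ∫ q, g q.1 * conj (g q.2) * conj (h q) ∂Φ.η = 0 := by
    have e1 := Φ.K.int_mul_E (Φ.measK hDb hap) hDb hb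
    have e2 : ∫ y, D y * Φ.K.E g y ∂ν = 0 := by
      rw [← integral_zero Y ℂ (μ := ν)]
      refine integral_congr_ae ?_
      filter_upwards [h0] with y hy
      simp [hy]
    rw [e2] at e1
    simp only [mul_comm (D _)] at e1
    rw [hDf _ hb] at e1
    rw [e1]; congr 1; ext q; ring
  obtain ⟨ι, _, t, p, p0, p1, hlt⟩ := happ ε hε
  refine ⟨ι, inferInstance, t, p, p0, p1, lt_of_le_of_lt ?_ hlt⟩
  set h₀ : Y × Y → ℂ := fun q => ∑ i, (p i : ℂ) * (g (S.T (t i) q.1) * conj (g (S.T (t i) q.2)))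
    with hh₀
  have h0b : BM h₀ := by rw [hh₀]; fun_prop
  have z2 : ∫ q, h₀ q * conj (h q) ∂Φ.η = 0 := by
    simp only [hh₀, Finset.sum_mul]
    rw [integral_finsetSum _ fun i _ => BM.integrable (by fun_prop) _]
    refine Finset.sum_eq_zero fun i _ => ?_
    simp only [mul_assoc (p i : ℂ)]
    rw [integral_const_mul]
    have := Φ.sq.int_T_inv (f := fun q => g q.1 * conj (g q.2)) (h := fun q => conj (h q))
      (BM.meas (by fun_prop)) (BM.meas (by fun_prop)) (t i) (by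
        filter_upwards [hinv (t i)] with q hq
        rw [hq])
    rw [z1] at this
    exact mul_eq_zero_of_right _ this
  change ∫ q, ‖h₀ q‖ ^ 2 ∂Φ.η ≤ ∫ q, ‖h₀ q - h q‖ ^ 2 ∂Φ.η
  have z3 : ∫ q, (h₀ q * conj (h q)).re ∂Φ.η = 0 := by
    have := integral_re (𝕜 := ℂ) (μ := Φ.η) (f := fun q => h₀ q * conj (h q))
      (BM.integrable (by fun_prop) _)
    rw [z2] at this
    simpa using this
  have hre : BM fun q => 2 * (h₀ q * conj (h q)).re := (BM.const _).mul (h0b.mul hhb.cj).re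
  have z4 : ∫ q, ‖h₀ q‖ ^ 2 ∂Φ.η = ∫ q, (‖h₀ q‖ ^ 2 - 2 * (h₀ q * conj (h q)).re) ∂Φ.η := by
    rw [integral_sub (BM.integrable (by fun_prop) _) (hre.integrable _),
      integral_const_mul, z3]; simp
  rw [z4]
  refine integral_mono (BM.integrable (BM.sub (by fun_prop) hre) _)
    (BM.integrable (by fun_prop) _) fun q => ?_
  simp only [← Complex.normSq_eq_norm_sq, Complex.normSq_sub]
  linarith [Complex.normSq_nonneg (h q)]

end Fac
end Crest.Agent.H2.Pl
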