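import Crest.Agent.H2.PlE

/-! Row 40: the tower of compact extensions is characteristic (van der Corput induction). -/

set_option autoImplicit false
set_option linter.unusedSectionVars false

namespace Crest.Agent.H2.Pl
open MeasureTheory ProbabilityTheory Filter Topology
open scoped ComplexConjugate

section
variable {Z : Type} [MeasurableSpace Z] {μ : Measure Z} [IsProbabilityMeasure μ]

lemma int_re {f : Z → ℂ} (hf : BM f) : ∫ y, (f y).re ∂μ = (∫ y, f y ∂μ).re :=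
  integral_re (𝕜 := ℂ) (hf.integrable μ)

lemma comb_sq' {ι : Type} [Fintype ι] {X : ι → Z → ℂ} (hX : ∀ i, BM (X i)) (p : ι → ℝ) :
    ∫ y, ‖∑ i, (p i : ℂ) * X i y‖ ^ 2 ∂μ
      = ∑ i, ∑ j, p i * p j * (∫ y, X i y * conj (X j y) ∂μ).re := by
  have h1 : ∀ y, ‖∑ i, (p i : ℂ) * X i y‖ ^ 2
      = ∑ i, ∑ j, p i * p j * (X i y * conj (X j y)).re := by
    intro y
    rw [← Complex.normSq_eq_norm_sq, ← Complex.ofReal_re (Complex.normSq _), ← Complex.mul_conj,
      map_sum, Finset.sum_mul_sum, Complex.re_sum]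
    refine Finset.sum_congr rfl fun i _ => ?_
    rw [Complex.re_sum]
    refine Finset.sum_congr rfl fun j _ => ?_
    rw [map_mul, Complex.conj_ofReal]
    have : (p i : ℂ) * X i y * ((p j : ℂ) * conj (X j y))
        = ((p i * p j : ℝ) : ℂ) * (X i y * conj (X j y)) := by push_cast; ring
    rw [this, Complex.re_ofReal_mul]
  simp_rw [h1]
  have h2 : ∀ i j, BM fun y => p i * p j * (X i y * conj (X j y)).re := fun i j =>
    (BM.const _).mul ((hX i).mul (hX j).cj).re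
  rw [integral_finsetSum _ fun i _ => (BM.sum _ fun j _ => h2 i j).integrable μ]
  refine Finset.sum_congr rfl fun i _ => ?_
  rw [integral_finsetSum _ fun j _ => (h2 i j).integrable μ]
  refine Finset.sum_congr rfl fun j _ => ?_
  rw [integral_const_mul, int_re ((hX i).mul (hX j).cj)]

lemma int_norm_le_amgm {f : Z → ℂ} (hf : BM f) {τ : ℝ} (hτ : 0 < τ) :
    ∫ y, ‖f y‖ ∂μ ≤ (τ + (∫ y, ‖f y‖ ^ 2 ∂μ) / τ) / 2 := by
  have : ∫ y, (τ + ‖f y‖ ^ 2 / τ) / 2 ∂μ = (τ + (∫ y, ‖f y‖ ^ 2 ∂μ) / τ) / 2 := by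
    rw [integral_div, integral_add (BM.integrable (by fun_prop) _) (BM.integrable (by fun_prop) _),
      integral_div]; simp
  rw [← this]
  refine integral_mono (BM.integrable (by fun_prop) _) (BM.integrable (by fun_prop) _) fun y => ?_
  have : (τ + ‖f y‖ ^ 2 / τ) / 2 - ‖f y‖ = (τ - ‖f y‖) ^ 2 / (2 * τ) := by field_simp; ring
  have h2 : 0 ≤ (τ - ‖f y‖) ^ 2 / (2 * τ) := by positivity
  simp only; linarith

lemma abs_re_int_le {f g : Z → ℂ} (hf : BM f) (hg : ∀ y, ‖g y‖ ≤ 1) :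
    |(∫ y, f y * g y ∂μ).re| ≤ ∫ y, ‖f y‖ ∂μ := by
  refine (Complex.abs_re_le_norm _).trans (norm_integral_le_of_norm_le
    (BM.integrable (by fun_prop) _) (Eventually.of_forall fun y => ?_))
  rw [norm_mul]; exact mul_le_of_le_one_right (norm_nonneg _) (hg y)

lemma bd_re {G : Type} {X : G → Z → ℂ} {C : ℝ} (h : ∀ v y, ‖X v y‖ ≤ C) :
    Mean.Bd fun v => (∫ y, X v y ∂μ).re :=
  ⟨C, fun v => (Complex.abs_re_le_norm _).trans (norm_int_le (h v))⟩

lemma norm_mul_le_one {a b : ℂ} (ha : ‖a‖ ≤ 1) (hb : ‖b‖ ≤ 1) : ‖a * b‖ ≤ 1 := by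
  rw [norm_mul]; exact mul_le_one₀ ha (norm_nonneg _) hb

lemma norm_mul_conj_le_one {a b : ℂ} (ha : ‖a‖ ≤ 1) (hb : ‖b‖ ≤ 1) : ‖a * conj b‖ ≤ 1 :=
  norm_mul_le_one ha (by simpa using hb)

lemma norm_prod_le_one {ι : Type} (s : Finset ι) {a : ι → ℂ} (ha : ∀ i, ‖a i‖ ≤ 1) :
    ‖∏ i ∈ s, a i‖ ≤ 1 := by
  rw [norm_prod]; exact Finset.prod_le_one (fun _ _ => norm_nonneg _) fun i _ => ha i

lemma Mean.avg {G : Type} [Mul G] (M : Mean G) {φ : G → ℝ} (hφ : Mean.Bd φ) {ι : Type} [Fintype ι]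
    (h : ι → G) {p : ι → ℝ} (p1 : ∑ i, p i = 1) :
    M.m φ = M.m fun v => ∑ i, p i * φ (v * h i) := by
  rw [M.fun_sum]
  simp only [M.fun_mul, M.inv φ _ hφ, ← Finset.sum_mul, p1, one_mul]

lemma vdC {G : Type} [Mul G] (M : Mean G) {X : G → Z → ℂ} (hX : ∀ v, BM (X v))
    (hX1 : ∀ v y, ‖X v y‖ ≤ 1) {f : Z → ℂ} (hf : BM f) (hf1 : ∀ y, ‖f y‖ ≤ 1) {ι : Type} [Fintype ι]
    (h : ι → G) {p : ι → ℝ} (p1 : ∑ i, p i = 1) {τ : ℝ} (hτ : 0 < τ) :
    |M.m fun v => (∫ y, X v y * f y ∂μ).re| ≤ (τ + (∑ k, ∑ l, p k * p l *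
      M.m fun v => (∫ y, X (v * h k) y * conj (X (v * h l) y) ∂μ).re) / τ) / 2 := by
  rw [M.avg (bd_re fun v y => norm_mul_le_one (hX1 v y) (hf1 y)) h p1]
  have hb : ∀ k l, Mean.Bd fun v => (∫ y, X (v * h k) y * conj (X (v * h l) y) ∂μ).re :=
    fun k l => bd_re fun v y => norm_mul_conj_le_one (hX1 _ y) (hX1 _ y)
  have e : (τ + (∑ k, ∑ l, p k * p l *
      M.m fun v => (∫ y, X (v * h k) y * conj (X (v * h l) y) ∂μ).re) / τ) / 2
      = M.m fun v => τ / 2 + (2 * τ)⁻¹ * ∑ k, ∑ l, p k * p l *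
        (∫ y, X (v * h k) y * conj (X (v * h l) y) ∂μ).re := by
    rw [M.fun_add, M.const, M.fun_mul, M.fun_sum]
    simp only [M.fun_sum, M.fun_mul]
    field_simp
  rw [e]
  refine M.abs_le ⟨|τ / 2| + |(2 * τ)⁻¹| * ∑ k, ∑ l, |p k * p l|, fun v => ?_⟩ fun v => ?_
  · refine (abs_add_le _ _).trans (add_le_add le_rfl ?_)
    rw [abs_mul]
    refine mul_le_mul_of_nonneg_left ((Finset.abs_sum_le_sum_abs _ _).trans
      (Finset.sum_le_sum fun k _ => (Finset.abs_sum_le_sum_abs _ _).trans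
      (Finset.sum_le_sum fun l _ => ?_))) (abs_nonneg _)
    rw [abs_mul]
    exact mul_le_of_le_one_right (abs_nonneg _) ((Complex.abs_re_le_norm _).trans
      (norm_int_le fun y => norm_mul_conj_le_one (hX1 _ y) (hX1 _ y)))
  · rw [← comb_sq' (fun k => hX (v * h k))]
    have e2 : ∑ i, p i * (∫ y, X (v * h i) y * f y ∂μ).re
        = (∫ y, (∑ i, (p i : ℂ) * X (v * h i) y) * f y ∂μ).re := by
      simp only [Finset.sum_mul]
      rw [integral_finsetSum _ fun i _ => BM.integrable (by fun_prop) _, Complex.re_sum]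
      refine Finset.sum_congr rfl fun i _ => ?_
      simp only [mul_assoc]
      rw [integral_const_mul, Complex.re_ofReal_mul]
    rw [e2]
    refine (abs_re_int_le (by fun_prop) hf1).trans ((int_norm_le_amgm (by fun_prop) hτ).trans ?_)
    apply le_of_eq; field_simp
end

variable {Y : Type} [mY : MeasurableSpace Y] [StandardBorelSpace Y] {ν : Measure Y}
  [IsProbabilityMeasure ν] (M : Mean U) (S : Sys Y ν)

/-- multiple average with a distinguished function -/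
noncomputable def Av (a : Y → ℂ) (m : ℤ) (s : Finset ℕ) (e : ℕ → ℤ) (g : ℕ → Y → ℂ) : ℝ :=
  M.m fun v => (∫ y, a (S.T (v ^ m) y) * ∏ i ∈ s, g i (S.T (v ^ e i) y) ∂ν).re

/-- `Φ` is characteristic for averages of `d + 1` functions -/
def Char (Φ : Fac S) (d : ℕ) : Prop :=
  ∀ (a : Y → ℂ) (m : ℤ) (s : Finset ℕ) (e : ℕ → ℤ) (g : ℕ → Y → ℂ), s.card = d →
    Set.InjOn e s → (∀ i ∈ s, e i ≠ m) → Measurable a → (∀ y, ‖a y‖ ≤ 1) →
    (∀ i, Measurable (g i)) → (∀ i y, ‖g i y‖ ≤ 1) → Φ.E a =ᵐ[ν] (fun _ => 0) →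
    Av M S a m s e g = 0

variable {M S}

lemma Char.repl {Φ : Fac S} {d : ℕ} (h : Char M S Φ d) {a : Y → ℂ} {m : ℤ} {s : Finset ℕ}
    {e : ℕ → ℤ} {g : ℕ → Y → ℂ} (hs : s.card = d) (he : Set.InjOn e s) (hm : ∀ i ∈ s, e i ≠ m)
    (ha : Measurable a) (ha1 : ∀ y, ‖a y‖ ≤ 1) (hg : ∀ i, Measurable (g i))
    (hg1 : ∀ i y, ‖g i y‖ ≤ 1) : Av M S a m s e g = Av M S (Φ.E a) m s e g := by
  have hb : BM a := BM.of_le ha ha1
  have hE := Φ.E_bm hb
  have hgb : ∀ i, BM (g i) := fun i => BM.of_le (hg i) (hg1 i)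
  have h0 := h (fun y => (a y - Φ.E a y) / 2) m s e g hs he hm (BM.meas (by fun_prop))
    (fun y => by
      rw [norm_div, Complex.norm_two]
      linarith [norm_sub_le (a y) (Φ.E a y), ha1 y, Φ.E_le ha1 y]) hg hg1 (by
      filter_upwards [Φ.E_self (Φ.E_measB ha) hE] with y hy
      rw [Φ.E_div, Φ.E_sub hb hE, hy, sub_self, zero_div])
  unfold Av at *
  rw [← sub_eq_zero, ← M.fun_sub, ← mul_eq_zero_iff_left (a := (1 / 2 : ℝ)) (by norm_num),
    ← M.fun_mul, ← h0]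
  congr 1; ext v
  rw [← Complex.sub_re, ← integral_sub (BM.integrable (by fun_prop) _)
    (BM.integrable (by fun_prop) _), ← Complex.re_ofReal_mul, ← integral_const_mul]
  congr 2; ext y; push_cast; ring

lemma abs_Av_le {a : Y → ℂ} (m : ℤ) (s : Finset ℕ) (e : ℕ → ℤ) {g : ℕ → Y → ℂ} (ha : BM a)
    (hg1 : ∀ i y, ‖g i y‖ ≤ 1) : |Av M S a m s e g| ≤ ∫ y, ‖a y‖ ∂ν := by
  refine M.abs_le_const fun v => ?_
  rw [← S.int_T (v ^ m) (f := fun y => ‖a y‖) ha.norm.1]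
  exact abs_re_int_le (f := fun y => a (S.T (v ^ m) y)) (by fun_prop)
    fun y => norm_prod_le_one _ fun i => hg1 i _

lemma char_zero : Char M S (botFac S) 0 := by
  intro a m s e g hs _ _ ha ha1 _ _ h0
  have hb : BM a := BM.of_le ha ha1
  rw [Finset.card_eq_zero.1 hs]
  have : ∫ y, a y ∂ν = 0 := by
    rw [← (botFac S).int_E hb, integral_congr_ae h0]; simp
  simp only [Av, Finset.prod_empty, mul_one, S.int_T _ ha, this]
  exact M.const _

lemma Char.succ {Φ : Fac S} {d : ℕ} (h : Char M S Φ d) : Char M S Φ.K (d + 1) := by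
  intro a m s e g hs he hm ha ha1 hg hg1 h0
  have hb : BM a := BM.of_le ha ha1
  have hgb : ∀ i, BM (g i) := fun i => BM.of_le (hg i) (hg1 i)
  obtain ⟨j, hj⟩ : s.Nonempty := Finset.card_pos.1 (by omega)
  set s' := s.erase j
  have hs' : s'.card = d := by rw [Finset.card_erase_of_mem hj]; omega
  set X : U → Y → ℂ := fun v y => a (S.T (v ^ (m - e j)) y) *
    ∏ i ∈ s', g i (S.T (v ^ (e i - e j)) y) with hX
  have hXb : ∀ v, BM (X v) := fun v => by rw [hX]; fun_prop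
  have hX1 : ∀ v y, ‖X v y‖ ≤ 1 := fun v y =>
    norm_mul_le_one (ha1 _) (norm_prod_le_one _ fun i => hg1 i _)
  have e1 : Av M S a m s e g = M.m fun v => (∫ y, X v y * g j y ∂ν).re := by
    unfold Av
    congr 1; ext v
    rw [← S.int_T (v ^ e j) (f := fun y => X v y * g j y) (BM.meas (by fun_prop))]
    congr 2; ext y
    simp only [hX, ← S.T_mul, ← zpow_add, sub_add_cancel]
    rw [← Finset.mul_prod_erase s _ hj]; ring
  rw [e1]
  refine abs_nonpos_iff.1 (le_of_forall_pos_le_add fun δ hδ => ?_)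
  obtain ⟨ι, _, t, p, p0, p1, hlt⟩ := Φ.lemW ha ha1 h0 (ε := δ ^ 4) (by positivity)
  choose r hr using fun k => exists_root (t k) (sub_ne_zero.2 (hm j hj).symm)
  refine (vdC M hXb hX1 (hgb j) (hg1 j) r p1 hδ).trans ?_
  set G : ι → ι → Y → ℂ := fun k l y => a (S.T (t k) y) * conj (a (S.T (t l) y)) with hG
  have hGb : ∀ k l, BM (G k l) := fun k l => by rw [hG]; fun_prop
  have e2 : ∀ k l, M.m (fun v => (∫ y, X (v * r k) y * conj (X (v * r l) y) ∂ν).re)
      ≤ (δ ^ 2 + (∫ y, ‖Φ.E (G k l) y‖ ^ 2 ∂ν) / δ ^ 2) / 2 := by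
    intro k l
    have e3 : M.m (fun v => (∫ y, X (v * r k) y * conj (X (v * r l) y) ∂ν).re)
        = Av M S (G k l) (m - e j) s' (fun i => e i - e j) (fun i y =>
          g i (S.T (r k ^ (e i - e j)) y) * conj (g i (S.T (r l ^ (e i - e j)) y))) := by
      unfold Av
      congr 1; ext v; congr 2; ext y
      have c : ∀ (x : U) (n : ℤ), (v * x) ^ n = x ^ n * v ^ n := fun x n => by
        rw [mul_comm, mul_zpow]
      simp only [hX, hG, ← S.T_mul, c, hr, map_mul, map_prod, Finset.prod_mul_distrib]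
      ring
    have hg1' : ∀ i y, ‖g i (S.T (r k ^ (e i - e j)) y) * conj (g i (S.T (r l ^ (e i - e j)) y))‖
        ≤ 1 := fun i y => norm_mul_conj_le_one (hg1 _ _) (hg1 _ _)
    rw [e3, h.repl hs' (fun x hx y hy hxy => he (Finset.mem_of_mem_erase hx)
      (Finset.mem_of_mem_erase hy) (sub_left_injective hxy))
      (fun i hi hh => hm i (Finset.mem_of_mem_erase hi) (sub_left_injective hh)) (hGb k l).1
      (fun y => norm_mul_conj_le_one (ha1 _) (ha1 _)) (fun i => BM.meas (by fun_prop)) hg1']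
    exact (le_abs_self _).trans ((abs_Av_le _ _ _ (Φ.E_bm (hGb k l)) hg1').trans
      (int_norm_le_amgm (Φ.E_bm (hGb k l)) (by positivity)))
  have e4 : ∑ k, ∑ l, p k * p l * ∫ y, ‖Φ.E (G k l) y‖ ^ 2 ∂ν < δ ^ 4 := by
    rw [comb_sq' (fun i => by fun_prop)] at hlt
    refine lt_of_eq_of_lt (Finset.sum_congr rfl fun k _ => Finset.sum_congr rfl fun l _ => ?_) hlt
    rw [← Complex.ofReal_re (∫ y, ‖Φ.E (G k l) y‖ ^ 2 ∂ν), ← Φ.int_η_sq (hGb k l)]
    congr 3; ext q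
    simp only [hG, map_mul, Complex.conj_conj]; ring
  have e5 : (∑ k, ∑ l, p k * p l *
      M.m fun v => (∫ y, X (v * r k) y * conj (X (v * r l) y) ∂ν).re) ≤ δ ^ 2 := by
    refine (Finset.sum_le_sum fun k _ => Finset.sum_le_sum fun l _ =>
      mul_le_mul_of_nonneg_left (e2 k l) (mul_nonneg (p0 k) (p0 l))).trans ?_
    have : ∑ k, ∑ l, p k * p l * ((δ ^ 2 + (∫ y, ‖Φ.E (G k l) y‖ ^ 2 ∂ν) / δ ^ 2) / 2)
        = ((∑ k, p k) * (∑ l, p l) * δ ^ 2
          + (∑ k, ∑ l, p k * p l * ∫ y, ‖Φ.E (G k l) y‖ ^ 2 ∂ν) / δ ^ 2) / 2 := by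
      rw [Finset.sum_mul_sum]
      simp only [Finset.sum_mul, Finset.sum_div, add_div, ← Finset.sum_add_distrib]
      refine Finset.sum_congr rfl fun k _ => Finset.sum_congr rfl fun l _ => by ring
    rw [this, p1]
    have := (div_le_iff₀ (show 0 < δ ^ 2 by positivity)).2
      (show _ ≤ δ ^ 2 * δ ^ 2 from e4.le.trans (le_of_eq (by ring)))
    linarith
  have := (div_le_iff₀ hδ).2 (show _ ≤ δ * δ from e5.trans (le_of_eq (by ring)))
  linarith

lemma char_tower (d : ℕ) : Char M S (tower S d) d := by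
  induction d with
  | zero => exact char_zero
  | succ d ih => exact ih.succ

end Crest.Agent.H2.Pl
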