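import Crest.Agent.H2.PlF

/-! Row 40: projections, decay of multiple averages, the ergodic core. -/

set_option autoImplicit false
set_option linter.unusedSectionVars false

namespace Crest.Agent.H2.Pl
open MeasureTheory ProbabilityTheory Filter Topology
open scoped ComplexConjugate

variable {Y : Type} [mY : MeasurableSpace Y] [StandardBorelSpace Y] {ν : Measure Y}
  [IsProbabilityMeasure ν] (M : Mean U) (S : Sys Y ν)

lemma exists_proj {g : Y → ℂ} (hg : Measurable g) (hg1 : ∀ y, ‖g y‖ ≤ 1) :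
    ∃ f : Y → ℂ, Measurable f ∧ (∀ y, ‖f y‖ ≤ 1) ∧ (∀ u, (fun y => f (S.T u y)) =ᵐ[ν] f) ∧
      ∀ h, BM h → ∀ n : ℤ, n ≠ 0 →
        M.m (fun v => (∫ y, g (S.T (v ^ n) y) * h y ∂ν).re) = (∫ y, f y * h y ∂ν).re := by
  obtain ⟨f, hm, h1, hinv, happ⟩ := exists_inv_fun S hg hg1
  have hgb : BM g := BM.of_le hg hg1
  have hfb : BM f := BM.of_le hm h1
  have key : ∀ h, BM h → (∀ y, ‖h y‖ ≤ 1) → ∀ n : ℤ, n ≠ 0 →
      M.m (fun v => (∫ y, g (S.T (v ^ n) y) * h y ∂ν).re) = (∫ y, f y * h y ∂ν).re := by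
    intro h hb hh1 n hn
    rw [← sub_eq_zero]
    refine abs_nonpos_iff.1 (le_of_forall_pos_le_add fun δ hδ => ?_)
    obtain ⟨ι, _, t, p, p0, p1, hlt⟩ := happ (δ ^ 2) (by positivity)
    choose r hr using fun k => exists_root (t k) hn
    rw [M.avg (bd_re fun v y => norm_mul_le_one (hg1 _) (hh1 y)) r p1,
      ← M.const (∫ y, f y * h y ∂ν).re, ← M.fun_sub, zero_add]
    refine M.abs_le_const fun v => ?_
    set Z : Y → ℂ := fun y => ∑ i, (p i : ℂ) * g (S.T (t i) y) - f y with hZ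
    have hZb : BM Z := by rw [hZ]; fun_prop
    have e : ∑ i, p i * (∫ y, g (S.T ((v * r i) ^ n) y) * h y ∂ν).re - (∫ y, f y * h y ∂ν).re
        = (∫ y, Z (S.T (v ^ n) y) * h y ∂ν).re := by
      have c : ∀ i, (v * r i) ^ n = t i * v ^ n := fun i => by rw [mul_comm, mul_zpow, hr]
      simp only [hZ, sub_mul, Finset.sum_mul, c, S.T_mul]
      rw [integral_sub (BM.integrable (by fun_prop) _) (BM.integrable (by fun_prop) _),
        integral_finsetSum _ fun i _ => BM.integrable (by fun_prop) _, Complex.sub_re,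
        Complex.re_sum]
      congr 1
      · refine Finset.sum_congr rfl fun i _ => ?_
        simp only [mul_assoc]
        rw [integral_const_mul, Complex.re_ofReal_mul]
      · congr 1
        refine integral_congr_ae ?_
        filter_upwards [hinv (v ^ n)] with y hy
        rw [hy]
    rw [e]
    refine (abs_re_int_le (f := fun y => Z (S.T (v ^ n) y)) (by fun_prop) hh1).trans ?_
    rw [S.int_T (v ^ n) (f := fun y => ‖Z y‖) hZb.norm.1]
    refine (int_norm_le_amgm hZb hδ).trans ?_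
    have := (div_le_iff₀ hδ).2 (show _ ≤ δ * δ from hlt.le.trans (le_of_eq (by ring)))
    linarith
  refine ⟨f, hm, h1, hinv, fun h hb n hn => ?_⟩
  obtain ⟨C, hC⟩ := hb.2
  have hC1 : 0 < |C| + 1 := by positivity
  have := key (fun y => ((|C| + 1)⁻¹ : ℝ) * h y) (by fun_prop) (fun y => by
    rw [norm_mul, Complex.norm_real, Real.norm_of_nonneg (by positivity), inv_mul_le_iff₀ hC1]
    linarith [hC y, le_abs_self C]) n hn
  simp only [mul_left_comm _ (((|C| + 1)⁻¹ : ℝ) : ℂ), integral_const_mul, Complex.re_ofReal_mul,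
    M.fun_mul] at this
  exact mul_left_cancel₀ (by positivity) this

lemma prod_mul_sum_le {ι : Type} (t : Finset ι) {s : ι → ℝ} (h0 : ∀ i, 0 ≤ s i) (h1 : ∀ i, s i ≤ 1) :
    (∏ i ∈ t, s i) * (1 + ∑ i ∈ t, (1 - s i)) ≤ 1 := by
  classical
  induction t using Finset.induction_on with
  | empty => simp
  | insert a t ha ih =>
    rw [Finset.prod_insert ha, Finset.sum_insert ha]
    have hP : 0 ≤ ∏ i ∈ t, s i := Finset.prod_nonneg fun i _ => h0 i
    have hQ : 0 ≤ ∑ i ∈ t, (1 - s i) := Finset.sum_nonneg fun i _ => by linarith [h1 i]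
    have : s a * (1 + (1 - s a + ∑ i ∈ t, (1 - s i))) ≤ 1 + ∑ i ∈ t, (1 - s i) := by
      nlinarith [h0 a, h1 a, sq_nonneg (1 - s a)]
    nlinarith [mul_le_mul_of_nonneg_left this hP]

lemma exists_dev {s : Y → ℝ} (hs : Measurable s) (h0 : ∀ y, 0 ≤ s y) (h1 : ∀ y, s y ≤ 1)
    (near : ∀ W : Y → ℝ, Measurable W → (∀ y, 0 ≤ W y) → (∀ y, W y ≤ 1) →
      (∀ u, (fun y => W (S.T u y)) =ᵐ[ν] W) → ∫ y, s y * W y ∂ν ≤ 7 / 8 * ∫ y, W y ∂ν) :
    ∃ d : Y → ℝ, Measurable d ∧ (∀ y, ‖d y‖ ≤ 2) ∧ (∀ᵐ y ∂ν, s y - d y ≤ 7 / 8) ∧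
      ∀ h : Y → ℝ, BM h → ∀ n : ℤ, n ≠ 0 →
        M.m (fun v => ∫ y, d (S.T (v ^ n) y) * h y ∂ν) = 0 := by
  have hs1 : ∀ y, ‖s y‖ ≤ 1 := fun y => by rw [Real.norm_of_nonneg (h0 y)]; exact h1 y
  have hsb : BM s := BM.of_le hs hs1
  obtain ⟨f, hm, f1, hinv, hf⟩ := exists_proj M S (g := fun y => (s y : ℂ))
    (BM.meas (by fun_prop)) (fun y => by simpa using hs1 y)
  have hfb : BM f := BM.of_le hm f1
  have hab : BM fun y => (f y).re := hfb.re
  set a : Y → ℝ := fun y => (f y).re with ha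
  have ainv : ∀ u, (fun y => a (S.T u y)) =ᵐ[ν] a := fun u => by
    filter_upwards [hinv u] with y hy
    simp only [ha, hy]
  have hf' : ∀ h : Y → ℝ, BM h → ∀ n : ℤ, n ≠ 0 →
      M.m (fun v => ∫ y, s (S.T (v ^ n) y) * h y ∂ν) = ∫ y, a y * h y ∂ν := by
    intro h hb n hn
    have := hf (fun y => (h y : ℂ)) (by fun_prop) n hn
    rw [← int_re (by fun_prop)] at this
    simpa only [← Complex.ofReal_mul, integral_complex_ofReal, Complex.ofReal_re,
      Complex.re_mul_ofReal] using this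
  refine ⟨fun y => s y - a y, hs.sub hab.1, fun y => ?_, ?_, fun h hb n hn => ?_⟩
  · linarith [norm_sub_le (s y) (a y), hs1 y, (Complex.abs_re_le_norm (f y)).trans (f1 y),
      Real.norm_eq_abs (a y)]
  · have hA : MeasurableSet {y | 7 / 8 < a y} := measurableSet_lt measurable_const hab.1
    set W : Y → ℝ := {y | 7 / 8 < a y}.indicator fun _ => 1 with hW
    have hWb : BM W := (BM.const _).indicator hA
    have Winv : ∀ u, (fun y => W (S.T u y)) =ᵐ[ν] W := fun u => by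
      filter_upwards [ainv u] with y hy
      simp only [hW, Set.indicator, Set.mem_ofPred_eq, hy]
    have e1 := near W hWb.1 (fun y => Set.indicator_nonneg (fun _ _ => zero_le_one) y)
      (fun y => Set.indicator_le_self' (fun _ _ => zero_le_one) y) Winv
    have e2 := hf' W hWb 1 one_ne_zero
    have e3 : ∀ v : U, ∫ y, s (S.T (v ^ (1 : ℤ)) y) * W y ∂ν = ∫ y, s y * W y ∂ν := fun v => by
      rw [← S.int_T (v ^ (1 : ℤ)) (f := fun y => s y * W y) (BM.meas (by fun_prop))]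
      refine integral_congr_ae ?_
      filter_upwards [Winv (v ^ (1 : ℤ))] with y hy
      rw [hy]
    simp only [e3, M.const] at e2
    have hnn : ∀ y, 0 ≤ (a y - 7 / 8) * W y := fun y => by
      by_cases hy : 7 / 8 < a y <;> simp [hW, hy, le_of_lt]
    have e4 : ∫ y, (a y - 7 / 8) * W y ∂ν = 0 := by
      refine le_antisymm ?_ (integral_nonneg hnn)
      simp only [sub_mul]
      rw [integral_sub (BM.integrable (by fun_prop) _) (BM.integrable (by fun_prop) _),
        integral_const_mul]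
      linarith
    filter_upwards [(integral_eq_zero_iff_of_nonneg hnn (BM.integrable (by fun_prop) _)).1 e4]
      with y hy
    by_contra hc
    have hy' : 7 / 8 < a y := by linarith
    simp [hW, hy'] at hy
    linarith
  · have : ∀ v : U, ∫ y, (s (S.T (v ^ n) y) - a (S.T (v ^ n) y)) * h y ∂ν
        = ∫ y, s (S.T (v ^ n) y) * h y ∂ν - ∫ y, a y * h y ∂ν := fun v => by
      rw [← integral_sub (BM.integrable (by fun_prop) _) (BM.integrable (by fun_prop) _)]
      refine integral_congr_ae ?_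
      filter_upwards [ainv (v ^ n)] with y hy
      rw [hy]; ring
    simp only [this, M.fun_sub, M.const, hf' h hb n hn, sub_self]

lemma decay (t : Finset ℕ) {e : ℕ → ℤ} (he : Set.InjOn e t) {s : ℕ → Y → ℝ}
    (hs : ∀ i, Measurable (s i)) (h0 : ∀ i y, 0 ≤ s i y) (h1 : ∀ i y, s i y ≤ 1)
    (near : ∀ i ∈ t, ∀ W : Y → ℝ, Measurable W → (∀ y, 0 ≤ W y) → (∀ y, W y ≤ 1) →
      (∀ u, (fun y => W (S.T u y)) =ᵐ[ν] W) → ∫ y, s i y * W y ∂ν ≤ 7 / 8 * ∫ y, W y ∂ν)
    {τ : ℝ} (hτ : 0 < τ) :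
    t.card / 8 * M.m (fun v => ∫ y, ∏ i ∈ t, s i (S.T (v ^ e i) y) ∂ν)
      ≤ 1 + (τ + 4 * t.card / τ) / 2 := by
  choose! d hd d2 dle dm using fun i (hi : i ∈ t) => exists_dev M S (hs i) (h0 i) (h1 i) (near i hi)
  have hsb : ∀ i, BM (s i) := fun i => BM.of_le (hs i) (C := 1) fun y => by
    rw [Real.norm_of_nonneg (h0 i y)]; exact h1 i y
  have hdb : ∀ i ∈ t, BM (d i) := fun i hi => BM.of_le (hd i hi) (d2 i hi)
  have hdT : ∀ (u : U), ∀ i ∈ t, BM fun y => d i (S.T u y) := fun u i hi =>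
    (hdb i hi).comp (S.measT u)
  have hc : ∀ (v : U), ∀ i ∈ t, ∀ j ∈ t, |∫ y, d i (S.T (v ^ e i) y) * d j (S.T (v ^ e j) y) ∂ν|
      ≤ 4 := fun v i hi j hj => by
    have := norm_integral_le_of_norm_le_const (μ := ν) (C := 4)
      (f := fun y => d i (S.T (v ^ e i) y) * d j (S.T (v ^ e j) y)) (Eventually.of_forall fun y => by
        rw [norm_mul]
        nlinarith [d2 i hi (S.T (v ^ e i) y), d2 j hj (S.T (v ^ e j) y),
          norm_nonneg (d i (S.T (v ^ e i) y)), norm_nonneg (d j (S.T (v ^ e j) y))])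
    simpa using this
  have hP : ∀ v : U, |∫ y, ∏ i ∈ t, s i (S.T (v ^ e i) y) ∂ν| ≤ 1 := fun v => by
    have := norm_integral_le_of_norm_le_const (μ := ν) (C := 1)
      (f := fun y => ∏ i ∈ t, s i (S.T (v ^ e i) y)) (Eventually.of_forall fun y => by
        rw [Real.norm_of_nonneg (Finset.prod_nonneg fun i _ => h0 _ _)]
        exact Finset.prod_le_one (fun i _ => h0 _ _) fun i _ => h1 _ _)
    simpa using this
  have e1 : ∀ v : U, t.card / 8 * ∫ y, ∏ i ∈ t, s i (S.T (v ^ e i) y) ∂ν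
      ≤ (1 + τ / 2) + (2 * τ)⁻¹ * ∑ i ∈ t, ∑ j ∈ t,
        ∫ y, d i (S.T (v ^ e i) y) * d j (S.T (v ^ e j) y) ∂ν := by
    intro v
    have hD : BM fun y => ∑ i ∈ t, d i (S.T (v ^ e i) y) := BM.sum _ fun i hi => hdT _ i hi
    have e2 : (1 + τ / 2) + (2 * τ)⁻¹ * ∑ i ∈ t, ∑ j ∈ t,
        ∫ y, d i (S.T (v ^ e i) y) * d j (S.T (v ^ e j) y) ∂ν
        = ∫ y, ((1 + τ / 2) + (2 * τ)⁻¹ * (∑ i ∈ t, d i (S.T (v ^ e i) y)) ^ 2) ∂ν := by
      rw [integral_add (BM.integrable (by fun_prop) _)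
        (((BM.const _).mul (hD.pow 2)).integrable _), integral_const_mul]
      simp only [sq, Finset.sum_mul_sum]
      rw [integral_finsetSum _ fun i hi => (BM.sum _ fun j hj =>
        (hdT _ i hi).mul (hdT _ j hj)).integrable _]
      congr 2
      · simp
      · exact Finset.sum_congr rfl fun i hi => (integral_finsetSum _ fun j hj =>
          ((hdT _ i hi).mul (hdT _ j hj)).integrable _).symm
    rw [e2, ← integral_const_mul]
    refine integral_mono_ae (BM.integrable (by fun_prop) _)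
      (((BM.const _).add ((BM.const _).mul (hD.pow 2))).integrable _) ?_
    have : ∀ᵐ y ∂ν, ∀ i ∈ t, s i (S.T (v ^ e i) y) - d i (S.T (v ^ e i) y) ≤ 7 / 8 :=
      (ae_ball_iff t.countable_toSet).2 fun i hi =>
        (S.mp (v ^ e i)).quasiMeasurePreserving.ae (dle i hi)
    filter_upwards [this] with y hy
    have a1 := prod_mul_sum_le t (s := fun i => s i (S.T (v ^ e i) y)) (fun i => h0 _ _)
      fun i => h1 _ _
    have a2 : 0 ≤ ∏ i ∈ t, s i (S.T (v ^ e i) y) := Finset.prod_nonneg fun i _ => h0 _ _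
    have a3 : ∏ i ∈ t, s i (S.T (v ^ e i) y) ≤ 1 :=
      Finset.prod_le_one (fun i _ => h0 _ _) fun i _ => h1 _ _
    have a4 : (t.card : ℝ) / 8 ≤ ∑ i ∈ t, (1 - s i (S.T (v ^ e i) y))
        + ∑ i ∈ t, d i (S.T (v ^ e i) y) := by
      rw [← Finset.sum_add_distrib]
      have := Finset.card_nsmul_le_sum t (fun i => 1 - s i (S.T (v ^ e i) y)
        + d i (S.T (v ^ e i) y)) (1 / 8) fun i hi => by linarith [hy i hi]
      rw [nsmul_eq_mul] at this
      linarith
    set D := ∑ i ∈ t, d i (S.T (v ^ e i) y)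
    set P := ∏ i ∈ t, s i (S.T (v ^ e i) y)
    have a5 : |D| ≤ τ / 2 + (2 * τ)⁻¹ * D ^ 2 := by
      have : τ / 2 + (2 * τ)⁻¹ * D ^ 2 - |D| = (τ - |D|) ^ 2 / (2 * τ) := by
        rw [← sq_abs D]; field_simp; ring
      have h2 : 0 ≤ (τ - |D|) ^ 2 / (2 * τ) := by positivity
      linarith
    have a6 : D * P ≤ |D| := (mul_le_mul_of_nonneg_right (le_abs_self D) a2).trans
      (mul_le_of_le_one_right (abs_nonneg _) a3)
    nlinarith [mul_le_mul_of_nonneg_right a4 a2]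
  rw [← M.fun_mul]
  refine (M.mono ⟨|(t.card : ℝ) / 8|, fun v => ?_⟩
    ⟨|1 + τ / 2| + |(2 * τ)⁻¹| * ∑ i ∈ t, ∑ j ∈ t, 4, fun v => ?_⟩ e1).trans ?_
  · rw [abs_mul]; exact mul_le_of_le_one_right (abs_nonneg _) (hP v)
  · refine (abs_add_le _ _).trans (add_le_add le_rfl ?_)
    rw [abs_mul]
    exact mul_le_mul_of_nonneg_left ((Finset.abs_sum_le_sum_abs _ _).trans
      (Finset.sum_le_sum fun i hi => (Finset.abs_sum_le_sum_abs _ _).trans
      (Finset.sum_le_sum fun j hj => hc v i hi j hj))) (abs_nonneg _)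
  rw [M.fun_add, M.const, M.fun_mul, M.fun_sum]
  have e3 : ∀ i ∈ t, M.m (fun v => ∑ j ∈ t,
      ∫ y, d i (S.T (v ^ e i) y) * d j (S.T (v ^ e j) y) ∂ν) ≤ 4 := by
    intro i hi
    rw [M.fun_sum, Finset.sum_eq_single_of_mem i hi fun j hj hji => ?_]
    · exact (le_abs_self _).trans (M.abs_le_const fun v => hc v i hi i hi)
    · rw [← dm i hi (d j) (hdb j hj) (e i - e j) (sub_ne_zero.2 fun h => hji (he hi hj h).symm)]
      congr 1; ext v
      rw [← S.int_T (v ^ e j) (f := fun y => d i (S.T (v ^ (e i - e j)) y) * d j y)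
        ((hdT _ i hi).mul (hdb j hj)).1]
      simp only [← S.T_mul, ← zpow_add, sub_add_cancel]
  have e4 := Finset.sum_le_card_nsmul t _ 4 e3
  rw [nsmul_eq_mul] at e4
  have := mul_le_mul_of_nonneg_left e4 (show 0 ≤ (2 * τ)⁻¹ by positivity)
  have e5 : (2 * τ)⁻¹ * (t.card * 4) = 4 * t.card / τ / 2 := by field_simp
  linarith

end Crest.Agent.H2.Pl
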