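import Crest.Agent.H2.PlH
import Crest.Agent.H3.PlNear

/-! Row 40: the ergodic core and the spectral statement. -/

set_option autoImplicit false
set_option linter.unusedSectionVars false

namespace Crest.Agent.H2.Pl
open MeasureTheory ProbabilityTheory Filter Topology
open scoped ComplexConjugate

variable {Y : Type} [mY : MeasurableSpace Y] [StandardBorelSpace Y] {ν : Measure Y}
  [IsProbabilityMeasure ν] (M : Mean U) (S : Sys Y ν)

/-- symmetric multiple average -/
noncomputable def Aw (s : Finset ℕ) (e : ℕ → ℤ) (g : ℕ → Y → ℂ) : ℝ :=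
  M.m fun v => (∫ y, ∏ i ∈ s, g i (S.T (v ^ e i) y) ∂ν).re

lemma Aw_eq {s : Finset ℕ} (e : ℕ → ℤ) (g : ℕ → Y → ℂ) {j : ℕ} (hj : j ∈ s) :
    Aw M S s e g = Av M S (g j) (e j) (s.erase j) e g := by
  unfold Aw Av
  congr 1; ext v; congr 2; ext y
  exact (Finset.mul_prod_erase s (fun i => g i (S.T (v ^ e i) y)) hj).symm

variable {M S}

lemma Char.repl_all {Φ : Fac S} {d : ℕ} (h : Char M S Φ d) {s : Finset ℕ} {e : ℕ → ℤ}
    {g : ℕ → Y → ℂ} (hs : s.card = d + 1) (he : Set.InjOn e s) (hg : ∀ i, Measurable (g i))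
    (hg1 : ∀ i y, ‖g i y‖ ≤ 1) {t : Finset ℕ} (ht : t ⊆ s) :
    Aw M S s e g = Aw M S s e fun i => if i ∈ t then Φ.E (g i) else g i := by
  induction t using Finset.induction_on with
  | empty => simp
  | insert j t hj ih =>
    have hjs : j ∈ s := ht (Finset.mem_insert_self _ _)
    rw [ih (fun i hi => ht (Finset.mem_insert_of_mem hi)), Aw_eq M S _ _ hjs, Aw_eq M S _ _ hjs,
      h.repl (by rw [Finset.card_erase_of_mem hjs]; omega)
        (he.mono (Finset.coe_subset.2 (Finset.erase_subset _ _)))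
        (fun i hi hh => Finset.ne_of_mem_erase hi (he (Finset.mem_of_mem_erase hi) hjs hh))
        (by simp [hj, hg]) (by simp [hj, hg1])
        (fun i => by split_ifs; exacts [Φ.E_meas (hg i), hg i])
        (fun i y => by split_ifs; exacts [Φ.E_le (hg1 i) y, hg1 i y])]
    simp only [hj, if_false, Finset.mem_insert_self, if_true]
    unfold Av
    congr 1; ext v; congr 2; ext y; congr 1
    refine Finset.prod_congr rfl fun i hi => ?_
    simp [Finset.ne_of_mem_erase hi]

lemma Aw_decay {Φ : Fac S} {d : ℕ} (h : Char M S Φ d) (hS : Φ.Sg) {s : Finset ℕ} {e : ℕ → ℤ}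
    {g : ℕ → Y → ℂ} (hs : s.card = d + 1) (he : Set.InjOn e s) (hg : ∀ i, Measurable (g i))
    (hg1 : ∀ i y, ‖g i y‖ ≤ 1) {t : Finset ℕ} (ht : t ⊆ s)
    (hz : ∀ i ∈ t, ∃ z : L, z ≠ 0 ∧ g i = S.F z) {τ : ℝ} (hτ : 0 < τ) :
    t.card / 8 * |Aw M S s e g| ≤ 1 + (τ + 4 * t.card / τ) / 2 := by
  refine le_trans (mul_le_mul_of_nonneg_left ?_ (by positivity))
    (decay M S t (he.mono (Finset.coe_subset.2 ht)) (s := fun i y => ‖Φ.E (g i) y‖)
      (fun i => (Φ.E_meas (hg i)).norm) (fun i y => norm_nonneg _) (fun i y => Φ.E_le (hg1 i) y)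
      (fun i hi => ?_) hτ)
  · rw [h.repl_all hs he hg hg1 ht]
    have hE : ∀ i, BM (Φ.E (g i)) := fun i => Φ.E_bm (BM.of_le (hg i) (hg1 i))
    refine M.abs_le ⟨1, fun v => ?_⟩ fun v => ?_
    · have := norm_integral_le_of_norm_le_const (μ := ν) (C := 1)
        (f := fun y => ∏ i ∈ t, ‖Φ.E (g i) (S.T (v ^ e i) y)‖) (Eventually.of_forall fun y => by
          rw [Real.norm_of_nonneg (Finset.prod_nonneg fun i _ => norm_nonneg _)]
          exact Finset.prod_le_one (fun i _ => norm_nonneg _) fun i _ => Φ.E_le (hg1 i) _)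
      simpa using this
    · refine (Complex.abs_re_le_norm _).trans (norm_integral_le_of_norm_le
        (BM.integrable (by fun_prop) _) (Eventually.of_forall fun y => ?_))
      rw [norm_prod, ← Finset.prod_sdiff ht]
      refine (mul_le_of_le_one_left (Finset.prod_nonneg fun i _ => norm_nonneg _)
        (Finset.prod_le_one (fun i _ => norm_nonneg _) fun i hi => ?_)).trans
        (le_of_eq (Finset.prod_congr rfl fun i hi => by simp [hi]))
      simpa [(Finset.mem_sdiff.1 hi).2] using hg1 i _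
  · obtain ⟨z, hz0, hz⟩ := hz i hi
    simp only [hz]
    exact H3.Pl.near Y ν S Φ hS z hz0

lemma Mean.finite_supp {G : Type} [Group G] [Infinite G] (M : Mean G) {f : G → ℝ}
    (hfin : {x | f x ≠ 0}.Finite) : M.m f = 0 := by
  classical
  have hb : ∀ a : G, Mean.Bd fun x => if x = a then (1 : ℝ) else 0 := fun a =>
    ⟨1, fun x => by by_cases h : x = a <;> simp [h]⟩
  have h1 : ∀ a : G, M.m (fun x => if x = a then (1 : ℝ) else 0)
      = M.m (fun x => if x = 1 then (1 : ℝ) else 0) := fun a => by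
    rw [← M.inv _ a (hb a)]; simp
  have h0 : M.m (fun x => if x = 1 then (1 : ℝ) else 0) = 0 := by
    have hn : 0 ≤ M.m (fun x => if x = 1 then (1 : ℝ) else 0) :=
      M.pos _ (hb 1) fun x => by split_ifs <;> simp
    by_contra hne
    obtain ⟨n, hn2⟩ := exists_nat_gt (1 / M.m (fun x => if x = 1 then (1 : ℝ) else 0))
    obtain ⟨t, ht⟩ := Infinite.exists_subset_card_eq G n
    have := M.mono (f := fun x => ∑ a ∈ t, if x = a then (1 : ℝ) else 0) (g := fun _ => 1)
      ⟨1, fun x => by simp only [Finset.sum_ite_eq]; split_ifs <;> simp⟩ ⟨1, by simp⟩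
      fun x => by simp only [Finset.sum_ite_eq]; split_ifs <;> simp
    rw [M.fun_sum, M.const] at this
    simp only [h1, Finset.sum_const, ht, nsmul_eq_mul] at this
    rw [div_lt_iff₀ (lt_of_le_of_ne hn (Ne.symm hne))] at hn2
    linarith
  have : f = fun x => ∑ a ∈ hfin.toFinset, f a * if x = a then (1 : ℝ) else 0 := by
    ext x
    by_cases hx : f x = 0 <;> simp [hx]
  rw [this, M.fun_sum]
  simp only [M.fun_mul, h1, h0, mul_zero, Finset.sum_const_zero]

lemma finite_bad : {u : U | ‖1 + uc u‖ = 0 ∨ ‖1 + uc u‖ = 1}.Finite := by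
  refine Set.Finite.of_finite_image (f := uc) ?_ fun a _ b _ h => uc_inj h
  refine (Polynomial.nthRoots 6 (1 : ℂ)).toFinset.finite_toSet.subset ?_
  rintro _ ⟨u, hu, rfl⟩
  simp only [Multiset.mem_toFinset, Finset.mem_coe, Polynomial.mem_nthRoots (show 0 < 6 by norm_num)]
  have h1 : uc u * conj (uc u) = 1 := by
    rw [Complex.mul_conj, Complex.normSq_eq_norm_sq, norm_uc]; simp
  rcases hu with h | h
  · rw [norm_eq_zero, add_eq_zero_iff_neg_eq] at h
    rw [← h]; norm_num
  · have h2 : (1 + uc u) * conj (1 + uc u) = 1 := by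
      rw [Complex.mul_conj, Complex.normSq_eq_norm_sq, h]; simp
    rw [map_add, map_one] at h2
    have h3 : uc u ^ 2 + uc u + 1 = 0 := by linear_combination uc u * h2 - (1 + uc u) * h1
    linear_combination (uc u ^ 4 - uc u ^ 3 + uc u - 1) * h3

lemma Sys.F_sum (S : Sys Y ν) (s : Finset ℕ) (w : ℕ → L) (y : Y) :
    S.F (∑ i ∈ s, w i) y = ∏ i ∈ s, S.F (w i) y := by
  induction s using Finset.induction_on with
  | empty => simp [S.F_zero]
  | insert a s ha ih => rw [Finset.sum_insert ha, Finset.prod_insert ha, S.add, ih]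

lemma exists_rot {p q : L} (h : ‖(q : ℂ)‖ = ‖(p : ℂ)‖) : ∃ ρ : U, q = ρ • p := by
  by_cases hp : p = 0
  · subst hp
    exact ⟨1, by simpa using h⟩
  · have hp' : (p : ℂ) ≠ 0 := by simpa using hp
    refine ⟨mkU (q / p) (by push_cast; rw [norm_div, h, div_self (norm_ne_zero_iff.2 hp')]),
      Subtype.ext ?_⟩
    rw [coe_smul, uc_mkU]; push_cast; field_simp

lemma poly_id (b c v : ℂ) (n : ℕ) :
    (1 - b * v) * (c + ∑ i ∈ Finset.range n, v ^ (i + 1) * (b ^ i * (b * c - 1))
      - v ^ (n + 1) * b ^ n) = (c - v) * (1 - (b * v) ^ (n + 1)) := by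
  induction n with
  | zero => simp [mul_comm]
  | succ n ih => rw [Finset.sum_range_succ]; linear_combination ih

/-- the algebraic trick: `|1 + a v^(n+1)|` is the modulus of a polynomial with many nonzero
coefficients -/
lemma exists_coeffs {a : L} (h0 : ‖(a : ℂ)‖ ≠ 0) (h1 : ‖(a : ℂ)‖ ≠ 1) (n : ℕ) :
    ∃ z : ℕ → L, (∀ i ∈ Finset.Icc 1 n, z i ≠ 0) ∧ ∀ v : U, ∃ ρ : U,
      ∑ i ∈ Finset.range (n + 2), v ^ (i : ℤ) • z i = ρ • (1 + v ^ ((n + 1 : ℕ) : ℤ) • a) := by
  obtain ⟨x, hx⟩ := IsAlgClosed.exists_pow_nat_eq (-(a : ℂ)) (Nat.succ_pos n)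
  set b : L := ⟨x, mem_of_pow (Nat.succ_pos n) (-a) (by simpa using hx)⟩
  set c : L := ⟨_, conj_mem b⟩
  have hb : (b : ℂ) = x := rfl
  have hc : (c : ℂ) = conj x := rfl
  have hn : ‖x‖ ^ (n + 1) = ‖(a : ℂ)‖ := by rw [← norm_pow, hx, norm_neg]
  have x0 : x ≠ 0 := by rintro rfl; simp at hn; simp [← hn] at h0
  have x1 : ‖x‖ ≠ 1 := by intro h; rw [h, one_pow] at hn; exact h1 hn.symm
  refine ⟨fun i => if i = 0 then c else if i = n + 1 then -b ^ n else b ^ (i - 1) * (b * c - 1),
    fun i hi => ?_, fun v => exists_rot ?_⟩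
  · rw [Finset.mem_Icc] at hi
    simp only [show i ≠ 0 by omega, show i ≠ n + 1 by omega, if_false]
    refine mul_ne_zero (pow_ne_zero _ fun h => x0 (by rw [← hb, h]; simp)) fun h => x1 ?_
    have : x * conj x = 1 := by
      have := congrArg (fun z : L => (z : ℂ)) (sub_eq_zero.1 h)
      simpa [hb, hc] using this
    rw [Complex.mul_conj, Complex.normSq_eq_norm_sq] at this
    have h2 : ‖x‖ ^ 2 = 1 := by exact_mod_cast this
    exact (pow_eq_one_iff_of_nonneg (norm_nonneg x) two_ne_zero).1 h2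
  · have e := poly_id x (conj x) (uc v) n
    have e1 : ‖1 - x * uc v‖ = ‖conj x - uc v‖ := by
      have h1 : uc v * conj (uc v) = 1 := by
        rw [Complex.mul_conj, Complex.normSq_eq_norm_sq, norm_uc]; simp
      rw [← RCLike.norm_conj (conj x - uc v), ← one_mul ‖conj (conj x - uc v)‖, ← norm_uc v,
        ← norm_mul, norm_sub_rev]
      congr 1
      simp only [map_sub, Complex.conj_conj]
      linear_combination h1
    have e2 : ‖1 - x * uc v‖ ≠ 0 := by
      rw [norm_ne_zero_iff, sub_ne_zero]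
      intro h
      apply x1
      have := congrArg norm h
      rw [norm_mul, norm_uc] at this
      simpa using this.symm
    have e3 := congrArg norm e
    rw [norm_mul, norm_mul, ← e1] at e3
    have e4 := mul_left_cancel₀ e2 e3
    rw [Finset.sum_range_succ, Finset.sum_range_succ']
    simp only [zpow_natCast]
    convert e4 using 2
    · rw [Finset.sum_congr rfl (g := fun i => v ^ (i + 1) • (b ^ i * (b * c - 1))) fun i hi => by
        simp [(Finset.mem_range.1 hi).ne]]
      push_cast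
      simp [hb, hc]
      ring
    · push_cast
      rw [coe_smul, uc_pow, mul_pow, hx]; ring

theorem core_of (hM : MeanStmt) (hB : StepBStmt) : CoreStmt := by
  intro Y _ _ ν _ S hS
  obtain ⟨M⟩ := hM U
  have hSg : ∀ n, (tower S n).Sg := fun n => by
    induction n with
    | zero => exact H3.Pl.base Y ν S hS
    | succ n ih => exact hB Y ν S _ ih
  by_contra hne
  have hF := S.bmF
  obtain ⟨f, hm, f1, finv, hf⟩ := exists_proj M S (S.meas 1) fun y => (S.norm 1 y).le
  have hfb : BM f := BM.of_le hm f1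
  set ω : Y → ℂ := fun y => conj (f y) ^ 3 with hω
  have hωb : BM ω := by rw [hω]; fun_prop
  have ω1 : ∀ y, ‖ω y‖ ≤ 1 := fun y => by
    simpa [hω] using pow_le_one₀ (norm_nonneg _) (f1 y)
  have ωinv : ∀ u, (fun y => ω (S.T u y)) =ᵐ[ν] ω := fun u => by
    filter_upwards [finv u] with y hy
    simp only [hω, hy]
  -- projection property against invariant functions
  have hp : ∀ h : Y → ℂ, BM h → (∀ u, (fun y => h (S.T u y)) =ᵐ[ν] h) →
      (∫ y, S.F 1 y * h y ∂ν).re = (∫ y, f y * h y ∂ν).re := fun h hb hi => by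
    rw [← hf h hb 1 one_ne_zero]
    simp only [S.int_T_inv (S.meas 1) hb.1 _ (hi _), M.const]
  have hpos : 0 < ∫ y, ‖f y ^ 3‖ ^ 2 ∂ν := by
    refine lt_of_le_of_ne (integral_nonneg fun y => by positivity) fun h => hne ?_
    have h0 := ae_zero_of_int_sq (f := fun y => f y ^ 3) (by fun_prop) h.symm
    have := hp (fun _ => conj (∫ y, S.F 1 y ∂ν)) (BM.const _) fun _ => EventuallyEq.rfl
    rw [integral_mul_const, integral_mul_const, integral_congr_ae (g := fun _ => 0) (f := f) (by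
      filter_upwards [h0] with y hy
      simpa using hy), Complex.mul_conj] at this
    simpa using this
  set c : U → ℝ := fun u => (∫ y, f y * (ω y * S.F (1 + u • 1) y) ∂ν).re with hc
  have hMc : M.m c = ∫ y, ‖f y ^ 3‖ ^ 2 ∂ν := by
    have e1 := hf (fun y => S.F 1 y * (f y * ω y)) (by fun_prop) 1 one_ne_zero
    have e2 := hp (fun y => f y * (f y * ω y)) (by fun_prop) fun u => by
      filter_upwards [finv u, ωinv u] with y h1 h2
      rw [h1, h2]
    rw [← Complex.ofReal_re (∫ y, ‖f y ^ 3‖ ^ 2 ∂ν), ← int_normSq]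
    refine Eq.trans ?_ (e1.trans (Eq.trans ?_ (e2.trans ?_)))
    · congr 1; ext u
      simp only [hc, S.add, zpow_one, S.F_T]
      congr 2; ext y; ring
    · congr 2; ext y; ring
    · congr 2; ext y; simp only [hω, map_pow]; ring
  obtain ⟨u, hu, hu0, hu1⟩ : ∃ u, c u ≠ 0 ∧ ‖1 + uc u‖ ≠ 0 ∧ ‖1 + uc u‖ ≠ 1 := by
    by_contra hcon
    have := M.finite_supp (f := c) (finite_bad.subset fun u hu => by
        by_contra h
        exact hcon ⟨u, hu, not_or.1 h⟩)
    linarith
  set a : L := 1 + u • 1 with ha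
  have ha' : (a : ℂ) = 1 + uc u := by simp [ha]
  have key : ∀ (n : ℕ) (τ : ℝ), 0 < τ → (n : ℝ) / 8 * |c u| ≤ 1 + (τ + 4 * n / τ) / 2 := by
    intro n τ hτ
    obtain ⟨z, hz, hρ⟩ := exists_coeffs (a := a) (ha' ▸ hu0) (ha' ▸ hu1) n
    have := Aw_decay (char_tower (M := M) (S := S) (n + 2)) (hSg _) (s := Finset.range (n + 3))
      (e := fun i => (i : ℤ)) (g := fun i => if i = n + 2 then ω else S.F (z i)) (by simp)
      (fun i _ j _ h => Int.ofNat_inj.1 h) (fun i => by split_ifs; exacts [hωb.1, S.meas _])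
      (fun i y => by split_ifs; exacts [ω1 y, (S.norm _ y).le]) (t := Finset.Icc 1 n)
      (fun i hi => by simp at hi ⊢; omega)
      (fun i hi => ⟨z i, hz i hi, by simp at hi; simp [show i ≠ n + 2 by omega]⟩) hτ
    simp only [Nat.card_Icc, Nat.add_sub_cancel] at this
    convert this using 3
    -- the average equals `c u`
    obtain ⟨f', hm', f1', finv', hf'⟩ := exists_proj M S (S.meas a) fun y => (S.norm a y).le
    have hfb' : BM f' := BM.of_le hm' f1'
    have e1 := hf' (fun y => S.F 1 y * ω y) (by fun_prop) ((n + 1 : ℕ) : ℤ) (by positivity)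
    have e2 := hp (fun y => f' y * ω y) (by fun_prop) fun u => by
      filter_upwards [finv' u, ωinv u] with y h1 h2
      rw [h1, h2]
    have e3 := hf' (fun y => f y * ω y) (by fun_prop) 1 one_ne_zero
    rw [funext fun v : U => congrArg Complex.re (S.int_T_inv (h := fun y => f y * ω y) (S.meas a)
      (hm.mul hωb.1) (v ^ (1 : ℤ)) (by
      filter_upwards [finv (v ^ (1 : ℤ)), ωinv (v ^ (1 : ℤ))] with y h1 h2
      rw [h1, h2])), M.const] at e3
    refine Eq.trans ?_ (e3.trans (Eq.trans ?_ (e2.symm.trans (Eq.trans ?_ (e1.symm.trans ?_)))))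
    · simp only [hc]; congr 2; ext y; ring
    · congr 2; ext y; ring
    · congr 2; ext y; ring
    · unfold Aw
      congr 1; ext v; congr 1
      obtain ⟨ρ, hρ⟩ := hρ v
      have e4 := S.int_T_inv (S.meas (1 + v ^ ((n + 1 : ℕ) : ℤ) • a)) hωb.1 ρ (ωinv ρ)
      simp only [S.F_T, ← hρ, S.F_sum] at e4
      simp only [S.F_T, Finset.prod_range_succ _ (n + 2), if_true]
      refine Eq.trans ?_ (e4.symm.trans (integral_congr_ae ?_))
      · congr 1; ext y; rw [S.add]; ring
      · filter_upwards [ωinv (v ^ ((n + 2 : ℕ) : ℤ))] with y hy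
        rw [hy]
        congr 1
        refine Finset.prod_congr rfl fun i hi => ?_
        rw [if_neg (Finset.mem_range.1 hi).ne, S.F_T]
  have hcp : 0 < |c u| := abs_pos.2 hu
  obtain ⟨n, hn⟩ := exists_nat_gt ((1 + 16 / |c u|) * 16 / |c u|)
  have := key n (32 / |c u|) (by positivity)
  rw [div_lt_iff₀ hcp] at hn
  have e : (32 / |c u| + 4 * n / (32 / |c u|)) / 2 = 16 / |c u| + n * |c u| / 16 := by
    field_simp; ring
  rw [e] at this
  linarith

open scoped InnerProductSpace in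
theorem spec_of (hB : BochnerStmt) (hC : CoreStmt) : SpecStmt := by
  intro H _ _ _ R ξ hinv hS
  by_cases h0 : ξ = 0
  · simp [h0]
  have hn : 0 < ‖ξ‖ := norm_pos_iff.2 h0
  have e : ∀ z, ⟪((‖ξ‖⁻¹ : ℝ) : ℂ) • ξ, R.π z (((‖ξ‖⁻¹ : ℝ) : ℂ) • ξ)⟫_ℂ
      = ((‖ξ‖⁻¹ ^ 2 : ℝ) : ℂ) * ⟪ξ, R.π z ξ⟫_ℂ := fun z => by
    rw [map_smul, inner_smul_left, inner_smul_right, Complex.conj_ofReal]; push_cast; ring
  obtain ⟨Y, _, _, ν, _, S, hF⟩ := hB H R (((‖ξ‖⁻¹ : ℝ) : ℂ) • ξ) (by
    rw [norm_smul, Complex.norm_real, Real.norm_of_nonneg (by positivity), inv_mul_cancel₀ hn.ne'])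
    fun u z => by rw [e, e, hinv]
  have := hC Y ν S fun δ hδ ε hε => by
    obtain ⟨ι, _, w, p, hw, hlt⟩ := hS δ hδ (ε * ‖ξ‖ ^ 2) (by positivity)
    refine ⟨ι, inferInstance, w, p, hw, ?_⟩
    simp only [hF, e, Complex.re_ofReal_mul, mul_left_comm _ (‖ξ‖⁻¹ ^ 2), ← Finset.mul_sum]
    rw [inv_pow, inv_mul_lt_iff₀ (by positivity), mul_comm]
    exact hlt
  rw [hF, e] at this
  exact (mul_eq_zero.1 this).resolve_left (by exact_mod_cast (by positivity))

end Crest.Agent.H2.Pl
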