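import Crest.Agent.H2.PlI
import Crest.Agent.H3.PlD
import Crest.Agent.H9.PlMean
import Crest.Agent.H9.PlBoch

/-! Row 40: assembly of the reduction. -/

namespace Crest.Agent.H2.Pl

theorem reduction (hB : StepBStmt) (c : ℂ → Fin 5) (hc : ∀ x y, dist x y = 1 → c x ≠ c y) :
    MeasCol :=
  H3.Pl.extractStmt contStmt H9.Pl.meanStmt
    (spec_of H9.Pl.bochnerStmt (core_of H9.Pl.meanStmt hB)) c hc

theorem final_of (hB : StepBStmt) (hG : ¬ MeasCol) (c : EuclideanSpace ℝ (Fin 2) → Fin 5) :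
    ∃ x y, dist x y = 1 ∧ c x = c y := by
  by_contra h
  refine hG (reduction hB (fun z => c (Complex.orthonormalBasisOneI.repr z)) fun x y hxy he => ?_)
  exact h ⟨_, _, by rw [LinearIsometryEquiv.dist_map]; exact hxy, he⟩

end Crest.Agent.H2.Pl
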