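import Crest.Prelude.Def_BernoulliConv

/-! Algebraic data of a quartic Salem number. -/

set_option autoImplicit false
set_option linter.unusedVariables false

namespace Crest.Agent.H2.Salem

open Polynomial Crest.AnalysisR

/-- The facts about a quartic Salem number `β` and its unimodular conjugate `α` that are used. -/
structure Data (β : ℝ) (α : ℂ) : Prop where
  one_lt : 1 < β
  norm : ‖α‖ = 1
  tr : ∀ i : ℤ, ∃ n : ℤ, β ^ i + β ^ (-i) + 2 * (α ^ i).re = n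
  nroot : ∀ q : ℕ, 0 < q → α ^ q ≠ 1
  int1 : IsIntegral ℤ β
  int2 : IsIntegral ℤ β⁻¹

theorem power_sums {x y : ℂ} (hx : x ≠ 0) (hy : y ≠ 0) {a b : ℤ}
    (ha : x + x⁻¹ + (y + y⁻¹) = a) (hb : (x + x⁻¹) * (y + y⁻¹) = b) (i : ℤ) :
    ∃ n : ℤ, x ^ i + x ^ (-i) + (y ^ i + y ^ (-i)) = n := by
  -- track both the power sum and the twisted power sum
  have key : ∀ k : ℕ, (∃ n : ℤ, x ^ k + x⁻¹ ^ k + (y ^ k + y⁻¹ ^ k) = n) ∧
      (∃ n : ℤ, (x ^ k + x⁻¹ ^ k) * (x + x⁻¹) + (y ^ k + y⁻¹ ^ k) * (y + y⁻¹) = n) := by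
    intro k
    induction k using Nat.twoStepInduction with
    | zero =>
      refine ⟨⟨4, by norm_num⟩, ⟨2 * a, ?_⟩⟩
      push_cast; rw [← ha]; ring
    | one =>
      refine ⟨⟨a, by rw [← ha]; ring⟩, ⟨a ^ 2 - 2 * b, ?_⟩⟩
      push_cast; rw [← ha, ← hb]; ring
    | more k h0 h1 =>
      obtain ⟨⟨n0, hn0⟩, ⟨m0, hm0⟩⟩ := h0
      obtain ⟨⟨n1, hn1⟩, ⟨m1, hm1⟩⟩ := h1
      have ex : x ^ (k + 2) + x⁻¹ ^ (k + 2) =
          (x ^ (k + 1) + x⁻¹ ^ (k + 1)) * (x + x⁻¹) - (x ^ k + x⁻¹ ^ k) := by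
        have : x * x⁻¹ = 1 := mul_inv_cancel₀ hx
        linear_combination (-(x ^ k) - x⁻¹ ^ k) * this
      have ey : y ^ (k + 2) + y⁻¹ ^ (k + 2) =
          (y ^ (k + 1) + y⁻¹ ^ (k + 1)) * (y + y⁻¹) - (y ^ k + y⁻¹ ^ k) := by
        have : y * y⁻¹ = 1 := mul_inv_cancel₀ hy
        linear_combination (-(y ^ k) - y⁻¹ ^ k) * this
      refine ⟨⟨m1 - n0, ?_⟩, ⟨a * m1 - b * n1 - m0, ?_⟩⟩
      · push_cast; rw [ex, ey, ← hm1, ← hn0]; ring
      · push_cast; rw [ex, ey, ← hm1, ← hn1, ← hm0, ← ha, ← hb]; ring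
  rcases Int.eq_nat_or_neg i with ⟨k, rfl | rfl⟩
  · obtain ⟨n, hn⟩ := (key k).1
    exact ⟨n, by rw [← hn]; simp [zpow_neg]⟩
  · obtain ⟨n, hn⟩ := (key k).1
    exact ⟨n, by rw [← hn]; simp [zpow_neg]; ring⟩

theorem exists_data {β : ℝ} (h : IsQuarticSalem β) : ∃ α, Data β α := by
  classical
  obtain ⟨h1, hint, hdeg, hinv, hroots⟩ := h
  have hβ0 : 0 < β := by linarith
  have hintQ : IsIntegral ℚ β := hint.tower_top
  set P := minpoly ℚ β with hP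
  have hirr : Irreducible P := minpoly.irreducible hintQ
  have hmon : P.Monic := minpoly.monic hintQ
  have hPZ : P = (minpoly ℤ β).map (algebraMap ℤ ℚ) :=
    minpoly.isIntegrallyClosed_eq_field_fractions' ℚ hint
  have hcast : ∀ x : ℝ, aeval x P = 0 → aeval (x : ℂ) P = 0 := fun x hx => by
    have := aeval_algebraMap_apply ℂ x P
    rw [hx, map_zero] at this
    exact this
  have rβ : aeval (β : ℂ) P = 0 := hcast β (minpoly.aeval ℚ β)
  have rβ' : aeval ((β⁻¹ : ℝ) : ℂ) P = 0 := hcast _ hinv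
  have hcard : Fintype.card (P.rootSet ℂ) = 4 := by
    rw [card_rootSet_eq_natDegree hirr.separable (IsAlgClosed.splits _), hdeg]
  obtain ⟨α, rα, hα1, hα2⟩ : ∃ α : ℂ, aeval α P = 0 ∧ α ≠ β ∧ α ≠ ((β⁻¹ : ℝ) : ℂ) := by
    by_contra hc
    push Not at hc
    have hsub : (P.rootSet ℂ).toFinset ⊆ {(β : ℂ), ((β⁻¹ : ℝ) : ℂ)} := by
      intro z hz
      rw [Set.mem_toFinset, mem_rootSet] at hz
      by_cases hz1 : z = β
      · simp [hz1]
      · rw [hc z hz.2 hz1]; simp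
    have := Finset.card_le_card hsub
    rw [Set.toFinset_card, hcard] at this
    have h2 := Finset.card_le_two (a := (β : ℂ)) (b := ((β⁻¹ : ℝ) : ℂ))
    omega
  have nα : ‖α‖ = 1 := by
    rcases hroots α rα with h | h | h
    · exact absurd h hα1
    · exact absurd h hα2
    · exact h
  have hα0 : α ≠ 0 := by intro h; simp [h] at nα
  have hconj : (starRingEnd ℂ) α = α⁻¹ := by
    rw [Complex.inv_def, Complex.normSq_eq_norm_sq, nα]; simp
  have rα' : aeval α⁻¹ P = 0 := by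
    rw [← hconj]
    have := aeval_algHom_apply (Complex.conjAe.restrictScalars ℚ) α P
    rw [rα, map_zero] at this
    exact this
  have hmin : ∀ z : ℂ, aeval z P = 0 → minpoly ℚ z = P := fun z hz =>
    (minpoly.eq_of_irreducible_of_monic hirr hz hmon).symm
  have nroot : ∀ q : ℕ, 0 < q → α ^ q ≠ 1 := fun q hq hαq => by
    have hd : P ∣ X ^ q - 1 := by
      rw [← hmin α rα]; exact minpoly.dvd ℚ α (by simp [hαq])
    obtain ⟨R, hR⟩ := hd
    have := congrArg (aeval β) hR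
    rw [map_mul, hP, minpoly.aeval, zero_mul] at this
    simp only [map_sub, map_pow, aeval_X, map_one] at this
    have h2 : 1 < β ^ q := one_lt_pow₀ h1 hq.ne'
    linarith
  have hαα : α ≠ α⁻¹ := fun h => nroot 2 (by norm_num) (by
    rw [pow_two]; nth_rewrite 2 [h]; exact mul_inv_cancel₀ hα0)
  have nβ : ‖(β : ℂ)‖ ≠ 1 := by rw [Complex.norm_real, Real.norm_of_nonneg hβ0.le]; exact h1.ne'
  have hβinv : β⁻¹ < 1 := inv_lt_one_of_one_lt₀ h1
  have nβ' : ‖((β⁻¹ : ℝ) : ℂ)‖ ≠ 1 := by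
    rw [Complex.norm_real, Real.norm_of_nonneg (inv_pos.2 hβ0).le]; exact hβinv.ne
  have hββ : (β : ℂ) ≠ ((β⁻¹ : ℝ) : ℂ) := fun h => by
    have : β = β⁻¹ := by exact_mod_cast h
    linarith
  have hα3 : α⁻¹ ≠ β := fun h => nβ (by rw [← h, norm_inv, nα, inv_one])
  have hα4 : α⁻¹ ≠ ((β⁻¹ : ℝ) : ℂ) := fun h => nβ' (by rw [← h, norm_inv, nα, inv_one])
  -- integer coefficients
  set p := minpoly ℤ β with hp
  have hpmon : p.Monic := minpoly.monic hint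
  have hpdeg : p.natDegree = 4 := by
    rw [← hdeg, hPZ, hpmon.natDegree_map]
  have hev : ∀ z : ℂ, aeval z P = 0 → z ^ 4 + p.coeff 3 * z ^ 3 + p.coeff 2 * z ^ 2 +
      p.coeff 1 * z + p.coeff 0 = 0 := fun z hz => by
    rw [hPZ, aeval_map_algebraMap, aeval_eq_sum_range, hpdeg] at hz
    have h4 : p.coeff 4 = 1 := by rw [← hpdeg]; exact hpmon
    simp only [Finset.sum_range_succ, Finset.range_zero, Finset.sum_empty, h4, zsmul_eq_mul] at hz
    rw [← hz]; push_cast; ring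
  set x : ℂ := (β : ℂ) with hx
  have hx' : ((β⁻¹ : ℝ) : ℂ) = x⁻¹ := by simp [hx]
  rw [hx'] at rβ' hα2 hα4 hββ
  have hx0 : x ≠ 0 := by simp [hx, hβ0.ne']
  have e1 := hev _ rβ
  have e2 := hev _ rβ'
  have e3 := hev _ rα
  have e4 := hev _ rα'
  set u := x⁻¹ with hu
  set v := α⁻¹ with hv
  have hxu : x * u = 1 := mul_inv_cancel₀ hx0
  have hαv : α * v = 1 := mul_inv_cancel₀ hα0
  set c3 : ℂ := ((p.coeff 3 : ℤ) : ℂ)
  set c2 : ℂ := ((p.coeff 2 : ℤ) : ℂ)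
  set c1 : ℂ := ((p.coeff 1 : ℤ) : ℂ)
  set c0 : ℂ := ((p.coeff 0 : ℤ) : ℂ)
  -- divided differences
  have d1 : ∀ s t : ℂ, s ≠ t → s ^ 4 + c3 * s ^ 3 + c2 * s ^ 2 + c1 * s + c0 = 0 →
      t ^ 4 + c3 * t ^ 3 + c2 * t ^ 2 + c1 * t + c0 = 0 →
      s ^ 3 + s ^ 2 * t + s * t ^ 2 + t ^ 3 + c3 * (s ^ 2 + s * t + t ^ 2) + c2 * (s + t) + c1 = 0 :=
    fun s t hst hs ht => mul_left_cancel₀ (sub_ne_zero.2 hst) (by linear_combination hs - ht)
  have f2 := d1 x u hββ e1 e2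
  have f3 := d1 x α hα1.symm e1 e3
  have f4 := d1 x v hα3.symm e1 e4
  have g3 : x ^ 2 + u ^ 2 + α ^ 2 + x * u + x * α + u * α + c3 * (x + u + α) + c2 = 0 :=
    mul_left_cancel₀ (sub_ne_zero.2 hα2.symm) (by linear_combination f2 - f3)
  have g4 : x ^ 2 + u ^ 2 + v ^ 2 + x * u + x * v + u * v + c3 * (x + u + v) + c2 = 0 :=
    mul_left_cancel₀ (sub_ne_zero.2 hα4.symm) (by linear_combination f2 - f4)
  have k3 : x + u + α + v + c3 = 0 :=
    mul_left_cancel₀ (sub_ne_zero.2 hαα) (by linear_combination g3 - g4)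
  have ha : x + u + (α + v) = ((-p.coeff 3 : ℤ) : ℂ) := by push_cast; linear_combination k3
  have hb : (x + u) * (α + v) = ((p.coeff 2 - 2 : ℤ) : ℂ) := by
    push_cast
    linear_combination (-1 : ℂ) * g3 + (x + u + α) * k3 - hxu - hαv
  refine ⟨α, h1, nα, fun i => ?_, nroot, hint, ?_⟩
  · obtain ⟨n, hn⟩ := power_sums hx0 hα0 ha hb i
    refine ⟨n, ?_⟩
    have h2 : α ^ i + α ^ (-i) = ((2 * (α ^ i).re : ℝ) : ℂ) := by
      rw [← Complex.add_conj, map_zpow₀, hconj, hv, inv_zpow']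
    rw [h2] at hn
    have : ((β ^ i + β ^ (-i) + 2 * (α ^ i).re : ℝ) : ℂ) = ((n : ℝ) : ℂ) := by
      push_cast at hn ⊢; exact hn
    exact_mod_cast this
  · refine ⟨p, hpmon, ?_⟩
    rw [hPZ, aeval_map_algebraMap] at hinv
    exact hinv

end Crest.Agent.H2.Salem
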