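import Crest.Agent.H2.SalemState

/-! The iteration: the conjugate is cubed at each step while the energy grows only by the factor `5/2`. -/

set_option autoImplicit false
set_option linter.unusedVariables false

namespace Crest.Agent.H2.Salem

open Real Finset

variable {β : ℝ} {α : ℂ}

theorem eps_nonneg (q : ℕ) : 0 ≤ eps α q := norm_nonneg _

theorem eps_pos (h : Data β α) {q : ℕ} (hq : 0 < q) : 0 < eps α q :=
  norm_pos_iff.2 (sub_ne_zero.2 (h.nroot q hq))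

theorem eps_mul (h : Data β α) (t q : ℕ) : eps α (t * q) ≤ t * eps α q := by
  induction t with
  | zero => simp [eps]
  | succ t ih =>
    have e : α ^ ((t + 1) * q) - 1 = α ^ q * (α ^ (t * q) - 1) + (α ^ q - 1) := by ring
    unfold eps at *
    rw [e]
    refine (norm_add_le _ _).trans ?_
    rw [norm_mul, norm_pow, h.norm, one_pow, one_mul]
    push_cast; linarith

theorem dirichlet (h : Data β α) {M : ℕ} (hM : 0 < M) :
    ∃ N, 0 < N ∧ N ≤ M ∧ (∀ q, 0 < q → q ≤ M → eps α N ≤ eps α q) ∧ eps α N ≤ 7 / (M + 1) := by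
  obtain ⟨N, hN, hmin⟩ := Finset.exists_min_image (Finset.Icc 1 M) (eps α) ⟨1, by simp; omega⟩
  rw [Finset.mem_Icc] at hN
  refine ⟨N, hN.1, hN.2, fun q h1 h2 => hmin q (Finset.mem_Icc.2 ⟨h1, h2⟩), ?_⟩
  obtain ⟨θ, hθ⟩ := (Complex.norm_eq_one_iff α).1 h.norm
  obtain ⟨k, hk0, hkM, hk⟩ := Real.exists_nat_abs_mul_sub_round_le (θ / (2 * π)) hM
  refine (hmin k (Finset.mem_Icc.2 ⟨hk0, hkM⟩)).trans ?_
  set r := (k : ℝ) * (θ / (2 * π)) - round ((k : ℝ) * (θ / (2 * π))) with hr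
  have e : α ^ k = Complex.exp (Complex.I * ((2 * π * r : ℝ) : ℂ)) := by
    rw [← hθ, ← Complex.exp_nat_mul, Complex.exp_eq_exp_iff_exists_int]
    refine ⟨round ((k : ℝ) * (θ / (2 * π))), ?_⟩
    have hpi : (π : ℂ) ≠ 0 := by exact_mod_cast pi_ne_zero
    rw [hr]; push_cast; field_simp; ring
  rw [eps, e]
  refine Real.norm_exp_I_mul_ofReal_sub_one_le.trans ?_
  rw [Real.norm_eq_abs, abs_mul, abs_of_pos (by positivity : 0 < 2 * π)]
  have h7 : 2 * π ≤ 7 := by linarith [pi_lt_d2]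
  calc 2 * π * |r| ≤ 7 * (1 / (M + 1)) := mul_le_mul h7 hk (abs_nonneg _) (by norm_num)
    _ = 7 / (M + 1) := by ring

theorem record (h : Data β α) (S0 : ℕ) {γ : ℝ} (hγ : 0 < γ) :
    ∃ M N : ℕ, S0 < N ∧ N ≤ M ∧ (∀ q, 0 < q → q ≤ M → eps α N ≤ eps α q) ∧
      eps α N ≤ 7 / (M + 1) ∧ eps α N ≤ γ := by
  obtain ⟨j, hj, hmin⟩ := Finset.exists_min_image (Finset.Icc 1 (S0 + 1)) (eps α) ⟨1, by simp⟩
  rw [Finset.mem_Icc] at hj
  have hρ : 0 < min (eps α j) γ := lt_min (eps_pos h hj.1) hγ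
  obtain ⟨M, hM⟩ := exists_nat_gt (7 / min (eps α j) γ)
  have hM0 : 0 < M := by
    have : (0 : ℝ) < M := lt_trans (by positivity) hM
    exact_mod_cast this
  obtain ⟨N, h0, h1, h2, h3⟩ := dirichlet h hM0
  have h4 : 7 / ((M : ℝ) + 1) < min (eps α j) γ := by
    rw [div_lt_iff₀ hρ] at hM
    rw [div_lt_iff₀ (by positivity)]; nlinarith
  refine ⟨M, N, ?_, h1, h2, h3, (h3.trans h4.le).trans (min_le_right _ _)⟩
  by_contra hc
  have := hmin N (Finset.mem_Icc.2 ⟨h0, by omega⟩)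
  linarith [min_le_left (eps α j) γ]

/-- Invariants of the iteration. -/
structure Good (β : ℝ) (α : ℂ) (m : ℝ) (s : St) : Prop where
  basic : Basic β α s
  two : 2 ≤ β ^ s.L
  wpos : 0 < ‖s.w‖
  wsmall : ‖s.w‖ ≤ 1 / 10 ^ 9
  J : ∀ q, 0 < q → 5 * q ≤ s.L → ‖s.w‖ ≤ eps α q
  Lw : s.L * ‖s.w‖ ≤ 1
  Dm : ∀ i, m + 4 * π * (β⁻¹ ^ s.L + ‖s.w‖) ≤ D (s.U β i)

theorem exists_good (h : Data β α) : ∃ m s, 0 < m ∧ Good β α m s := by
  let s0 : St := ⟨1, 0, 1, 1⟩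
  have b0 : Basic β α s0 := ⟨one_pos, le_rfl, by simp [s0], Or.inl rfl,
    fun i => by simpa [s0, St.U] using h.tr i, isIntegral_one⟩
  obtain ⟨k, hk⟩ := pow_unbounded_of_one_lt (2 : ℝ) h.one_lt
  have htwo : ∀ S, k ≤ S → 2 ≤ β ^ S := fun S hS => hk.le.trans (pow_le_pow_right₀ h.one_lt.le hS)
  obtain ⟨M1, N1, hN1, -, -, -, hε1⟩ := record h k (γ := 1 / 32) (by norm_num)
  have b1 := b0.step h (htwo N1 hN1.le)
  set s1 := s0.step β α N1 with hs1
  have w1 : ‖s1.w‖ = eps α N1 := by rw [hs1, step_norm h]; simp [s0]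
  obtain ⟨m, hm, hD⟩ := exists_D_lower h b1 (w1.trans_le hε1)
  obtain ⟨G, hG⟩ := exists_pow_le h (γ := m / 100) (by positivity)
  obtain ⟨M, N, hN, hNM, hmin, hε, hε'⟩ := record h (s1.L + 2 * G + k)
    (γ := min (m / 200) (1 / 10 ^ 9)) (by positivity)
  have hS := htwo N (by omega)
  have w2 : ‖(s1.step β α N).w‖ = ‖s1.w‖ * eps α N := step_norm h _ _
  have hw1 : ‖s1.w‖ ≤ 1 / 32 := w1.trans_le hε1
  have hw1' : 0 < ‖s1.w‖ := w1 ▸ eps_pos h (by omega)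
  have he0 : 0 < eps α N := eps_pos h (by omega)
  have w3 : ‖(s1.step β α N).w‖ ≤ eps α N / 32 := by rw [w2]; nlinarith
  have hL : (s1.step β α N).L = s1.L + N := rfl
  refine ⟨m / 2, s1.step β α N, by positivity, b1.step h hS, htwo _ (by omega),
    by rw [w2]; positivity, ?_, fun q hq hq5 => ?_, ?_, fun i => ?_⟩
  · linarith [min_le_right (m / 200) (1 / 10 ^ 9)]
  · linarith [hmin q hq (by omega)]
  · have h1 : ((s1.step β α N).L : ℝ) ≤ 2 * M := by exact_mod_cast (by omega : (s1.step β α N).L ≤ 2 * M)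
    have h2 : ‖(s1.step β α N).w‖ ≤ 7 / (M + 1) / 32 := by linarith
    refine (mul_le_mul h1 h2 (norm_nonneg _) (by positivity)).trans ?_
    rw [div_div, ← mul_div_assoc, div_le_one (by positivity)]
    have : (0 : ℝ) ≤ M := by positivity
    linarith
  · have h1 := step_D h b1 hS (G := G) (by omega) hD i
    have h2 : β⁻¹ ^ (s1.step β α N).L ≤ β⁻¹ ^ G := pow_le_pow_of_le_one h.c0.le h.c1.le (by omega)
    have h3 : ‖(s1.step β α N).w‖ ≤ m / 200 := by linarith [min_le_left (m / 200) (1 / 10 ^ 9)]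
    have h4 : π * β⁻¹ ^ G ≤ 4 * (m / 100) :=
      mul_le_mul pi_le_four hG (pow_pos h.c0 _).le (by norm_num)
    have h5 : π * β⁻¹ ^ (s1.step β α N).L ≤ 4 * (m / 100) :=
      mul_le_mul pi_le_four (h2.trans hG) (pow_pos h.c0 _).le (by norm_num)
    have h6 : π * ‖(s1.step β α N).w‖ ≤ 4 * (m / 200) :=
      mul_le_mul pi_le_four h3 (norm_nonneg _) (by norm_num)
    linarith

/-- The additive energy constant. -/
noncomputable def CE (β : ℝ) : ℝ := 21 * (1 - β⁻¹)⁻¹ + 208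

theorem Good.step (h : Data β α) {m : ℝ} {s : St} (hs : Good β α m s) :
    ∃ s', Good β α m s' ∧ ‖s'.w‖ ≤ 105 * ‖s.w‖ ^ 3 ∧ (s'.L : ℝ) ^ 3 * ‖s'.w‖ ^ 2 ≤ 2 * 10 ^ 6 ∧
      s'.E β ≤ 5 / 2 * s.E β + CE β := by
  set δ := ‖s.w‖ with hδ
  have hδ0 : 0 < δ := hs.wpos
  have hδ1 : δ ≤ 1 / 10 ^ 9 := hs.wsmall
  set M := ⌊1 / δ ^ 2⌋₊ with hM
  have hM1 : (M : ℝ) ≤ 1 / δ ^ 2 := Nat.floor_le (by positivity)
  have hM2 : 1 / δ ^ 2 < M + 1 := Nat.lt_floor_add_one _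
  have hM1' : δ ^ 2 * M ≤ 1 := by rw [le_div_iff₀ (by positivity)] at hM1; linarith
  have hM2' : 1 < δ ^ 2 * (M + 1) := by rw [div_lt_iff₀ (by positivity)] at hM2; linarith
  have hLM : s.L ≤ M := by
    rw [hM]; apply Nat.le_floor
    rw [le_div_iff₀ (by positivity)]
    have := hs.Lw
    have h0 : (0 : ℝ) ≤ s.L := by positivity
    nlinarith
  have hL0 : 0 < s.L := by
    by_contra hc
    have : s.L = 0 := by omega
    have h2 := hs.two
    rw [this] at h2; norm_num at h2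
  obtain ⟨N, hN0, hNM, hmin, hε⟩ := dirichlet h (M := M) (by omega)
  have hε2 : eps α N ≤ 7 * δ ^ 2 := by
    refine hε.trans ?_
    rw [div_le_iff₀ (by positivity)]; nlinarith
  have hLN : s.L < 5 * N := by
    by_contra hc
    have := hs.J N hN0 (by omega)
    nlinarith
  set t := 3 * s.L / N + 1 with ht
  have ht1 : 3 * s.L < t * N := by
    rw [ht]; exact Nat.lt_mul_of_div_lt (Nat.lt_succ_self _) hN0
  have ht2 : t * N ≤ 3 * s.L + N := by
    rw [ht, add_mul, one_mul]; exact Nat.add_le_add_right (Nat.div_mul_le_self _ _) _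
  have ht3 : t ≤ 15 := by
    have : 3 * s.L / N < 15 := Nat.div_lt_of_lt_mul (by omega)
    omega
  set S := t * N with hS
  have hS2 : 2 ≤ β ^ S := hs.two.trans (pow_le_pow_right₀ h.one_lt.le (by omega))
  have w2 : ‖(s.step β α S).w‖ = δ * eps α S := step_norm h _ _
  have heS : eps α S ≤ 15 * eps α N := (eps_mul h t N).trans
    (mul_le_mul_of_nonneg_right (by exact_mod_cast ht3) (eps_nonneg _))
  have heS0 : 0 < eps α S := eps_pos h (by omega)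
  have heN0 : 0 < eps α N := eps_pos h hN0
  set δ' := ‖(s.step β α S).w‖ with hδ'
  have w3 : δ' ≤ 105 * δ ^ 3 := by rw [w2]; nlinarith
  have w0 : 0 < δ' := by rw [w2]; positivity
  have w4 : δ' ≤ δ / 2 := by nlinarith
  have hL : (s.step β α S).L = s.L + S := rfl
  have hL5 : ((s.step β α S).L : ℝ) ≤ 5 * M := by
    exact_mod_cast (by omega : (s.step β α S).L ≤ 5 * M)
  have hLδ : ((s.step β α S).L : ℝ) * δ ^ 2 ≤ 5 := by nlinarith [sq_nonneg δ]
  refine ⟨s.step β α S, ⟨hs.basic.step h hS2,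
    hs.two.trans (pow_le_pow_right₀ h.one_lt.le (by omega)), w0, by linarith,
    fun q hq hq5 => ?_, ?_, fun i => ?_⟩, w3, ?_, ?_⟩
  · refine le_trans ?_ (hmin q hq (by omega))
    rw [← hδ', w2]; nlinarith
  · have h0 : (0 : ℝ) ≤ (s.step β α S).L := by positivity
    calc ((s.step β α S).L : ℝ) * δ' ≤ (s.step β α S).L * (105 * δ ^ 3) :=
          mul_le_mul_of_nonneg_left w3 h0
      _ = 105 * δ * ((s.step β α S).L * δ ^ 2) := by ring
      _ ≤ 105 * δ * 5 := mul_le_mul_of_nonneg_left hLδ (by positivity)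
      _ ≤ 1 := by linarith
  · have h1 := step_D h hs.basic hS2 (G := s.L) (by omega) hs.Dm i
    have h2 : β⁻¹ ^ (s.step β α S).L ≤ β⁻¹ ^ s.L / 2 := by
      rw [hL, pow_add]
      have : β⁻¹ ^ S ≤ 1 / 2 := by
        rw [inv_pow, inv_eq_one_div]; exact one_div_le_one_div_of_le (by norm_num) hS2
      have := pow_pos h.c0 s.L
      nlinarith
    rw [← hδ, ← hδ'] at h1
    have h3 := mul_le_mul_of_nonneg_left h2 pi_pos.le
    have h4 := mul_le_mul_of_nonneg_left w4 pi_pos.le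
    linarith
  · have h0 : (0 : ℝ) ≤ (s.step β α S).L := by positivity
    calc ((s.step β α S).L : ℝ) ^ 3 * δ' ^ 2 ≤ (s.step β α S).L ^ 3 * (105 * δ ^ 3) ^ 2 :=
          mul_le_mul_of_nonneg_left (pow_le_pow_left₀ w0.le w3 2) (by positivity)
      _ = 105 ^ 2 * ((s.step β α S).L * δ ^ 2) ^ 3 := by ring
      _ ≤ 105 ^ 2 * 5 ^ 3 :=
          mul_le_mul_of_nonneg_left (pow_le_pow_left₀ (by positivity) hLδ 3) (by positivity)
      _ ≤ 2 * 10 ^ 6 := by norm_num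
  · have h1 := step_E h hs.basic (S := S) (by omega)
    have h2 : (S : ℝ) ≤ 4 * M := by exact_mod_cast (by omega : S ≤ 4 * M)
    have h3 : δ ^ 2 * S ≤ 4 := by nlinarith [sq_nonneg δ]
    rw [← hδ] at h1
    unfold CE; linarith

theorem CE_pos (h : Data β α) : 0 < CE β := by
  have : 0 < (1 - β⁻¹)⁻¹ := inv_pos.2 (by linarith [h.c1])
  unfold CE; positivity

theorem E_nonneg (s : St) : 0 ≤ s.E β := sum_nonneg fun _ _ => sq_nonneg _

theorem exists_final (h : Data β α) : ∃ m, 0 < m ∧ ∀ κ γ : ℝ, 0 < κ → 0 < γ → ∃ s : St,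
    Basic β α s ∧ 0 < ‖s.w‖ ∧ ‖s.w‖ ≤ γ ∧ (s.L : ℝ) ^ 3 * ‖s.w‖ ^ 2 ≤ 2 * 10 ^ 6 ∧
      (∀ i, m ≤ D (s.U β i)) ∧ s.E β + CE β ≤ κ * (-log ‖s.w‖) := by
  obtain ⟨m, s0, hm, hs0⟩ := exists_good h
  refine ⟨m, hm, fun κ γ hκ hγ => ?_⟩
  have hlog : ∀ s, Good β α m s → 4 * log 105 ≤ -log ‖s.w‖ := fun s hs => by
    have h1 : log ‖s.w‖ ≤ log (1 / 10 ^ 9) := log_le_log hs.wpos hs.wsmall
    have h2 : log (105 ^ 4) ≤ log (10 ^ 9) := log_le_log (by norm_num) (by norm_num)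
    rw [one_div, log_inv] at h1
    rw [log_pow] at h2
    push_cast at h2; linarith
  have hl0 : 0 < log 105 := log_pos (by norm_num)
  obtain ⟨R, hR0, hR⟩ : ∃ R, 0 < R ∧ s0.E β + CE β ≤ R * (-log ‖s0.w‖) := by
    have h1 : 0 < -log ‖s0.w‖ := by linarith [hlog s0 hs0]
    have h2 : 0 < s0.E β + CE β := by linarith [E_nonneg (β := β) s0, CE_pos h]
    exact ⟨(s0.E β + CE β) / (-log ‖s0.w‖), by positivity, (div_mul_cancel₀ _ h1.ne').ge⟩
  have step : ∀ s r, 0 ≤ r → Good β α m s → s.E β + CE β ≤ r * (-log ‖s.w‖) → ∃ s', Good β α m s' ∧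
      ‖s'.w‖ ≤ 10 / 11 * ‖s.w‖ ∧ (s'.L : ℝ) ^ 3 * ‖s'.w‖ ^ 2 ≤ 2 * 10 ^ 6 ∧
      s'.E β + CE β ≤ 10 / 11 * r * (-log ‖s'.w‖) := fun s r hr hs hE => by
    obtain ⟨s', hs', h1, h2, h3⟩ := hs.step h
    have h0 := hs.wpos
    have h9 := hs.wsmall
    have h10 : ‖s.w‖ ^ 2 ≤ 1 / 1000 := by nlinarith
    refine ⟨s', hs', by nlinarith [mul_le_mul_of_nonneg_left h10 h0.le], h2, ?_⟩
    have h4 : log ‖s'.w‖ ≤ log 105 + 3 * log ‖s.w‖ := by
      have := log_le_log hs'.wpos h1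
      rw [log_mul (by norm_num) (by positivity), log_pow] at this
      exact_mod_cast this
    have h5 := hlog s hs
    have h6 : 11 / 4 * (-log ‖s.w‖) ≤ -log ‖s'.w‖ := by linarith
    have h7 := mul_le_mul_of_nonneg_left h6 hr
    have := CE_pos h
    nlinarith
  have iter : ∀ k : ℕ, ∃ s, Good β α m s ∧ ‖s.w‖ ≤ (10 / 11) ^ (k + 1) ∧
      (s.L : ℝ) ^ 3 * ‖s.w‖ ^ 2 ≤ 2 * 10 ^ 6 ∧
      s.E β + CE β ≤ (10 / 11) ^ (k + 1) * R * (-log ‖s.w‖) := fun k => by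
    induction k with
    | zero =>
      obtain ⟨s', h1, h2, h3, h4⟩ := step s0 R hR0.le hs0 hR
      exact ⟨s', h1, by linarith [hs0.wsmall], h3, by simpa using h4⟩
    | succ k ih =>
      obtain ⟨s, g1, g2, g3, g4⟩ := ih
      obtain ⟨s', h1, h2, h3, h4⟩ := step s _ (by positivity) g1 g4
      refine ⟨s', h1, ?_, h3, ?_⟩
      · rw [pow_succ]; linarith
      · rw [pow_succ (10 / 11 : ℝ) (k + 1)]; linarith
  obtain ⟨k, hk⟩ := exists_pow_lt_of_lt_one (x := min γ (κ / R)) (y := (10 / 11 : ℝ))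
    (by positivity) (by norm_num)
  obtain ⟨s, g1, g2, g3, g4⟩ := iter k
  have hk' : (10 / 11 : ℝ) ^ (k + 1) ≤ min γ (κ / R) :=
    (pow_le_pow_of_le_one (by norm_num) (by norm_num) (Nat.le_succ k)).trans hk.le
  refine ⟨s, g1.basic, g1.wpos, g2.trans (hk'.trans (min_le_left _ _)), g3, fun i => ?_, ?_⟩
  · refine le_trans ?_ (g1.Dm i)
    have := pow_pos h.c0 s.L
    have := g1.wpos
    have : 0 ≤ 4 * π * (β⁻¹ ^ s.L + ‖s.w‖) := by positivity
    linarith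
  · refine g4.trans (mul_le_mul_of_nonneg_right ?_ (by linarith [hlog s g1]))
    have := hk'.trans (min_le_right _ _)
    rwa [le_div_iff₀ hR0] at this

end Crest.Agent.H2.Salem
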