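import Crest.Prelude.Def_BernoulliConv

/-! Second-moment bounds for sums of cosines under fair coins and under Lebesgue measure. -/

set_option autoImplicit false
set_option linter.unusedVariables false

namespace Crest.Agent.H2.Salem

open Real Finset MeasureTheory ProbabilityTheory Crest.AnalysisR

instance : IsProbabilityMeasure fairCoin :=
  ⟨by simp [fairCoin, ENNReal.inv_two_add_inv_two]⟩

/-- The coin-tossing measure. -/
noncomputable def coins : Measure (ℕ → Bool) := Measure.infinitePi fun _ : ℕ => fairCoin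

instance : IsProbabilityMeasure coins := by unfold coins; infer_instance

/-- The sign of a coin. -/
def sg (b : Bool) : ℝ := if b then 1 else -1

theorem abs_sg (b : Bool) : |sg b| = 1 := by cases b <;> simp [sg]

theorem integral_coin (f : Bool → ℂ) : ∫ b, f b ∂fairCoin = (f true + f false) / 2 := by
  rw [integral_fintype Integrable.of_finite]
  simp [fairCoin, Measure.real]
  ring

theorem meas_sg (n : ℕ) : Measurable fun ε : ℕ → Bool => sg (ε n) :=
  (measurable_of_finite sg).comp (measurable_pi_apply n)

theorem integral_cos {ι : Type} [Fintype ι] (e : ι → ℕ) (he : Function.Injective e) (v : ι → ℝ) :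
    ∫ ε, cos (∑ i, sg (ε (e i)) * v i) ∂coins = ∏ i, cos (v i) := by
  have hind : iIndepFun (fun (n : ℕ) (ε : ℕ → Bool) => ε n) coins :=
    iIndepFun_infinitePi (X := fun _ b => b) (fun _ => measurable_id)
  have h2 := (hind.precomp he).integral_fun_prod_comp
    (f := fun i b => Complex.exp ((sg b * v i : ℝ) * Complex.I))
    (fun i => (measurable_pi_apply _).aemeasurable)
    (fun i => (measurable_of_finite _).aestronglyMeasurable)
  have h3 : ∀ i, ∫ ε, Complex.exp ((sg (ε (e i)) * v i : ℝ) * Complex.I) ∂coins = (cos (v i) : ℝ) := by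
    intro i
    have h4 := integral_map (μ := coins) (φ := fun ε : ℕ → Bool => ε (e i))
      (f := fun b => Complex.exp ((sg b * v i : ℝ) * Complex.I))
      (measurable_pi_apply _).aemeasurable (measurable_of_finite _).aestronglyMeasurable
    rw [← h4]
    have h5 : coins.map (fun ε : ℕ → Bool => ε (e i)) = fairCoin :=
      Measure.infinitePi_map_eval (fun _ : ℕ => fairCoin) (e i)
    rw [h5, integral_coin, Complex.ofReal_cos, Complex.cos]
    simp [sg]
  simp only [h3] at h2
  have h6 : ∀ ε : ℕ → Bool, ∏ i, Complex.exp ((sg (ε (e i)) * v i : ℝ) * Complex.I) =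
      Complex.exp ((∑ i, sg (ε (e i)) * v i : ℝ) * Complex.I) := fun ε => by
    rw [← Complex.exp_sum, Complex.ofReal_sum, Finset.sum_mul]
  simp only [h6] at h2
  have hm : Measurable fun ε : ℕ → Bool => ∑ i, sg (ε (e i)) * v i :=
    Finset.measurable_sum _ fun i _ => (meas_sg _).mul_const _
  have hint : Integrable (fun ε : ℕ → Bool =>
      Complex.exp ((∑ i, sg (ε (e i)) * v i : ℝ) * Complex.I)) coins := by
    refine Integrable.of_bound (C := 1) ?_ (Filter.Eventually.of_forall fun ε => ?_)
    · exact (Complex.measurable_exp.comp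
        ((Complex.measurable_ofReal.comp hm).mul_const _)).aestronglyMeasurable
    · rw [Complex.norm_exp_ofReal_mul_I]
  have h7 := integral_re hint
  rw [h2, ← Complex.ofReal_prod] at h7
  simpa only [RCLike.re_to_complex, Complex.exp_ofReal_mul_I_re, Complex.ofReal_re] using h7

theorem second_moment {Ω : Type*} [MeasurableSpace Ω] (μ : Measure Ω) [IsFiniteMeasure μ] (K : ℕ)
    (f : ℕ → Ω → ℝ) (hm : ∀ i, Measurable (f i)) (hb : ∀ i x, |f i x| ≤ 2) {A B : ℝ} (hB : 0 ≤ B)
    (h1 : ∀ i < K, ∫ x, f i x * f i x ∂μ ≤ A)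
    (h2 : ∀ i < K, ∀ j < K, i ≠ j → ∫ x, f i x * f j x ∂μ ≤ B) {t : ℝ} (ht : 0 < t) :
    μ.real {x | t ^ 2 ≤ (∑ i ∈ range K, f i x) ^ 2} ≤ (K * A + K ^ 2 * B) / t ^ 2 := by
  have hint : ∀ i j, Integrable (fun x => f i x * f j x) μ := fun i j =>
    Integrable.of_bound (C := 4) ((hm i).mul (hm j)).aestronglyMeasurable
      (Filter.Eventually.of_forall fun x => by
        rw [Real.norm_eq_abs, abs_mul]
        nlinarith [hb i x, hb j x, abs_nonneg (f i x), abs_nonneg (f j x)])
  have e : ∀ x, (∑ i ∈ range K, f i x) ^ 2 = ∑ i ∈ range K, ∑ j ∈ range K, f i x * f j x :=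
    fun x => by rw [sq, sum_mul_sum]
  have hI : Integrable (fun x => (∑ i ∈ range K, f i x) ^ 2) μ := by
    simp only [e]
    exact integrable_finsetSum _ fun i _ => integrable_finsetSum _ fun j _ => hint i j
  have h3 := mul_meas_ge_le_integral_of_nonneg
    (Filter.Eventually.of_forall fun x => sq_nonneg _) hI (t ^ 2)
  rw [le_div_iff₀ (by positivity), mul_comm]
  refine h3.trans ?_
  simp only [e]
  rw [integral_finsetSum _ fun i _ => integrable_finsetSum _ fun j _ => hint i j]
  have h4 : ∀ i ∈ range K, ∫ x, ∑ j ∈ range K, f i x * f j x ∂μ ≤ A + K * B := fun i hi => by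
    rw [integral_finsetSum _ fun j _ => hint i j, ← add_sum_erase _ _ hi]
    refine add_le_add (h1 i (mem_range.1 hi)) ?_
    refine (sum_le_card_nsmul _ _ B fun j hj => h2 i (mem_range.1 hi) j
      (mem_range.1 (mem_of_mem_erase hj)) (ne_of_mem_erase hj).symm).trans ?_
    rw [nsmul_eq_mul]
    refine mul_le_mul_of_nonneg_right ?_ hB
    exact_mod_cast (card_erase_le).trans (card_range K).le
  refine (sum_le_card_nsmul _ _ _ h4).trans (le_of_eq ?_)
  rw [card_range, nsmul_eq_mul]; ring

/-- The phase carried by the `i`-th window of coins. -/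
noncomputable def phase {W : ℕ} (u : Fin W → ℝ) (i : ℕ) (ε : ℕ → Bool) : ℝ :=
  ∑ r : Fin W, sg (ε (i * W + r)) * u r

theorem meas_phase {W : ℕ} (u : Fin W → ℝ) (i : ℕ) : Measurable (phase u i) :=
  Finset.measurable_sum _ fun r _ => (meas_sg _).mul_const _

theorem int_cos {Ω : Type*} [MeasurableSpace Ω] (μ : Measure Ω) [IsFiniteMeasure μ] {g : Ω → ℝ}
    (hg : Measurable g) : Integrable (fun x => cos (g x)) μ :=
  Integrable.of_bound (C := 1) (measurable_cos.comp hg).aestronglyMeasurable
    (Filter.Eventually.of_forall fun x => abs_cos_le_one _)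

theorem integral_phase {W : ℕ} (u : Fin W → ℝ) (i : ℕ) :
    ∫ ε, cos (phase u i ε) ∂coins = ∏ r, cos (u r) :=
  integral_cos (fun r : Fin W => i * W + r) (fun r s h => Fin.ext (by simpa using h)) u

theorem integral_phase_two {W : ℕ} (u u' : Fin W → ℝ) {i j : ℕ} (hij : i ≠ j) :
    ∫ ε, cos (phase u i ε + phase u' j ε) ∂coins = (∏ r, cos (u r)) * ∏ r, cos (u' r) := by
  have hne : ∀ r s : Fin W, i * W + r ≠ j * W + s := fun r s h => by
    have hW : 0 < W := Fin.pos r
    have h1 : (i * W + r) / W = i := by
      rw [add_comm, Nat.add_mul_div_right _ _ hW, Nat.div_eq_of_lt r.2, zero_add]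
    have h2 : (j * W + s) / W = j := by
      rw [add_comm, Nat.add_mul_div_right _ _ hW, Nat.div_eq_of_lt s.2, zero_add]
    exact hij (by rw [← h1, ← h2, h])
  have := integral_cos (ι := Fin W ⊕ Fin W) (Sum.elim (fun r => i * W + r) (fun r => j * W + r))
    (by
      rintro (r | r) (s | s) h
      · simp only [Sum.elim_inl, add_right_inj] at h; rw [Fin.ext h]
      · exact absurd h (hne r s)
      · exact absurd h.symm (hne s r)
      · simp only [Sum.elim_inr, add_right_inj] at h; rw [Fin.ext h]) (Sum.elim u u')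
  simpa only [Fintype.sum_sum_type, Fintype.prod_sum_type, Sum.elim_inl, Sum.elim_inr, phase]
    using this

theorem coins_dev {W : ℕ} (u : Fin W → ℝ) (K : ℕ) {t : ℝ} (ht : 0 < t) :
    coins.real {ε | t ^ 2 ≤ (∑ i ∈ range K, (cos (phase u i ε) - ∏ r, cos (u r))) ^ 2} ≤
      K / t ^ 2 := by
  set a := ∏ r, cos (u r) with ha
  have ha1 : |a| ≤ 1 := by
    rw [ha, abs_prod]; exact prod_le_one (fun _ _ => abs_nonneg _) fun _ _ => abs_cos_le_one _
  have hi : ∀ i, Integrable (fun ε => cos (phase u i ε)) coins := fun i => int_cos _ (meas_phase u i)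
  have key : ∀ i j, ∫ ε, (cos (phase u i ε) - a) * (cos (phase u j ε) - a) ∂coins =
      (∫ ε, cos (phase u i ε + phase u j ε) ∂coins +
        ∫ ε, cos (phase u i ε + phase (-u) j ε) ∂coins) / 2 - a ^ 2 := fun i j => by
    have e : ∀ ε, (cos (phase u i ε) - a) * (cos (phase u j ε) - a) =
        (cos (phase u i ε + phase u j ε) + cos (phase u i ε + phase (-u) j ε)) / 2 -
          a * cos (phase u i ε) - a * cos (phase u j ε) + a ^ 2 := fun ε => by
      have : phase (-u) j ε = -phase u j ε := by simp [phase]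
      rw [this, cos_add, cos_add, cos_neg, sin_neg]; ring
    simp only [e]
    have i1 := int_cos coins (g := fun ε => phase u i ε + phase u j ε)
      ((meas_phase u i).add (meas_phase u j))
    have i2 := int_cos coins (g := fun ε => phase u i ε + phase (-u) j ε)
      ((meas_phase u i).add (meas_phase (-u) j))
    rw [integral_add, integral_sub, integral_sub, integral_div, integral_add i1 i2,
      integral_const_mul, integral_const_mul, integral_phase, integral_phase, ← ha]
    · simp; ring
    · exact (i1.add i2).div_const _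
    · exact (hi i).const_mul _
    · exact ((i1.add i2).div_const _).sub ((hi i).const_mul _)
    · exact (hi j).const_mul _
    · exact (((i1.add i2).div_const _).sub ((hi i).const_mul _)).sub ((hi j).const_mul _)
    · exact integrable_const _
  have hle : ∀ g : (ℕ → Bool) → ℝ, ∫ ε, cos (g ε) ∂coins ≤ 1 := fun g => by
    refine (le_abs_self _).trans ?_
    have := norm_integral_le_of_norm_le_const (μ := coins) (f := fun ε => cos (g ε)) (C := 1)
      (Filter.Eventually.of_forall fun x => abs_cos_le_one _)
    simpa using this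
  have := second_moment coins K (fun i ε => cos (phase u i ε) - a)
    (fun i => (measurable_cos.comp (meas_phase u i)).sub_const _)
    (fun i ε => (abs_sub _ _).trans (by linarith [abs_cos_le_one (phase u i ε)])) (A := 1) (B := 0)
    le_rfl (fun i _ => by
      rw [key]
      linarith [hle fun ε => phase u i ε + phase u i ε, hle fun ε => phase u i ε + phase (-u) i ε,
        sq_nonneg a])
    (fun i _ j _ hij => by
      rw [key, integral_phase_two _ _ hij, integral_phase_two _ _ hij]
      simp only [Pi.neg_apply, cos_neg, ← ha]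
      linarith) ht
  simpa using this

theorem integral_cos_Icc {R c : ℝ} (hR : 0 ≤ R) (hc : c ≠ 0) :
    ∫ x in Set.Icc (-R) R, cos (c * x) ≤ 2 / |c| := by
  rw [integral_Icc_eq_integral_Ioc, ← intervalIntegral.integral_of_le (by linarith),
    intervalIntegral.integral_comp_mul_left (fun x => cos x) hc, _root_.integral_cos]
  refine (le_abs_self _).trans ?_
  rw [smul_eq_mul, abs_mul, abs_inv, mul_comm, ← div_eq_mul_inv]
  refine div_le_div_of_nonneg_right ?_ (abs_nonneg _)
  refine (abs_sub _ _).trans ?_
  linarith [abs_sin_le_one (c * R), abs_sin_le_one (c * -R)]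

theorem leb_dev {R : ℝ} (hR : 0 ≤ R) (K : ℕ) (hK : 0 < K) (s : ℕ → ℝ) (hs : ∀ i, 0 < s i)
    (hsep : ∀ i < K, ∀ j < K, i ≠ j → (K : ℝ) ≤ |s i - s j|) {t : ℝ} (ht : 0 < t) :
    (volume.restrict (Set.Icc (-R) R)).real {x | t ^ 2 ≤ (∑ i ∈ range K, cos (s i * x)) ^ 2} ≤
      K * (2 * R + 2) / t ^ 2 := by
  have hK' : (0 : ℝ) < K := by exact_mod_cast hK
  have := second_moment (volume.restrict (Set.Icc (-R) R)) K (fun i x => cos (s i * x))
    (fun i => by fun_prop) (fun i x => (abs_cos_le_one _).trans (by norm_num)) (A := 2 * R)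
    (B := 2 / K) (by positivity) (fun i _ => by
      refine (le_abs_self _).trans ?_
      have := norm_integral_le_of_norm_le_const (μ := volume.restrict (Set.Icc (-R) R))
        (f := fun x => cos (s i * x) * cos (s i * x)) (C := 1)
        (Filter.Eventually.of_forall fun x => by
          rw [Real.norm_eq_abs, abs_mul]
          exact mul_le_one₀ (abs_cos_le_one _) (abs_nonneg _) (abs_cos_le_one _))
      rw [measureReal_restrict_apply_univ, Real.volume_real_Icc_of_le (by linarith)] at this
      rw [← Real.norm_eq_abs]; linarith)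
    (fun i hi j hj hij => by
      have e : ∀ x, cos (s i * x) * cos (s j * x) =
          (cos ((s i - s j) * x) + cos ((s i + s j) * x)) / 2 := fun x => by
        rw [sub_mul, add_mul, cos_add, cos_sub]; ring
      simp only [e]
      have h1 := hsep i hi j hj hij
      have h2 : (K : ℝ) ≤ |s i + s j| := by
        refine h1.trans ?_
        rw [abs_of_pos (add_pos (hs i) (hs j)), abs_le]
        constructor <;> linarith [hs i, hs j]
      rw [integral_div, integral_add (int_cos _ (by fun_prop)) (int_cos _ (by fun_prop))]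
      have h3 := integral_cos_Icc hR (c := s i - s j) (abs_pos.1 (hK'.trans_le h1))
      have h4 := integral_cos_Icc hR (c := s i + s j) (abs_pos.1 (hK'.trans_le h2))
      have h5 : 2 / |s i - s j| ≤ 2 / K := div_le_div_of_nonneg_left (by norm_num) hK' h1
      have h6 : 2 / |s i + s j| ≤ 2 / K := div_le_div_of_nonneg_left (by norm_num) hK' h2
      linarith) ht
  refine this.trans (le_of_eq ?_)
  congr 1
  field_simp

theorem singular_of_small {μ ν : Measure ℝ}
    (h : ∀ γ : ℝ, 0 < γ → ∃ B : Set ℝ, MeasurableSet B ∧ μ Bᶜ ≤ ENNReal.ofReal γ ∧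
      ν B ≤ ENNReal.ofReal γ) : μ.MutuallySingular ν := by
  choose B hB h1 h2 using fun k : ℕ => h ((1 / 2) ^ k) (by positivity)
  have hsum : ∑' k : ℕ, ENNReal.ofReal ((1 / 2 : ℝ) ^ k) ≠ ⊤ := by
    rw [← ENNReal.ofReal_tsum_of_nonneg (fun _ => by positivity) summable_geometric_two]
    exact ENNReal.ofReal_ne_top
  have hμ : μ (Filter.limsup (fun k => (B k)ᶜ) Filter.atTop) = 0 :=
    measure_limsup_atTop_eq_zero (ne_top_of_le_ne_top hsum (ENNReal.tsum_le_tsum h1))
  have hν : ν (Filter.limsup B Filter.atTop) = 0 :=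
    measure_limsup_atTop_eq_zero (ne_top_of_le_ne_top hsum (ENNReal.tsum_le_tsum h2))
  refine Measure.MutuallySingular.mk hμ hν fun x _ => ?_
  by_contra hc
  simp only [Set.mem_union, Filter.mem_limsup_iff_frequently_mem, not_or,
    Filter.not_frequently] at hc
  obtain ⟨k, hk1, hk2⟩ := (hc.1.and hc.2).exists
  exact hk1 hk2

end Crest.Agent.H2.Salem
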