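import Crest.Agent.H2.SalemIter
import Crest.Agent.H2.SalemProb

/-! Singularity of the Bernoulli convolution of a quartic Salem number. -/

set_option autoImplicit false
set_option linter.unusedVariables false

namespace Crest.Agent.H2.Salem

open Real Finset MeasureTheory Crest.AnalysisR

variable {β : ℝ} {α : ℂ}

theorem sps_eq (c : ℝ) (ε : ℕ → Bool) : signedPowerSum c ε = ∑' n, sg (ε n) * c ^ n := by
  unfold signedPowerSum
  congr 1; funext n
  cases ε n <;> simp [sg]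

theorem norm_term {c : ℝ} (h0 : 0 ≤ c) (b : Bool) (n : ℕ) : ‖sg b * c ^ n‖ = c ^ n := by
  rw [Real.norm_eq_abs, abs_mul, abs_sg, one_mul, abs_of_nonneg (by positivity)]

theorem sps_abs (h : Data β α) (ε : ℕ → Bool) : |signedPowerSum β⁻¹ ε| ≤ (1 - β⁻¹)⁻¹ := by
  rw [sps_eq, ← Real.norm_eq_abs]
  exact tsum_of_norm_bounded (hasSum_geometric_of_lt_one h.c0.le h.c1)
    fun n => (norm_term h.c0.le _ _).le

/-- The phases of the window. -/
noncomputable def win (β : ℝ) (s : St) (G : ℕ) (r : Fin (G + s.L + G)) : ℝ :=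
  2 * π * s.U β (s.L + G - 1 - (r : ℕ))

/-- The test frequencies. -/
noncomputable def freq (β : ℝ) (s : St) (G i : ℕ) : ℝ :=
  s.U β (i * (G + s.L + G : ℕ) + s.L + G - 1)

theorem U_mul (h : Data β α) (s : St) (N : ℤ) (n : ℕ) : s.U β N * β⁻¹ ^ n = s.U β (N - n) := by
  simp only [St.U]
  rw [zpow_sub₀ h.pos.ne', zpow_natCast, inv_pow]; ring

theorem approx (h : Data β α) {s : St} (hs : Basic β α s) (G i : ℕ) (ε : ℕ → Bool) :
    |cos (2 * π * freq β s G i * signedPowerSum β⁻¹ ε) - cos (phase (win β s G) i ε)| ≤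
      2 * π * (2 * (β⁻¹ ^ G * (1 - β⁻¹)⁻¹) + 2 * ‖s.w‖ * (i * (G + s.L + G : ℕ))) := by
  set W := G + s.L + G with hW
  set N : ℤ := i * (W : ℕ) + s.L + G - 1 with hN
  have hsum : Summable fun n => sg (ε n) * β⁻¹ ^ n :=
    Summable.of_norm_bounded (summable_geometric_of_lt_one h.c0.le h.c1)
      fun n => (norm_term h.c0.le _ _).le
  have e1 : freq β s G i * signedPowerSum β⁻¹ ε = ∑' n, sg (ε n) * s.U β (N - n) := by
    rw [sps_eq, ← tsum_mul_left]
    congr 1; funext n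
    rw [← U_mul h, freq]; ring
  have hsum2 : Summable fun n : ℕ => sg (ε n) * s.U β (N - n) := by
    refine (hsum.mul_left (s.U β N)).congr fun n => ?_
    rw [← U_mul h]; ring
  rw [mul_assoc, e1, ← hsum2.sum_add_tsum_nat_add (i * W + W), sum_range_add]
  set A := ∑ n ∈ range (i * W), sg (ε n) * (s.U β (N - n) - round (s.U β (N - n))) with hA
  set T := ∑' n, sg (ε (n + (i * W + W))) * s.U β (N - (n + (i * W + W) : ℕ)) with hT
  set Y := ∑ r ∈ range W, sg (ε (i * W + r)) * s.U β (N - (i * W + r : ℕ)) with hY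
  have e2 : ∑ n ∈ range (i * W), sg (ε n) * s.U β (N - n) =
      A + ((∑ n ∈ range (i * W), (if ε n then 1 else -1) * round (s.U β (N - n)) : ℤ) : ℝ) := by
    rw [hA]; push_cast
    rw [← sum_add_distrib]
    refine sum_congr rfl fun n _ => ?_
    cases ε n
    · simp [sg]; ring
    · simp [sg]
  have e3 : phase (win β s G) i ε = 2 * π * Y := by
    rw [hY, mul_sum, phase, ← Fin.sum_univ_eq_sum_range
      (fun r => 2 * π * (sg (ε (i * W + r)) * s.U β (N - (i * W + r : ℕ))))]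
    refine sum_congr rfl fun r _ => ?_
    have : N - (i * W + r : ℕ) = s.L + G - 1 - (r : ℕ) := by rw [hN]; push_cast; ring
    rw [this, win]; ring
  rw [e2, e3, show ∀ z : ℝ, A + z + Y + T = (Y + (A + T)) + z from fun z => by ring,
    cos_two_pi_add_int]
  refine (abs_cos_sub _ _).trans (mul_le_mul_of_nonneg_left ?_ (by positivity))
  rw [add_sub_cancel_left]
  have hA' : |A| ≤ β⁻¹ ^ G * (1 - β⁻¹)⁻¹ + 2 * ‖s.w‖ * (i * W) := by
    refine (abs_sum_le_sum_abs _ _).trans ?_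
    have : ∀ n ∈ range (i * W), |sg (ε n) * (s.U β (N - n) - round (s.U β (N - n)))| ≤
        β⁻¹ ^ G * β⁻¹ ^ (i * W - 1 - n) + 2 * ‖s.w‖ := fun n hn => by
      rw [abs_mul, abs_sg, one_mul, ← pow_add]
      rw [mem_range] at hn
      refine hs.tail h ?_
      rw [hN]; push_cast
      have : ((i * W - 1 - n : ℕ) : ℤ) = (i * W : ℕ) - 1 - n := by omega
      rw [this]; push_cast; linarith
    refine (sum_le_sum this).trans ?_
    rw [sum_add_distrib, ← mul_sum, sum_const, card_range, nsmul_eq_mul]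
    have g := geo_le h.c0.le h.c1 (range (i * W)) (fun n => i * W - 1 - n) (fun a ha b hb hab => by
      simp only [coe_range, Set.mem_Iio] at ha hb hab; omega)
    have := mul_le_mul_of_nonneg_left g (pow_pos h.c0 G).le
    push_cast; linarith
  have hT' : |T| ≤ β⁻¹ ^ G * (1 - β⁻¹)⁻¹ := by
    rw [hT, ← Real.norm_eq_abs]
    refine tsum_of_norm_bounded ((hasSum_geometric_of_lt_one h.c0.le h.c1).mul_left _) fun n => ?_
    rw [Real.norm_eq_abs, abs_mul, abs_sg, one_mul, ← pow_add]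
    refine hs.abs_U h ?_
    rw [hN, hW]; push_cast; linarith
  linarith [abs_add_le A T]

theorem win_energy (h : Data β α) {s : St} (hs : Basic β α s) (G : ℕ) :
    ∑ r ∈ range (G + s.L + G), nu (s.U β (s.L + G - 1 - (r : ℕ))) ^ 2 ≤
      s.E β + 3 * (1 - β⁻¹)⁻¹ + 8 * (‖s.w‖ ^ 2 * G) := by
  rw [sum_range_add, sum_range_add]
  have b1 : ∑ r ∈ range G, nu (s.U β (s.L + G - 1 - (r : ℕ))) ^ 2 ≤
      ∑ r ∈ range G, (2 * (β⁻¹ ^ (G - 1 - r)) ^ 2 + 8 * ‖s.w‖ ^ 2) := sum_le_sum fun r hr => by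
    rw [mem_range] at hr
    have h1 := hs.tail h (i := s.L + G - 1 - (r : ℕ)) (k := G - 1 - r) (by omega)
    have h2 := pow_le_pow_left₀ (nu_nonneg _) h1 2
    nlinarith [sq_nonneg (β⁻¹ ^ (G - 1 - r) - 2 * ‖s.w‖)]
  have b2 : ∑ r ∈ range s.L, nu (s.U β (s.L + G - 1 - (G + r : ℕ))) ^ 2 = s.E β := by
    rw [St.E, ← sum_range_reflect]
    refine sum_congr rfl fun r hr => ?_
    rw [mem_range] at hr
    congr 3; omega
  have b3 : ∑ r ∈ range G, nu (s.U β (s.L + G - 1 - (G + s.L + r : ℕ))) ^ 2 ≤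
      ∑ r ∈ range G, (β⁻¹ ^ r) ^ 2 := sum_le_sum fun r hr =>
    pow_le_pow_left₀ (nu_nonneg _) ((nu_le_abs _).trans (hs.abs_U h (by omega))) 2
  have g1 := geo_sq_le h.c0.le h.c1 (range G) (fun r => G - 1 - r) (fun a ha b hb hab => by
    simp only [coe_range, Set.mem_Iio] at ha hb hab; omega)
  have g2 := geo_sq_le h.c0.le h.c1 (range G) (fun r => r) (fun a ha b hb hab => hab)
  rw [sum_add_distrib, ← mul_sum, sum_const, card_range, nsmul_eq_mul] at b1
  linarith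

theorem win_prod (h : Data β α) {s : St} (hs : Basic β α s) (G : ℕ) {m : ℝ} (hm : 0 < m)
    (hD : ∀ i, m ≤ D (s.U β i)) (hG : ‖s.w‖ ^ 2 * G ≤ 1) :
    exp (-(20 / m * (s.E β + CE β))) ≤ |∏ r, cos (win β s G r)| := by
  rw [abs_prod]
  refine le_trans ?_ (prod_le_prod (fun _ _ => (exp_pos _).le) fun r _ => D_ge_exp hm (hD _))
  rw [← exp_sum, exp_le_exp, sum_neg_distrib, ← mul_sum, neg_le_neg_iff,
    Fin.sum_univ_eq_sum_range (fun r => nu (s.U β (s.L + G - 1 - (r : ℕ))) ^ 2)]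
  refine mul_le_mul_of_nonneg_left ((win_energy h hs G).trans ?_) (by positivity)
  have : 0 < (1 - β⁻¹)⁻¹ := inv_pos.2 (by linarith [h.c1])
  unfold CE; linarith

theorem bern (h : Data β α) (G : ℕ) : (β - 1) * G + 1 ≤ β ^ G := by
  have := one_add_mul_le_pow (a := β - 1) (by linarith [h.one_lt]) G
  rw [add_sub_cancel] at this; linarith

theorem freq_sep (h : Data β α) {s : St} (hs : Basic β α s) {G : ℕ} (hG : 0 < G) {i j : ℕ}
    (hij : i < j) : (β - 1) * G ≤ freq β s G j - freq β s G i := by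
  set W := G + s.L + G with hW
  have h1 : 1 ≤ freq β s G i := by
    refine hs.big.trans (mul_le_mul_of_nonneg_left ?_ hs.pos.le)
    rw [← zpow_natCast]
    refine zpow_le_zpow_right₀ h.one_lt.le ?_
    have : (0 : ℤ) ≤ i * (W : ℕ) := by positivity
    have h0 : (1 : ℤ) ≤ G := by exact_mod_cast hG
    rw [← hW]; linarith
  have h2 : freq β s G i * β ^ G ≤ freq β s G j := by
    simp only [freq, St.U]
    rw [mul_assoc, ← zpow_natCast, ← zpow_add₀ h.pos.ne']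
    refine mul_le_mul_of_nonneg_left (zpow_le_zpow_right₀ h.one_lt.le ?_) hs.pos.le
    have h3 : (i + 1) * W ≤ j * W := Nat.mul_le_mul_right _ hij
    have h4 : ((i + 1 : ℕ) : ℤ) * (W : ℕ) ≤ j * (W : ℕ) := by exact_mod_cast h3
    have h5 : (G : ℤ) ≤ (W : ℕ) := by omega
    rw [← hW]
    push_cast at h4 h5 ⊢; linarith
  have h3 := bern h G
  have h4 : 0 ≤ (β - 1) * G := mul_nonneg (by linarith [h.one_lt]) (by positivity)
  nlinarith

theorem par_L {x δ L : ℝ} (hx0 : 0 < x) (hδx : δ = 1 / x ^ 24) (hL0 : 0 ≤ L)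
    (hL : L ^ 3 * δ ^ 2 ≤ 2 * 10 ^ 6) : L ≤ 126 * x ^ 16 := by
  refine le_of_pow_le_pow_left₀ (n := 3) (by norm_num) (by positivity) ?_
  rw [hδx, div_pow, one_pow, mul_one_div, div_le_iff₀ (by positivity)] at hL
  calc L ^ 3 ≤ 2 * 10 ^ 6 * (x ^ 24) ^ 2 := hL
    _ = 2 * 10 ^ 6 * x ^ 48 := by ring
    _ ≤ 126 ^ 3 * x ^ 48 := mul_le_mul_of_nonneg_right (by norm_num) (by positivity)
    _ = (126 * x ^ 16) ^ 3 := by ring

theorem par_G {x δ G : ℝ} (hx2 : 2 ≤ x) (hδx : δ = 1 / x ^ 24) (hG2 : G ≤ 2 * x ^ 8) :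
    δ ^ 2 * G ≤ 1 := by
  have hx0 : 0 < x := by linarith
  rw [hδx, div_pow, one_pow, div_mul_eq_mul_div, one_mul, div_le_one (by positivity)]
  calc G ≤ 2 * x ^ 8 := hG2
    _ ≤ x * x ^ 8 := mul_le_mul_of_nonneg_right hx2 (by positivity)
    _ = x ^ 9 := by ring
    _ ≤ x ^ 48 := pow_le_pow_right₀ (by linarith) (by norm_num)
    _ = (x ^ 24) ^ 2 := by ring

theorem par_err {x δ C b cG i W : ℝ} (hx1 : 1 ≤ x) (hδx : δ = 1 / x ^ 24) (hC0 : 0 < C) (hb : 0 < b)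
    (hc0 : 0 ≤ cG) (hcG : cG ≤ 1 / (b * x ^ 4)) (hi0 : 0 ≤ i) (hi : i ≤ 2 * x ^ 4) (hW0 : 0 ≤ W)
    (hW : W ≤ 132 * x ^ 16) (h4 : 64 * (C / b + 264) ≤ x) :
    2 * π * (2 * (cG * C) + 2 * δ * (i * W)) ≤ 1 / (4 * x) := by
  have hx0 : 0 < x := by linarith
  have hδ0 : 0 < δ := by rw [hδx]; positivity
  have h1 : cG * C ≤ C / b / x ^ 4 := by
    calc cG * C ≤ 1 / (b * x ^ 4) * C := mul_le_mul_of_nonneg_right hcG hC0.le
      _ = C / b / x ^ 4 := by field_simp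
  have h2 : δ * (i * W) ≤ 264 / x ^ 4 := by
    calc δ * (i * W) ≤ δ * (2 * x ^ 4 * (132 * x ^ 16)) :=
          mul_le_mul_of_nonneg_left (mul_le_mul hi hW hW0 (by positivity)) hδ0.le
      _ = 264 / x ^ 4 := by rw [hδx]; field_simp; ring
  have h3 : (C / b + 264) / x ^ 4 ≤ 1 / (64 * x) := by
    rw [div_le_div_iff₀ (by positivity) (by positivity)]
    calc (C / b + 264) * (64 * x) = 64 * (C / b + 264) * x := by ring
      _ ≤ x * x := mul_le_mul_of_nonneg_right h4 hx0.le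
      _ = x ^ 2 := by ring
      _ ≤ x ^ 4 := pow_le_pow_right₀ hx1 (by norm_num)
      _ = 1 * x ^ 4 := by ring
  rw [add_div] at h3
  have h5 : 2 * (cG * C) + 2 * δ * (i * W) ≤ 2 * (1 / (64 * x)) := by
    rw [mul_assoc]; linarith
  calc 2 * π * (2 * (cG * C) + 2 * δ * (i * W)) ≤ 2 * 4 * (2 * (1 / (64 * x))) :=
        mul_le_mul (by linarith [pi_le_four]) h5 (by positivity) (by norm_num)
    _ = 1 / (4 * x) := by field_simp; ring

theorem par_fin {x K C γ : ℝ} (hx1 : 1 ≤ x) (hK1 : x ^ 4 ≤ K) (hC0 : 0 < C) (hγ : 0 < γ)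
    (h1 : (8 * C + 16) / γ ≤ x) :
    K / (K / (4 * x)) ^ 2 ≤ γ ∧ K * (2 * C + 2) / (K / (2 * x)) ^ 2 ≤ γ := by
  have hx0 : 0 < x := by linarith
  have hK0 : 0 < K := lt_of_lt_of_le (by positivity) hK1
  rw [div_le_iff₀ hγ] at h1
  have h2 : (8 * C + 16) * x ^ 2 ≤ γ * K :=
    calc (8 * C + 16) * x ^ 2 ≤ x * γ * x ^ 2 := mul_le_mul_of_nonneg_right h1 (by positivity)
      _ = γ * x ^ 3 := by ring
      _ ≤ γ * x ^ 4 := mul_le_mul_of_nonneg_left (pow_le_pow_right₀ hx1 (by norm_num)) hγ.le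
      _ ≤ γ * K := mul_le_mul_of_nonneg_left hK1 hγ.le
  have h3 : 0 ≤ C * x ^ 2 := by positivity
  have h4 : 0 ≤ x ^ 2 := by positivity
  constructor
  · have : K / (K / (4 * x)) ^ 2 = 16 * x ^ 2 / K := by field_simp; ring
    rw [this, div_le_iff₀ hK0]; linarith
  · have : K * (2 * C + 2) / (K / (2 * x)) ^ 2 = (8 * C + 8) * x ^ 2 / K := by field_simp; ring
    rw [this, div_le_iff₀ hK0]; linarith

theorem par_sep {x K G b : ℝ} (hx1 : 1 ≤ x) (hb : 0 < b) (hK2 : K ≤ 2 * x ^ 4) (hG1 : x ^ 8 ≤ G)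
    (h1 : 2 / b ≤ x) : K ≤ b * G := by
  rw [div_le_iff₀ hb] at h1
  have h2 : x ≤ x ^ 4 := le_self_pow₀ hx1 (by norm_num)
  calc K ≤ 2 * x ^ 4 := hK2
    _ ≤ (x ^ 4 * b) * x ^ 4 :=
      mul_le_mul_of_nonneg_right (h1.trans (mul_le_mul_of_nonneg_right h2 hb.le)) (by positivity)
    _ = b * x ^ 8 := by ring
    _ ≤ b * G := mul_le_mul_of_nonneg_left hG1 hb.le

theorem sum_large {K x a F Y : ℝ} (hK0 : 0 < K) (hx0 : 0 < x) (hax : 1 / x ≤ |a|)
    (hc : (Y - K * a) ^ 2 < (K / (4 * x)) ^ 2) (h3 : |F - Y| ≤ K / (4 * x)) :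
    (K / (2 * x)) ^ 2 ≤ F ^ 2 := by
  have h2 := abs_lt_of_sq_lt_sq hc (by positivity)
  have h4 : K / x ≤ |K * a| := by
    rw [abs_mul, abs_of_pos hK0, div_eq_mul_one_div]
    exact mul_le_mul_of_nonneg_left hax hK0.le
  have h5 : K / x = 4 * (K / (4 * x)) := by field_simp
  have h6 : K / (2 * x) = 2 * (K / (4 * x)) := by field_simp; ring
  rw [← sq_abs F]
  refine pow_le_pow_left₀ (by positivity) ?_ 2
  rw [abs_lt] at h2
  rw [abs_le] at h3
  rcases le_abs.1 h4 with h7 | h7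
  · exact le_abs.2 (Or.inl (by linarith [h2.1, h3.1]))
  · exact le_abs.2 (Or.inr (by linarith [h2.2, h3.2]))

theorem small_sets_aux (h : Data β α) {s : St} (hs : Basic β α s) {K G : ℕ} {x γ : ℝ} (hx0 : 0 < x)
    (hK0 : 0 < K) (hG0 : 0 < G) (hax : 1 / x ≤ |∏ r, cos (win β s G r)|)
    (herr : ∀ i ∈ range K, ∀ ε : ℕ → Bool,
      |cos (2 * π * freq β s G i * signedPowerSum β⁻¹ ε) - cos (phase (win β s G) i ε)| ≤
        1 / (4 * x))
    (hsepK : (K : ℝ) ≤ (β - 1) * G) (f1 : K / (K / (4 * x)) ^ 2 ≤ γ)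
    (f2 : K * (2 * (1 - β⁻¹)⁻¹ + 2) / (K / (2 * x)) ^ 2 ≤ γ) :
    ∃ B : Set ℝ, MeasurableSet B ∧
      coins.real {ε | signedPowerSum β⁻¹ ε ∉ B} ≤ γ ∧ volume B ≤ ENNReal.ofReal γ := by
  have hC0 : 0 < (1 - β⁻¹)⁻¹ := inv_pos.2 (by linarith [h.c1])
  have hK0' : (0 : ℝ) < K := by exact_mod_cast hK0
  have hmeas : MeasurableSet
      {y | (K / (2 * x)) ^ 2 ≤ (∑ i ∈ range K, cos (2 * π * freq β s G i * y)) ^ 2} :=
    measurableSet_le measurable_const (by fun_prop)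
  refine ⟨{y | (K / (2 * x)) ^ 2 ≤ (∑ i ∈ range K, cos (2 * π * freq β s G i * y)) ^ 2} ∩
    Set.Icc (-(1 - β⁻¹)⁻¹) (1 - β⁻¹)⁻¹, hmeas.inter measurableSet_Icc, ?_, ?_⟩
  · have h1 := coins_dev (win β s G) K (t := K / (4 * x)) (by positivity)
    refine le_trans (measureReal_mono fun ε hε => ?_) (h1.trans f1)
    by_contra hc
    apply hε
    refine ⟨?_, abs_le.1 (sps_abs h ε)⟩
    simp only [Set.mem_ofPred_eq, not_le] at hc ⊢
    have h3 : |∑ i ∈ range K, (cos (2 * π * freq β s G i * signedPowerSum β⁻¹ ε) -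
        cos (phase (win β s G) i ε))| ≤ K / (4 * x) := by
      refine (abs_sum_le_sum_abs _ _).trans
        ((sum_le_card_nsmul _ _ _ fun i hi => herr i hi ε).trans (le_of_eq ?_))
      rw [card_range, nsmul_eq_mul]; ring
    rw [sum_sub_distrib] at hc h3
    rw [sum_const, card_range, nsmul_eq_mul] at hc
    exact sum_large hK0' hx0 hax hc h3
  · have hsep : ∀ i j, i < j → (K : ℝ) ≤ 2 * π * freq β s G j - 2 * π * freq β s G i :=
      fun i j hij => by
        have h1 := hsepK.trans (freq_sep h hs hG0 hij)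
        rw [← mul_sub]
        exact h1.trans (le_mul_of_one_le_left (hK0'.le.trans h1) (by linarith [pi_gt_three]))
    have h1 := leb_dev hC0.le K hK0 (fun i => 2 * π * freq β s G i)
      (fun i => mul_pos (by positivity) (mul_pos hs.pos (zpow_pos h.pos _)))
      (fun i _ j _ hij => by
        rcases lt_or_gt_of_ne hij with hij | hij
        · exact le_abs.2 (Or.inr (by linarith [hsep i j hij]))
        · exact le_abs.2 (Or.inl (hsep j i hij))) (t := K / (2 * x)) (by positivity)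
    rw [← Measure.restrict_apply hmeas, ← ofReal_measureReal]
    exact ENNReal.ofReal_le_ofReal (h1.trans f2)

theorem exists_root {δ : ℝ} (hw0 : 0 < δ) :
    ∃ x, 0 < x ∧ δ * x ^ 24 = 1 ∧ exp (-(-log δ / 24)) = 1 / x := by
  refine ⟨exp (-log δ / 24), exp_pos _, ?_, by rw [exp_neg, one_div]⟩
  rw [← exp_nat_mul]
  nth_rewrite 1 [← exp_log hw0]
  rw [← exp_add, exp_eq_one_iff]; push_cast; ring

theorem small_sets (h : Data β α) (γ : ℝ) (hγ : 0 < γ) : ∃ B : Set ℝ, MeasurableSet B ∧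
    coins.real {ε | signedPowerSum β⁻¹ ε ∉ B} ≤ γ ∧ volume B ≤ ENNReal.ofReal γ := by
  obtain ⟨m, hm, hfin⟩ := exists_final h
  have hC0 : 0 < (1 - β⁻¹)⁻¹ := inv_pos.2 (by linarith [h.c1])
  have hb : 0 < β - 1 := by linarith [h.one_lt]
  obtain ⟨A, hA1, hA2, hA3, hA4⟩ : ∃ A : ℝ, 2 ≤ A ∧ 2 / (β - 1) ≤ A ∧
      64 * ((1 - β⁻¹)⁻¹ / (β - 1) + 264) ≤ A ∧ (8 * (1 - β⁻¹)⁻¹ + 16) / γ ≤ A :=
    ⟨max (max 2 _) (max _ _), le_max_of_le_left (le_max_left _ _),
      le_max_of_le_left (le_max_right _ _), le_max_of_le_right (le_max_left _ _),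
      le_max_of_le_right (le_max_right _ _)⟩
  have hA0 : 0 < A := by linarith
  obtain ⟨s, hs, hw0, hwγ, hL, hD, hE⟩ := hfin (m / 480) (1 / A ^ 24) (by positivity) (by positivity)
  obtain ⟨x, hx0, hx24, hxe⟩ := exists_root hw0
  have hAx : A ≤ x := by
    refine le_of_pow_le_pow_left₀ (n := 24) (by norm_num) hx0.le ?_
    rw [le_div_iff₀ (by positivity), ← hx24] at hwγ
    exact le_of_mul_le_mul_left hwγ hw0
  have hx2 : 2 ≤ x := hA1.trans hAx
  have hx1 : 1 ≤ x := one_le_two.trans hx2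
  have hδx : ‖s.w‖ = 1 / x ^ 24 := by rw [eq_div_iff (by positivity)]; exact hx24
  have ceil : ∀ n : ℕ, ∃ K : ℕ, x ^ n ≤ K ∧ (K : ℝ) ≤ 2 * x ^ n ∧ 0 < K := fun n => by
    have h1 := one_le_pow₀ (n := n) hx1
    refine ⟨⌈x ^ n⌉₊, Nat.le_ceil _, ?_, Nat.ceil_pos.2 (by positivity)⟩
    have := Nat.ceil_lt_add_one (show 0 ≤ x ^ n by positivity)
    linarith only [this, h1]
  obtain ⟨K, hK1, hK2, hK0⟩ := ceil 4
  obtain ⟨G, hG1, hG2, hG0⟩ := ceil 8
  have hL2 := par_L hx0 hδx (Nat.cast_nonneg _) hL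
  have hW : ((G + s.L + G : ℕ) : ℝ) ≤ 132 * x ^ 16 := by
    have h1 : x ^ 8 ≤ x ^ 16 := pow_le_pow_right₀ hx1 (by norm_num)
    have h2 := pow_pos hx0 16
    push_cast; linarith only [h1, h2, hG2, hL2]
  have hax : 1 / x ≤ |∏ r, cos (win β s G r)| := by
    refine le_trans ?_ (win_prod h hs G hm hD (par_G hx2 hδx hG2))
    rw [← hxe, exp_le_exp, neg_le_neg_iff]
    calc 20 / m * (s.E β + CE β) ≤ 20 / m * (m / 480 * -log ‖s.w‖) :=
          mul_le_mul_of_nonneg_left hE (by positivity)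
      _ = -log ‖s.w‖ / 24 := by field_simp; ring
  have hcG : β⁻¹ ^ G ≤ 1 / ((β - 1) * x ^ 4) := by
    rw [inv_pow, inv_eq_one_div]
    refine one_div_le_one_div_of_le (by positivity) ?_
    have h1 : x ^ 4 ≤ x ^ 8 := pow_le_pow_right₀ hx1 (by norm_num)
    have h2 := mul_le_mul_of_nonneg_left (h1.trans hG1) hb.le
    linarith only [h2, bern h G]
  obtain ⟨f1, f2⟩ := par_fin hx1 hK1 hC0 hγ (hA4.trans hAx)
  refine small_sets_aux h hs hx0 hK0 hG0 hax (fun i hi ε => (approx h hs G i ε).trans ?_)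
    (par_sep hx1 hb hK2 hG1 (hA2.trans hAx)) f1 f2
  exact par_err hx1 hδx hC0 hb (pow_pos h.c0 G).le hcG (Nat.cast_nonneg _)
    (le_trans (by exact_mod_cast (mem_range.1 hi).le) hK2) (Nat.cast_nonneg _) hW (hA3.trans hAx)

theorem singular (h : Data β α) :
    (bernoulliConvolution β⁻¹).MutuallySingular (volume : Measure ℝ) := by
  by_cases hm : AEMeasurable (signedPowerSum β⁻¹) coins
  · refine singular_of_small fun γ hγ => ?_
    obtain ⟨B, hB, h1, h2⟩ := small_sets h γ hγ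
    refine ⟨B, hB, ?_, h2⟩
    have : bernoulliConvolution β⁻¹ = coins.map (signedPowerSum β⁻¹) := rfl
    rw [this, Measure.map_apply_of_aemeasurable hm hB.compl, ← ofReal_measureReal]
    exact ENNReal.ofReal_le_ofReal h1
  · have : bernoulliConvolution β⁻¹ = 0 := Measure.map_of_not_aemeasurable hm
    rw [this]; exact Measure.MutuallySingular.zero_left

end Crest.Agent.H2.Salem
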