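import Crest.Agent.H2.SalemAlg

/-! Frequencies `η β ^ i` with `η = ∏ (1 - β ^ (-S k))`: energy and distance from the zeros of the cosine. -/

set_option autoImplicit false
set_option linter.unusedVariables false

namespace Crest.Agent.H2.Salem

open Real Finset

/-- Distance to the nearest integer. -/
noncomputable def nu (x : ℝ) : ℝ := |x - round x|

/-- The absolute value of `cos (2 π x)`. -/
noncomputable def D (x : ℝ) : ℝ := |cos (2 * π * x)|

theorem nu_nonneg (x : ℝ) : 0 ≤ nu x := abs_nonneg _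

theorem nu_le_abs (x : ℝ) : nu x ≤ |x| := by simpa [nu] using round_le x 0

theorem nu_le_of {x y e σ : ℝ} {n : ℤ} (hσ : σ = 1 ∨ σ = -1) (h : x = σ * y + e + n) :
    nu x ≤ nu y + |e| := by
  rcases hσ with rfl | rfl
  · refine (round_le x (round y + n)).trans ?_
    rw [h]; push_cast
    rw [show 1 * y + e + n - (round y + n) = (y - round y) + e by ring]
    exact abs_add_le _ _
  · refine (round_le x (-round y + n)).trans ?_
    rw [h]; push_cast
    rw [show -1 * y + e + n - (-round y + n) = -(y - round y) + e by ring]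
    refine (abs_add_le _ _).trans ?_
    rw [abs_neg]; rfl

theorem nu_sub_le (x y : ℝ) : nu (x - y) ≤ nu x + nu y :=
  nu_le_of (σ := 1) (y := x) (e := -(y - round y)) (n := -round y) (Or.inl rfl)
    (by push_cast; ring) |>.trans (by rw [abs_neg]; rfl)

theorem cos_two_pi_add_int (x : ℝ) (n : ℤ) : cos (2 * π * (x + n)) = cos (2 * π * x) := by
  rw [mul_add, mul_comm (2 * π) (n : ℝ), cos_add_int_mul_two_pi]

theorem abs_cos_sub (x y : ℝ) : |cos (2 * π * x) - cos (2 * π * y)| ≤ 2 * π * |x - y| := by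
  refine (abs_cos_sub_cos_le _ _).trans ?_
  rw [← mul_sub, abs_mul, abs_of_pos (by positivity : 0 < 2 * π)]

theorem D_ge_of {x y e σ : ℝ} {n : ℤ} (hσ : σ = 1 ∨ σ = -1) (h : x = σ * y + e + n) :
    D y - 2 * π * |e| ≤ D x := by
  have h1 : D x = |cos (2 * π * (σ * y + e))| := by rw [D, h, cos_two_pi_add_int]
  have h2 : D y = |cos (2 * π * (σ * y))| := by
    rcases hσ with rfl | rfl
    · rw [one_mul]; rfl
    · rw [neg_one_mul, mul_neg, cos_neg]; rfl
  have h3 := abs_cos_sub (σ * y) (σ * y + e)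
  rw [show σ * y - (σ * y + e) = -e by ring, abs_neg] at h3
  have h4 := abs_sub_abs_le_abs_sub (cos (2 * π * (σ * y))) (cos (2 * π * (σ * y + e)))
  linarith

theorem D_ge_one_sub (x : ℝ) : 1 - 2 * π * nu x ≤ D x := by
  have := D_ge_of (x := x) (y := 0) (σ := 1) (e := x - round x) (n := round x) (Or.inl rfl) (by ring)
  simpa [D, nu] using this

theorem D_ge_exp {x m : ℝ} (hm : 0 < m) (h : m ≤ D x) : exp (-(20 / m * nu x ^ 2)) ≤ D x := by
  have hD : 0 < D x := hm.trans_le h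
  have h1 : 1 - 20 * nu x ^ 2 ≤ D x := by
    have e : D x = |cos (2 * π * (x - round x))| := by
      rw [D, ← cos_two_pi_add_int (x - round x) (round x)]; simp
    have h2 := one_sub_sq_div_two_le_cos (x := 2 * π * (x - round x))
    have h3 : π ^ 2 ≤ 10 := by nlinarith [pi_lt_d2, pi_pos]
    have h4 : nu x ^ 2 = (x - round x) ^ 2 := sq_abs _
    rw [e, h4]
    refine le_trans ?_ (le_abs_self _)
    nlinarith [sq_nonneg (x - round x)]
  rw [← le_log_iff_exp_le hD]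
  refine le_trans ?_ (one_sub_inv_le_log_of_pos hD)
  have h5 : (D x)⁻¹ - 1 = (1 - D x) / D x := by field_simp
  have h6 : (1 - D x) / D x ≤ 20 * nu x ^ 2 / D x :=
    div_le_div_of_nonneg_right (by linarith) hD.le
  have h7 : 20 * nu x ^ 2 / D x ≤ 20 * nu x ^ 2 / m :=
    div_le_div_of_nonneg_left (by positivity) hm h
  have h8 : 20 * nu x ^ 2 / m = 20 / m * nu x ^ 2 := by ring
  linarith

theorem geo_le {c : ℝ} (h0 : 0 ≤ c) (h1 : c < 1) {ι : Type*} (s : Finset ι) (f : ι → ℕ)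
    (hf : Set.InjOn f s) : ∑ i ∈ s, c ^ f i ≤ (1 - c)⁻¹ := by
  classical
  rw [← Finset.sum_image (f := fun n => c ^ n) hf]
  exact sum_le_hasSum _ (fun _ _ => by positivity) (hasSum_geometric_of_lt_one h0 h1)

theorem geo_sq_le {c : ℝ} (h0 : 0 ≤ c) (h1 : c < 1) {ι : Type*} (s : Finset ι) (f : ι → ℕ)
    (hf : Set.InjOn f s) : ∑ i ∈ s, (c ^ f i) ^ 2 ≤ (1 - c)⁻¹ := by
  refine le_trans (Finset.sum_le_sum fun i _ => ?_) (geo_le h0 h1 s f hf)
  have : c ^ f i ≤ 1 := pow_le_one₀ h0 h1.le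
  have : 0 ≤ c ^ f i := by positivity
  nlinarith

/-- A state of the construction. -/
structure St where
  /-- the normalised frequency -/
  η : ℝ
  /-- its length -/
  L : ℕ
  /-- its symmetry sign -/
  σ : ℝ
  /-- its unimodular conjugate -/
  w : ℂ

/-- The frequency sequence of a state. -/
noncomputable def St.U (β : ℝ) (s : St) (i : ℤ) : ℝ := s.η * β ^ i

/-- The energy of a state. -/
noncomputable def St.E (β : ℝ) (s : St) : ℝ := ∑ i ∈ range s.L, nu (s.U β i) ^ 2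

/-- One step of the construction. -/
noncomputable def St.step (β : ℝ) (α : ℂ) (s : St) (S : ℕ) : St :=
  ⟨s.η * (1 - β⁻¹ ^ S), s.L + S, -s.σ, s.w * (1 - α⁻¹ ^ S)⟩

/-- Arithmetic invariants. -/
structure Basic (β : ℝ) (α : ℂ) (s : St) : Prop where
  pos : 0 < s.η
  le1 : s.η ≤ 1
  big : 1 ≤ s.η * β ^ s.L
  sg : s.σ = 1 ∨ s.σ = -1
  Z : ∀ i : ℤ, ∃ n : ℤ, s.U β i + s.σ * s.U β (s.L - i) + 2 * (s.w * α ^ i).re = n
  int : IsIntegral ℤ s.η

/-- The recurrence error. -/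
noncomputable def eps (α : ℂ) (q : ℕ) : ℝ := ‖α ^ q - 1‖

variable {β : ℝ} {α : ℂ}

theorem Data.pos (h : Data β α) : 0 < β := by linarith [h.one_lt]
theorem Data.c0 (h : Data β α) : 0 < β⁻¹ := inv_pos.2 h.pos
theorem Data.c1 (h : Data β α) : β⁻¹ < 1 := inv_lt_one_of_one_lt₀ h.one_lt
theorem Data.ne (h : Data β α) : α ≠ 0 := fun h0 => by simpa [h0] using h.norm

theorem Basic.abs_U (h : Data β α) {s : St} (hs : Basic β α s) {i : ℤ} {k : ℕ} (hi : i ≤ -k) :
    |s.U β i| ≤ β⁻¹ ^ k := by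
  have h1 : 0 < β ^ i := zpow_pos h.pos _
  rw [St.U, abs_of_pos (mul_pos hs.pos h1)]
  calc s.η * β ^ i ≤ 1 * β ^ i := mul_le_mul_of_nonneg_right hs.le1 h1.le
    _ = β ^ i := one_mul _
    _ ≤ β ^ (-(k : ℤ)) := zpow_le_zpow_right₀ h.one_lt.le hi
    _ = β⁻¹ ^ k := by simp

theorem abs_two_re (h : Data β α) (w : ℂ) (i : ℤ) : |2 * (w * α ^ i).re| ≤ 2 * ‖w‖ := by
  rw [abs_mul, abs_two]
  have := Complex.abs_re_le_norm (w * α ^ i)
  rw [norm_mul, norm_zpow, h.norm, one_zpow, mul_one] at this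
  linarith

theorem Basic.tail (h : Data β α) {s : St} (hs : Basic β α s) {i : ℤ} {k : ℕ} (hi : s.L + k ≤ i) :
    nu (s.U β i) ≤ β⁻¹ ^ k + 2 * ‖s.w‖ := by
  obtain ⟨n, hn⟩ := hs.Z i
  have h1 := nu_le_of (x := s.U β i) (y := s.U β (s.L - i)) (σ := -s.σ)
    (e := -(2 * (s.w * α ^ i).re)) (n := n) (by rcases hs.sg with h | h <;> simp [h])
    (by rw [← hn]; ring)
  rw [abs_neg] at h1
  have h2 := hs.abs_U h (i := s.L - i) (k := k) (by omega)
  linarith [nu_le_abs (s.U β (s.L - i)), abs_two_re h s.w i]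

theorem step_U (h : Data β α) (s : St) (S : ℕ) (i : ℤ) :
    (s.step β α S).U β i = s.U β i - s.U β (i - S) := by
  simp only [St.step, St.U]
  rw [zpow_sub₀ h.pos.ne', zpow_natCast, inv_pow]
  field_simp

theorem step_norm (h : Data β α) (s : St) (S : ℕ) :
    ‖(s.step β α S).w‖ = ‖s.w‖ * eps α S := by
  simp only [St.step, norm_mul, eps]
  congr 1
  have : 1 - α⁻¹ ^ S = α⁻¹ ^ S * (α ^ S - 1) := by
    have := pow_ne_zero S h.ne
    rw [inv_pow]; field_simp
  rw [this, norm_mul, norm_pow, norm_inv, h.norm]; simp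

theorem Basic.step (h : Data β α) {s : St} (hs : Basic β α s) {S : ℕ} (hS : 2 ≤ β ^ S) :
    Basic β α (s.step β α S) := by
  have h0 : 0 < β⁻¹ ^ S := pow_pos h.c0 _
  have h1 : β⁻¹ ^ S ≤ 1 / 2 := by
    rw [inv_pow, inv_eq_one_div]; exact one_div_le_one_div_of_le (by norm_num) hS
  refine ⟨mul_pos hs.pos (by linarith), ?_, ?_, ?_, fun i => ?_, ?_⟩
  · exact mul_le_one₀ hs.le1 (by linarith) (by linarith)
  · show 1 ≤ s.η * (1 - β⁻¹ ^ S) * β ^ (s.L + S)
    have e : s.η * (1 - β⁻¹ ^ S) * β ^ (s.L + S) = s.η * β ^ s.L * (β ^ S - 1) := by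
      have := pow_ne_zero S h.pos.ne'
      rw [pow_add, inv_pow]; field_simp
    rw [e]; nlinarith [hs.big]
  · rcases hs.sg with h | h <;> simp [St.step, h]
  · obtain ⟨n, hn⟩ := hs.Z i
    obtain ⟨n', hn'⟩ := hs.Z (i - S)
    refine ⟨n - n', ?_⟩
    rw [step_U h, step_U h]
    have e1 : ((s.step β α S).L : ℤ) - i = s.L - (i - S) := by simp [St.step]; ring
    have e2 : (s.L : ℤ) - (i - S) - S = s.L - i := by ring
    have e3 : (s.step β α S).w * α ^ i = s.w * α ^ i - s.w * α ^ (i - S) := by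
      simp only [St.step]
      rw [zpow_sub₀ h.ne, zpow_natCast, inv_pow]
      have := pow_ne_zero S h.ne
      field_simp
    rw [e1, e2, e3, Complex.sub_re]
    push_cast
    rw [← hn, ← hn']
    simp only [St.step]; ring
  · exact hs.int.mul (isIntegral_one.sub (h.int2.pow S))

theorem step_D (h : Data β α) {s : St} (hs : Basic β α s) {S G : ℕ} (hS : 2 ≤ β ^ S)
    (hG : s.L + 2 * G ≤ S) {m : ℝ} (hm : ∀ i, m ≤ D (s.U β i)) (i : ℤ) :
    m - 2 * π * (β⁻¹ ^ G + 2 * ‖(s.step β α S).w‖) ≤ D ((s.step β α S).U β i) := by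
  have low : ∀ i : ℤ, i ≤ S - G → m - 2 * π * β⁻¹ ^ G ≤ D ((s.step β α S).U β i) := fun i hi => by
    have h1 := D_ge_of (x := (s.step β α S).U β i) (y := s.U β i) (σ := 1) (e := -s.U β (i - S))
      (n := 0) (Or.inl rfl) (by rw [step_U h]; simp [sub_eq_add_neg])
    rw [abs_neg] at h1
    have h2 := hs.abs_U h (i := i - S) (k := G) (by omega)
    have h3 := mul_le_mul_of_nonneg_left h2 (by positivity : 0 ≤ 2 * π)
    linarith [hm i]
  have hw : 0 ≤ 2 * π * (2 * ‖(s.step β α S).w‖) := by positivity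
  by_cases hi : i ≤ S - G
  · linarith [low i hi]
  · have hs' := hs.step h hS
    obtain ⟨n, hn⟩ := hs'.Z i
    have h1 := D_ge_of (x := (s.step β α S).U β i) (y := (s.step β α S).U β ((s.step β α S).L - i))
      (σ := -(s.step β α S).σ) (e := -(2 * ((s.step β α S).w * α ^ i).re)) (n := n)
      (by rcases hs'.sg with h | h <;> simp [h]) (by rw [← hn]; ring)
    rw [abs_neg] at h1
    have h2 := low ((s.step β α S).L - i) (by simp only [St.step]; push_cast; omega)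
    have h3 := mul_le_mul_of_nonneg_left (abs_two_re h (s.step β α S).w i)
      (by positivity : 0 ≤ 2 * π)
    linarith

theorem step_E (h : Data β α) {s : St} (hs : Basic β α s) {S : ℕ} (hS : s.L ≤ S) :
    (s.step β α S).E β ≤ 5 / 2 * s.E β + 21 * (1 - β⁻¹)⁻¹ + 52 * (‖s.w‖ ^ 2 * S) := by
  obtain ⟨T, rfl⟩ := Nat.exists_eq_add_of_le hS
  set δ := ‖s.w‖ with hδ
  have hδ0 : 0 ≤ δ := norm_nonneg _
  set c := β⁻¹ with hc
  have e : (s.step β α (s.L + T)).L = s.L + T + s.L := by simp only [St.step]; ring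
  rw [St.E, e, sum_range_add, sum_range_add]
  have b1 : ∑ i ∈ range s.L, nu ((s.step β α (s.L + T)).U β i) ^ 2 ≤
      ∑ i ∈ range s.L, (5 / 4 * nu (s.U β i) ^ 2 + 5 * (c ^ (s.L + T - i)) ^ 2) := by
    refine sum_le_sum fun i hi => ?_
    rw [mem_range] at hi
    rw [step_U h]
    have h1 := nu_sub_le (s.U β i) (s.U β (i - (s.L + T : ℕ)))
    have h2 := (nu_le_abs _).trans (hs.abs_U h (i := i - (s.L + T : ℕ)) (k := s.L + T - i) (by omega))
    have h3 := nu_nonneg (s.U β i - s.U β (i - (s.L + T : ℕ)))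
    have h4 := pow_le_pow_left₀ h3 (h1.trans (add_le_add le_rfl h2)) 2
    nlinarith [sq_nonneg (nu (s.U β i) / 2 - 2 * c ^ (s.L + T - i))]
  have b2 : ∑ r ∈ range T, nu ((s.step β α (s.L + T)).U β ((s.L + r : ℕ) : ℤ)) ^ 2 ≤
      ∑ r ∈ range T, (3 * (c ^ r) ^ 2 + 3 * (c ^ (T - r)) ^ 2 + 12 * δ ^ 2) := by
    refine sum_le_sum fun r hr => ?_
    rw [mem_range] at hr
    rw [step_U h]
    have h1 := nu_sub_le (s.U β ((s.L + r : ℕ) : ℤ)) (s.U β (((s.L + r : ℕ) : ℤ) - (s.L + T : ℕ)))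
    have h2 := (nu_le_abs _).trans
      (hs.abs_U h (i := ((s.L + r : ℕ) : ℤ) - (s.L + T : ℕ)) (k := T - r) (by omega))
    have h2' := hs.tail h (i := ((s.L + r : ℕ) : ℤ)) (k := r) (by omega)
    have h3 := nu_nonneg (s.U β ((s.L + r : ℕ) : ℤ) - s.U β (((s.L + r : ℕ) : ℤ) - (s.L + T : ℕ)))
    have h4 := pow_le_pow_left₀ h3 (h1.trans (add_le_add h2' h2)) 2
    nlinarith [sq_nonneg (c ^ r - c ^ (T - r)), sq_nonneg (c ^ r - 2 * δ),
      sq_nonneg (c ^ (T - r) - 2 * δ)]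
  have b3 : ∑ r ∈ range s.L, nu ((s.step β α (s.L + T)).U β ((s.L + T + r : ℕ) : ℤ)) ^ 2 ≤
      ∑ r ∈ range s.L, (5 / 4 * nu (s.U β r) ^ 2 + 10 * (c ^ (T + r)) ^ 2 + 40 * δ ^ 2) := by
    refine sum_le_sum fun r hr => ?_
    rw [mem_range] at hr
    rw [step_U h]
    have e : ((s.L + T + r : ℕ) : ℤ) - (s.L + T : ℕ) = r := by omega
    rw [e]
    have h1 := nu_sub_le (s.U β ((s.L + T + r : ℕ) : ℤ)) (s.U β r)
    have h2' := hs.tail h (i := ((s.L + T + r : ℕ) : ℤ)) (k := T + r) (by omega)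
    have h3 := nu_nonneg (s.U β ((s.L + T + r : ℕ) : ℤ) - s.U β r)
    have h4 := pow_le_pow_left₀ h3 (h1.trans (add_le_add h2' le_rfl)) 2
    nlinarith [sq_nonneg (nu (s.U β r) / 2 - 2 * (c ^ (T + r) + 2 * δ)),
      sq_nonneg (c ^ (T + r) - 2 * δ)]
  have g1 := geo_sq_le h.c0.le h.c1 (range s.L) (fun i => s.L + T - i) (fun i hi j hj hij => by
    simp only [coe_range, Set.mem_Iio] at hi hj hij; omega)
  have g2 := geo_sq_le h.c0.le h.c1 (range T) (fun i => i) (fun i hi j hj hij => hij)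
  have g3 := geo_sq_le h.c0.le h.c1 (range T) (fun i => T - i) (fun i hi j hj hij => by
    simp only [coe_range, Set.mem_Iio] at hi hj hij; omega)
  have g4 := geo_sq_le h.c0.le h.c1 (range s.L) (fun i => T + i) (fun i hi j hj hij => by
    simp only at hij; omega)
  simp only [sum_add_distrib, ← mul_sum, sum_const, card_range, nsmul_eq_mul] at b1 b2 b3
  rw [← hc] at g1 g2 g3 g4
  have hE : s.E β = ∑ i ∈ range s.L, nu (s.U β i) ^ 2 := rfl
  rw [← hE] at b1 b3
  push_cast at b1 b2 b3 ⊢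
  have p1 : 0 ≤ δ ^ 2 * s.L := by positivity
  have p2 : 0 ≤ δ ^ 2 * T := by positivity
  nlinarith

theorem D_pos (h : Data β α) {s : St} (hs : Basic β α s) (i : ℤ) : 0 < D (s.U β i) := by
  rw [D, abs_pos]
  intro h0
  obtain ⟨k, hk⟩ := cos_eq_zero_iff.1 h0
  have h1 : s.U β i = ((2 * k + 1 : ℚ) / 4 : ℚ) := by
    push_cast
    have := pi_pos
    field_simp at hk ⊢
    linarith
  have h2 : IsIntegral ℤ (s.U β i) := by
    refine hs.int.mul ?_
    rcases Int.eq_nat_or_neg i with ⟨k, rfl | rfl⟩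
    · rw [zpow_natCast]; exact h.int1.pow k
    · rw [zpow_neg, zpow_natCast, ← inv_pow]; exact h.int2.pow k
  rw [h1] at h2
  have h3 : IsIntegral ℤ ((2 * k + 1 : ℚ) / 4 : ℚ) :=
    (isIntegral_algebraMap_iff (algebraMap ℚ ℝ).injective).1 h2
  obtain ⟨y, hy⟩ := IsIntegrallyClosed.isIntegral_iff.1 h3
  have h4 : (4 * y : ℚ) = 2 * k + 1 := by
    simp only [eq_intCast] at hy
    rw [hy]; ring
  have h5 : 4 * y = 2 * k + 1 := by exact_mod_cast h4
  omega

theorem exists_pow_le (h : Data β α) {γ : ℝ} (hγ : 0 < γ) : ∃ G : ℕ, β⁻¹ ^ G ≤ γ := by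
  obtain ⟨G, hG⟩ := exists_pow_lt_of_lt_one hγ h.c1
  exact ⟨G, hG.le⟩

theorem exists_D_lower (h : Data β α) {s : St} (hs : Basic β α s) (hw : ‖s.w‖ ≤ 1 / 32) :
    ∃ m, 0 < m ∧ ∀ i, m ≤ D (s.U β i) := by
  obtain ⟨G, hG⟩ := exists_pow_le h (γ := 1 / 16) (by norm_num)
  obtain ⟨j, hj, hmin⟩ := Finset.exists_min_image (Finset.Icc (-(G : ℤ)) (s.L + G))
    (fun i => D (s.U β i)) ⟨0, by simp; omega⟩
  refine ⟨min (D (s.U β j)) (1 / 8), lt_min (D_pos h hs j) (by norm_num), fun i => ?_⟩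
  by_cases hi : i ∈ Finset.Icc (-(G : ℤ)) (s.L + G)
  · exact (min_le_left _ _).trans (hmin i hi)
  · refine (min_le_right _ _).trans (le_trans ?_ (D_ge_one_sub _))
    have : nu (s.U β i) ≤ 1 / 8 := by
      rw [Finset.mem_Icc, not_and_or] at hi
      rcases hi with hi | hi
      · linarith [nu_le_abs (s.U β i), hs.abs_U h (i := i) (k := G) (by omega)]
      · linarith [hs.tail h (i := i) (k := G) (by omega)]
    nlinarith [pi_lt_d2, pi_pos, nu_nonneg (s.U β i)]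

end Crest.Agent.H2.Salem
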