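import Crest.Agent.H6.TkI

/-! Row 186: basic cochain calculus. -/

set_option autoImplicit false
set_option linter.unusedSectionVars false

noncomputable section
namespace Crest.Agent.H2.Tk
open MulOpposite Finsupp Crest.Agent.H6.Tk

section
variable {R : Type} [Ring R] {V : Type} [AddCommGroup V] [Module R V] [Module Rᵐᵒᵖ V]
  [SMulCommClass R Rᵐᵒᵖ V] {I J L : Type}

lemma ch_ext {W : Type} [AddCommGroup W] [Module R W] {Φ Ψ : (I →₀ R) →ₗ[R] W}
    (h : ∀ i, Φ (single i 1) = Ψ (single i 1)) : Φ = Ψ := by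
  refine Finsupp.lhom_ext fun i r => ?_
  have : (single i r : I →₀ R) = r • single i 1 := by simp
  rw [this, map_smul, map_smul, h]

lemma apply_eq {W : Type} [AddCommGroup W] [Module R W] (Φ : (I →₀ R) →ₗ[R] W) (x : I →₀ R) :
    Φ x = ∑ i ∈ x.support, x i • Φ (single i 1) := by
  conv_lhs => rw [← Finsupp.sum_single x]
  rw [Finsupp.sum, map_sum]
  refine Finset.sum_congr rfl fun i _ => ?_
  rw [← map_smul]; simp

lemma tens_apply (g : (I →₀ R) →ₗ[R] (J →₀ R)) (x : I →₀ V) (j : J) :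
    tens V g x j = ∑ i ∈ x.support, op (g (single i 1) j) • x i := by
  conv_lhs => rw [← Finsupp.sum_single x]
  rw [Finsupp.sum, map_sum, Finsupp.finsetSum_apply]
  simp

variable {dI : I → ℤ} {eI : I → R} {dJ : J → ℤ} {eJ : J → R} {dL : L → ℤ} {eL : L → R}

lemma isM_zero (n : ℤ) : IsM V dI eI dJ eJ n 0 := fun i j => by simp

lemma isM_add {n : ℤ} {Φ Ψ : (I →₀ R) →ₗ[R] (J →₀ V)} (h : IsM V dI eI dJ eJ n Φ)
    (h' : IsM V dI eI dJ eJ n Ψ) : IsM V dI eI dJ eJ n (Φ + Ψ) := fun i j => by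
  obtain ⟨a, b, c⟩ := h i j
  obtain ⟨a', b', c'⟩ := h' i j
  refine ⟨fun e => ?_, ?_, ?_⟩
  · simp [a e, a' e]
  · simp only [LinearMap.add_apply, Finsupp.add_apply, smul_add, b, b']
  · simp only [LinearMap.add_apply, Finsupp.add_apply, smul_add, c, c']

lemma isM_comp {m n p : ℤ} {u : (I →₀ R) →ₗ[R] (J →₀ R)} {Φ : (J →₀ R) →ₗ[R] (L →₀ V)}
    (hu : IsM R dI eI dJ eJ m u) (h : IsM V dJ eJ dL eL n Φ) (hp : p = m + n) :
    IsM V dI eI dL eL p (Φ ∘ₗ u) := fun i l => by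
  rw [LinearMap.comp_apply, apply_eq Φ, Finsupp.finsetSum_apply]
  simp only [Finsupp.smul_apply]
  refine ⟨fun e => Finset.sum_eq_zero fun j _ => ?_, ?_, ?_⟩
  · by_cases hj : dJ j = dI i + m
    · rw [(h j l).1 (by omega), smul_zero]
    · rw [(hu i j).1 hj, zero_smul]
  · rw [Finset.smul_sum]
    refine Finset.sum_congr rfl fun j _ => ?_
    rw [← mul_smul, ← smul_eq_mul, (hu i j).2.1]
  · rw [Finset.smul_sum]
    refine Finset.sum_congr rfl fun j _ => ?_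
    rw [← smul_comm, (h j l).2.2]

lemma isM_tens {m n p : ℤ} {Φ : (I →₀ R) →ₗ[R] (J →₀ V)} {v : (J →₀ R) →ₗ[R] (L →₀ R)}
    (h : IsM V dI eI dJ eJ m Φ) (hv : IsM R dJ eJ dL eL n v) (hp : p = m + n) :
    IsM V dI eI dL eL p (tens V v ∘ₗ Φ) := fun i l => by
  rw [LinearMap.comp_apply, tens_apply]
  refine ⟨fun e => Finset.sum_eq_zero fun j _ => ?_, ?_, ?_⟩
  · by_cases hj : dJ j = dI i + m
    · rw [(hv j l).1 (by omega), op_zero, zero_smul]
    · rw [(h i j).1 hj, smul_zero]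
  · rw [Finset.smul_sum]
    refine Finset.sum_congr rfl fun j _ => ?_
    rw [smul_comm, (h i j).2.1]
  · rw [Finset.smul_sum]
    refine Finset.sum_congr rfl fun j _ => ?_
    have := (hv j l).2.2
    rw [op_smul_eq_mul] at this
    rw [← mul_smul, ← op_mul, this]

variable {W : Type} [AddCommGroup W] [Module R W] [Module Rᵐᵒᵖ W] [SMulCommClass R Rᵐᵒᵖ W]

lemma isM_map {θ : V →ₗ[R] W} (hθ : ∀ (a : Rᵐᵒᵖ) x, θ (a • x) = a • θ x) {n : ℤ}
    {Φ : (I →₀ R) →ₗ[R] (J →₀ V)} (h : IsM V dI eI dJ eJ n Φ) :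
    IsM W dI eI dJ eJ n (mapRange.linearMap θ ∘ₗ Φ) := fun i j => by
  obtain ⟨a, b, c⟩ := h i j
  simp only [LinearMap.comp_apply, mapRange.linearMap_apply, mapRange_apply]
  exact ⟨fun e => by rw [a e, map_zero], by rw [← map_smul, b], by rw [← hθ, c]⟩

lemma map_tens {θ : V →ₗ[R] W} (hθ : ∀ (a : Rᵐᵒᵖ) x, θ (a • x) = a • θ x)
    (g : (I →₀ R) →ₗ[R] (J →₀ R)) :
    mapRange.linearMap θ ∘ₗ tens V g = tens W g ∘ₗ mapRange.linearMap θ := by
  refine Finsupp.lhom_ext fun i v => ?_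
  ext j
  simp [hθ]

lemma isM_lift {θ : V →ₗ[R] W} (hθ : ∀ (a : Rᵐᵒᵖ) x, θ (a • x) = a • θ x)
    (hs : Function.Surjective θ) (hI : ∀ i, eI i * eI i = eI i) (hJ : ∀ j, eJ j * eJ j = eJ j) {n : ℤ}
    {Φ : (I →₀ R) →ₗ[R] (J →₀ W)} (h : IsM W dI eI dJ eJ n Φ) :
    ∃ Ψ, IsM V dI eI dJ eJ n Ψ ∧ mapRange.linearMap θ ∘ₗ Ψ = Φ := by
  classical
  choose s hs' using hs
  let t : I → J → V := fun i j =>
    if Φ (single i 1) j = 0 then 0 else eI i • op (eJ j) • s (Φ (single i 1) j)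
  let row : I → (J →₀ V) := fun i => Finsupp.onFinset (Φ (single i 1)).support (t i) fun j hj => by
    rw [mem_support_iff]
    intro h0
    exact hj (if_pos h0)
  have e : ∀ i j, Finsupp.linearCombination R row (single i 1) j = t i j := fun i j => by
    simp [row]
  refine ⟨Finsupp.linearCombination R row, fun i j => ?_, ch_ext fun i => ?_⟩
  · rw [e]
    refine ⟨fun hd => if_pos ((h i j).1 hd), ?_, ?_⟩
    · simp only [t]; split_ifs
      · simp
      · rw [← mul_smul, hI]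
    · simp only [t]; split_ifs
      · simp
      · rw [← smul_comm, ← mul_smul (op (eJ j)), ← op_mul, hJ]
  · ext j
    simp only [LinearMap.comp_apply, mapRange.linearMap_apply, mapRange_apply, e, t]
    split_ifs with h0
    · rw [map_zero, h0]
    · rw [map_smul, hθ, hs', (h i j).2.2, (h i j).2.1]

end

section
variable {R : Type} [Ring R] {P P' P'' : Cx R} {V : Type} [AddCommGroup V] [Module R V]
  [Module Rᵐᵒᵖ V] [SMulCommClass R Rᵐᵒᵖ V]

lemma two_mod (h2 : (2 : R) = 0) {W : Type} [AddCommGroup W] [Module R W] (w : W) : w + w = 0 := by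
  rw [← two_smul R w, h2, zero_smul]

lemma ch_two (h2 : (2 : R) = 0) {I W : Type} [AddCommGroup W] [Module R W]
    (Φ : (I →₀ R) →ₗ[R] W) : Φ + Φ = 0 :=
  LinearMap.ext fun x => two_mod h2 (Φ x)

lemma δ_add (Φ Ψ : Ch P P' V) : δ P P' V (Φ + Ψ) = δ P P' V Φ + δ P P' V Ψ := by
  simp only [δ, LinearMap.add_comp, LinearMap.comp_add]; abel

lemma δ_zero : δ P P' V 0 = 0 := by simp [δ]

lemma isC_δ {n m : ℤ} {Φ : Ch P P' V} (h : IsC P P' V n Φ) (hm : m = n + 1) :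
    IsC P P' V m (δ P P' V Φ) :=
  isM_add (isM_comp P.d_isM h (by omega)) (isM_tens h P'.d_isM hm)

lemma δδ (h2 : (2 : R) = 0) (Φ : Ch P P' V) : δ P P' V (δ P P' V Φ) = 0 := by
  have e1 : (Φ ∘ₗ P.d) ∘ₗ P.d = 0 := by rw [LinearMap.comp_assoc, P.dd, LinearMap.comp_zero]
  have e2 : tens V P'.d ∘ₗ (tens V P'.d ∘ₗ Φ) = 0 := by
    rw [← LinearMap.comp_assoc, ← tens_comp, P'.dd, tens_zero, LinearMap.zero_comp]
  simp only [δ, LinearMap.add_comp, LinearMap.comp_add, e1, e2, zero_add, add_zero]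
  exact ch_two h2 _

lemma δ_comp (h2 : (2 : R) = 0) (Φ : Ch P' P'' V) (u : Ch P P' R) :
    δ P P'' V (Φ ∘ₗ u) = δ P' P'' V Φ ∘ₗ u + Φ ∘ₗ δ P P' R u := by
  simp only [δ, LinearMap.add_comp, LinearMap.comp_add, tens_self, LinearMap.comp_assoc]
  have := ch_two h2 (Φ ∘ₗ P'.d ∘ₗ u)
  rw [← add_zero (Φ ∘ₗ u ∘ₗ P.d + _), ← this]; abel

lemma δ_tens (h2 : (2 : R) = 0) (Φ : Ch P P' V) (v : Ch P' P'' R) :
    δ P P'' V (tens V v ∘ₗ Φ) = tens V v ∘ₗ δ P P' V Φ + tens V (δ P' P'' R v) ∘ₗ Φ := by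
  simp only [δ, LinearMap.add_comp, LinearMap.comp_add, tens_self, LinearMap.comp_assoc, tens_add,
    tens_comp]
  have := ch_two h2 (tens V v ∘ₗ tens V P'.d ∘ₗ Φ)
  rw [← add_zero (tens V v ∘ₗ Φ ∘ₗ P.d + _), ← this]; abel

lemma δ_map {W : Type} [AddCommGroup W] [Module R W] [Module Rᵐᵒᵖ W] [SMulCommClass R Rᵐᵒᵖ W]
    {θ : V →ₗ[R] W} (hθ : ∀ (a : Rᵐᵒᵖ) x, θ (a • x) = a • θ x) (Φ : Ch P P' V) :
    δ P P' W (mapRange.linearMap θ ∘ₗ Φ) = mapRange.linearMap θ ∘ₗ δ P P' V Φ := by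
  simp only [δ, LinearMap.comp_add, ← LinearMap.comp_assoc, map_tens hθ]

lemma one_single (P : Cx R) (i : P.I) : P.one (single i 1) = single i (P.ε i) := by
  simp [Cx.one]

lemma isC_one (P : Cx R) : IsC P P R 0 P.one := fun i j => by
  classical
  rw [one_single]
  by_cases h : i = j
  · subst h; simp [P.idem]
  · simp [single_eq_of_ne (Ne.symm h)]

lemma comp_one {n : ℤ} {Φ : Ch P P' V} (h : IsC P P' V n Φ) : Φ ∘ₗ P.one = Φ :=
  ch_ext fun i => by
    rw [LinearMap.comp_apply, one_single]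
    have : (single i (P.ε i) : P.I →₀ R) = P.ε i • single i 1 := by simp
    rw [this, map_smul]
    ext j
    exact (h i j).2.1

lemma one_comp {n : ℤ} {Φ : Ch P P' V} (h : IsC P P' V n Φ) : tens V P'.one ∘ₗ Φ = Φ :=
  ch_ext fun i => by
    classical
    ext j
    rw [LinearMap.comp_apply, tens_apply, Finset.sum_eq_single j]
    · rw [one_single, single_eq_same]; exact (h i j).2.2
    · intro b _ hb
      rw [one_single, single_eq_of_ne (Ne.symm hb), op_zero, zero_smul]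
    · intro hj
      rw [notMem_support_iff.1 hj, smul_zero]

lemma δ_one (h2 : (2 : R) = 0) (P : Cx R) : δ P P R P.one = 0 := by
  have h1 : tens R P.one ∘ₗ P.d = P.d := one_comp (P := P) (P' := P) (n := 1) P.d_isM
  have h3 : P.d ∘ₗ P.one = P.d := comp_one (P := P) (P' := P) (n := 1) P.d_isM
  rw [tens_self] at h1
  rw [δ, tens_self, h1, h3]; exact ch_two h2 _

lemma bd_add {n : ℤ} {Φ Ψ : Ch P P' V} (h : Bd P P' V n Φ) (h' : Bd P P' V n Ψ) :
    Bd P P' V n (Φ + Ψ) := by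
  obtain ⟨a, ha, rfl⟩ := h
  obtain ⟨b, hb, rfl⟩ := h'
  exact ⟨a + b, isM_add ha hb, δ_add _ _⟩

end

end Crest.Agent.H2.Tk
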