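import Crest.Agent.H2.TkBase

/-! Row 186: the diagram chase behind the gluing. -/

set_option autoImplicit false
set_option linter.unusedSectionVars false

noncomputable section
namespace Crest.Agent.H2.Tk
open MulOpposite Finsupp Crest.Agent.H6.Tk

variable {k : Type} [Field k] {E : Type} [Ring E] [Algebra k E] {P : Cx E} {c : Ch P P E → Ch P P E}
  {D F : Type} [AddCommGroup D] [Module E D] [Module Eᵐᵒᵖ D] [SMulCommClass E Eᵐᵒᵖ D]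
  [AddCommGroup F] [Module E F] [Module Eᵐᵒᵖ F] [SMulCommClass E Eᵐᵒᵖ F]

lemma isC_smul_one (a : k) : IsC P P E 0 (a • P.one) := fun i j => by
  obtain ⟨x, y, z⟩ := isC_one P i j
  simp only [LinearMap.smul_apply, Finsupp.smul_apply]
  refine ⟨fun e => by rw [x e, smul_zero], by rw [smul_comm, y], by rw [smul_comm, z]⟩

lemma δ_smul_one (h2 : (2 : E) = 0) (a : k) : δ P P E (a • P.one) = 0 := by
  have := δ_one h2 P
  rw [δ, tens_self] at this ⊢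
  rw [LinearMap.smul_comp, LinearMap.comp_smul, ← smul_add, this, smul_zero]

lemma eq_of_add (h2 : (2 : E) = 0) {I W : Type} [AddCommGroup W] [Module E W]
    {Φ Ψ : (I →₀ E) →ₗ[E] W} (h : Φ + Ψ = 0) : Φ = Ψ := by
  rw [← add_zero Φ, ← ch_two h2 Ψ, ← add_assoc, h, zero_add]

section
variable (h2 : (2 : E) = 0) (T : Tw k P c) (G : GD k P c D F) {s : Ch P P D}
  (hs : IsC P P D (-1) s) (hδ : δ P P D s = G.g1 + G.g2)
include h2 T G hs hδ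

/-- the defect of a lifted triple -/
lemma δ_triple {n : ℤ} {u v : Ch P P E} (χ : Ch P P D) (hu : Cy P P E n u) (hv : Cy P P E n v) :
    δ P P D (χ + tens D v ∘ₗ s + s ∘ₗ u) =
      δ P P D χ + (G.g1 ∘ₗ (u + v) + G.g2 ∘ₗ (u + c v)) := by
  rw [δ_add, δ_add, δ_tens h2, δ_comp h2, hu.2, hv.2, hδ, tens_zero, LinearMap.zero_comp,
    LinearMap.comp_zero, LinearMap.comp_add, ← G.c1 n v hv.1, ← G.c2 n v hv.1]
  simp only [LinearMap.comp_add, LinearMap.add_comp]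
  abel

lemma δ_g (a b : Ch P P E) : δ P P D (G.g1 ∘ₗ a + G.g2 ∘ₗ b) =
    G.g1 ∘ₗ δ P P E a + G.g2 ∘ₗ δ P P E b := by
  rw [δ_add, δ_comp h2, δ_comp h2, G.cy1.2, G.cy2.2]
  simp

lemma map_triple (u v : Ch P P E) (χ : Ch P P D) :
    mapRange.linearMap G.θ ∘ₗ (χ + tens D v ∘ₗ s + s ∘ₗ u) =
      mapRange.linearMap G.θ ∘ₗ χ + tens F v ∘ₗ (mapRange.linearMap G.θ ∘ₗ s) +
        (mapRange.linearMap G.θ ∘ₗ s) ∘ₗ u := by
  simp only [LinearMap.comp_add, ← LinearMap.comp_assoc, map_tens G.θ_op]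

lemma f_cy : Cy P P F (-1) (mapRange.linearMap G.θ ∘ₗ s) :=
  ⟨isM_map G.θ_op hs, by rw [δ_map G.θ_op, hδ, LinearMap.comp_add, G.θ1, G.θ2, add_zero]⟩

lemma smul_zero_of {a : k} (h : Bd P P D 0 (G.g2 ∘ₗ (a • P.one))) : a = 0 := by
  by_contra ha
  obtain ⟨Ξ, hΞ, e⟩ := h
  apply G.ne
  refine ⟨Ξ ∘ₗ (a⁻¹ • P.one) + s, isM_add (isM_comp (isC_smul_one a⁻¹) hΞ (by omega)) hs, ?_⟩
  have e1 : (a • P.one) ∘ₗ (a⁻¹ • P.one) = P.one := by
    rw [LinearMap.smul_comp, LinearMap.comp_smul, smul_smul, mul_inv_cancel₀ ha, one_smul,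
      comp_one (isC_one P)]
  rw [δ_add, δ_comp h2, δ_smul_one h2, e, hδ, LinearMap.comp_zero, add_zero, LinearMap.comp_assoc,
    e1, comp_one G.cy2.1, add_comm G.g1, ← add_assoc, ch_two h2, zero_add]

lemma core0 {n : ℤ} (h0 : n ≠ 0) (h1 : n ≠ -1) {χ : Ch P P F} (hχ : Cy P P F (n - 2) χ) :
    ∃ (u : Ch P P E) (ξ : Ch P P F) (v : Ch P P E), Cy P P E (n - 1) u ∧ IsC P P F (n - 3) ξ ∧
      Cy P P E (n - 1) v ∧ δ P P F ξ + tens F v ∘ₗ (mapRange.linearMap G.θ ∘ₗ s) +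
        (mapRange.linearMap G.θ ∘ₗ s) ∘ₗ u = χ := by
  obtain ⟨χ1, hχ1, e1⟩ := isM_lift G.θ_op G.θ_surj P.idem P.idem hχ.1
  obtain ⟨a, b, ha, hb, e2⟩ := G.ex (n - 1) (δ P P D χ1) (isC_δ hχ1 (by omega))
    (by rw [← δ_map G.θ_op, e1, hχ.2])
  have e3 := δδ (P := P) (P' := P) h2 χ1
  rw [e2, δ_g h2 T G hs hδ] at e3
  obtain ⟨da, db⟩ := G.uniq n _ _ (isC_δ ha (by omega)) (isC_δ hb (by omega)) e3
  obtain ⟨α, v, hα, hv, e, he, e4⟩ := T.surj (n - 1) (a + b)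
    ⟨isM_add ha hb, by rw [δ_add, da, db, add_zero]⟩
  have hu : Cy P P E (n - 1) (a + v) := ⟨isM_add ha hv.1, by rw [δ_add, da, hv.2, add_zero]⟩
  have c2 : IsC P P D (n - 2) (χ1 + tens D v ∘ₗ s + s ∘ₗ (a + v) + G.g2 ∘ₗ e) :=
    isM_add (isM_add (isM_add hχ1 (isM_tens hs hv.1 (by omega))) (isM_comp hu.1 hs (by omega)))
      (isM_comp he G.cy2.1 (by omega))
  have e5 : δ P P D (χ1 + tens D v ∘ₗ s + s ∘ₗ (a + v) + G.g2 ∘ₗ e) = G.g2 ∘ₗ (α • P.one) := by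
    rw [δ_add, δ_triple h2 T G hs hδ χ1 hu hv, e2, δ_comp h2, G.cy2.2, e4, LinearMap.zero_comp]
    simp only [LinearMap.comp_add]
    have t1 := ch_two h2 (G.g1 ∘ₗ a)
    have t2 := ch_two h2 (G.g1 ∘ₗ v)
    have t3 := ch_two h2 (G.g2 ∘ₗ a)
    have t4 := ch_two h2 (G.g2 ∘ₗ b)
    have t5 := ch_two h2 (G.g2 ∘ₗ v)
    have t6 := ch_two h2 (G.g2 ∘ₗ c v)
    linear_combination (norm := abel1) t1 + t2 + t3 + t4 + t5 + t6
  have hα0 : α = 0 := by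
    by_cases hn : n - 1 = 0
    · refine smul_zero_of h2 T G hs hδ ⟨_, ?_, e5⟩
      have : (0 : ℤ) - 1 = n - 2 := by omega
      rw [this]; exact c2
    · exact hα hn
  rw [hα0, zero_smul, LinearMap.comp_zero] at e5
  have key : ∃ Ξ, IsC P P D (n - 3) Ξ ∧ mapRange.linearMap G.θ ∘ₗ δ P P D Ξ =
      mapRange.linearMap G.θ ∘ₗ (χ1 + tens D v ∘ₗ s + s ∘ₗ (a + v) + G.g2 ∘ₗ e) := by
    by_cases hn : n - 2 = 0
    · obtain ⟨β, Ξ, hΞ, e6⟩ := G.zero _ ⟨hn ▸ c2, e5⟩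
      refine ⟨Ξ, by rwa [show n - 3 = 0 - 1 by omega], ?_⟩
      rw [e6, LinearMap.comp_add _ (G.g1 ∘ₗ _), ← LinearMap.comp_assoc _ G.g1, G.θ1,
        LinearMap.zero_comp, add_zero]
    · obtain ⟨Ξ, hΞ, e6⟩ := G.van (n - 2) hn (by omega) (by omega) _ ⟨c2, e5⟩
      exact ⟨Ξ, by rwa [show n - 3 = n - 2 - 1 by omega], by rw [e6]⟩
  obtain ⟨Ξ, hΞ, e6⟩ := key
  refine ⟨a + v, mapRange.linearMap G.θ ∘ₗ Ξ, v, hu, isM_map G.θ_op hΞ, hv, ?_⟩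
  rw [δ_map G.θ_op, e6, LinearMap.comp_add _ (G.g2 ∘ₗ _), ← LinearMap.comp_assoc _ G.g2, G.θ2,
    LinearMap.zero_comp, add_zero, map_triple h2 T G hs hδ, e1]
  have t1 := ch_two h2 (tens F v ∘ₗ (mapRange.linearMap G.θ ∘ₗ s))
  have t2 := ch_two h2 ((mapRange.linearMap G.θ ∘ₗ s) ∘ₗ (a + v))
  linear_combination (norm := abel1) t1 + t2

lemma core {n : ℤ} (h0 : n ≠ 0) (h1 : n ≠ -1) {u v : Ch P P E} {χ : Ch P P F} (hu : Cy P P E n u)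
    (hv : Cy P P E n v) (hχ : IsC P P F (n - 2) χ)
    (h : δ P P F χ + tens F v ∘ₗ (mapRange.linearMap G.θ ∘ₗ s) +
      (mapRange.linearMap G.θ ∘ₗ s) ∘ₗ u = 0) :
    ∃ (u' : Ch P P E) (ξ : Ch P P F) (v' : Ch P P E), IsC P P E (n - 1) u' ∧ IsC P P F (n - 3) ξ ∧
      IsC P P E (n - 1) v' ∧ δ P P E u' = u ∧ δ P P E v' = v ∧
      δ P P F ξ + tens F v' ∘ₗ (mapRange.linearMap G.θ ∘ₗ s) +
        (mapRange.linearMap G.θ ∘ₗ s) ∘ₗ u' = χ := by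
  have hf := f_cy h2 T G hs hδ
  set f := mapRange.linearMap G.θ ∘ₗ s with hfd
  obtain ⟨χ1, hχ1, e1⟩ := isM_lift G.θ_op G.θ_surj P.idem P.idem hχ
  obtain ⟨a, b, ha, hb, e2⟩ := G.ex (n - 1) (δ P P D χ1 + tens D v ∘ₗ s + s ∘ₗ u)
    (isM_add (isM_add (isC_δ hχ1 (by omega)) (isM_tens hs hv.1 (by omega)))
      (isM_comp hu.1 hs (by omega)))
    (by rw [map_triple h2 T G hs hδ, ← δ_map G.θ_op, e1]; exact h)
  have e3 := δ_triple h2 T G hs hδ (δ P P D χ1) hu hv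
  rw [e2, δ_g h2 T G hs hδ, δδ h2, zero_add] at e3
  have hcv := T.isC n v hv.1
  obtain ⟨e4, e5⟩ := G.uniq n (δ P P E a + (u + v)) (δ P P E b + (u + c v))
    (isM_add (isC_δ ha (by omega)) (isM_add hu.1 hv.1))
    (isM_add (isC_δ hb (by omega)) (isM_add hu.1 hcv)) (by
      rw [LinearMap.comp_add (δ P P E a), LinearMap.comp_add (δ P P E b), add_add_add_comm, e3]
      exact ch_two h2 _)
  have e4' := eq_of_add h2 e4
  have e5' := eq_of_add h2 e5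
  obtain ⟨v', hv', e6⟩ := T.inj n v h0 hv ⟨a + b, isM_add ha hb, by
    rw [δ_add, e4', e5']
    have t1 := ch_two h2 u
    linear_combination (norm := abel1) t1⟩
  have e7 : δ P P E (a + v') = u := by
    rw [δ_add, e4', e6, add_assoc, ch_two h2, add_zero]
  have hu' : IsC P P E (n - 1) (a + v') := isM_add ha hv'
  obtain ⟨u2, ξ, v2, hu2, hξ, hv2, e8⟩ := core0 h2 T G hs hδ h0 h1
    (χ := χ + tens F v' ∘ₗ f + f ∘ₗ (a + v'))
    ⟨isM_add (isM_add hχ (isM_tens hf.1 hv' (by omega))) (isM_comp hu' hf.1 (by omega)), by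
      rw [δ_add, δ_add, δ_tens h2, δ_comp h2, hf.2, e6, e7]
      simpa using h⟩
  refine ⟨a + v' + u2, ξ, v' + v2, isM_add hu' hu2.1, hξ, isM_add hv' hv2.1,
    by rw [δ_add, e7, hu2.2, add_zero], by rw [δ_add, e6, hv2.2, add_zero], ?_⟩
  rw [← hfd] at e8
  rw [tens_add, LinearMap.add_comp, LinearMap.comp_add (a + v') u2]
  have t1 := ch_two h2 (tens F v' ∘ₗ f)
  have t2 := ch_two h2 (f ∘ₗ (a + v'))
  linear_combination (norm := abel1) e8 + t1 + t2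

end

end Crest.Agent.H2.Tk
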