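import Crest.Agent.H2.TkBase

/-! Row 186: the triangular matrix algebra and block matrices. -/

set_option autoImplicit false
set_option linter.unusedSectionVars false

noncomputable section
namespace Crest.Agent.H2.Tk
open MulOpposite Finsupp Crest.Agent.H6.Tk

/-- the triangular matrix ring `[[E, F], [0, E]]` -/
def Lam (E F : Type) : Type := E × F × E

variable {E : Type} [Ring E] {F : Type} [AddCommGroup F] [Module E F] [Module Eᵐᵒᵖ F]
  [SMulCommClass E Eᵐᵒᵖ F]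

instance : AddCommGroup (Lam E F) := inferInstanceAs (AddCommGroup (E × F × E))
def Lam.mk (a : E) (m : F) (b : E) : Lam E F := (a, m, b)
instance : Mul (Lam E F) := ⟨fun x y => Lam.mk (x.1 * y.1) (x.1 • y.2.1 + op y.2.2 • x.2.1) (x.2.2 * y.2.2)⟩
instance : One (Lam E F) := ⟨Lam.mk 1 0 1⟩

@[simp] lemma mk_1 (a : E) (m : F) (b : E) : (Lam.mk a m b).1 = a := rfl
@[simp] lemma mk_2 (a : E) (m : F) (b : E) : (Lam.mk a m b).2.1 = m := rfl
@[simp] lemma mk_3 (a : E) (m : F) (b : E) : (Lam.mk a m b).2.2 = b := rfl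
@[simp] lemma mul_1 (x y : Lam E F) : (x * y).1 = x.1 * y.1 := rfl
@[simp] lemma mul_2 (x y : Lam E F) : (x * y).2.1 = x.1 • y.2.1 + op y.2.2 • x.2.1 := rfl
@[simp] lemma mul_3 (x y : Lam E F) : (x * y).2.2 = x.2.2 * y.2.2 := rfl
@[simp] lemma one_1 : (1 : Lam E F).1 = 1 := rfl
@[simp] lemma one_2 : (1 : Lam E F).2.1 = 0 := rfl
@[simp] lemma one_3 : (1 : Lam E F).2.2 = 1 := rfl
@[simp] lemma add_1 (x y : Lam E F) : (x + y).1 = x.1 + y.1 := rfl
@[simp] lemma add_2 (x y : Lam E F) : (x + y).2.1 = x.2.1 + y.2.1 := rfl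
@[simp] lemma add_3 (x y : Lam E F) : (x + y).2.2 = x.2.2 + y.2.2 := rfl
@[simp] lemma zero_1 : (0 : Lam E F).1 = 0 := rfl
@[simp] lemma zero_2 : (0 : Lam E F).2.1 = 0 := rfl
@[simp] lemma zero_3 : (0 : Lam E F).2.2 = 0 := rfl

lemma Lam.ext' {x y : Lam E F} (h1 : x.1 = y.1) (h2 : x.2.1 = y.2.1) (h3 : x.2.2 = y.2.2) : x = y :=
  Prod.ext h1 (Prod.ext h2 h3)

instance : Ring (Lam E F) :=
  { (inferInstance : AddCommGroup (Lam E F)) with
    mul := (· * ·)
    one := 1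
    mul_assoc := fun x y z => Lam.ext' (mul_assoc _ _ _)
      (by simp [mul_smul, smul_comm x.1, add_assoc]) (mul_assoc _ _ _)
    one_mul := fun x => Lam.ext' (by simp) (by simp) (by simp)
    mul_one := fun x => Lam.ext' (by simp) (by simp) (by simp)
    zero_mul := fun x => Lam.ext' (by simp) (by simp) (by simp)
    mul_zero := fun x => Lam.ext' (by simp) (by simp) (by simp)
    left_distrib := fun x y z => Lam.ext' (by simp [mul_add]) (by simp [add_smul]; abel)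
      (by simp [mul_add])
    right_distrib := fun x y z => Lam.ext' (by simp [add_mul]) (by simp [add_smul]; abel)
      (by simp [add_mul]) }

section alg
variable {k : Type} [Field k] [Algebra k E] [Module k F] [IsScalarTower k E F]
  [IsScalarTower k Eᵐᵒᵖ F]

instance : Module k (Lam E F) := inferInstanceAs (Module k (E × F × E))
@[simp] lemma smul_1 (t : k) (x : Lam E F) : (t • x).1 = t • x.1 := rfl
@[simp] lemma smul_2 (t : k) (x : Lam E F) : (t • x).2.1 = t • x.2.1 := rfl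
@[simp] lemma smul_3 (t : k) (x : Lam E F) : (t • x).2.2 = t • x.2.2 := rfl

lemma kl (t : k) (a : E) (m : F) : a • t • m = t • a • m := by
  rw [← one_smul E m, ← smul_assoc t (1 : E), ← mul_smul, ← mul_smul, ← smul_assoc]; simp
lemma kr (t : k) (a : Eᵐᵒᵖ) (m : F) : a • t • m = t • a • m := by
  rw [← one_smul Eᵐᵒᵖ m, ← smul_assoc t (1 : Eᵐᵒᵖ), ← mul_smul, ← mul_smul, ← smul_assoc]; simp

instance : Algebra k (Lam E F) := Algebra.ofModule
  (fun t x y => Lam.ext' (by simp) (by simp [kr t]) (by simp))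
  (fun t x y => Lam.ext' (by simp) (by simp [kl t]) (by simp))

instance [FiniteDimensional k E] [FiniteDimensional k F] : FiniteDimensional k (Lam E F) :=
  inferInstanceAs (FiniteDimensional k (E × F × E))

@[simp] lemma app_addNat (f g : Fin 4 → k) (j : Fin 4) : Fin.append f g (j.addNat 4) = g j := by
  rw [← Fin.natAdd_eq_addNat, Fin.append_right]

def piL (π : E →ₐ[k] (Fin 4 → k)) : Lam E F →ₐ[k] (Fin 8 → k) :=
  AlgHom.ofLinearMap
    { toFun := fun x => Fin.append (π x.1) (π x.2.2)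
      map_add' := fun x y => by
        funext i
        refine Fin.addCases (m := 4) (n := 4) (fun j => ?_) (fun j => ?_) i <;> simp
      map_smul' := fun t x => by
        funext i
        refine Fin.addCases (m := 4) (n := 4) (fun j => ?_) (fun j => ?_) i <;> simp }
    (by
      funext i
      refine Fin.addCases (m := 4) (n := 4) (fun j => ?_) (fun j => ?_) i <;> simp)
    (fun x y => by
      funext i
      refine Fin.addCases (m := 4) (n := 4) (fun j => ?_) (fun j => ?_) i <;> simp)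

lemma piL_apply (π : E →ₐ[k] (Fin 4 → k)) (x : Lam E F) :
    piL π x = Fin.append (π x.1) (π x.2.2) := rfl

lemma mem_ker_piL (π : E →ₐ[k] (Fin 4 → k)) (x : Lam E F) :
    x ∈ RingHom.ker (piL (F := F) π) ↔ x.1 ∈ RingHom.ker π ∧ x.2.2 ∈ RingHom.ker π := by
  simp only [RingHom.mem_ker, piL_apply]
  constructor
  · intro h
    constructor
    · funext j; simpa using congrFun h (Fin.castAdd 4 j)
    · funext j; simpa using congrFun h (Fin.natAdd 4 j)
  · rintro ⟨h, h'⟩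
    funext i
    refine Fin.addCases (m := 4) (n := 4) (fun j => ?_) (fun j => ?_) i <;> simp [h, h']

lemma pow_piL (π : E →ₐ[k] (Fin 4 → k)) (n : ℕ) (x : Lam E F)
    (hx : x ∈ RingHom.ker (piL (F := F) π) ^ n) :
    x.1 ∈ RingHom.ker π ^ n ∧ x.2.2 ∈ RingHom.ker π ^ n := by
  induction n generalizing x with
  | zero => rw [Submodule.pow_zero, Ideal.one_eq_top]; exact ⟨trivial, trivial⟩
  | succ n ih =>
    rw [Submodule.pow_succ] at hx ⊢
    refine Submodule.smul_induction_on (p := fun x : Lam E F =>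
      x.1 ∈ RingHom.ker π ^ n * RingHom.ker π ∧ x.2.2 ∈ RingHom.ker π ^ n * RingHom.ker π)
      hx (fun r hr s hs => ?_) (fun a b ha hb => ⟨add_mem ha.1 hb.1, add_mem ha.2 hb.2⟩)
    exact ⟨Ideal.mul_mem_mul (ih r hr).1 ((mem_ker_piL π s).1 hs).1,
      Ideal.mul_mem_mul (ih r hr).2 ((mem_ker_piL π s).1 hs).2⟩

lemma pow_inl (π : E →ₐ[k] (Fin 4 → k)) (n : ℕ) (a : E) (ha : a ∈ RingHom.ker π ^ n) :
    (Lam.mk a 0 0 : Lam E F) ∈ RingHom.ker (piL (F := F) π) ^ n := by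
  induction n generalizing a with
  | zero => rw [Submodule.pow_zero, Ideal.one_eq_top]; trivial
  | succ n ih =>
    rw [Submodule.pow_succ] at ha ⊢
    refine Submodule.smul_induction_on (p := fun a : E =>
      (Lam.mk a 0 0 : Lam E F) ∈ RingHom.ker (piL (F := F) π) ^ n * RingHom.ker (piL (F := F) π))
      ha (fun r hr s hs => ?_) (fun a b ha hb => ?_)
    · have : (Lam.mk (r • s) 0 0 : Lam E F) = Lam.mk r 0 0 * Lam.mk s 0 0 :=
        Lam.ext' (by simp) (by simp) (by simp)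
      rw [this]
      exact Ideal.mul_mem_mul (ih r hr) ((mem_ker_piL π _).2 ⟨hs, by simp⟩)
    · have : (Lam.mk (a + b) 0 0 : Lam E F) = Lam.mk a 0 0 + Lam.mk b 0 0 :=
        Lam.ext' (by simp) (by simp) (by simp)
      rw [this]
      exact add_mem ha hb

lemma four_lam (h : Four k E (Fin 4)) : Four k (Lam E F) (Fin 8) := by
  obtain ⟨π, hs, ⟨N, hN⟩, h4⟩ := h
  refine ⟨piL π, fun y => ?_, ⟨N + N, ?_⟩, fun h0 => h4 ?_⟩
  · obtain ⟨a, ha⟩ := hs fun j => y (Fin.castAdd 4 j)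
    obtain ⟨b, hb⟩ := hs fun j => y (Fin.natAdd 4 j)
    refine ⟨Lam.mk a 0 b, ?_⟩
    funext i
    refine Fin.addCases (m := 4) (n := 4) (fun j => ?_) (fun j => ?_) i <;> simp [piL_apply, ha, hb]
  · rw [Ideal.IsTwoSided.pow_add, eq_bot_iff, Ideal.mul_le]
    intro r hr s hs
    have h1 := pow_piL π N r hr
    have h2 := pow_piL π N s hs
    rw [hN, Submodule.mem_bot, Submodule.mem_bot] at h1 h2
    exact Lam.ext' (by simp [h1.1]) (by simp [h1.1, h2.2]) (by simp [h1.2])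
  · rw [eq_bot_iff]
    intro a ha
    have := pow_inl (F := F) π 4 a ha
    rw [h0, Submodule.mem_bot] at this
    exact congrArg (fun x : Lam E F => x.1) this

end alg

/-- index data: two partial copies of `I` inside `I'` -/
structure Ix (I I' : Type) where
  α1 : I → I'
  α3 : I → I'
  a1 : I' → Option I
  a3 : I' → Option I
  h1 : ∀ i' i, a1 i' = some i ↔ α1 i = i'
  h3 : ∀ i' i, a3 i' = some i ↔ α3 i = i'

variable {I I' J J' K K' : Type}

lemma Ix.a1_α1 (X : Ix I I') (i : I) : X.a1 (X.α1 i) = some i := (X.h1 _ _).2 rfl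
lemma Ix.a3_α3 (X : Ix I I') (i : I) : X.a3 (X.α3 i) = some i := (X.h3 _ _).2 rfl
lemma Ix.inj1 (X : Ix I I') : Function.Injective X.α1 := fun i j h => by
  have := X.a1_α1 i; rw [h, X.a1_α1] at this; exact (Option.some.inj this).symm
lemma Ix.inj3 (X : Ix I I') : Function.Injective X.α3 := fun i j h => by
  have := X.a3_α3 i; rw [h, X.a3_α3] at this; exact (Option.some.inj this).symm

def η1 : E →+ Lam E F := AddMonoidHom.mk' (fun a => Lam.mk a 0 0) fun _ _ =>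
  Lam.ext' (by simp) (by simp) (by simp)
def η2 : F →+ Lam E F := AddMonoidHom.mk' (fun m => Lam.mk 0 m 0) fun _ _ =>
  Lam.ext' (by simp) (by simp) (by simp)
def η3 : E →+ Lam E F := AddMonoidHom.mk' (fun a => Lam.mk 0 0 a) fun _ _ =>
  Lam.ext' (by simp) (by simp) (by simp)
@[simp] lemma η1_apply (a : E) : (η1 a : Lam E F) = Lam.mk a 0 0 := rfl
@[simp] lemma η2_apply (a : F) : (η2 a : Lam E F) = Lam.mk 0 a 0 := rfl
@[simp] lemma η3_apply (a : E) : (η3 a : Lam E F) = Lam.mk 0 0 a := rfl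

def emb {V : Type} [AddCommGroup V] (β : J → J') (η : V →+ Lam E F) : (J →₀ V) →+ (J' →₀ Lam E F) :=
  (mapDomain.addMonoidHom β).comp (mapRange.addMonoidHom η)

lemma emb_single {V : Type} [AddCommGroup V] (β : J → J') (η : V →+ Lam E F) (j : J) (v : V) :
    emb β η (single j v) = single (β j) (η v) := by simp [emb]

lemma emb_apply {V : Type} [AddCommGroup V] {β : J → J'} {a : J' → Option J}
    (h : ∀ j' j, a j' = some j ↔ β j = j') (η : V →+ Lam E F) (x : J →₀ V) (j' : J') :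
    emb β η x j' = η ((a j').elim 0 x) := by
  classical
  induction x using Finsupp.induction_linear with
  | zero => cases a j' <;> simp
  | add x y hx hy => rw [map_add, Finsupp.add_apply, hx, hy]; cases a j' <;> simp
  | single j v =>
    rw [emb_single]
    by_cases e : β j = j'
    · rw [(h j' j).2 e, e]; simp
    · rw [single_eq_of_ne (Ne.symm e)]
      cases ha : a j' with
      | none => simp
      | some i =>
        have : i ≠ j := fun e' => e ((h j' j).1 (e' ▸ ha))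
        simp [single_eq_of_ne this]

/-- rows of a matrix at an optional index -/
def rw' {V : Type} [AddCommGroup V] [Module E V] (w : (I →₀ E) →ₗ[E] (J →₀ V)) (o : Option I) :
    J →₀ V := o.elim 0 fun i => w (single i 1)

lemma rw'_comp {V : Type} [AddCommGroup V] [Module E V] {W : Type} [AddCommGroup W] [Module E W]
    (w : (I →₀ E) →ₗ[E] (J →₀ V)) (g : (J →₀ V) →ₗ[E] (K →₀ W)) (o : Option I) :
    rw' (g ∘ₗ w) o = g (rw' w o) := by cases o <;> simp [rw']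

lemma rw'_add {V : Type} [AddCommGroup V] [Module E V] (w w' : (I →₀ E) →ₗ[E] (J →₀ V))
    (o : Option I) : rw' (w + w') o = rw' w o + rw' w' o := by cases o <;> simp [rw']

/-- block matrix -/
def Blk (X : Ix I I') (Y : Ix J J') (u : (I →₀ E) →ₗ[E] (J →₀ E)) (χ : (I →₀ E) →ₗ[E] (J →₀ F))
    (v : (I →₀ E) →ₗ[E] (J →₀ E)) : (I' →₀ Lam E F) →ₗ[Lam E F] (J' →₀ Lam E F) :=
  Finsupp.linearCombination (Lam E F) fun i' =>
    emb Y.α1 η1 (rw' u (X.a1 i')) + emb Y.α3 η2 (rw' χ (X.a1 i')) + emb Y.α3 η3 (rw' v (X.a3 i'))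

variable (X : Ix I I') (Y : Ix J J') (Z : Ix K K')

lemma Blk_single (u : (I →₀ E) →ₗ[E] (J →₀ E)) (χ : (I →₀ E) →ₗ[E] (J →₀ F))
    (v : (I →₀ E) →ₗ[E] (J →₀ E)) (i' : I') : Blk X Y u χ v (single i' 1) =
    emb Y.α1 η1 (rw' u (X.a1 i')) + emb Y.α3 η2 (rw' χ (X.a1 i')) + emb Y.α3 η3 (rw' v (X.a3 i')) := by
  simp [Blk]

lemma Blk_entry (u : (I →₀ E) →ₗ[E] (J →₀ E)) (χ : (I →₀ E) →ₗ[E] (J →₀ F))
    (v : (I →₀ E) →ₗ[E] (J →₀ E)) (i' : I') (j' : J') : Blk X Y u χ v (single i' 1) j' =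
    Lam.mk ((Y.a1 j').elim 0 (rw' u (X.a1 i'))) ((Y.a3 j').elim 0 (rw' χ (X.a1 i')))
      ((Y.a3 j').elim 0 (rw' v (X.a3 i'))) := by
  rw [Blk_single, Finsupp.add_apply, Finsupp.add_apply, emb_apply Y.h1, emb_apply Y.h3,
    emb_apply Y.h3]
  exact Lam.ext' (by simp) (by simp) (by simp)

lemma Blk_add (u u' : (I →₀ E) →ₗ[E] (J →₀ E)) (χ χ' : (I →₀ E) →ₗ[E] (J →₀ F))
    (v v' : (I →₀ E) →ₗ[E] (J →₀ E)) :
    Blk X Y u χ v + Blk X Y u' χ' v' = Blk X Y (u + u') (χ + χ') (v + v') :=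
  ch_ext fun i' => by
    simp only [LinearMap.add_apply, Blk_single, rw'_add, map_add]; abel

lemma Blk_zero : Blk X Y (0 : (I →₀ E) →ₗ[E] (J →₀ E)) (0 : (I →₀ E) →ₗ[E] (J →₀ F)) 0 = 0 :=
  ch_ext fun i' => by
    rw [Blk_single]; cases X.a1 i' <;> cases X.a3 i' <;> simp [rw']

lemma Blk_inj {u u' : (I →₀ E) →ₗ[E] (J →₀ E)} {χ χ' : (I →₀ E) →ₗ[E] (J →₀ F)}
    {v v' : (I →₀ E) →ₗ[E] (J →₀ E)} (h : Blk X Y u χ v = Blk X Y u' χ' v') :
    u = u' ∧ χ = χ' ∧ v = v' := by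
  have e : ∀ i' j', Blk X Y u χ v (single i' 1) j' = Blk X Y u' χ' v' (single i' 1) j' :=
    fun _ _ => by rw [h]
  simp only [Blk_entry] at e
  refine ⟨ch_ext fun i => ?_, ch_ext fun i => ?_, ch_ext fun i => ?_⟩ <;> ext j
  · simpa [X.a1_α1, Y.a1_α1, rw'] using congrArg (fun x : Lam E F => x.1) (e (X.α1 i) (Y.α1 j))
  · simpa [X.a1_α1, Y.a3_α3, rw'] using congrArg (fun x : Lam E F => x.2.1) (e (X.α1 i) (Y.α3 j))
  · simpa [X.a3_α3, Y.a3_α3, rw'] using congrArg (fun x : Lam E F => x.2.2) (e (X.α3 i) (Y.α3 j))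

lemma Blk_sing (u : (I →₀ E) →ₗ[E] (J →₀ E)) (χ : (I →₀ E) →ₗ[E] (J →₀ F))
    (v : (I →₀ E) →ₗ[E] (J →₀ E)) (i' : I') (r : Lam E F) (j' : J') :
    Blk X Y u χ v (single i' r) j' = r * Blk X Y u χ v (single i' 1) j' := by
  have : (single i' r : I' →₀ Lam E F) = r • single i' 1 := by simp
  rw [this, map_smul]; rfl

lemma sing_smul {W : Type} [AddCommGroup W] [Module E W] (u : (I →₀ E) →ₗ[E] W) (i : I) (r : E) :
    u (single i r) = r • u (single i 1) := by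
  rw [← map_smul]; simp

lemma Blk_emb1 (u : (I →₀ E) →ₗ[E] (J →₀ E)) (χ : (I →₀ E) →ₗ[E] (J →₀ F))
    (v : (I →₀ E) →ₗ[E] (J →₀ E)) (x : I →₀ E) :
    Blk X Y u χ v (emb X.α1 η1 x) = emb Y.α1 η1 (u x) + emb Y.α3 η2 (χ x) := by
  induction x using Finsupp.induction_linear with
  | zero => simp
  | add x y hx hy => simp only [map_add, hx, hy]; abel
  | single i r =>
    ext j'
    rw [emb_single, Blk_sing, Blk_entry, Finsupp.add_apply, emb_apply Y.h1, emb_apply Y.h3, X.a1_α1,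
      sing_smul u, sing_smul χ]
    refine Lam.ext' ?_ ?_ ?_
    · cases Y.a1 j' <;> simp [rw']
    · cases Y.a3 j' <;> simp [rw']
    · simp

lemma Blk_emb2 (u : (I →₀ E) →ₗ[E] (J →₀ E)) (χ : (I →₀ E) →ₗ[E] (J →₀ F))
    (v : (I →₀ E) →ₗ[E] (J →₀ E)) (x : I →₀ F) :
    Blk X Y u χ v (emb X.α3 η2 x) = emb Y.α3 η2 (tens F v x) := by
  induction x using Finsupp.induction_linear with
  | zero => simp
  | add x y hx hy => simp only [map_add, hx, hy]
  | single i r =>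
    ext j'
    rw [emb_single, Blk_sing, Blk_entry, emb_apply Y.h3, X.a3_α3]
    refine Lam.ext' ?_ ?_ ?_
    · simp
    · cases Y.a3 j' <;> simp [rw']
    · simp

lemma Blk_emb3 (u : (I →₀ E) →ₗ[E] (J →₀ E)) (χ : (I →₀ E) →ₗ[E] (J →₀ F))
    (v : (I →₀ E) →ₗ[E] (J →₀ E)) (x : I →₀ E) :
    Blk X Y u χ v (emb X.α3 η3 x) = emb Y.α3 η3 (v x) := by
  induction x using Finsupp.induction_linear with
  | zero => simp
  | add x y hx hy => simp only [map_add, hx, hy]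
  | single i r =>
    ext j'
    rw [emb_single, Blk_sing, Blk_entry, emb_apply Y.h3, X.a3_α3, sing_smul v]
    refine Lam.ext' ?_ ?_ ?_
    · simp
    · simp
    · cases Y.a3 j' <;> simp [rw']

lemma Blk_comp (u : (I →₀ E) →ₗ[E] (J →₀ E)) (χ : (I →₀ E) →ₗ[E] (J →₀ F))
    (v : (I →₀ E) →ₗ[E] (J →₀ E)) (u' : (J →₀ E) →ₗ[E] (K →₀ E)) (χ' : (J →₀ E) →ₗ[E] (K →₀ F))
    (v' : (J →₀ E) →ₗ[E] (K →₀ E)) :
    Blk Y Z u' χ' v' ∘ₗ Blk X Y u χ v =
      Blk X Z (u' ∘ₗ u) (χ' ∘ₗ u + tens F v' ∘ₗ χ) (v' ∘ₗ v) :=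
  ch_ext fun i' => by
    simp only [LinearMap.comp_apply, Blk_single, map_add, Blk_emb1, Blk_emb2, Blk_emb3, rw'_add,
      rw'_comp]
    abel

section isM
variable {dI : I → ℤ} {eI : I → E} {dJ : J → ℤ} {eJ : J → E} {dI' : I' → ℤ} {dJ' : J' → ℤ}
  {s t : ℤ}

/-- idempotents of the glued index set -/
def Ix.ε (X : Ix I I') (eI : I → E) (i' : I') : Lam E F :=
  Lam.mk ((X.a1 i').elim 0 eI) 0 ((X.a3 i').elim 0 eI)

lemma Blk_isM (hX1 : ∀ i, dI' (X.α1 i) = dI i) (hX3 : ∀ i, dI' (X.α3 i) = dI i + s)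
    (hY1 : ∀ j, dJ' (Y.α1 j) = dJ j) (hY3 : ∀ j, dJ' (Y.α3 j) = dJ j + t) {n n2 n3 : ℤ}
    (e2 : n2 = n - t) (e3 : n3 = n + s - t)
    {u : (I →₀ E) →ₗ[E] (J →₀ E)} {χ : (I →₀ E) →ₗ[E] (J →₀ F)} {v : (I →₀ E) →ₗ[E] (J →₀ E)}
    (hu : IsM E dI eI dJ eJ n u) (hχ : IsM F dI eI dJ eJ n2 χ) (hv : IsM E dI eI dJ eJ n3 v) :
    IsM (Lam E F) dI' (X.ε eI) dJ' (Y.ε eJ) n (Blk X Y u χ v) := fun i' j' => by
  rw [Blk_entry]
  refine ⟨fun e => Lam.ext' ?_ ?_ ?_, Lam.ext' ?_ ?_ ?_, Lam.ext' ?_ ?_ ?_⟩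
  · cases hi : X.a1 i' with
    | none => cases Y.a1 j' <;> simp [rw']
    | some i => cases hj : Y.a1 j' with
      | none => simp
      | some j =>
        rw [← (X.h1 _ _).1 hi, ← (Y.h1 _ _).1 hj, hX1, hY1] at e
        simpa [rw'] using (hu i j).1 e
  · cases hi : X.a1 i' with
    | none => cases Y.a3 j' <;> simp [rw']
    | some i => cases hj : Y.a3 j' with
      | none => simp
      | some j =>
        rw [← (X.h1 _ _).1 hi, ← (Y.h3 _ _).1 hj, hX1, hY3] at e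
        simpa [rw'] using (hχ i j).1 (by omega)
  · cases hi : X.a3 i' with
    | none => cases Y.a3 j' <;> simp [rw']
    | some i => cases hj : Y.a3 j' with
      | none => simp
      | some j =>
        rw [← (X.h3 _ _).1 hi, ← (Y.h3 _ _).1 hj, hX3, hY3] at e
        simpa [rw'] using (hv i j).1 (by omega)
  · cases hi : X.a1 i' <;> cases hj : Y.a1 j' <;> simp [rw', Ix.ε, hi]
    exact (hu _ _).2.1
  · cases hi : X.a1 i' <;> cases hj : Y.a3 j' <;> simp [rw', Ix.ε, hi]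
    exact (hχ _ _).2.1
  · cases hi : X.a3 i' <;> cases hj : Y.a3 j' <;> simp [rw', Ix.ε, hi]
    exact (hv _ _).2.1
  · cases hi : X.a1 i' <;> cases hj : Y.a1 j' <;> simp [rw', Ix.ε, hj]
    exact (hu _ _).2.2
  · cases hi : X.a1 i' <;> cases hj : Y.a3 j' <;> simp [rw', Ix.ε, hj]
    exact (hχ _ _).2.2
  · cases hi : X.a3 i' <;> cases hj : Y.a3 j' <;> simp [rw', Ix.ε, hj]
    exact (hv _ _).2.2

/-- a component of a matrix over `Lam` -/
def cmp {V : Type} [AddCommGroup V] [Module E V] (α : I → I') (β : J → J')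
    (hβ : Function.Injective β) (ρ : Lam E F → V) (h0 : ρ 0 = 0)
    (Φ : (I' →₀ Lam E F) →ₗ[Lam E F] (J' →₀ Lam E F)) : (I →₀ E) →ₗ[E] (J →₀ V) :=
  Finsupp.linearCombination E fun i => mapRange ρ h0 (comapDomain β (Φ (single (α i) 1)) hβ.injOn)

lemma cmp_entry {V : Type} [AddCommGroup V] [Module E V] (α : I → I') (β : J → J')
    (hβ : Function.Injective β) (ρ : Lam E F → V) (h0 : ρ 0 = 0)
    (Φ : (I' →₀ Lam E F) →ₗ[Lam E F] (J' →₀ Lam E F)) (i : I) (j : J) :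
    cmp α β hβ ρ h0 Φ (single i 1) j = ρ (Φ (single (α i) 1) (β j)) := by simp [cmp]

lemma Blk_dec (hX1 : ∀ i, dI' (X.α1 i) = dI i) (hX3 : ∀ i, dI' (X.α3 i) = dI i + s)
    (hY1 : ∀ j, dJ' (Y.α1 j) = dJ j) (hY3 : ∀ j, dJ' (Y.α3 j) = dJ j + t) {n n2 n3 : ℤ}
    (e2 : n2 = n - t) (e3 : n3 = n + s - t) {Φ : (I' →₀ Lam E F) →ₗ[Lam E F] (J' →₀ Lam E F)}
    (h : IsM (Lam E F) dI' (X.ε eI) dJ' (Y.ε eJ) n Φ) :
    ∃ u χ v, IsM E dI eI dJ eJ n u ∧ IsM F dI eI dJ eJ n2 χ ∧ IsM E dI eI dJ eJ n3 v ∧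
      Φ = Blk X Y u χ v := by
  refine ⟨cmp X.α1 Y.α1 Y.inj1 (fun x => x.1) rfl Φ, cmp X.α1 Y.α3 Y.inj3 (fun x => x.2.1) rfl Φ,
    cmp X.α3 Y.α3 Y.inj3 (fun x => x.2.2) rfl Φ, fun i j => ?_, fun i j => ?_, fun i j => ?_,
    ch_ext fun i' => ?_⟩
  · rw [cmp_entry]
    obtain ⟨a, b, c⟩ := h (X.α1 i) (Y.α1 j)
    refine ⟨fun e => by rw [a (by rw [hX1, hY1]; exact e)]; rfl, ?_, ?_⟩
    · simpa [Ix.ε, X.a1_α1] using congrArg (fun x : Lam E F => x.1) b
    · simpa [Ix.ε, Y.a1_α1] using congrArg (fun x : Lam E F => x.1) c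
  · rw [cmp_entry]
    obtain ⟨a, b, c⟩ := h (X.α1 i) (Y.α3 j)
    refine ⟨fun e => by rw [a (by rw [hX1, hY3]; omega)]; rfl, ?_, ?_⟩
    · simpa [Ix.ε, X.a1_α1] using congrArg (fun x : Lam E F => x.2.1) b
    · simpa [Ix.ε, Y.a3_α3] using congrArg (fun x : Lam E F => x.2.1) c
  · rw [cmp_entry]
    obtain ⟨a, b, c⟩ := h (X.α3 i) (Y.α3 j)
    refine ⟨fun e => by rw [a (by rw [hX3, hY3]; omega)]; rfl, ?_, ?_⟩
    · simpa [Ix.ε, X.a3_α3] using congrArg (fun x : Lam E F => x.2.2) b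
    · simpa [Ix.ε, Y.a3_α3] using congrArg (fun x : Lam E F => x.2.2) c
  · ext j'
    obtain ⟨-, b, c⟩ := h i' j'
    have b1 := congrArg (fun x : Lam E F => x.1) b
    have b2 := congrArg (fun x : Lam E F => x.2.1) b
    have b3 := congrArg (fun x : Lam E F => x.2.2) b
    have c1 := congrArg (fun x : Lam E F => x.1) c
    have c2 := congrArg (fun x : Lam E F => x.2.1) c
    have c3 := congrArg (fun x : Lam E F => x.2.2) c
    rw [Blk_entry]
    refine Lam.ext' ?_ ?_ ?_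
    · cases hi : X.a1 i' with
      | none => cases Y.a1 j' <;> simpa [rw', Ix.ε, hi] using b1.symm
      | some i => cases hj : Y.a1 j' with
        | none => simpa [Ix.ε, hj] using c1.symm
        | some j => simp [rw', cmp_entry, (X.h1 _ _).1 hi, (Y.h1 _ _).1 hj]
    · cases hi : X.a1 i' with
      | none => cases Y.a3 j' <;> simpa [rw', Ix.ε, hi] using b2.symm
      | some i => cases hj : Y.a3 j' with
        | none => simpa [Ix.ε, hj] using c2.symm
        | some j => simp [rw', cmp_entry, (X.h1 _ _).1 hi, (Y.h3 _ _).1 hj]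
    · cases hi : X.a3 i' with
      | none => cases Y.a3 j' <;> simpa [rw', Ix.ε, hi] using b3.symm
      | some i => cases hj : Y.a3 j' with
        | none => simpa [Ix.ε, hj] using c3.symm
        | some j => simp [rw', cmp_entry, (X.h3 _ _).1 hi, (Y.h3 _ _).1 hj]

end isM

end Crest.Agent.H2.Tk
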