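import Crest.Agent.H2.TkCore
import Crest.Agent.H2.TkLam

/-! Row 186: gluing. -/

set_option autoImplicit false
set_option linter.unusedSectionVars false

noncomputable section
namespace Crest.Agent.H2.Tk
open MulOpposite Finsupp Crest.Agent.H6.Tk

variable {E : Type} [Ring E] {F : Type} [AddCommGroup F] [Module E F] [Module Eᵐᵒᵖ F]
  [SMulCommClass E Eᵐᵒᵖ F]

def XT (I : Type) : Ix I (I ⊕ I) where
  α1 := Sum.inl
  α3 := Sum.inr
  a1 := Sum.getLeft?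
  a3 := Sum.getRight?
  h1 i' i := by cases i' <;> simp [eq_comm]
  h3 i' i := by cases i' <;> simp [eq_comm]

def Xp : Ix Unit Unit where
  α1 := id
  α3 := id
  a1 := some
  a3 := some
  h1 _ _ := by simp
  h3 _ _ := by simp

lemma Xp_ε : (Xp.ε (pt E).ε : Unit → Lam E F) = (pt (Lam E F)).ε := rfl

def degT (P : Cx E) : P.I ⊕ P.I → ℤ := Sum.elim P.deg fun i => P.deg i + 2

/-- the glued complex -/
def TT (_h2 : (2 : E) = 0) (P : Cx E) (f : Ch P P F) (hf : Cy P P F (-1) f) : Cx (Lam E F) where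
  I := P.I ⊕ P.I
  deg := degT P
  fin n := by
    refine (((P.fin n).image Sum.inl).union ((P.fin (n - 2)).image Sum.inr)).subset ?_
    rintro (i | i) hi
    · exact Or.inl ⟨i, hi, rfl⟩
    · refine Or.inr ⟨i, ?_, rfl⟩
      have : P.deg i + 2 = n := hi
      show P.deg i = n - 2
      omega
  ε := (XT P.I).ε P.ε
  idem i := by
    cases i <;> exact Lam.ext' (by simp [Ix.ε, XT, P.idem]) (by simp [Ix.ε]) (by simp [Ix.ε, XT, P.idem])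
  d := Blk (XT P.I) (XT P.I) P.d f P.d
  d_isM := Blk_isM (XT P.I) (XT P.I) (s := 2) (t := 2) (fun _ => rfl) (fun _ => rfl) (fun _ => rfl)
    (fun _ => rfl) (by norm_num) (by norm_num) P.d_isM hf.1 P.d_isM
  dd := by
    rw [Blk_comp, P.dd]
    have : f ∘ₗ P.d + tens F P.d ∘ₗ f = 0 := hf.2
    rw [this, Blk_zero]

section
variable (h2 : (2 : E) = 0) (P : Cx E) (f : Ch P P F) (hf : Cy P P F (-1) f)

lemma δ_TT (u : Ch P P E) (χ : Ch P P F) (v : Ch P P E) :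
    δ (TT h2 P f hf) (TT h2 P f hf) (Lam E F) (Blk (XT P.I) (XT P.I) u χ v) =
      Blk (XT P.I) (XT P.I) (δ P P E u) (δ P P F χ + tens F v ∘ₗ f + f ∘ₗ u) (δ P P E v) := by
  rw [δ, tens_self]
  show Blk _ _ u χ v ∘ₗ Blk _ _ P.d f P.d + Blk _ _ P.d f P.d ∘ₗ Blk _ _ u χ v = _
  rw [Blk_comp, Blk_comp, Blk_add]
  simp only [δ, tens_self]
  congr 1; abel

lemma δ_ptl {R : Type} [Ring R] (Q : Cx R) (V : Type) [AddCommGroup V] [Module R V] [Module Rᵐᵒᵖ V]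
    [SMulCommClass R Rᵐᵒᵖ V] (Φ : Ch (pt R) Q V) : δ (pt R) Q V Φ = tens V Q.d ∘ₗ Φ := by
  have : Φ ∘ₗ (pt R).d = 0 := LinearMap.comp_zero _
  rw [δ, this, zero_add]

lemma δ_ptr {R : Type} [Ring R] (Q : Cx R) (V : Type) [AddCommGroup V] [Module R V] [Module Rᵐᵒᵖ V]
    [SMulCommClass R Rᵐᵒᵖ V] (Φ : Ch Q (pt R) V) : δ Q (pt R) V Φ = Φ ∘ₗ Q.d := by
  have : tens V (pt R).d = 0 := tens_zero V
  rw [δ, this, LinearMap.zero_comp, add_zero]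

lemma δ_row (u : Ch (pt E) P E) (χ : Ch (pt E) P F) (v : Ch (pt E) P E) :
    δ (pt (Lam E F)) (TT h2 P f hf) (Lam E F) (Blk Xp (XT P.I) u χ v) =
      Blk Xp (XT P.I) (δ (pt E) P E u) (δ (pt E) P F χ + f ∘ₗ u) (δ (pt E) P E v) := by
  refine (δ_ptl (TT h2 P f hf) (Lam E F) _).trans ?_
  rw [tens_self, δ_ptl, δ_ptl, δ_ptl, tens_self, add_comm]
  exact Blk_comp Xp (XT P.I) (XT P.I) u χ v P.d f P.d

lemma δ_col (u : Ch P (pt E) E) (χ : Ch P (pt E) F) (v : Ch P (pt E) E) :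
    δ (TT h2 P f hf) (pt (Lam E F)) (Lam E F) (Blk (XT P.I) Xp u χ v) =
      Blk (XT P.I) Xp (δ P (pt E) E u) (δ P (pt E) F χ + tens F v ∘ₗ f) (δ P (pt E) E v) := by
  refine (δ_ptr (TT h2 P f hf) (Lam E F) _).trans ?_
  rw [δ_ptr, δ_ptr, δ_ptr]
  exact Blk_comp (XT P.I) (XT P.I) Xp P.d f P.d u χ v

lemma row_TT (hE : Row P E) (hF : Row P F) : Row (TT h2 P f hf) (Lam E F) := by
  rintro n Φ ⟨hΦ, h0⟩
  obtain ⟨u, χ, v, hu, hχ, hv, rfl⟩ := Blk_dec Xp (XT P.I) (dI := (pt E).deg) (eI := (pt E).ε)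
    (dJ := P.deg) (eJ := P.ε) (s := 0) (t := 2) (fun _ => rfl) (fun _ => rfl) (fun _ => rfl)
    (fun _ => rfl) rfl rfl hΦ
  change Ch (pt E) P E at u v
  change Ch (pt E) P F at χ
  obtain ⟨e1, e2, e3⟩ := Blk_inj _ _
    (((δ_row h2 P f hf u χ v).symm.trans h0).trans (Blk_zero Xp (XT P.I)).symm)
  obtain ⟨u', hu', e4⟩ := hE n u ⟨hu, e1⟩
  obtain ⟨v', hv', e5⟩ := hE _ v ⟨hv, e3⟩
  obtain ⟨ξ, hξ, e6⟩ := hF (n - 2) (χ + f ∘ₗ u') ⟨isM_add hχ (isM_comp hu' hf.1 (by omega)), by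
    rw [δ_add, δ_comp h2, hf.2, e4, LinearMap.zero_comp, zero_add]; exact e2⟩
  refine ⟨Blk Xp (XT P.I) u' ξ v', Blk_isM Xp (XT P.I) (dI := (pt E).deg) (eI := (pt E).ε)
    (s := 0) (t := 2) (fun _ => rfl) (fun _ => rfl) (fun _ => rfl) (fun _ => rfl) (by omega)
    (by omega) hu' hξ hv', ?_⟩
  refine (δ_row h2 P f hf u' ξ v').trans ?_
  rw [e4, e5, e6, add_assoc, ch_two h2, add_zero]

lemma col_TT (hE : Col P E) (hF : Col P F) : Col (TT h2 P f hf) (Lam E F) := by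
  rintro n Φ ⟨hΦ, h0⟩
  obtain ⟨u, χ, v, hu, hχ, hv, rfl⟩ := Blk_dec (XT P.I) Xp (dJ := (pt E).deg) (eJ := (pt E).ε)
    (dI := P.deg) (eI := P.ε) (s := 2) (t := 0) (fun _ => rfl) (fun _ => rfl) (fun _ => rfl)
    (fun _ => rfl) rfl rfl hΦ
  change Ch P (pt E) E at u v
  change Ch P (pt E) F at χ
  obtain ⟨e1, e2, e3⟩ := Blk_inj _ _
    (((δ_col h2 P f hf u χ v).symm.trans h0).trans (Blk_zero (XT P.I) Xp).symm)
  obtain ⟨u', hu', e4⟩ := hE n u ⟨hu, e1⟩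
  obtain ⟨v', hv', e5⟩ := hE _ v ⟨hv, e3⟩
  obtain ⟨ξ, hξ, e6⟩ := hF (n - 0) (χ + tens F v' ∘ₗ f)
    ⟨isM_add hχ (isM_tens hf.1 hv' (by omega)), by
      rw [δ_add, δ_tens h2, hf.2, e5, LinearMap.comp_zero, zero_add]; exact e2⟩
  refine ⟨Blk (XT P.I) Xp u' ξ v', Blk_isM (XT P.I) Xp (dJ := (pt E).deg) (eJ := (pt E).ε)
    (s := 2) (t := 0) (fun _ => rfl) (fun _ => rfl) (fun _ => rfl) (fun _ => rfl) (by omega)
    (by omega) hu' hξ hv', ?_⟩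
  refine (δ_col h2 P f hf u' ξ v').trans ?_
  rw [e4, e5, e6, add_assoc, ch_two h2, add_zero]

lemma one_TT : (TT h2 P f hf).one = Blk (XT P.I) (XT P.I) P.one 0 P.one :=
  ch_ext fun i' => by
    rw [one_single]
    erw [Blk_single]
    cases i' with
    | inl i => simp [XT, rw', one_single, emb_single, TT, Ix.ε]
    | inr i => simp [XT, rw', one_single, emb_single, TT, Ix.ε]

end

theorem glueStmt : GlueStmt := by
  intro k _ _ E _ _ _ P c D F _ _ _ _ _ _ _ _ _ _ _ _ h4 hR hC T G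
  have h2 : (2 : E) = 0 := by
    have : (2 : k) = 0 := CharP.cast_eq_zero k 2
    rw [← map_ofNat (algebraMap k E) 2, this, map_zero]
  obtain ⟨s, hs, hδ⟩ := G.hom
  have hf := f_cy h2 T G hs hδ
  refine ⟨Lam E F, inferInstance, inferInstance, TT h2 P _ hf, inferInstance, four_lam h4,
    row_TT h2 P _ hf hR G.row, col_TT h2 P _ hf hC G.col, ?_, ?_⟩
  · rintro n h0 h1 Φ ⟨hΦ, hδΦ⟩
    obtain ⟨u, χ, v, hu, hχ, hv, rfl⟩ := Blk_dec (XT P.I) (XT P.I) (dI := P.deg) (eI := P.ε)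
      (dJ := P.deg) (eJ := P.ε) (s := 2) (t := 2) (n3 := n) (fun _ => rfl) (fun _ => rfl)
      (fun _ => rfl) (fun _ => rfl) rfl (by omega) hΦ
    obtain ⟨e1, e2, e3⟩ := Blk_inj _ _
      (((δ_TT h2 P _ hf u χ v).symm.trans hδΦ).trans (Blk_zero (XT P.I) (XT P.I)).symm)
    obtain ⟨u', ξ, v', hu', hξ, hv', e4, e5, e6⟩ := core h2 T G hs hδ h0 h1 ⟨hu, e1⟩ ⟨hv, e3⟩ hχ e2
    refine ⟨Blk (XT P.I) (XT P.I) u' ξ v', Blk_isM (XT P.I) (XT P.I) (s := 2) (t := 2)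
      (fun _ => rfl) (fun _ => rfl) (fun _ => rfl) (fun _ => rfl) (by omega) (by omega) hu' hξ hv', ?_⟩
    refine (δ_TT h2 P _ hf u' ξ v').trans ?_
    rw [e4, e5, e6]
  · rintro ⟨Φ, hΦ, e⟩
    obtain ⟨u, χ, v, hu, -, -, rfl⟩ := Blk_dec (XT P.I) (XT P.I) (dI := P.deg) (eI := P.ε)
      (dJ := P.deg) (eJ := P.ε) (s := 2) (t := 2) (fun _ => rfl) (fun _ => rfl)
      (fun _ => rfl) (fun _ => rfl) rfl rfl hΦ
    obtain ⟨e1, -, -⟩ := Blk_inj _ _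
      (((δ_TT h2 P _ hf u χ v).symm.trans e).trans (one_TT h2 P _ hf))
    refine G.ne ⟨G.g1 ∘ₗ u, isM_comp hu G.cy1.1 (by omega), ?_⟩
    rw [δ_comp h2, G.cy1.2, e1, LinearMap.zero_comp, zero_add, comp_one G.cy1.1]

end Crest.Agent.H2.Tk
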